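import Crest.Agent.R299.Connect

/-!
# R299 (S0453): adjacency API, complements to `Connect.lean`
(`adj`, `adj_comm`, `adj_iff`, `gr_ext`, `nb`, `deg_eq_card_nb` live in `Connect.lean`.)
-/

set_option autoImplicit false
open Finset
open Crest.SwitchChain

namespace Crest.Agent.R299

variable {n : ℕ}

theorem not_adj_self (G : Gr n) (a : Fin n) : ¬ adj G a a := fun h => h.1 rfl

/-- the graph of a relation (an edge `{a,b}` is present iff `r a b ∨ r b a`) -/
def ofAdj (r : Fin n → Fin n → Prop) [DecidableRel r] : Gr n :=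
  univ.filter fun e => ∃ a b, a ∈ e.1 ∧ b ∈ e.1 ∧ a ≠ b ∧ r a b

theorem adj_ofAdj (r : Fin n → Fin n → Prop) [DecidableRel r] (hs : ∀ a b, r a b → r b a)
    (a b : Fin n) : adj (ofAdj r) a b ↔ a ≠ b ∧ r a b := by
  constructor
  · rintro ⟨h, hm⟩
    refine ⟨h, ?_⟩
    simp only [ofAdj, Finset.mem_filter, Finset.mem_univ, true_and, mem_mkE] at hm
    obtain ⟨x, y, hx, hy, hxy, hr⟩ := hm
    rcases hx with rfl | rfl <;> rcases hy with rfl | rfl
    · exact absurd rfl hxy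
    · exact hr
    · exact hs _ _ hr
    · exact absurd rfl hxy
  · rintro ⟨h, hr⟩
    refine ⟨h, ?_⟩
    simp only [ofAdj, Finset.mem_filter, Finset.mem_univ, true_and, mem_mkE]
    exact ⟨a, b, Or.inl rfl, Or.inr rfl, h, hr⟩

/-- the slots (potential edges) touching the vertex set `U` -/
def tch (U : Finset (Fin n)) : Gr n := univ.filter fun e => ∃ v ∈ U, v ∈ e.1

theorem mkE_mem_tch (U : Finset (Fin n)) (a b : Fin n) (h : a ≠ b) :
    mkE a b h ∈ tch U ↔ a ∈ U ∨ b ∈ U := by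
  simp only [tch, Finset.mem_filter, Finset.mem_univ, true_and, mem_mkE]
  constructor
  · rintro ⟨v, hv, rfl | rfl⟩
    · exact Or.inl hv
    · exact Or.inr hv
  · rintro (h | h)
    · exact ⟨a, h, Or.inl rfl⟩
    · exact ⟨b, h, Or.inr rfl⟩

theorem tch_mono {U V : Finset (Fin n)} (h : U ⊆ V) : tch U ⊆ tch V := by
  intro e he
  simp only [tch, Finset.mem_filter, Finset.mem_univ, true_and] at he ⊢
  obtain ⟨v, hv, hve⟩ := he
  exact ⟨v, h hv, hve⟩

theorem adj_sdiff_tch (G : Gr n) (U : Finset (Fin n)) (a b : Fin n) :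
    adj (G \ tch U) a b ↔ adj G a b ∧ a ∉ U ∧ b ∉ U := by
  constructor
  · rintro ⟨h, hm⟩
    rw [Finset.mem_sdiff, mkE_mem_tch, not_or] at hm
    exact ⟨⟨h, hm.1⟩, hm.2⟩
  · rintro ⟨⟨h, hm⟩, ha, hb⟩
    refine ⟨h, ?_⟩
    rw [Finset.mem_sdiff, mkE_mem_tch, not_or]
    exact ⟨hm, ha, hb⟩

/-- two graphs agree off the slots touching `U` iff they have the same adjacency outside `U` -/
theorem sdiff_tch_eq_iff (G H : Gr n) (U : Finset (Fin n)) :
    G \ tch U = H \ tch U ↔ ∀ a b, a ∉ U → b ∉ U → (adj G a b ↔ adj H a b) := by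
  constructor
  · intro h a b ha hb
    have h1 := adj_sdiff_tch G U a b
    have h2 := adj_sdiff_tch H U a b
    rw [h] at h1
    constructor
    · intro hG
      exact (h2.1 (h1.2 ⟨hG, ha, hb⟩)).1
    · intro hH
      exact (h1.1 (h2.2 ⟨hH, ha, hb⟩)).1
  · intro h
    apply gr_ext
    intro a b
    rw [adj_sdiff_tch, adj_sdiff_tch]
    constructor
    · rintro ⟨h1, ha, hb⟩; exact ⟨(h a b ha hb).1 h1, ha, hb⟩
    · rintro ⟨h1, ha, hb⟩; exact ⟨(h a b ha hb).2 h1, ha, hb⟩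

end Crest.Agent.R299
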