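import Mathlib

/-!
# R299 (S0453): abstract averaging operators (conditional expectations on a finite set)

`Ω : Finset α`, `k : α → κ` a "key" (the information we condition on).
`cls Ω k a` is the class of `a`, `Av Ω k f a` the average of `f` over the class of `a`,
`ip Ω f g = ∑_{a ∈ Ω} f a * g a` the counting inner product.
-/

set_option autoImplicit false
set_option linter.unusedSectionVars false
open Finset

namespace Crest.Agent.R299

variable {α κ κ' : Type*} [DecidableEq κ] [DecidableEq κ']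

/-- the class of `a`: all `b ∈ Ω` with the same key. -/
def cls (Ω : Finset α) (k : α → κ) (a : α) : Finset α := Ω.filter fun b => k b = k a

/-- averaging over the classes of the key `k`. -/
noncomputable def Av (Ω : Finset α) (k : α → κ) (f : α → ℝ) (a : α) : ℝ :=
  (∑ b ∈ cls Ω k a, f b) / ((cls Ω k a).card : ℝ)

/-- counting inner product on `Ω`. -/
def ip (Ω : Finset α) (f g : α → ℝ) : ℝ := ∑ a ∈ Ω, f a * g a

section basic
variable (Ω : Finset α) (k : α → κ)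

theorem mem_cls {a b : α} : b ∈ cls Ω k a ↔ b ∈ Ω ∧ k b = k a := by
  simp [cls]

theorem self_mem_cls {a : α} (ha : a ∈ Ω) : a ∈ cls Ω k a := by
  simp [cls, ha]

theorem cls_subset (a : α) : cls Ω k a ⊆ Ω := filter_subset _ _

theorem cls_congr {a b : α} (h : k b = k a) : cls Ω k b = cls Ω k a := by
  simp [cls, h]

theorem cls_eq_of_mem {a b : α} (h : b ∈ cls Ω k a) : cls Ω k b = cls Ω k a :=
  cls_congr Ω k ((mem_cls Ω k).1 h).2

theorem card_cls_pos {a : α} (ha : a ∈ Ω) : 0 < ((cls Ω k a).card : ℝ) := by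
  have : 0 < (cls Ω k a).card := card_pos.2 ⟨a, self_mem_cls Ω k ha⟩
  exact_mod_cast this

theorem Av_congr_key (f : α → ℝ) {a b : α} (h : k b = k a) : Av Ω k f b = Av Ω k f a := by
  simp [Av, cls_congr Ω k h]

theorem Av_eq_of_mem (f : α → ℝ) {a b : α} (h : b ∈ cls Ω k a) : Av Ω k f b = Av Ω k f a :=
  Av_congr_key Ω k f ((mem_cls Ω k).1 h).2

/-- `Av` only depends on the values of `f` on `Ω`. -/
theorem Av_congr {f g : α → ℝ} (h : ∀ a ∈ Ω, f a = g a) (a : α) : Av Ω k f a = Av Ω k g a := by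
  unfold Av
  congr 1
  exact sum_congr rfl fun b hb => h b (cls_subset Ω k a hb)

theorem Av_add (f g : α → ℝ) (a : α) :
    Av Ω k (fun x => f x + g x) a = Av Ω k f a + Av Ω k g a := by
  simp [Av, sum_add_distrib, add_div]

theorem Av_sub (f g : α → ℝ) (a : α) :
    Av Ω k (fun x => f x - g x) a = Av Ω k f a - Av Ω k g a := by
  simp [Av, sum_sub_distrib, sub_div]

theorem Av_smul (c : ℝ) (f : α → ℝ) (a : α) :
    Av Ω k (fun x => c * f x) a = c * Av Ω k f a := by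
  simp [Av, ← mul_sum, mul_div_assoc]

theorem Av_neg (f : α → ℝ) (a : α) : Av Ω k (fun x => - f x) a = - Av Ω k f a := by
  simp [Av, neg_div]

theorem Av_sum {ι : Type*} (s : Finset ι) (f : ι → α → ℝ) (a : α) :
    Av Ω k (fun x => ∑ i ∈ s, f i x) a = ∑ i ∈ s, Av Ω k (f i) a := by
  unfold Av
  rw [sum_comm, sum_div]

theorem Av_const (c : ℝ) {a : α} (ha : a ∈ Ω) : Av Ω k (fun _ => c) a = c := by
  have := card_cls_pos Ω k ha
  simp only [Av, sum_const, nsmul_eq_mul]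
  field_simp

/-- sum of `f` over a class in terms of `Av`. -/
theorem sum_cls_eq (f : α → ℝ) {a : α} (ha : a ∈ Ω) :
    ∑ b ∈ cls Ω k a, f b = ((cls Ω k a).card : ℝ) * Av Ω k f a := by
  have := card_cls_pos Ω k ha
  unfold Av
  field_simp

/-- a function which is constant on the class of `a` is fixed by `Av` at `a`. -/
theorem Av_of_const_on_cls (f : α → ℝ) {a : α} (ha : a ∈ Ω)
    (h : ∀ b ∈ cls Ω k a, f b = f a) : Av Ω k f a = f a := by
  have := card_cls_pos Ω k ha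
  unfold Av
  rw [sum_congr rfl h, sum_const, nsmul_eq_mul]
  field_simp

/-- pulling out a factor which is constant on classes. -/
theorem Av_mul_of_const (f g : α → ℝ) {a : α}
    (h : ∀ b ∈ cls Ω k a, g b = g a) : Av Ω k (fun x => g x * f x) a = g a * Av Ω k f a := by
  unfold Av
  have : ∑ b ∈ cls Ω k a, g b * f b = ∑ b ∈ cls Ω k a, g a * f b :=
    sum_congr rfl fun b hb => by rw [h b hb]
  rw [this, ← mul_sum, mul_div_assoc]

theorem Av_idem (f : α → ℝ) {a : α} (ha : a ∈ Ω) : Av Ω k (Av Ω k f) a = Av Ω k f a :=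
  Av_of_const_on_cls Ω k _ ha fun _ hb => Av_eq_of_mem Ω k f hb

end basic

section ip
variable (Ω : Finset α)

theorem ip_comm (f g : α → ℝ) : ip Ω f g = ip Ω g f := by
  simp [ip, mul_comm]

theorem ip_add_left (f g h : α → ℝ) : ip Ω (fun x => f x + g x) h = ip Ω f h + ip Ω g h := by
  simp [ip, add_mul, sum_add_distrib]

theorem ip_sub_left (f g h : α → ℝ) : ip Ω (fun x => f x - g x) h = ip Ω f h - ip Ω g h := by
  simp [ip, sub_mul, sum_sub_distrib]

theorem ip_add_right (f g h : α → ℝ) : ip Ω h (fun x => f x + g x) = ip Ω h f + ip Ω h g := by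
  simp [ip, mul_add, sum_add_distrib]

theorem ip_sub_right (f g h : α → ℝ) : ip Ω h (fun x => f x - g x) = ip Ω h f - ip Ω h g := by
  simp [ip, mul_sub, sum_sub_distrib]

theorem ip_smul_left (c : ℝ) (f g : α → ℝ) : ip Ω (fun x => c * f x) g = c * ip Ω f g := by
  simp [ip, mul_sum, mul_assoc]

theorem ip_smul_right (c : ℝ) (f g : α → ℝ) : ip Ω f (fun x => c * g x) = c * ip Ω f g := by
  simp only [ip, mul_sum]
  exact sum_congr rfl fun _ _ => by ring

theorem ip_sum_left {ι : Type*} (s : Finset ι) (f : ι → α → ℝ) (g : α → ℝ) :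
    ip Ω (fun x => ∑ i ∈ s, f i x) g = ∑ i ∈ s, ip Ω (f i) g := by
  simp only [ip, sum_mul]
  exact sum_comm

theorem ip_sum_right {ι : Type*} (s : Finset ι) (f : ι → α → ℝ) (g : α → ℝ) :
    ip Ω g (fun x => ∑ i ∈ s, f i x) = ∑ i ∈ s, ip Ω g (f i) := by
  simp only [ip, mul_sum]
  exact sum_comm

theorem ip_self_nonneg (f : α → ℝ) : 0 ≤ ip Ω f f :=
  sum_nonneg fun a _ => mul_self_nonneg (f a)

theorem ip_congr {f f' g g' : α → ℝ} (hf : ∀ a ∈ Ω, f a = f' a) (hg : ∀ a ∈ Ω, g a = g' a) :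
    ip Ω f g = ip Ω f' g' :=
  sum_congr rfl fun a ha => by rw [hf a ha, hg a ha]

theorem ip_self_eq_zero {f : α → ℝ} (h : ip Ω f f = 0) : ∀ a ∈ Ω, f a = 0 := by
  intro a ha
  have := (sum_eq_zero_iff_of_nonneg (fun a _ => mul_self_nonneg (f a))).1 h a ha
  simpa using this

/-- Cauchy–Schwarz. -/
theorem ip_sq_le (f g : α → ℝ) : ip Ω f g ^ 2 ≤ ip Ω f f * ip Ω g g := by
  have := sum_mul_sq_le_sq_mul_sq Ω f g
  simpa [ip, sq] using this

end ip

section proj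
variable (Ω : Finset α) (k : α → κ)

/-- double counting: `∑_{a ∈ Ω} F a (class data of a)`. The basic symmetric identity. -/
theorem ip_Av_left (f g : α → ℝ) :
    ip Ω (Av Ω k f) g = ∑ a ∈ Ω, ∑ b ∈ Ω, if k b = k a then f b * g a / ((cls Ω k a).card : ℝ) else 0 := by
  unfold ip Av cls
  refine sum_congr rfl fun a _ => ?_
  rw [sum_filter, sum_div, sum_mul]
  refine sum_congr rfl fun b _ => ?_
  split_ifs <;> ring

/-- `Av` is self-adjoint. -/
theorem Av_selfadj (f g : α → ℝ) : ip Ω (Av Ω k f) g = ip Ω f (Av Ω k g) := by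
  rw [ip_comm Ω f, ip_Av_left, ip_Av_left, sum_comm]
  refine sum_congr rfl fun a _ => sum_congr rfl fun b _ => ?_
  by_cases h : k a = k b
  · rw [if_pos h, if_pos h.symm, cls_congr Ω k h]; ring
  · rw [if_neg h, if_neg (Ne.symm h)]

theorem ip_Av_Av (f g : α → ℝ) : ip Ω (Av Ω k f) (Av Ω k g) = ip Ω f (Av Ω k g) := by
  rw [Av_selfadj]
  exact ip_congr Ω (fun _ _ => rfl) fun a ha => Av_idem Ω k g ha

/-- `⟨f - Ef, Eg⟩ = 0`. -/
theorem ip_sub_Av_Av (f g : α → ℝ) : ip Ω (fun x => f x - Av Ω k f x) (Av Ω k g) = 0 := by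
  rw [ip_sub_left, ip_Av_Av, sub_self]

/-- Pythagoras: `‖f - Ef‖² = ‖f‖² - ‖Ef‖²`. -/
theorem ip_D_D (f : α → ℝ) :
    ip Ω (fun x => f x - Av Ω k f x) (fun x => f x - Av Ω k f x) =
      ip Ω f f - ip Ω (Av Ω k f) (Av Ω k f) := by
  rw [ip_sub_right, ip_sub_Av_Av, ip_sub_left, ip_Av_Av, Av_selfadj]
  ring

/-- `⟨f, f - Ef⟩ = ‖f - Ef‖²`. -/
theorem ip_self_D (f : α → ℝ) :
    ip Ω f (fun x => f x - Av Ω k f x) =
      ip Ω (fun x => f x - Av Ω k f x) (fun x => f x - Av Ω k f x) := by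
  rw [ip_D_D, ip_sub_right, ip_Av_Av]

theorem ip_Av_le (f : α → ℝ) : ip Ω (Av Ω k f) (Av Ω k f) ≤ ip Ω f f := by
  have := ip_self_nonneg Ω (fun x => f x - Av Ω k f x)
  rw [ip_D_D] at this
  linarith

/-- `E (f - E f) = 0` on `Ω`. -/
theorem Av_D (f : α → ℝ) {a : α} (ha : a ∈ Ω) : Av Ω k (fun x => f x - Av Ω k f x) a = 0 := by
  rw [Av_sub, Av_idem Ω k f ha, sub_self]

end proj

section nested
variable (Ω : Finset α) (k : α → κ) (k' : α → κ')

/-- `k'` is coarser than `k` on `Ω`. -/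
def Coarser : Prop := ∀ a ∈ Ω, ∀ b ∈ Ω, k a = k b → k' a = k' b

variable {Ω k k'}

theorem Av_fine_coarse (h : Coarser Ω k k') (f : α → ℝ) {a : α} (ha : a ∈ Ω) :
    Av Ω k (Av Ω k' f) a = Av Ω k' f a := by
  refine Av_of_const_on_cls Ω k _ ha fun b hb => ?_
  obtain ⟨hb1, hb2⟩ := (mem_cls Ω k).1 hb
  exact Av_congr_key Ω k' f (h b hb1 a ha hb2)

theorem Av_coarse_fine (h : Coarser Ω k k') (f : α → ℝ) {a : α} (ha : a ∈ Ω) :
    Av Ω k' (Av Ω k f) a = Av Ω k' f a := by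
  -- test against the indicator of the class, using self-adjointness
  classical
  have hpos := card_cls_pos Ω k' ha
  have key : ∑ b ∈ cls Ω k' a, Av Ω k f b = ∑ b ∈ cls Ω k' a, f b := by
    set ind : α → ℝ := fun b => if k' b = k' a then 1 else 0 with hind
    have h1 : ∀ g : α → ℝ, ∑ b ∈ cls Ω k' a, g b = ip Ω g ind := by
      intro g
      simp [cls, ip, hind, sum_filter]
    rw [h1, h1, Av_selfadj]
    refine ip_congr Ω (fun _ _ => rfl) fun b hb => ?_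
    refine Av_of_const_on_cls Ω k _ hb fun c hc => ?_
    obtain ⟨hc1, hc2⟩ := (mem_cls Ω k).1 hc
    simp only [hind, h c hc1 b hb hc2]
  unfold Av at key ⊢
  rw [key]

end nested


section jensen
variable (Ω : Finset α) (k : α → κ)

/-- Jensen / contraction on an event which is a union of classes. -/
theorem sum_filter_Av_sq_le (p : α → Prop) [DecidablePred p]
    (hp : ∀ a ∈ Ω, ∀ b ∈ Ω, k a = k b → (p a ↔ p b)) (f : α → ℝ) :
    ∑ a ∈ Ω.filter p, (Av Ω k f a) ^ 2 ≤ ∑ a ∈ Ω.filter p, (f a) ^ 2 := by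
  set ind : α → ℝ := fun a => if p a then 1 else 0 with hind
  have h1 : ∀ a ∈ Ω, Av Ω k (fun x => ind x * f x) a = ind a * Av Ω k f a := by
    intro a ha
    refine Av_mul_of_const Ω k f ind fun b hb => ?_
    obtain ⟨hb1, hb2⟩ := (mem_cls Ω k).1 hb
    have := hp b hb1 a ha hb2
    simp only [hind, this]
  have h2 := ip_Av_le Ω k (fun x => ind x * f x)
  rw [ip_congr Ω h1 h1] at h2
  have h3 : ∀ g : α → ℝ, ip Ω (fun x => ind x * g x) (fun x => ind x * g x) =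
      ∑ a ∈ Ω.filter p, (g a) ^ 2 := by
    intro g
    rw [ip, sum_filter]
    refine sum_congr rfl fun a _ => ?_
    by_cases h : p a <;> simp [hind, h, sq]
  rw [h3, h3] at h2
  exact h2

end jensen

section comm
variable (Ω : Finset α) (k : α → κ) (k' : α → κ')

/-- If `Av k` and `Av k'` commute then `⟨(1-E)f, (1-E')f⟩ = ‖(1-E)(1-E')f‖² ≥ 0`. -/
theorem ip_D_D_eq_of_comm
    (hc : ∀ f : α → ℝ, ∀ a ∈ Ω, Av Ω k (Av Ω k' f) a = Av Ω k' (Av Ω k f) a) (f : α → ℝ) :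
    ip Ω (fun x => f x - Av Ω k f x) (fun x => f x - Av Ω k' f x) =
      ip Ω (fun x => (f x - Av Ω k' f x) - Av Ω k (fun y => f y - Av Ω k' f y) x)
        (fun x => (f x - Av Ω k' f x) - Av Ω k (fun y => f y - Av Ω k' f y) x) := by
  set g : α → ℝ := fun x => f x - Av Ω k' f x with hg
  set h : α → ℝ := fun x => f x - Av Ω k f x with hh
  -- `D (D' f) = D' (D f)` on `Ω`
  have h1 : ∀ a ∈ Ω, g a - Av Ω k g a = h a - Av Ω k' h a := by
    intro a ha
    simp only [hg, hh, Av_sub, hc f a ha]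
    ring
  have e1 : ip Ω (fun x => g x - Av Ω k g x) (fun x => g x - Av Ω k g x) =
      ip Ω g (fun x => g x - Av Ω k g x) := (ip_self_D Ω k g).symm
  have e2 : ip Ω g (fun x => g x - Av Ω k g x) = ip Ω g (fun x => h x - Av Ω k' h x) :=
    ip_congr Ω (fun _ _ => rfl) h1
  have e3 : ip Ω g (fun x => h x - Av Ω k' h x) = ip Ω g h - ip Ω g (Av Ω k' h) :=
    ip_sub_right Ω h (Av Ω k' h) g
  have e4 : ip Ω g (Av Ω k' h) = 0 := ip_sub_Av_Av Ω k' f h
  rw [e1, e2, e3, e4, sub_zero, ip_comm]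

theorem ip_D_D_nonneg_of_comm
    (hc : ∀ f : α → ℝ, ∀ a ∈ Ω, Av Ω k (Av Ω k' f) a = Av Ω k' (Av Ω k f) a) (f : α → ℝ) :
    0 ≤ ip Ω (fun x => f x - Av Ω k f x) (fun x => f x - Av Ω k' f x) := by
  rw [ip_D_D_eq_of_comm Ω k k' hc f]
  exact ip_self_nonneg Ω _

variable {Ω k k'}

/-- rectangle completion property. -/
def Rect (Ω : Finset α) (k : α → κ) (k' : α → κ') : Prop :=
  ∀ a ∈ Ω, ∀ b ∈ Ω, ∀ c ∈ Ω, k b = k a → k' c = k' a → ∃ e ∈ Ω, k' e = k' b ∧ k e = k c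

/-- the pair of keys separates the points of `Ω`. -/
def Sep (Ω : Finset α) (k : α → κ) (k' : α → κ') : Prop :=
  ∀ e ∈ Ω, ∀ e' ∈ Ω, k e = k e' → k' e = k' e' → e = e'

theorem Rect.symm (h : Rect Ω k k') : Rect Ω k' k := by
  intro a ha b hb c hc hba hca
  obtain ⟨e, he, h1, h2⟩ := h a ha c hc b hb hca hba
  exact ⟨e, he, h2, h1⟩

theorem Sep.symm (h : Sep Ω k k') : Sep Ω k' k :=
  fun e he e' he' h1 h2 => h e he e' he' h2 h1

theorem card_cls_le_of_rect (hR : Rect Ω k k') (hS : Sep Ω k k') {a b : α} (ha : a ∈ Ω)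
    (hb : b ∈ Ω) (hab : k b = k a) : (cls Ω k' b).card ≤ (cls Ω k' a).card := by
  refine card_le_card_of_forall_subsingleton (fun e c => k c = k e) ?_ ?_
  · intro e he
    obtain ⟨he1, he2⟩ := (mem_cls Ω k').1 he
    obtain ⟨c, hc, h1, h2⟩ := hR b hb a ha e he1 hab.symm he2
    exact ⟨c, (mem_cls Ω k').2 ⟨hc, h1⟩, h2⟩
  · intro c _ e he e' he'
    obtain ⟨he1, he2⟩ := he
    obtain ⟨he1', he2'⟩ := he'
    obtain ⟨h1, h2⟩ := (mem_cls Ω k').1 he1
    obtain ⟨h1', h2'⟩ := (mem_cls Ω k').1 he1'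
    exact hS e h1 e' h1' (he2.symm.trans he2') (h2.trans h2'.symm)

theorem card_cls_eq_of_rect (hR : Rect Ω k k') (hS : Sep Ω k k') {a b : α} (ha : a ∈ Ω)
    (hb : b ∈ Ω) (hab : k b = k a) : (cls Ω k' b).card = (cls Ω k' a).card :=
  le_antisymm (card_cls_le_of_rect hR hS ha hb hab) (card_cls_le_of_rect hR hS hb ha hab.symm)

theorem biUnion_cls_eq_of_rect [DecidableEq α] (hR : Rect Ω k k') {a : α} (ha : a ∈ Ω) :
    (cls Ω k a).biUnion (fun b => cls Ω k' b) = (cls Ω k' a).biUnion (fun c => cls Ω k c) := by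
  ext e
  simp only [mem_biUnion, mem_cls]
  constructor
  · rintro ⟨b, ⟨hb, hkb⟩, he, hke⟩
    obtain ⟨c, hc, h1, h2⟩ := hR b hb a ha e he hkb.symm hke
    exact ⟨c, ⟨hc, h1⟩, he, h2.symm⟩
  · rintro ⟨c, ⟨hc, hkc⟩, he, hke⟩
    obtain ⟨b, hb, h1, h2⟩ := hR c hc e he a ha hke hkc.symm
    exact ⟨b, ⟨hb, h2⟩, he, h1.symm⟩

theorem sum_sum_cls_eq_biUnion [DecidableEq α] (hS : Sep Ω k k') (f : α → ℝ) (a : α) :
    ∑ b ∈ cls Ω k a, ∑ e ∈ cls Ω k' b, f e = ∑ e ∈ (cls Ω k a).biUnion (fun b => cls Ω k' b), f e := by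
  rw [sum_biUnion]
  intro b hb b' hb' hne
  simp only [Function.onFun]
  rw [disjoint_left]
  intro e he he'
  obtain ⟨hb1, hb2⟩ := (mem_cls Ω k).1 hb
  obtain ⟨hb1', hb2'⟩ := (mem_cls Ω k).1 hb'
  obtain ⟨_, h2⟩ := (mem_cls Ω k').1 he
  obtain ⟨_, h2'⟩ := (mem_cls Ω k').1 he'
  exact hne (hS b hb1 b' hb1' (hb2.trans hb2'.symm) (h2.symm.trans h2'))

theorem Av_Av_eq_of_rect [DecidableEq α] (hR : Rect Ω k k') (hS : Sep Ω k k') (f : α → ℝ) {a : α}
    (ha : a ∈ Ω) :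
    Av Ω k (Av Ω k' f) a = (∑ e ∈ (cls Ω k a).biUnion (fun b => cls Ω k' b), f e) /
      (((cls Ω k a).card : ℝ) * ((cls Ω k' a).card : ℝ)) := by
  rw [← sum_sum_cls_eq_biUnion hS]
  have h1 : ∑ b ∈ cls Ω k a, Av Ω k' f b =
      (∑ b ∈ cls Ω k a, ∑ e ∈ cls Ω k' b, f e) / ((cls Ω k' a).card : ℝ) := by
    rw [sum_div]
    refine sum_congr rfl fun b hb => ?_
    obtain ⟨hb1, hb2⟩ := (mem_cls Ω k).1 hb
    rw [Av, card_cls_eq_of_rect hR hS ha hb1 hb2]
  conv_lhs => rw [Av, h1]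
  rw [div_div, mul_comm]

/-- **RECT**: two keys with unique rectangle completion give commuting averaging operators. -/
theorem Av_comm_of_rect (hR : Rect Ω k k') (hS : Sep Ω k k') (f : α → ℝ) {a : α} (ha : a ∈ Ω) :
    Av Ω k (Av Ω k' f) a = Av Ω k' (Av Ω k f) a := by
  classical
  rw [Av_Av_eq_of_rect hR hS f ha, Av_Av_eq_of_rect hR.symm hS.symm f ha,
    biUnion_cls_eq_of_rect hR ha, mul_comm]

end comm

end Crest.Agent.R299
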