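import Crest.Agent.R299.Defs
import Crest.Agent.R299.Avg

/-!
# R299 (S0453): slot blocks

For a set of slots `Λ : Gr n` (`= Finset (Edge n)`), `blk d Λ G` is the set of realizations of `d`
which agree with `G` off `Λ`, and `EB d Λ f G` is the average of `f` over `blk d Λ G`
(the conditional expectation given all slots outside `Λ`).
`EB d Λ = Av (realizations d) (· \ Λ)`, so all lemmas of `Avg.lean` apply.
-/

set_option autoImplicit false
open Finset
open Crest.SwitchChain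

namespace Crest.Agent.R299

variable {n : ℕ}

/-- the block of `G`: realizations which agree with `G` outside the slot set `Λ`. -/
def blk (d : Fin n → ℕ) (Λ : Gr n) (G : Gr n) : Finset (Gr n) :=
  cls (realizations d) (fun H : Gr n => H \ Λ) G

/-- conditional expectation given the slots outside `Λ`. -/
noncomputable def EB (d : Fin n → ℕ) (Λ : Gr n) (f : Gr n → ℝ) : Gr n → ℝ :=
  Av (realizations d) (fun H : Gr n => H \ Λ) f

/-- `f - EB d Λ f`. -/
noncomputable def DB (d : Fin n → ℕ) (Λ : Gr n) (f : Gr n → ℝ) : Gr n → ℝ :=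
  fun G => f G - EB d Λ f G

/-- counting inner product on the realizations of `d`. -/
noncomputable def ipd (d : Fin n → ℕ) (f g : Gr n → ℝ) : ℝ := ip (realizations d) f g

theorem mem_blk {d : Fin n → ℕ} {Λ G H : Gr n} :
    H ∈ blk d Λ G ↔ H ∈ realizations d ∧ H \ Λ = G \ Λ := by
  simp [blk, mem_cls]

theorem EB_def (d : Fin n → ℕ) (Λ : Gr n) (f : Gr n → ℝ) (G : Gr n) :
    EB d Λ f G = (∑ H ∈ blk d Λ G, f H) / ((blk d Λ G).card : ℝ) := rfl

theorem ipd_def (d : Fin n → ℕ) (f g : Gr n → ℝ) :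
    ipd d f g = ∑ G ∈ realizations d, f G * g G := rfl

theorem self_mem_blk {d : Fin n → ℕ} (Λ : Gr n) {G : Gr n} (hG : G ∈ realizations d) :
    G ∈ blk d Λ G := self_mem_cls _ _ hG

theorem blk_subset (d : Fin n → ℕ) (Λ G : Gr n) : blk d Λ G ⊆ realizations d := cls_subset _ _ _

theorem blk_eq_of_mem {d : Fin n → ℕ} {Λ G H : Gr n} (h : H ∈ blk d Λ G) :
    blk d Λ H = blk d Λ G := cls_eq_of_mem _ _ h

theorem EB_eq_of_mem {d : Fin n → ℕ} {Λ G H : Gr n} (f : Gr n → ℝ) (h : H ∈ blk d Λ G) :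
    EB d Λ f H = EB d Λ f G := Av_eq_of_mem _ _ f h

/-- `EB` at `G` only depends on the block. -/
theorem EB_congr_blk {d : Fin n → ℕ} {Λ Λ' G : Gr n} (f : Gr n → ℝ) (h : blk d Λ G = blk d Λ' G) :
    EB d Λ f G = EB d Λ' f G := by
  rw [EB_def, EB_def, h]

/-! ### L1 : symmetric idempotent -/

theorem EB_idem (d : Fin n → ℕ) (Λ : Gr n) (f : Gr n → ℝ) {G : Gr n} (hG : G ∈ realizations d) :
    EB d Λ (EB d Λ f) G = EB d Λ f G := Av_idem _ _ f hG

theorem EB_selfadj (d : Fin n → ℕ) (Λ : Gr n) (f g : Gr n → ℝ) :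
    ipd d (EB d Λ f) g = ipd d f (EB d Λ g) := Av_selfadj _ _ f g

theorem EB_congr (d : Fin n → ℕ) (Λ : Gr n) {f g : Gr n → ℝ}
    (h : ∀ G ∈ realizations d, f G = g G) (G : Gr n) : EB d Λ f G = EB d Λ g G :=
  Av_congr _ _ h G

theorem EB_add (d : Fin n → ℕ) (Λ : Gr n) (f g : Gr n → ℝ) (G : Gr n) :
    EB d Λ (fun x => f x + g x) G = EB d Λ f G + EB d Λ g G := Av_add _ _ f g G

theorem EB_sub (d : Fin n → ℕ) (Λ : Gr n) (f g : Gr n → ℝ) (G : Gr n) :
    EB d Λ (fun x => f x - g x) G = EB d Λ f G - EB d Λ g G := Av_sub _ _ f g G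

theorem EB_smul (d : Fin n → ℕ) (Λ : Gr n) (c : ℝ) (f : Gr n → ℝ) (G : Gr n) :
    EB d Λ (fun x => c * f x) G = c * EB d Λ f G := Av_smul _ _ c f G

/-- multipliers which are constant on blocks can be pulled out. -/
theorem EB_mul_of_const (d : Fin n → ℕ) (Λ : Gr n) (f g : Gr n → ℝ) {G : Gr n}
    (h : ∀ H ∈ blk d Λ G, g H = g G) : EB d Λ (fun x => g x * f x) G = g G * EB d Λ f G :=
  Av_mul_of_const _ _ f g h

/-! ### L2 : tower property -/

theorem coarser_of_subset (d : Fin n → ℕ) {Λ Λ' : Gr n} (h : Λ ⊆ Λ') :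
    Coarser (realizations d) (fun H : Gr n => H \ Λ) (fun H : Gr n => H \ Λ') := by
  intro a _ b _ hab
  have hab' : a \ Λ = b \ Λ := hab
  show a \ Λ' = b \ Λ'
  have h1 : ∀ x : Gr n, x \ Λ' = (x \ Λ) \ Λ' := by
    intro x
    ext e
    simp only [mem_sdiff]
    constructor
    · rintro ⟨h1, h2⟩; exact ⟨⟨h1, fun h3 => h2 (h h3)⟩, h2⟩
    · rintro ⟨⟨h1, _⟩, h2⟩; exact ⟨h1, h2⟩
  rw [h1 a, h1 b, hab']

theorem EB_small_big (d : Fin n → ℕ) {Λ Λ' : Gr n} (h : Λ ⊆ Λ') (f : Gr n → ℝ) {G : Gr n}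
    (hG : G ∈ realizations d) : EB d Λ (EB d Λ' f) G = EB d Λ' f G :=
  Av_fine_coarse (coarser_of_subset d h) f hG

theorem EB_big_small (d : Fin n → ℕ) {Λ Λ' : Gr n} (h : Λ ⊆ Λ') (f : Gr n → ℝ) {G : Gr n}
    (hG : G ∈ realizations d) : EB d Λ' (EB d Λ f) G = EB d Λ' f G :=
  Av_coarse_fine (coarser_of_subset d h) f hG


/-! ### L3 : disjoint slot sets give commuting conditional expectations -/

theorem deg_union_disj (A B : Gr n) (h : Disjoint A B) (v : Fin n) :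
    deg (A ∪ B) v = deg A v + deg B v := by
  unfold deg
  rw [filter_union, card_union_of_disjoint]
  exact disjoint_filter_filter h

theorem deg_split (E Λ : Gr n) (v : Fin n) : deg E v = deg (E ∩ Λ) v + deg (E \ Λ) v := by
  rw [← deg_union_disj _ _ (disjoint_sdiff_inter E Λ).symm, inter_union_sdiff_eq E Λ]
where
  inter_union_sdiff_eq (E Λ : Gr n) : E ∩ Λ ∪ E \ Λ = E := by
    ext e
    simp only [mem_union, mem_inter, mem_sdiff]
    tauto

theorem sep_of_disjoint (d : Fin n → ℕ) {Λ Λ' : Gr n} (h : Disjoint Λ Λ') :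
    Sep (realizations d) (fun H : Gr n => H \ Λ) (fun H : Gr n => H \ Λ') := by
  intro e _ e' _ h1 h2
  have h1' : e \ Λ = e' \ Λ := h1
  have h2' : e \ Λ' = e' \ Λ' := h2
  ext x
  by_cases hx : x ∈ Λ
  · have hx' : x ∉ Λ' := disjoint_left.1 h hx
    have := congrArg (fun s => x ∈ s) h2'
    simpa [mem_sdiff, hx'] using this
  · have := congrArg (fun s => x ∈ s) h1'
    simpa [mem_sdiff, hx] using this

theorem rect_of_disjoint (d : Fin n → ℕ) {Λ Λ' : Gr n} (h : Disjoint Λ Λ') :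
    Rect (realizations d) (fun H : Gr n => H \ Λ) (fun H : Gr n => H \ Λ') := by
  intro a ha b hb c hc hba hca
  have hba' : b \ Λ = a \ Λ := hba
  have hca' : c \ Λ' = a \ Λ' := hca
  have hmem_b : ∀ x, x ∉ Λ → (x ∈ b ↔ x ∈ a) := by
    intro x hx
    have := congrArg (fun s => x ∈ s) hba'
    simpa [mem_sdiff, hx] using this
  have hmem_c : ∀ x, x ∉ Λ' → (x ∈ c ↔ x ∈ a) := by
    intro x hx
    have := congrArg (fun s => x ∈ s) hca'
    simpa [mem_sdiff, hx] using this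
  have hcΛ : c ∩ Λ = a ∩ Λ := by
    ext x
    simp only [mem_inter]
    constructor
    · rintro ⟨h1, h2⟩; exact ⟨(hmem_c x (disjoint_left.1 h h2)).1 h1, h2⟩
    · rintro ⟨h1, h2⟩; exact ⟨(hmem_c x (disjoint_left.1 h h2)).2 h1, h2⟩
  refine ⟨b ∩ Λ ∪ c \ Λ, ?_, ?_, ?_⟩
  · -- degrees
    simp only [realizations, mem_filter, mem_univ, true_and] at ha hb hc ⊢
    intro v
    have hdisj : Disjoint (b ∩ Λ) (c \ Λ) := by
      rw [disjoint_left]
      intro x hx hx'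
      exact (mem_sdiff.1 hx').2 (mem_inter.1 hx).2
    rw [deg_union_disj _ _ hdisj]
    have e1 := deg_split a Λ v
    have e2 := deg_split b Λ v
    have e3 := deg_split c Λ v
    rw [hba'] at e2
    rw [hcΛ] at e3
    have := ha v; have := hb v; have := hc v
    omega
  · show (b ∩ Λ ∪ c \ Λ) \ Λ' = b \ Λ'
    ext x
    simp only [mem_sdiff, mem_union, mem_inter]
    constructor
    · rintro ⟨h1 | h1, h2⟩
      · exact ⟨h1.1, h2⟩
      · exact ⟨(hmem_b x h1.2).2 ((hmem_c x h2).1 h1.1), h2⟩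
    · rintro ⟨h1, h2⟩
      by_cases hx : x ∈ Λ
      · exact ⟨Or.inl ⟨h1, hx⟩, h2⟩
      · exact ⟨Or.inr ⟨(hmem_c x h2).2 ((hmem_b x hx).1 h1), hx⟩, h2⟩
  · show (b ∩ Λ ∪ c \ Λ) \ Λ = c \ Λ
    ext x
    simp only [mem_sdiff, mem_union, mem_inter]
    tauto

/-- **L3**: conditional expectations over disjoint slot sets commute. -/
theorem EB_comm (d : Fin n → ℕ) {Λ Λ' : Gr n} (h : Disjoint Λ Λ') (f : Gr n → ℝ) {G : Gr n}
    (hG : G ∈ realizations d) : EB d Λ (EB d Λ' f) G = EB d Λ' (EB d Λ f) G :=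
  Av_comm_of_rect (rect_of_disjoint d h) (sep_of_disjoint d h) f hG

/-- **L4**: for disjoint slot sets `⟨(1-E)f,(1-E')f⟩ ≥ 0`. -/
theorem ipd_DB_DB_nonneg (d : Fin n → ℕ) {Λ Λ' : Gr n} (h : Disjoint Λ Λ') (f : Gr n → ℝ) :
    0 ≤ ipd d (DB d Λ f) (DB d Λ' f) :=
  ip_D_D_nonneg_of_comm _ _ _ (fun f _ hG => EB_comm d h f hG) f

/-- Jensen on an event which is a union of blocks. -/
theorem sum_filter_EB_sq_le (d : Fin n → ℕ) (Λ : Gr n) (p : Gr n → Prop) [DecidablePred p]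
    (hp : ∀ G ∈ realizations d, ∀ H ∈ realizations d, G \ Λ = H \ Λ → (p G ↔ p H))
    (f : Gr n → ℝ) :
    ∑ G ∈ (realizations d).filter p, (EB d Λ f G) ^ 2 ≤ ∑ G ∈ (realizations d).filter p, (f G) ^ 2 :=
  sum_filter_Av_sq_le _ _ p hp f

end Crest.Agent.R299
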