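import Crest.Agent.R299.Avg

/-!
# R299 (S0453): the abstract 3-row model (definitions)

`Mat ι = Fin 3 → ι → Bool` : 0/1 matrices with three rows and columns indexed by `ι`.
`X ρ r` : the matrices with column sums `ρ` and row sums `r`.
`P ρ r u f` : average of `f` over the matrices of `X ρ r` with the same row `u`.
`K ρ r f = ∑_u (f - P_u f)`.
-/

set_option autoImplicit false
open Finset

namespace Crest.Agent.R299.TR

variable {ι : Type*} [Fintype ι] [DecidableEq ι]

/-- 0/1 matrices with three rows. -/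
abbrev Mat (ι : Type*) := Fin 3 → ι → Bool

/-- column sum. -/
def colSum (x : Mat ι) (c : ι) : ℕ := (univ.filter fun u => x u c = true).card

/-- row sum. -/
def rowSum (x : Mat ι) (u : Fin 3) : ℕ := (univ.filter fun c => x u c = true).card

/-- the class of matrices with column sums `ρ` and row sums `r`. -/
def X (ρ : ι → ℕ) (r : Fin 3 → ℕ) : Finset (Mat ι) :=
  univ.filter fun x => (∀ c, colSum x c = ρ c) ∧ ∀ u, rowSum x u = r u

theorem mem_X {ρ : ι → ℕ} {r : Fin 3 → ℕ} {x : Mat ι} :
    x ∈ X ρ r ↔ (∀ c, colSum x c = ρ c) ∧ ∀ u, rowSum x u = r u := by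
  simp [X]

/-- conditional expectation given row `u`. -/
noncomputable def P (ρ : ι → ℕ) (r : Fin 3 → ℕ) (u : Fin 3) (f : Mat ι → ℝ) : Mat ι → ℝ :=
  Av (X ρ r) (fun y => y u) f

/-- the 3-row generator `∑_u (1 - P_u)`. -/
noncomputable def K (ρ : ι → ℕ) (r : Fin 3 → ℕ) (f : Mat ι → ℝ) : Mat ι → ℝ :=
  fun x => ∑ u, (f x - P ρ r u f x)

/-- swap the columns `a`, `b` in all rows. -/
def cs (a b : ι) (x : Mat ι) : Mat ι := fun u c => x u (Equiv.swap a b c)

/-- swap the columns `a`, `b` in the rows `p`, `q` only (a "trade" of the rows `p`, `q`). -/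
def sw (p q : Fin 3) (a b : ι) (x : Mat ι) : Mat ι :=
  fun u c => if u = p ∨ u = q then x u (Equiv.swap a b c) else x u c

end Crest.Agent.R299.TR
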