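import Crest.Agent.R299.Transport3
import Crest.Agent.R299.Block
import Crest.Agent.R299.Adj
import Crest.Agent.R299.ThreeRowDefs

/-!
# R299 (S0453): the 3-vertex cluster inequality on a degree class, from the abstract 3-row lemma

`tri_of_rows` : given a row map `m : Gr n → Mat (Fin n)` which identifies every `T`-fibre with a
margin class `X ρ r` and the three pair blocks with the three rows, the abstract 3-row inequality
gives the cluster inequality `⟨f, h_T f⟩ ≤ ‖h_T f‖²` on `realizations d`.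
-/

set_option autoImplicit false
open Finset
open Crest.SwitchChain

namespace Crest.Agent.R299

namespace B3

variable {n : ℕ}

theorem sdiff_tch_of_subset {U V : Finset (Fin n)} (h : U ⊆ V) {G H : Gr n}
    (hGH : H \ tch U = G \ tch U) : H \ tch V = G \ tch V := by
  have e : ∀ A : Gr n, A \ tch V = (A \ tch U) \ tch V := by
    intro A
    ext e
    simp only [mem_sdiff]
    constructor
    · rintro ⟨h1, h2⟩
      exact ⟨⟨h1, fun h3 => h2 (tch_mono h h3)⟩, h2⟩
    · rintro ⟨⟨h1, _⟩, h2⟩
      exact ⟨h1, h2⟩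
  rw [e H, e G, hGH]

/-- the pair opposite to the index `u` -/
def opp (t : Fin 3 → Fin n) (u : Fin 3) : Finset (Fin n) := {t (u + 1), t (u + 2)}

theorem opp_subset (t : Fin 3 → Fin n) (u : Fin 3) : opp t u ⊆ univ.image t := by
  intro v hv
  simp only [opp, mem_insert, mem_singleton] at hv
  rcases hv with rfl | rfl <;> exact mem_image_of_mem _ (mem_univ _)

/-- the abstract 3-row inequality, as a proposition -/
def ThreeRowQ (ι : Type) [Fintype ι] [DecidableEq ι] : Prop :=
  ∀ (ρ : ι → ℕ) (r : Fin 3 → ℕ) (F : TR.Mat ι → ℝ),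
    ip (TR.X ρ r) F (TR.K ρ r F) ≤ ip (TR.X ρ r) (TR.K ρ r F) (TR.K ρ r F)

theorem tri_of_rows (d : Fin n → ℕ) (t : Fin 3 → Fin n) (m : Gr n → TR.Mat (Fin n))
    (hQ : ThreeRowQ (Fin n))
    (hB12 : ∀ G₀ ∈ realizations d, ∃ (ρ : Fin n → ℕ) (r : Fin 3 → ℕ),
      Set.InjOn m (blk d (tch (univ.image t)) G₀) ∧
      (blk d (tch (univ.image t)) G₀).image m = TR.X ρ r)
    (hB3 : ∀ G₀ ∈ realizations d, ∀ G ∈ blk d (tch (univ.image t)) G₀,
      ∀ H ∈ blk d (tch (univ.image t)) G₀, ∀ u : Fin 3,
      (H \ tch (opp t u) = G \ tch (opp t u) ↔ m H u = m G u))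
    (f : Gr n → ℝ) :
    ∑ G ∈ realizations d, f G * ∑ u, DB d (tch (opp t u)) f G ≤
      ∑ G ∈ realizations d, (∑ u, DB d (tch (opp t u)) f G) ^ 2 := by
  classical
  refine transport3 (realizations d) (fun H : Gr n => H \ tch (univ.image t))
    (fun u (H : Gr n) => H \ tch (opp t u)) (fun u (y : TR.Mat (Fin n)) => y u) ?_ f
  intro G₀ hG₀
  obtain ⟨ρ, r, hinj, himg⟩ := hB12 G₀ hG₀
  have hex : ∀ x ∈ TR.X ρ r, ∃ H, H ∈ blk d (tch (univ.image t)) G₀ ∧ m H = x := by
    intro x hx
    rw [← himg, mem_image] at hx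
    exact hx
  refine ⟨TR.X ρ r, m, fun x => if h : x ∈ TR.X ρ r then (hex x h).choose else G₀, ?_, ?_, ?_, ?_⟩
  · intro F
    have := hQ ρ r F
    simpa [ip, TR.K, TR.P, sq] using this
  · intro H hH hk
    have hHb : H ∈ blk d (tch (univ.image t)) G₀ := mem_blk.2 ⟨hH, hk⟩
    have hm : m H ∈ TR.X ρ r := by rw [← himg]; exact mem_image_of_mem _ hHb
    refine ⟨hm, ?_⟩
    show (if h : m H ∈ TR.X ρ r then (hex _ h).choose else G₀) = H
    rw [dif_pos hm]
    exact hinj (hex _ hm).choose_spec.1 hHb (hex _ hm).choose_spec.2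
  · intro x hx
    simp only [dif_pos hx]
    have h := (hex x hx).choose_spec
    exact ⟨(mem_blk.1 h.1).1, (mem_blk.1 h.1).2, h.2⟩
  · intro G hG H hH hk u
    have hGb : G ∈ blk d (tch (univ.image t)) G₀ := mem_blk.2 ⟨hG, hk⟩
    constructor
    · intro h
      have h3 : H \ tch (univ.image t) = G₀ \ tch (univ.image t) := by
        rw [sdiff_tch_of_subset (opp_subset t u) h]; exact hk
      exact ⟨h3, (hB3 G₀ hG₀ G hGb H (mem_blk.2 ⟨hH, h3⟩) u).1 h⟩
    · rintro ⟨h3, h⟩
      exact (hB3 G₀ hG₀ G hGb H (mem_blk.2 ⟨hH, h3⟩) u).2 h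

/-- sum over the pairs of a triple -/
theorem sum_powersetCard_two (t : Fin 3 → Fin n) (ht : Function.Injective t)
    (φ : Finset (Fin n) → ℝ) :
    ∑ b ∈ (univ.image t).powersetCard 2, φ b = ∑ u, φ (opp t u) := by
  classical
  have h01 : t 0 ≠ t 1 := fun h => absurd (ht h) (by decide)
  have h02 : t 0 ≠ t 2 := fun h => absurd (ht h) (by decide)
  have h12 : t 1 ≠ t 2 := fun h => absurd (ht h) (by decide)
  have himg : (univ.image t) = {t 0, t 1, t 2} := by
    ext v
    simp only [mem_image, mem_univ, true_and, mem_insert, mem_singleton]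
    constructor
    · rintro ⟨i, rfl⟩
      fin_cases i <;> simp
    · rintro (rfl | rfl | rfl)
      exacts [⟨0, rfl⟩, ⟨1, rfl⟩, ⟨2, rfl⟩]
  have hps : (univ.image t).powersetCard 2 = univ.image (opp t) := by
    rw [himg]
    ext b
    simp only [mem_powersetCard, mem_image, mem_univ, true_and]
    constructor
    · rintro ⟨hsub, hcard⟩
      obtain ⟨x, y, hxy, rfl⟩ := card_eq_two.1 hcard
      have hx := hsub (mem_insert_self x {y})
      have hy := hsub (mem_insert_of_mem (mem_singleton_self y))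
      simp only [mem_insert, mem_singleton] at hx hy
      rcases hx with rfl | rfl | rfl <;> rcases hy with rfl | rfl | rfl
      · exact absurd rfl hxy
      · exact ⟨2, by simp [opp]⟩
      · exact ⟨1, by simp [opp, pair_comm]⟩
      · exact ⟨2, by simp [opp, pair_comm]⟩
      · exact absurd rfl hxy
      · exact ⟨0, by simp [opp]⟩
      · exact ⟨1, by simp [opp]⟩
      · exact ⟨0, by simp [opp, pair_comm]⟩
      · exact absurd rfl hxy
    · rintro ⟨u, rfl⟩
      fin_cases u
      · refine ⟨?_, ?_⟩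
        · intro v; simp [opp]; tauto
        · simp [opp, card_pair h12]
      · refine ⟨?_, ?_⟩
        · intro v; simp [opp]; tauto
        · simp [opp, card_pair h02.symm]
      · refine ⟨?_, ?_⟩
        · intro v; simp [opp]; tauto
        · simp [opp, card_pair h01]
  rw [hps, sum_image]
  intro u _ u' _ h
  -- `opp t` is injective
  have key : ∀ u u' : Fin 3, u ≠ u' → opp t u ≠ opp t u' := by
    intro u u' hne h
    have h1 : t u' ∈ opp t u := by
      have : ∀ u u' : Fin 3, u ≠ u' → u' = u + 1 ∨ u' = u + 2 := by decide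
      rcases this u u' hne with rfl | rfl <;> simp [opp]
    rw [h] at h1
    simp only [opp, mem_insert, mem_singleton] at h1
    rcases h1 with h1 | h1
    · exact absurd (ht h1) ((by decide : ∀ v : Fin 3, v ≠ v + 1) u')
    · exact absurd (ht h1) ((by decide : ∀ v : Fin 3, v ≠ v + 2) u')
  by_contra hne
  exact key u u' hne h

end B3

end Crest.Agent.R299
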