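import Crest.Agent.R299.Adj
import Crest.Agent.R299.Block
import Crest.Agent.R299.ThreeRowDefs

/-!
# R299 (S0453): graph side of the 3-vertex bridge

`u : Fin 3 → Fin n` injective is the triple.  `rw3 u G : Fin 3 → Fin n → Bool` is the 3-row matrix
of `G` (helper5's encoding): real columns `w ∉ T`, virtual column `u 0` (negated opposite slot),
columns `u 1`, `u 2` identically `false`.
-/

set_option autoImplicit false
open Finset
open Crest.SwitchChain

namespace Crest.Agent.R299.B3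

variable {n : ℕ}

/-- the triple as a Finset -/
def T3 (u : Fin 3 → Fin n) : Finset (Fin n) := univ.image u

theorem mem_T3 (u : Fin 3 → Fin n) (w : Fin n) : w ∈ T3 u ↔ ∃ i, u i = w := by simp [T3]

theorem u_mem_T3 (u : Fin 3 → Fin n) (i : Fin 3) : u i ∈ T3 u := (mem_T3 u _).2 ⟨i, rfl⟩

/-- the 3-row matrix of `G` -/
def rw3 (u : Fin 3 → Fin n) (G : Gr n) : Fin 3 → Fin n → Bool := fun i w =>
  if w = u 0 then decide (¬ adj G (u (i + 1)) (u (i + 2)))
  else if w ∈ T3 u then false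
  else decide (adj G (u i) w)

theorem rw3_out (u : Fin 3 → Fin n) (G : Gr n) (i : Fin 3) (w : Fin n) (hw : w ∉ T3 u) :
    rw3 u G i w = decide (adj G (u i) w) := by
  have h0 : w ≠ u 0 := fun h => hw ((mem_T3 u w).2 ⟨0, h.symm⟩)
  simp [rw3, h0, hw]

theorem rw3_zero (u : Fin 3 → Fin n) (G : Gr n) (i : Fin 3) :
    rw3 u G i (u 0) = decide (¬ adj G (u (i + 1)) (u (i + 2))) := by simp [rw3]

theorem rw3_in (u : Fin 3 → Fin n) (G : Gr n) (i : Fin 3) (w : Fin n) (hw : w ∈ T3 u)
    (h0 : w ≠ u 0) : rw3 u G i w = false := by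
  simp [rw3, h0, hw]

/-- splitting a count over `Fin n` into the part outside the triple and the three vertices -/
theorem card_split (u : Fin 3 → Fin n) (hu : Function.Injective u) (p : Fin n → Prop)
    [DecidablePred p] :
    (univ.filter p).card = (univ.filter fun w => p w ∧ w ∉ T3 u).card +
      ∑ j : Fin 3, (if p (u j) then 1 else 0) := by
  have h1 : (univ.filter p).card = ((univ.filter p).filter fun w => w ∉ T3 u).card +
      ((univ.filter p).filter fun w => ¬ (w ∉ T3 u)).card :=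
    (Finset.card_filter_add_card_filter_not (s := univ.filter p) (fun w => w ∉ T3 u)).symm
  rw [h1, Finset.filter_filter]
  congr 1
  have h2 : ((univ.filter p).filter fun w => ¬ (w ∉ T3 u)) =
      (univ.filter fun j : Fin 3 => p (u j)).image u := by
    ext w
    simp only [Finset.mem_filter, Finset.mem_univ, true_and, not_not, Finset.mem_image, mem_T3]
    constructor
    · rintro ⟨hp, j, rfl⟩; exact ⟨j, hp, rfl⟩
    · rintro ⟨j, hp, rfl⟩; exact ⟨hp, j, rfl⟩
  rw [h2, Finset.card_image_of_injective _ hu, Finset.card_filter]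

/-- number of neighbours outside the triple -/
def outd (u : Fin 3 → Fin n) (G : Gr n) (v : Fin n) : ℕ :=
  (univ.filter fun w => adj G v w ∧ w ∉ T3 u).card

theorem deg_split (u : Fin 3 → Fin n) (hu : Function.Injective u) (G : Gr n) (v : Fin n) :
    deg G v = outd u G v + ∑ j : Fin 3, (if adj G v (u j) then 1 else 0) := by
  rw [deg_eq_card_nb, nb, card_split u hu]; rfl

theorem colS_eq_sum (x : Fin 3 → Fin n → Bool) (w : Fin n) :
    TR.colSum x w = ∑ j : Fin 3, (if x j w = true then 1 else 0) := by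
  rw [TR.colSum, Finset.card_filter]

/-- (La) -/
theorem deg_out (u : Fin 3 → Fin n) (hu : Function.Injective u) (G : Gr n) (w : Fin n)
    (hw : w ∉ T3 u) : deg G w = outd u G w + TR.colSum (rw3 u G) w := by
  rw [deg_split u hu, colS_eq_sum]
  congr 1
  apply Finset.sum_congr rfl
  intro j _
  rw [rw3_out u G j w hw]
  simp [adj_comm G w (u j)]

theorem rowS_split (u : Fin 3 → Fin n) (hu : Function.Injective u) (G : Gr n) (i : Fin 3) :
    TR.rowSum (rw3 u G) i = outd u G (u i) + (if adj G (u (i + 1)) (u (i + 2)) then 0 else 1) := by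
  rw [TR.rowSum, card_split u hu]
  congr 1
  · unfold outd
    apply congrArg
    apply Finset.filter_congr
    intro w _
    constructor
    · rintro ⟨h1, h2⟩
      rw [rw3_out u G i w h2] at h1
      exact ⟨by simpa using h1, h2⟩
    · rintro ⟨h1, h2⟩
      rw [rw3_out u G i w h2]
      exact ⟨by simpa using h1, h2⟩
  · rw [Fin.sum_univ_three, rw3_zero,
      rw3_in u G i (u 1) (u_mem_T3 u 1) (fun h => by simpa using hu h),
      rw3_in u G i (u 2) (u_mem_T3 u 2) (fun h => by simpa using hu h)]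
    by_cases h : adj G (u (i + 1)) (u (i + 2)) <;> simp [h]

/-- (Lb) -/
theorem deg_in (u : Fin 3 → Fin n) (hu : Function.Injective u) (G : Gr n) (i : Fin 3) :
    deg G (u i) + TR.colSum (rw3 u G) (u 0) = TR.rowSum (rw3 u G) i + 2 := by
  rw [deg_split u hu, rowS_split u hu, colS_eq_sum, Fin.sum_univ_three, Fin.sum_univ_three,
    rw3_zero, rw3_zero, rw3_zero]
  have e10 : adj G (u 1) (u 0) ↔ adj G (u 0) (u 1) := adj_comm _ _ _
  have e20 : adj G (u 2) (u 0) ↔ adj G (u 0) (u 2) := adj_comm _ _ _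
  have e21 : adj G (u 2) (u 1) ↔ adj G (u 1) (u 2) := adj_comm _ _ _
  have n0 := not_adj_self G (u 0)
  have n1 := not_adj_self G (u 1)
  have n2 := not_adj_self G (u 2)
  fin_cases i <;>
  · simp only [Fin.zero_eta, Fin.mk_one, Fin.reduceFinMk, Fin.isValue, Fin.reduceAdd, zero_add,
      e10, e20, e21, n0, n1, n2, if_false, decide_eq_true_eq]
    by_cases h01 : adj G (u 0) (u 1) <;> by_cases h02 : adj G (u 0) (u 2) <;>
      by_cases h12 : adj G (u 1) (u 2) <;> simp [h01, h02, h12]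

/-! ### margins are constant on a triple fibre -/

theorem outd_congr (u : Fin 3 → Fin n) (G H : Gr n) (h : G \ tch (T3 u) = H \ tch (T3 u))
    (w : Fin n) (hw : w ∉ T3 u) : outd u G w = outd u H w := by
  unfold outd
  apply congrArg
  apply Finset.filter_congr
  intro a _
  have := (sdiff_tch_eq_iff G H (T3 u)).1 h w a hw
  constructor
  · rintro ⟨h1, h2⟩; exact ⟨(this h2).1 h1, h2⟩
  · rintro ⟨h1, h2⟩; exact ⟨(this h2).2 h1, h2⟩

theorem colS_out_eq (u : Fin 3 → Fin n) (hu : Function.Injective u) (d : Fin n → ℕ) (G H : Gr n)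
    (hG : G ∈ realizations d) (hH : H ∈ realizations d) (h : G \ tch (T3 u) = H \ tch (T3 u))
    (w : Fin n) (hw : w ∉ T3 u) : TR.colSum (rw3 u G) w = TR.colSum (rw3 u H) w := by
  have h1 := deg_out u hu G w hw
  have h2 := deg_out u hu H w hw
  rw [(mem_realizations d G).1 hG w] at h1
  rw [(mem_realizations d H).1 hH w] at h2
  have h3 := outd_congr u G H h w hw
  omega

theorem colS_in (u : Fin 3 → Fin n) (G : Gr n) (w : Fin n) (hw : w ∈ T3 u) (h0 : w ≠ u 0) :
    TR.colSum (rw3 u G) w = 0 := by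
  rw [TR.colSum, Finset.card_eq_zero, Finset.filter_eq_empty_iff]
  intro i _
  rw [rw3_in u G i w hw h0]
  simp

theorem sum_outd (u : Fin 3 → Fin n) (G : Gr n) :
    ∑ i : Fin 3, outd u G (u i) =
      ∑ w : Fin n, (if w ∉ T3 u then TR.colSum (rw3 u G) w else 0) := by
  simp only [outd, Finset.card_filter]
  rw [Finset.sum_comm]
  apply Finset.sum_congr rfl
  intro w _
  by_cases hw : w ∈ T3 u
  · simp [hw]
  · simp only [hw, not_false_eq_true, and_true, if_true]
    rw [colS_eq_sum]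
    apply Finset.sum_congr rfl
    intro j _
    rw [rw3_out u G j w hw]
    simp

theorem sum_rowS (u : Fin 3 → Fin n) (hu : Function.Injective u) (G : Gr n) :
    ∑ i : Fin 3, TR.rowSum (rw3 u G) i = ∑ i : Fin 3, outd u G (u i) + TR.colSum (rw3 u G) (u 0) := by
  rw [colS_eq_sum, ← Finset.sum_add_distrib]
  apply Finset.sum_congr rfl
  intro i _
  rw [rowS_split u hu, rw3_zero]
  by_cases h : adj G (u (i + 1)) (u (i + 2)) <;> simp [h]

theorem colS_zero_eq (u : Fin 3 → Fin n) (hu : Function.Injective u) (d : Fin n → ℕ) (G H : Gr n)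
    (hG : G ∈ realizations d) (hH : H ∈ realizations d) (h : G \ tch (T3 u) = H \ tch (T3 u)) :
    TR.colSum (rw3 u G) (u 0) = TR.colSum (rw3 u H) (u 0) := by
  have hs : ∑ i : Fin 3, outd u G (u i) = ∑ i : Fin 3, outd u H (u i) := by
    rw [sum_outd, sum_outd]
    apply Finset.sum_congr rfl
    intro w _
    by_cases hw : w ∈ T3 u
    · simp [hw]
    · simp only [hw, not_false_eq_true, if_true]
      exact colS_out_eq u hu d G H hG hH h w hw
  have g1 := sum_rowS u hu G
  have g2 := sum_rowS u hu H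
  have a0 := deg_in u hu G 0
  have a1 := deg_in u hu G 1
  have a2 := deg_in u hu G 2
  have b0 := deg_in u hu H 0
  have b1 := deg_in u hu H 1
  have b2 := deg_in u hu H 2
  rw [(mem_realizations d G).1 hG] at a0 a1 a2
  rw [(mem_realizations d H).1 hH] at b0 b1 b2
  rw [Fin.sum_univ_three] at g1 g2
  omega

theorem colS_eq (u : Fin 3 → Fin n) (hu : Function.Injective u) (d : Fin n → ℕ) (G H : Gr n)
    (hG : G ∈ realizations d) (hH : H ∈ realizations d) (h : G \ tch (T3 u) = H \ tch (T3 u))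
    (w : Fin n) : TR.colSum (rw3 u G) w = TR.colSum (rw3 u H) w := by
  by_cases hw : w ∈ T3 u
  · by_cases h0 : w = u 0
    · rw [h0]; exact colS_zero_eq u hu d G H hG hH h
    · rw [colS_in u G w hw h0, colS_in u H w hw h0]
  · exact colS_out_eq u hu d G H hG hH h w hw

theorem rowS_eq (u : Fin 3 → Fin n) (hu : Function.Injective u) (d : Fin n → ℕ) (G H : Gr n)
    (hG : G ∈ realizations d) (hH : H ∈ realizations d) (h : G \ tch (T3 u) = H \ tch (T3 u))
    (i : Fin 3) : TR.rowSum (rw3 u G) i = TR.rowSum (rw3 u H) i := by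
  have a := deg_in u hu G i
  have b := deg_in u hu H i
  rw [(mem_realizations d G).1 hG] at a
  rw [(mem_realizations d H).1 hH] at b
  have c := colS_zero_eq u hu d G H hG hH h
  omega

/-! ### (B1) injectivity -/

theorem fin3_cases (i j : Fin 3) (h : i ≠ j) : j = i + 1 ∨ j = i + 2 := by
  revert i j; decide

theorem fin3_a (i : Fin 3) : i + 2 + 1 = i := by revert i; decide
theorem fin3_b (i : Fin 3) : i + 2 + 2 = i + 1 := by revert i; decide
theorem fin3_c (i : Fin 3) : i + 1 + 1 = i + 2 := by revert i; decide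
theorem fin3_d (i : Fin 3) : i + 1 + 2 = i := by revert i; decide

theorem rw3_injOn (u : Fin 3 → Fin n) (G H : Gr n) (h : G \ tch (T3 u) = H \ tch (T3 u))
    (hr : rw3 u G = rw3 u H) : G = H := by
  have hout : ∀ i w, w ∉ T3 u → (adj G (u i) w ↔ adj H (u i) w) := by
    intro i w hw
    have := congrFun (congrFun hr i) w
    rw [rw3_out u G i w hw, rw3_out u H i w hw] at this
    simpa using this
  have hin : ∀ i, (adj G (u (i + 1)) (u (i + 2)) ↔ adj H (u (i + 1)) (u (i + 2))) := by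
    intro i
    have := congrFun (congrFun hr i) (u 0)
    rw [rw3_zero, rw3_zero] at this
    simpa using this
  have hin2 : ∀ i j, (adj G (u i) (u j) ↔ adj H (u i) (u j)) := by
    intro i j
    by_cases hij : i = j
    · subst hij
      exact ⟨fun h => absurd h (not_adj_self _ _), fun h => absurd h (not_adj_self _ _)⟩
    · rcases fin3_cases i j hij with rfl | rfl
      · have := hin (i + 2)
        rwa [fin3_a, fin3_b] at this
      · have := hin (i + 1)
        rw [fin3_c, fin3_d] at this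
        rw [adj_comm G, adj_comm H]
        exact this
  apply gr_ext
  intro a b
  by_cases ha : a ∈ T3 u
  · obtain ⟨i, rfl⟩ := (mem_T3 u a).1 ha
    by_cases hb : b ∈ T3 u
    · obtain ⟨j, rfl⟩ := (mem_T3 u b).1 hb
      exact hin2 i j
    · exact hout i b hb
  · by_cases hb : b ∈ T3 u
    · obtain ⟨j, rfl⟩ := (mem_T3 u b).1 hb
      rw [adj_comm G, adj_comm H]
      exact hout j a ha
    · exact (sdiff_tch_eq_iff G H (T3 u)).1 h a b ha hb

/-! ### (B2) the inverse map -/

/-- adjacency relation of the graph rebuilt from the matrix `x` and the outside of `G0` -/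
def rel (u : Fin 3 → Fin n) (G0 : Gr n) (x : Fin 3 → Fin n → Bool) (a b : Fin n) : Prop :=
  (a ∉ T3 u ∧ b ∉ T3 u ∧ adj G0 a b) ∨
  (∃ i, a = u i ∧ b ∉ T3 u ∧ x i b = true) ∨
  (∃ i, b = u i ∧ a ∉ T3 u ∧ x i a = true) ∨
  (∃ i, ((a = u (i + 1) ∧ b = u (i + 2)) ∨ (a = u (i + 2) ∧ b = u (i + 1))) ∧ x i (u 0) = false)

instance (u : Fin 3 → Fin n) (G0 : Gr n) (x : Fin 3 → Fin n → Bool) : DecidableRel (rel u G0 x) :=
  fun a b => by unfold rel; infer_instance

theorem rel_symm (u : Fin 3 → Fin n) (G0 : Gr n) (x : Fin 3 → Fin n → Bool) (a b : Fin n)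
    (h : rel u G0 x a b) : rel u G0 x b a := by
  rcases h with ⟨h1, h2, h3⟩ | h | h | ⟨i, h1 | h1, h2⟩
  · exact Or.inl ⟨h2, h1, (adj_comm _ _ _).1 h3⟩
  · exact Or.inr (Or.inr (Or.inl h))
  · exact Or.inr (Or.inl h)
  · exact Or.inr (Or.inr (Or.inr ⟨i, Or.inr ⟨h1.2, h1.1⟩, h2⟩))
  · exact Or.inr (Or.inr (Or.inr ⟨i, Or.inl ⟨h1.2, h1.1⟩, h2⟩))

/-- the graph rebuilt from `x` -/
def mk3 (u : Fin 3 → Fin n) (G0 : Gr n) (x : Fin 3 → Fin n → Bool) : Gr n := ofAdj (rel u G0 x)

theorem adj_mk3 (u : Fin 3 → Fin n) (G0 : Gr n) (x : Fin 3 → Fin n → Bool) (a b : Fin n) :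
    adj (mk3 u G0 x) a b ↔ a ≠ b ∧ rel u G0 x a b :=
  adj_ofAdj _ (rel_symm u G0 x) a b

theorem adj_mk3_out (u : Fin 3 → Fin n) (G0 : Gr n) (x : Fin 3 → Fin n → Bool) (a b : Fin n)
    (ha : a ∉ T3 u) (hb : b ∉ T3 u) : adj (mk3 u G0 x) a b ↔ adj G0 a b := by
  rw [adj_mk3]
  constructor
  · rintro ⟨-, ⟨-, -, h3⟩ | ⟨i, h1, -⟩ | ⟨i, h1, -⟩ | ⟨i, h1 | h1, -⟩⟩
    · exact h3
    · exact absurd (h1 ▸ u_mem_T3 u i) ha
    · exact absurd (h1 ▸ u_mem_T3 u i) hb
    · exact absurd (h1.1 ▸ u_mem_T3 u _) ha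
    · exact absurd (h1.1 ▸ u_mem_T3 u _) ha
  · intro h
    exact ⟨adj_ne h, Or.inl ⟨ha, hb, h⟩⟩

theorem adj_mk3_mid (u : Fin 3 → Fin n) (hu : Function.Injective u) (G0 : Gr n)
    (x : Fin 3 → Fin n → Bool) (i : Fin 3) (b : Fin n) (hb : b ∉ T3 u) :
    adj (mk3 u G0 x) (u i) b ↔ x i b = true := by
  rw [adj_mk3]
  constructor
  · rintro ⟨-, ⟨h1, -, -⟩ | ⟨j, h1, -, h3⟩ | ⟨j, h1, -⟩ | ⟨j, h1 | h1, -⟩⟩
    · exact absurd (u_mem_T3 u i) h1
    · rw [hu h1]; exact h3
    · exact absurd (h1 ▸ u_mem_T3 u j) hb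
    · exact absurd (h1.2 ▸ u_mem_T3 u _) hb
    · exact absurd (h1.2 ▸ u_mem_T3 u _) hb
  · intro h
    refine ⟨fun he => hb (he ▸ u_mem_T3 u i), Or.inr (Or.inl ⟨i, rfl, hb, h⟩)⟩

theorem fin3_e (i j : Fin 3) (h1 : i + 1 = j + 1) : i = j := by
  revert i j; decide
theorem fin3_f (i j : Fin 3) (h1 : i + 1 = j + 2) (h2 : i + 2 = j + 1) : False := by
  revert i j; decide
theorem fin3_g (i : Fin 3) : i + 1 ≠ i + 2 := by
  revert i; decide

theorem adj_mk3_in (u : Fin 3 → Fin n) (hu : Function.Injective u) (G0 : Gr n)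
    (x : Fin 3 → Fin n → Bool) (i : Fin 3) :
    adj (mk3 u G0 x) (u (i + 1)) (u (i + 2)) ↔ x i (u 0) = false := by
  rw [adj_mk3]
  constructor
  · rintro ⟨-, ⟨h1, -, -⟩ | ⟨j, -, h2, -⟩ | ⟨j, -, h2, -⟩ | ⟨j, h1 | h1, h2⟩⟩
    · exact absurd (u_mem_T3 u _) h1
    · exact absurd (u_mem_T3 u _) h2
    · exact absurd (u_mem_T3 u _) h2
    · rw [fin3_e i j (hu h1.1)]; exact h2
    · exact absurd (fin3_f i j (hu h1.1) (hu h1.2)) id
  · intro h
    exact ⟨fun he => fin3_g i (hu he), Or.inr (Or.inr (Or.inr ⟨i, Or.inl ⟨rfl, rfl⟩, h⟩))⟩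

theorem mk3_sdiff (u : Fin 3 → Fin n) (G0 : Gr n) (x : Fin 3 → Fin n → Bool) :
    mk3 u G0 x \ tch (T3 u) = G0 \ tch (T3 u) :=
  (sdiff_tch_eq_iff _ _ _).2 fun a b ha hb => adj_mk3_out u G0 x a b ha hb

/-- `rw3 (mk3 x) = x` as soon as the columns `u 1`, `u 2` of `x` vanish -/
theorem rw3_mk3 (u : Fin 3 → Fin n) (hu : Function.Injective u) (G0 : Gr n)
    (x : Fin 3 → Fin n → Bool) (hx : ∀ i w, w ∈ T3 u → w ≠ u 0 → x i w = false) :
    rw3 u (mk3 u G0 x) = x := by
  funext i w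
  by_cases h0 : w = u 0
  · subst h0
    rw [rw3_zero]
    have := adj_mk3_in u hu G0 x i
    cases hxi : x i (u 0)
    · simp [this, hxi]
    · simp [this, hxi]
  · by_cases hw : w ∈ T3 u
    · rw [rw3_in u _ i w hw h0, hx i w hw h0]
    · rw [rw3_out u _ i w hw]
      have := adj_mk3_mid u hu G0 x i w hw
      cases hxi : x i w
      · simp [this, hxi]
      · simp [this, hxi]

theorem col_false_of_colSum (x : Fin 3 → Fin n → Bool) (w : Fin n) (h : TR.colSum x w = 0)
    (i : Fin 3) : x i w = false := by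
  rw [TR.colSum, Finset.card_eq_zero, Finset.filter_eq_empty_iff] at h
  have := h (Finset.mem_univ i)
  simpa using this

/-- (B2), surjectivity -/
theorem mk3_spec (u : Fin 3 → Fin n) (hu : Function.Injective u) (d : Fin n → ℕ) (G0 : Gr n)
    (hG0 : G0 ∈ realizations d) (x : Fin 3 → Fin n → Bool)
    (hc : ∀ w, TR.colSum x w = TR.colSum (rw3 u G0) w)
    (hr : ∀ i, TR.rowSum x i = TR.rowSum (rw3 u G0) i) :
    mk3 u G0 x ∈ realizations d ∧ mk3 u G0 x \ tch (T3 u) = G0 \ tch (T3 u) ∧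
      rw3 u (mk3 u G0 x) = x := by
  have hx : ∀ i w, w ∈ T3 u → w ≠ u 0 → x i w = false := by
    intro i w hw h0
    apply col_false_of_colSum
    rw [hc, colS_in u G0 w hw h0]
  have h3 := rw3_mk3 u hu G0 x hx
  have h2 := mk3_sdiff u G0 x
  refine ⟨?_, h2, h3⟩
  rw [mem_realizations]
  intro v
  rw [← (mem_realizations d G0).1 hG0 v]
  by_cases hv : v ∈ T3 u
  · obtain ⟨i, rfl⟩ := (mem_T3 u v).1 hv
    have a := deg_in u hu (mk3 u G0 x) i
    have b := deg_in u hu G0 i
    rw [h3, hc, hr] at a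
    omega
  · have a := deg_out u hu (mk3 u G0 x) v hv
    have b := deg_out u hu G0 v hv
    rw [h3, hc, outd_congr u _ _ h2 v hv] at a
    omega

/-- (B1)+(B2): the triple fibre is in bijection with the margin class -/
theorem rw3_mem_X (u : Fin 3 → Fin n) (hu : Function.Injective u) (d : Fin n → ℕ) (G0 H : Gr n)
    (hG0 : G0 ∈ realizations d) (hH : H ∈ realizations d)
    (h : H \ tch (T3 u) = G0 \ tch (T3 u)) :
    rw3 u H ∈ TR.X (TR.colSum (rw3 u G0)) (TR.rowSum (rw3 u G0)) :=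
  TR.mem_X.2 ⟨fun w => colS_eq u hu d H G0 hH hG0 h w, fun i => rowS_eq u hu d H G0 hH hG0 h i⟩

theorem mk3_rw3 (u : Fin 3 → Fin n) (hu : Function.Injective u) (d : Fin n → ℕ) (G0 H : Gr n)
    (hG0 : G0 ∈ realizations d) (hH : H ∈ realizations d)
    (h : H \ tch (T3 u) = G0 \ tch (T3 u)) : mk3 u G0 (rw3 u H) = H := by
  have hm := TR.mem_X.1 (rw3_mem_X u hu d G0 H hG0 hH h)
  obtain ⟨-, h2, h3⟩ := mk3_spec u hu d G0 hG0 (rw3 u H) hm.1 hm.2
  exact rw3_injOn u _ _ (h2.trans h.symm) h3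

theorem image_rw3 (u : Fin 3 → Fin n) (hu : Function.Injective u) (d : Fin n → ℕ) (G0 : Gr n)
    (hG0 : G0 ∈ realizations d) :
    (blk d (tch (T3 u)) G0).image (rw3 u) =
      TR.X (TR.colSum (rw3 u G0)) (TR.rowSum (rw3 u G0)) := by
  ext x
  rw [Finset.mem_image]
  constructor
  · rintro ⟨H, hH, rfl⟩
    rw [mem_blk] at hH
    exact rw3_mem_X u hu d G0 H hG0 hH.1 hH.2
  · intro hx
    have hm := TR.mem_X.1 hx
    obtain ⟨h1, h2, h3⟩ := mk3_spec u hu d G0 hG0 x hm.1 hm.2
    exact ⟨mk3 u G0 x, mem_blk.2 ⟨h1, h2⟩, h3⟩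

theorem injOn_rw3 (u : Fin 3 → Fin n) (d : Fin n → ℕ) (G0 : Gr n) :
    Set.InjOn (rw3 u) (blk d (tch (T3 u)) G0 : Set (Gr n)) := by
  intro G hG H hH hr
  have hG' := mem_blk.1 (Finset.mem_coe.1 hG)
  have hH' := mem_blk.1 (Finset.mem_coe.1 hH)
  exact rw3_injOn u G H (hG'.2.trans hH'.2.symm) hr

/-! ### (B3') same pair block `↔` same row -/

theorem eq_u_of_mem (u : Fin 3 → Fin n) (i : Fin 3) (w : Fin n) (hw : w ∈ T3 u)
    (hP : w ∉ ({u (i + 1), u (i + 2)} : Finset (Fin n))) : w = u i := by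
  obtain ⟨j, rfl⟩ := (mem_T3 u w).1 hw
  by_cases hij : i = j
  · rw [hij]
  · exfalso
    apply hP
    rcases fin3_cases i j hij with rfl | rfl <;> simp

theorem fin3_h (i : Fin 3) : i ≠ i + 1 := by revert i; decide
theorem fin3_k (i : Fin 3) : i ≠ i + 2 := by revert i; decide

theorem u_not_mem_pair (u : Fin 3 → Fin n) (hu : Function.Injective u) (i : Fin 3) :
    u i ∉ ({u (i + 1), u (i + 2)} : Finset (Fin n)) := by
  intro h
  rw [Finset.mem_insert, Finset.mem_singleton] at h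
  rcases h with h | h
  · exact fin3_h i (hu h)
  · exact fin3_k i (hu h)

theorem pair_subset_T3 (u : Fin 3 → Fin n) (i : Fin 3) :
    ({u (i + 1), u (i + 2)} : Finset (Fin n)) ⊆ T3 u := by
  intro w hw
  rw [Finset.mem_insert, Finset.mem_singleton] at hw
  rcases hw with rfl | rfl <;> exact u_mem_T3 u _

theorem key_iff (u : Fin 3 → Fin n) (hu : Function.Injective u) (d : Fin n → ℕ) (G H : Gr n)
    (hG : G ∈ realizations d) (hH : H ∈ realizations d) (i : Fin 3) :
    H \ tch {u (i + 1), u (i + 2)} = G \ tch {u (i + 1), u (i + 2)} ↔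
      H \ tch (T3 u) = G \ tch (T3 u) ∧ rw3 u H i = rw3 u G i := by
  constructor
  · intro h
    have hP := (sdiff_tch_eq_iff H G _).1 h
    have hT : H \ tch (T3 u) = G \ tch (T3 u) := by
      rw [sdiff_tch_eq_iff]
      intro a b ha hb
      exact hP a b (fun h' => ha (pair_subset_T3 u i h')) (fun h' => hb (pair_subset_T3 u i h'))
    refine ⟨hT, ?_⟩
    have hout : ∀ w, w ∉ T3 u → (adj H (u i) w ↔ adj G (u i) w) := fun w hw =>
      hP (u i) w (u_not_mem_pair u hu i) (fun h' => hw (pair_subset_T3 u i h'))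
    funext w
    by_cases h0 : w = u 0
    · subst h0
      have r1 := rowS_split u hu H i
      have r2 := rowS_split u hu G i
      have r3 := rowS_eq u hu d H G hH hG hT i
      have r4 : outd u H (u i) = outd u G (u i) := by
        unfold outd
        apply congrArg
        apply Finset.filter_congr
        intro w _
        constructor
        · rintro ⟨h1, h2⟩; exact ⟨(hout w h2).1 h1, h2⟩
        · rintro ⟨h1, h2⟩; exact ⟨(hout w h2).2 h1, h2⟩
      rw [rw3_zero, rw3_zero]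
      by_cases a1 : adj H (u (i + 1)) (u (i + 2)) <;> by_cases a2 : adj G (u (i + 1)) (u (i + 2))
      · simp [a1, a2]
      · simp only [a1, a2, if_true, if_false] at r1 r2; omega
      · simp only [a1, a2, if_true, if_false] at r1 r2; omega
      · simp [a1, a2]
    · by_cases hw : w ∈ T3 u
      · rw [rw3_in u _ i w hw h0, rw3_in u _ i w hw h0]
      · rw [rw3_out u _ i w hw, rw3_out u _ i w hw]
        simp [hout w hw]
  · rintro ⟨hT, hr⟩
    have hT' := (sdiff_tch_eq_iff H G _).1 hT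
    have hout : ∀ w, w ∉ T3 u → (adj H (u i) w ↔ adj G (u i) w) := by
      intro w hw
      have := congrFun hr w
      rw [rw3_out u H i w hw, rw3_out u G i w hw] at this
      simpa using this
    rw [sdiff_tch_eq_iff]
    intro a b ha hb
    by_cases haT : a ∈ T3 u
    · have ea := eq_u_of_mem u i a haT ha
      by_cases hbT : b ∈ T3 u
      · have eb := eq_u_of_mem u i b hbT hb
        rw [ea, eb]
        exact ⟨fun h => absurd h (not_adj_self _ _), fun h => absurd h (not_adj_self _ _)⟩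
      · rw [ea]; exact hout b hbT
    · by_cases hbT : b ∈ T3 u
      · have eb := eq_u_of_mem u i b hbT hb
        rw [eb, adj_comm H, adj_comm G]; exact hout a haT
      · exact hT' a b haT hbT

end Crest.Agent.R299.B3
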