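import Crest.Agent.R299.Bridge3
import Crest.Agent.R299.Bridge3Rows

/-!
# R299 (S0453): (I1) the 3-vertex cluster inequality on `realizations d`
from the abstract 3-row inequality `B3.ThreeRowQ (Fin n)` (`= TR.three_row`).
-/

set_option autoImplicit false
open Finset
open Crest.SwitchChain

namespace Crest.Agent.R299

namespace B3

variable {n : ℕ}

/-- (I1), tuple form. -/
theorem tri_tuple (hQ : ThreeRowQ (Fin n)) (d : Fin n → ℕ) (u : Fin 3 → Fin n)
    (hu : Function.Injective u) (f : Gr n → ℝ) :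
    ∑ G ∈ realizations d, f G * ∑ i, DB d (tch (opp u i)) f G ≤
      ∑ G ∈ realizations d, (∑ i, DB d (tch (opp u i)) f G) ^ 2 := by
  refine tri_of_rows d u (rw3 u) hQ ?_ ?_ f
  · intro G₀ hG₀
    exact ⟨_, _, injOn_rw3 u d G₀, image_rw3 u hu d G₀ hG₀⟩
  · intro G₀ _ G hG H hH i
    have hG' := mem_blk.1 hG
    have hH' := mem_blk.1 hH
    have h := key_iff u hu d G H hG'.1 hH'.1 i
    constructor
    · intro h1
      exact (h.1 h1).2
    · intro h1
      exact h.2 ⟨hH'.2.trans hG'.2.symm, h1⟩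

/-- (I1), `Finset` form (the hypothesis `I1` of `poinc_of_pieces` / `h3` of `caputo_sq_ge`). -/
theorem tri_finset (hQ : ThreeRowQ (Fin n)) (d : Fin n → ℕ) (T : Finset (Fin n))
    (hT : T.card = 3) (f : Gr n → ℝ) :
    ∑ G ∈ realizations d, f G * (∑ b ∈ T.powersetCard 2, DB d (tch b) f G) ≤
      ∑ G ∈ realizations d, (∑ b ∈ T.powersetCard 2, DB d (tch b) f G) ^ 2 := by
  obtain ⟨x, y, z, hxy, hxz, hyz, rfl⟩ := card_eq_three.1 hT
  set u : Fin 3 → Fin n := ![x, y, z] with hu_def
  have hu : Function.Injective u := by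
    intro i j hij
    fin_cases i <;> fin_cases j <;> simp_all
  have himg : ({x, y, z} : Finset (Fin n)) = univ.image u := by
    ext v
    simp only [mem_image, mem_univ, true_and, mem_insert, mem_singleton]
    constructor
    · rintro (rfl | rfl | rfl)
      exacts [⟨0, rfl⟩, ⟨1, rfl⟩, ⟨2, rfl⟩]
    · rintro ⟨i, rfl⟩
      fin_cases i <;> simp [hu_def]
  rw [himg]
  have h := tri_tuple hQ d u hu f
  simpa only [sum_powersetCard_two u hu (fun b => DB d (tch b) f _)] using h

end B3

end Crest.Agent.R299
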