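import Crest.Agent.R299.Avg

/-!
# R299 (S0453): model-agnostic transport of the 3-block inequality

If every class of a coarse key `k3` on `Ω` is in bijection with a model `Y` (with keys `kY u`)
such that the three finer keys `k u` correspond to the keys `kY u` of the model, then the inequality
`⟨f, h f⟩ ≤ ‖h f‖²`, `h f = ∑_u (f - Av_u f)`, passes from the models to `Ω`.
-/

set_option autoImplicit false
open Finset

namespace Crest.Agent.R299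

namespace Tr3

variable {α β κ₃ κ κ' : Type*} [DecidableEq κ₃] [DecidableEq κ] [DecidableEq κ']

/-- transport of one average through a bijection of classes -/
theorem Av_transport (Ω : Finset α) (k : α → κ) (Y : Finset β) (kY : β → κ')
    (Φ : α → β) (Ψ : β → α) (x : β)
    (h1 : ∀ H ∈ cls Ω k (Ψ x), Φ H ∈ cls Y kY x ∧ Ψ (Φ H) = H)
    (h2 : ∀ y ∈ cls Y kY x, Ψ y ∈ cls Ω k (Ψ x) ∧ Φ (Ψ y) = y)
    (f : α → ℝ) : Av Ω k f (Ψ x) = Av Y kY (fun y => f (Ψ y)) x := by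
  unfold Av
  have hs : ∀ g : α → ℝ, ∑ b ∈ cls Ω k (Ψ x), g b = ∑ y ∈ cls Y kY x, g (Ψ y) := by
    intro g
    refine Finset.sum_nbij' Φ Ψ (fun H hH => (h1 H hH).1) (fun y hy => (h2 y hy).1)
      (fun H hH => (h1 H hH).2) (fun y hy => (h2 y hy).2) ?_
    intro H hH
    rw [(h1 H hH).2]
  have hc : ((cls Ω k (Ψ x)).card : ℝ) = ((cls Y kY x).card : ℝ) := by
    have := hs (fun _ => 1)
    simpa using this
  rw [hs f, hc]

end Tr3

open Tr3 in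
theorem transport3 {α β κ₃ κ κ' : Type*} [DecidableEq κ₃] [DecidableEq κ] [DecidableEq κ']
    (Ω : Finset α) (k3 : α → κ₃) (k : Fin 3 → α → κ) (kY : Fin 3 → β → κ')
    (hB : ∀ G₀ ∈ Ω, ∃ (Y : Finset β) (Φ : α → β) (Ψ : β → α),
      (∀ F : β → ℝ, ∑ x ∈ Y, F x * ∑ u, (F x - Av Y (kY u) F x) ≤
          ∑ x ∈ Y, (∑ u, (F x - Av Y (kY u) F x)) ^ 2) ∧
      (∀ H ∈ Ω, k3 H = k3 G₀ → Φ H ∈ Y ∧ Ψ (Φ H) = H) ∧
      (∀ x ∈ Y, Ψ x ∈ Ω ∧ k3 (Ψ x) = k3 G₀ ∧ Φ (Ψ x) = x) ∧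
      (∀ G ∈ Ω, ∀ H ∈ Ω, k3 G = k3 G₀ → ∀ u,
        (k u H = k u G ↔ k3 H = k3 G₀ ∧ kY u (Φ H) = kY u (Φ G))))
    (f : α → ℝ) :
    ∑ G ∈ Ω, f G * ∑ u, (f G - Av Ω (k u) f G) ≤ ∑ G ∈ Ω, (∑ u, (f G - Av Ω (k u) f G)) ^ 2 := by
  classical
  rw [← Finset.sum_fiberwise_of_maps_to (s := Ω) (t := Ω.image k3) (g := k3)
      (fun G hG => mem_image_of_mem _ hG),
    ← Finset.sum_fiberwise_of_maps_to (s := Ω) (t := Ω.image k3) (g := k3)
      (fun G hG => mem_image_of_mem _ hG) (f := fun G => (∑ u, (f G - Av Ω (k u) f G)) ^ 2)]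
  apply Finset.sum_le_sum
  intro c hc
  obtain ⟨G₀, hG₀, rfl⟩ := mem_image.1 hc
  obtain ⟨Y, Φ, Ψ, hQ, hΦ, hΨ, hk⟩ := hB G₀ hG₀
  -- transport sums over the class to sums over `Y`
  have hs : ∀ g : α → ℝ, ∑ G ∈ Ω.filter (fun G => k3 G = k3 G₀), g G = ∑ x ∈ Y, g (Ψ x) := by
    intro g
    refine Finset.sum_nbij' Φ Ψ ?_ ?_ ?_ ?_ ?_
    · intro H hH
      rw [mem_filter] at hH
      exact (hΦ H hH.1 hH.2).1
    · intro x hx
      rw [mem_filter]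
      exact ⟨(hΨ x hx).1, (hΨ x hx).2.1⟩
    · intro H hH
      rw [mem_filter] at hH
      exact (hΦ H hH.1 hH.2).2
    · intro x hx
      exact (hΨ x hx).2.2
    · intro H hH
      rw [mem_filter] at hH
      rw [(hΦ H hH.1 hH.2).2]
  have hAv : ∀ x ∈ Y, ∀ u, Av Ω (k u) f (Ψ x) = Av Y (kY u) (fun y => f (Ψ y)) x := by
    intro x hx u
    apply Av_transport
    · intro H hH
      rw [mem_cls] at hH
      have h := (hk (Ψ x) (hΨ x hx).1 H hH.1 (hΨ x hx).2.1 u).1 hH.2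
      rw [(hΨ x hx).2.2] at h
      exact ⟨(mem_cls _ _).2 ⟨(hΦ H hH.1 h.1).1, h.2⟩, (hΦ H hH.1 h.1).2⟩
    · intro y hy
      rw [mem_cls] at hy
      refine ⟨(mem_cls _ _).2 ⟨(hΨ y hy.1).1, ?_⟩, (hΨ y hy.1).2.2⟩
      apply (hk (Ψ x) (hΨ x hx).1 (Ψ y) (hΨ y hy.1).1 (hΨ x hx).2.1 u).2
      rw [(hΨ x hx).2.2, (hΨ y hy.1).2.2]
      exact ⟨(hΨ y hy.1).2.1, hy.2⟩
  rw [hs, hs]
  calc ∑ x ∈ Y, f (Ψ x) * ∑ u, (f (Ψ x) - Av Ω (k u) f (Ψ x))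
      = ∑ x ∈ Y, f (Ψ x) * ∑ u, (f (Ψ x) - Av Y (kY u) (fun y => f (Ψ y)) x) := by
        apply Finset.sum_congr rfl
        intro x hx
        congr 1
        apply Finset.sum_congr rfl
        intro u _
        rw [hAv x hx u]
    _ ≤ ∑ x ∈ Y, (∑ u, (f (Ψ x) - Av Y (kY u) (fun y => f (Ψ y)) x)) ^ 2 :=
        hQ (fun y => f (Ψ y))
    _ = ∑ x ∈ Y, (∑ u, (f (Ψ x) - Av Ω (k u) f (Ψ x))) ^ 2 := by
        apply Finset.sum_congr rfl
        intro x hx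
        congr 1
        apply Finset.sum_congr rfl
        intro u _
        rw [hAv x hx u]

end Crest.Agent.R299
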