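import Crest.Agent.R299.Bridge3Rows
import Crest.Agent.R299.Transport3

/-!
# R299 (S0453): the 3-vertex cluster inequality (I1), from the abstract 3-row lemma
-/

set_option autoImplicit false
open Finset
open Crest.SwitchChain

namespace Crest.Agent.R299.B3I

open Crest.Agent.R299.B3

variable {n : ℕ}

/-- the abstract 3-row lemma, as a proposition (`TR.three_row`) -/
def ThreeRowStmt (n : ℕ) : Prop :=
  ∀ (ρ : Fin n → ℕ) (r : Fin 3 → ℕ) (F : TR.Mat (Fin n) → ℝ),
    ip (TR.X ρ r) F (TR.K ρ r F) ≤ ip (TR.X ρ r) (TR.K ρ r F) (TR.K ρ r F)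

/-- (I1), tuple form -/
theorem bridge_tuple (d : Fin n → ℕ) (hQ : ThreeRowStmt n)
    (u : Fin 3 → Fin n) (hu : Function.Injective u) (f : Gr n → ℝ) :
    ∑ G ∈ realizations d, f G * ∑ i : Fin 3, DB d (tch {u (i + 1), u (i + 2)}) f G ≤
      ∑ G ∈ realizations d, (∑ i : Fin 3, DB d (tch {u (i + 1), u (i + 2)}) f G) ^ 2 := by
  refine transport3 (realizations d) (fun G : Gr n => G \ tch (T3 u))
    (fun (i : Fin 3) (G : Gr n) => G \ tch {u (i + 1), u (i + 2)})
    (fun (i : Fin 3) (y : TR.Mat (Fin n)) => y i) ?_ f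
  intro G₀ hG₀
  refine ⟨TR.X (TR.colSum (rw3 u G₀)) (TR.rowSum (rw3 u G₀)), rw3 u, mk3 u G₀, ?_, ?_, ?_, ?_⟩
  · intro F
    have h := hQ (TR.colSum (rw3 u G₀)) (TR.rowSum (rw3 u G₀)) F
    unfold ip TR.K TR.P at h
    simpa only [sq] using h
  · intro H hH h
    exact ⟨rw3_mem_X u hu d G₀ H hG₀ hH h, mk3_rw3 u hu d G₀ H hG₀ hH h⟩
  · intro x hx
    have hm := TR.mem_X.1 hx
    exact mk3_spec u hu d G₀ hG₀ x hm.1 hm.2
  · intro G hG H hH h i
    have := key_iff u hu d G H hG hH i
    rw [this, h]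

theorem pair_inj (u : Fin 3 → Fin n) (hu : Function.Injective u) :
    Function.Injective (fun i : Fin 3 => ({u (i + 1), u (i + 2)} : Finset (Fin n))) := by
  intro i j h
  by_contra hij
  apply u_not_mem_pair u hu i
  simp only at h
  rw [h]
  rcases fin3_cases j i (fun e => hij e.symm) with e | e <;> rw [e] <;> simp

theorem powersetCard_T3 (u : Fin 3 → Fin n) (hu : Function.Injective u) :
    (T3 u).powersetCard 2 =
      univ.image (fun i : Fin 3 => ({u (i + 1), u (i + 2)} : Finset (Fin n))) := by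
  symm
  apply Finset.eq_of_subset_of_card_le
  · intro s hs
    obtain ⟨i, -, rfl⟩ := Finset.mem_image.1 hs
    rw [Finset.mem_powersetCard]
    exact ⟨pair_subset_T3 u i, Finset.card_pair (fun e => fin3_g i (hu e))⟩
  · rw [Finset.card_powersetCard, Finset.card_image_of_injective _ (pair_inj u hu), T3,
      Finset.card_image_of_injective _ hu]
    simp

/-- (I1), Finset form (hypothesis `h3` of `caputo_sq_ge`) -/
theorem bridge_finset (d : Fin n → ℕ) (hQ : ThreeRowStmt n) (T : Finset (Fin n))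
    (hT : T.card = 3) (f : Gr n → ℝ) :
    ∑ G ∈ realizations d, f G * ∑ b ∈ T.powersetCard 2, DB d (tch b) f G ≤
      ∑ G ∈ realizations d, (∑ b ∈ T.powersetCard 2, DB d (tch b) f G) ^ 2 := by
  obtain ⟨a, b, c, hab, hac, hbc, rfl⟩ := Finset.card_eq_three.1 hT
  set u : Fin 3 → Fin n := ![a, b, c] with hu_def
  have hu : Function.Injective u := by
    intro i j h
    fin_cases i <;> fin_cases j <;> simp_all
  have hT3 : ({a, b, c} : Finset (Fin n)) = T3 u := by
    ext w
    rw [mem_T3]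
    simp only [Finset.mem_insert, Finset.mem_singleton, hu_def]
    constructor
    · rintro (rfl | rfl | rfl)
      · exact ⟨0, rfl⟩
      · exact ⟨1, rfl⟩
      · exact ⟨2, rfl⟩
    · rintro ⟨i, rfl⟩
      fin_cases i <;> simp
  have hsum : ∀ g : Finset (Fin n) → ℝ, ∑ b ∈ (T3 u).powersetCard 2, g b =
      ∑ i : Fin 3, g {u (i + 1), u (i + 2)} := by
    intro g
    rw [powersetCard_T3 u hu, Finset.sum_image (fun i _ j _ h => pair_inj u hu h)]
  rw [hT3]
  simp only [hsum]
  exact bridge_tuple d hQ u hu f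

end Crest.Agent.R299.B3I
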