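import Crest.Agent.R299.Spectral

/-!
# R299: the abstract Caputo / Bochner assembly

`K = ∑_b D_b` (pairs `b` of a finite vertex type `V`), `D_b` symmetric idempotent.  If
* every triple cluster satisfies `⟨f, h_T f⟩ ≤ ‖h_T f‖²`,
* the disjoint cross terms satisfy the local bound `Q - X/2 - X'/2` and `∑_{b'} X ≤ ∑_{b'} Q`,
then `⟨f, K f⟩ ≤ ‖K f‖²`.
-/

set_option autoImplicit false
open Finset

namespace Crest.Agent.R299

section Comb
variable {V : Type*} [Fintype V] [DecidableEq V]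

/-- the pairs of `V` -/
abbrev P2 (V : Type*) [Fintype V] : Finset (Finset V) := (univ : Finset V).powersetCard 2
/-- the triples of `V` -/
abbrev P3 (V : Type*) [Fintype V] : Finset (Finset V) := (univ : Finset V).powersetCard 3

theorem mem_P2 {b : Finset V} : b ∈ P2 V ↔ b.card = 2 := by
  simp [P2, Finset.mem_powersetCard]

theorem mem_P3 {b : Finset V} : b ∈ P3 V ↔ b.card = 3 := by
  simp [P3, Finset.mem_powersetCard]

theorem pair_tri (b b' : Finset V) (hb : b.card = 2) (hb' : b'.card = 2) :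
    (b' = b ∧ ¬ (b ∪ b').card = 3 ∧ ¬ Disjoint b b') ∨
    (b' ≠ b ∧ (b ∪ b').card = 3 ∧ ¬ Disjoint b b') ∨
    (b' ≠ b ∧ ¬ (b ∪ b').card = 3 ∧ Disjoint b b') := by
  have h := Finset.card_union_add_card_inter b b'
  rw [hb, hb'] at h
  have hle : (b ∩ b').card ≤ 2 := hb ▸ Finset.card_le_card Finset.inter_subset_left
  have hdis : Disjoint b b' ↔ (b ∩ b').card = 0 := by
    rw [Finset.card_eq_zero, Finset.disjoint_iff_inter_eq_empty]
  have heq : b' = b ↔ (b ∩ b').card = 2 := by
    constructor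
    · intro h; subst h; simp [hb']
    · intro h2
      have h1 : b ∩ b' = b := Finset.eq_of_subset_of_card_le Finset.inter_subset_left (by omega)
      have h3 : b ∩ b' = b' := Finset.eq_of_subset_of_card_le Finset.inter_subset_right (by omega)
      rw [← h3, h1]
  simp only [hdis, heq, ne_eq]
  generalize (b ∪ b').card = x at *
  generalize (b ∩ b').card = y at *
  omega

/-- splitting of a double sum over pairs -/
theorem pair_sum_split (c : Finset V → Finset V → ℝ) :
    ∑ b ∈ P2 V, ∑ b' ∈ P2 V, c b b' =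
      ∑ b ∈ P2 V, c b b
      + ∑ T ∈ P3 V, ∑ b ∈ T.powersetCard 2, ∑ b' ∈ (T.powersetCard 2).erase b, c b b'
      + ∑ b ∈ P2 V, ∑ b' ∈ (P2 V).filter (fun b' => Disjoint b b'), c b b' := by
  classical
  -- the triple part
  have hT : ∑ T ∈ P3 V, ∑ b ∈ T.powersetCard 2, ∑ b' ∈ (T.powersetCard 2).erase b, c b b' =
      ∑ b ∈ P2 V, ∑ b' ∈ P2 V, if (b ∪ b').card = 3 then c b b' else 0 := by
    have h1 : ∀ T : Finset V, ∑ b ∈ T.powersetCard 2, ∑ b' ∈ (T.powersetCard 2).erase b, c b b' =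
        ∑ b ∈ P2 V, ∑ b' ∈ P2 V, if (b ⊆ T ∧ b' ⊆ T ∧ b' ≠ b) then c b b' else 0 := by
      intro T
      have e1 : T.powersetCard 2 = (P2 V).filter (fun b => b ⊆ T) := by
        ext b; simp [Finset.mem_powersetCard, and_comm]
      have e2 : ∀ b, (T.powersetCard 2).erase b = (P2 V).filter (fun b' => b' ⊆ T ∧ b' ≠ b) := by
        intro b; ext b'
        simp only [Finset.mem_erase, Finset.mem_powersetCard, Finset.mem_filter,
          Finset.subset_univ, true_and]
        tauto
      rw [e1, Finset.sum_filter]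
      refine Finset.sum_congr rfl fun b _ => ?_
      by_cases hb : b ⊆ T
      · rw [if_pos hb, ← e1, e2, Finset.sum_filter]
        refine Finset.sum_congr rfl fun b' _ => ?_
        simp [hb]
      · rw [if_neg hb]
        symm
        refine Finset.sum_eq_zero fun b' _ => ?_
        simp [hb]
    rw [Finset.sum_congr rfl (fun T _ => h1 T), Finset.sum_comm]
    refine Finset.sum_congr rfl fun b hb => ?_
    rw [Finset.sum_comm]
    refine Finset.sum_congr rfl fun b' hb' => ?_
    rw [mem_P2] at hb hb'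
    by_cases h3 : (b ∪ b').card = 3
    · rw [if_pos h3]
      have hne : b' ≠ b := by
        rcases pair_tri b b' hb hb' with h | h | h
        · exact absurd h3 h.2.1
        · exact h.1
        · exact h.1
      rw [Finset.sum_eq_single (b ∪ b')]
      · rw [if_pos ⟨Finset.subset_union_left, Finset.subset_union_right, hne⟩]
      · intro T hT hTne
        rw [if_neg]
        rintro ⟨h1, h2, _⟩
        apply hTne
        rw [mem_P3] at hT
        exact (Finset.eq_of_subset_of_card_le (Finset.union_subset h1 h2) (by omega)).symm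
      · intro h; exact absurd (mem_P3.2 h3) h
    · rw [if_neg h3]
      refine Finset.sum_eq_zero fun T hT => ?_
      rw [if_neg]
      rintro ⟨h1, h2, hne⟩
      rw [mem_P3] at hT
      have hle : (b ∪ b').card ≤ 3 := hT ▸ Finset.card_le_card (Finset.union_subset h1 h2)
      rcases pair_tri b b' hb hb' with h | h | h
      · exact hne h.1
      · exact h3 h.2.1
      · have := Finset.card_union_of_disjoint h.2.2
        omega
  rw [hT, ← Finset.sum_add_distrib, ← Finset.sum_add_distrib]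
  refine Finset.sum_congr rfl fun b hb => ?_
  rw [Finset.sum_filter]
  have hbb : c b b = ∑ b' ∈ P2 V, if b' = b then c b b' else 0 := by
    rw [Finset.sum_ite_eq' (P2 V) b (fun b' => c b b'), if_pos hb]
  rw [hbb, ← Finset.sum_add_distrib, ← Finset.sum_add_distrib]
  refine Finset.sum_congr rfl fun b' hb' => ?_
  rw [mem_P2] at hb hb'
  rcases pair_tri b b' hb hb' with h | h | h
  · rw [if_pos h.1, if_neg h.2.1, if_neg h.2.2]; ring
  · rw [if_neg h.1, if_pos h.2.1, if_neg h.2.2]; ring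
  · rw [if_neg h.1, if_neg h.2.1, if_pos h.2.2]; ring

end Comb

section Abstract
variable {α : Type*} {V : Type*} [Fintype V] [DecidableEq V]

/-- **Caputo's lemma with non-commuting disjoint pairs.** -/
theorem caputo_sq_ge (Ω : Finset α) (D : Finset V → (α → ℝ) → (α → ℝ))
    (Q X : Finset V → Finset V → (α → ℝ) → ℝ) (f : α → ℝ)
    (hproj : ∀ b ∈ P2 V, ∑ a ∈ Ω, D b f a * D b f a = ∑ a ∈ Ω, f a * D b f a)
    (h3 : ∀ T ∈ P3 V, ∑ a ∈ Ω, f a * (∑ b ∈ T.powersetCard 2, D b f a) ≤
        ∑ a ∈ Ω, (∑ b ∈ T.powersetCard 2, D b f a) ^ 2)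
    (h4 : ∀ b ∈ P2 V, ∀ b' ∈ P2 V, Disjoint b b' →
        Q b b' f - X b b' f / 2 - X b' b f / 2 ≤ ∑ a ∈ Ω, D b f a * D b' f a)
    (hX : ∀ b ∈ P2 V, ∑ b' ∈ (P2 V).filter (fun b' => Disjoint b b'), X b b' f ≤
        ∑ b' ∈ (P2 V).filter (fun b' => Disjoint b b'), Q b b' f) :
    ∑ a ∈ Ω, f a * (∑ b ∈ P2 V, D b f a) ≤ ∑ a ∈ Ω, (∑ b ∈ P2 V, D b f a) ^ 2 := by
  classical
  set c : Finset V → Finset V → ℝ := fun b b' => ∑ a ∈ Ω, D b f a * D b' f a with hc
  have hsq : ∀ s : Finset (Finset V), ∑ a ∈ Ω, (∑ b ∈ s, D b f a) ^ 2 =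
      ∑ b ∈ s, ∑ b' ∈ s, c b b' := by
    intro s
    simp only [hc]
    rw [Finset.sum_comm' (s := s) (t := fun _ => s) (t' := s) (s' := fun _ => s) (by simp)]
    have : ∀ b' ∈ s, ∑ b ∈ s, ∑ a ∈ Ω, D b f a * D b' f a =
        ∑ a ∈ Ω, ∑ b ∈ s, D b f a * D b' f a := fun b' _ => Finset.sum_comm
    rw [Finset.sum_congr rfl this, Finset.sum_comm]
    refine Finset.sum_congr rfl fun a _ => ?_
    rw [sq, Finset.sum_mul_sum, Finset.sum_comm]
  have hlin : ∀ s : Finset (Finset V), s ⊆ P2 V → ∑ a ∈ Ω, f a * (∑ b ∈ s, D b f a) =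
      ∑ b ∈ s, c b b := by
    intro s hs
    simp only [hc, Finset.mul_sum]
    rw [Finset.sum_comm]
    exact Finset.sum_congr rfl fun b hb => (hproj b (hs hb)).symm
  rw [hsq, hlin _ (Finset.Subset.refl _), pair_sum_split]
  -- triples
  have hTri : 0 ≤ ∑ T ∈ P3 V, ∑ b ∈ T.powersetCard 2, ∑ b' ∈ (T.powersetCard 2).erase b, c b b' := by
    refine Finset.sum_nonneg fun T hT => ?_
    have h := h3 T hT
    have hsub : T.powersetCard 2 ⊆ P2 V := Finset.powersetCard_mono (Finset.subset_univ _)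
    rw [hsq, hlin _ hsub] at h
    have : ∑ b ∈ T.powersetCard 2, ∑ b' ∈ T.powersetCard 2, c b b' =
        ∑ b ∈ T.powersetCard 2, c b b +
          ∑ b ∈ T.powersetCard 2, ∑ b' ∈ (T.powersetCard 2).erase b, c b b' := by
      rw [← Finset.sum_add_distrib]
      refine Finset.sum_congr rfl fun b hb => ?_
      rw [Finset.add_sum_erase _ _ hb]
    linarith
  -- disjoint pairs
  have hDis : 0 ≤ ∑ b ∈ P2 V, ∑ b' ∈ (P2 V).filter (fun b' => Disjoint b b'), c b b' := by
    have h1 : ∑ b ∈ P2 V, ∑ b' ∈ (P2 V).filter (fun b' => Disjoint b b'),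
        (Q b b' f - X b b' f / 2 - X b' b f / 2) ≤
        ∑ b ∈ P2 V, ∑ b' ∈ (P2 V).filter (fun b' => Disjoint b b'), c b b' := by
      refine Finset.sum_le_sum fun b hb => Finset.sum_le_sum fun b' hb' => ?_
      rw [Finset.mem_filter] at hb'
      exact h4 b hb b' hb'.1 hb'.2
    have hswap : ∑ b ∈ P2 V, ∑ b' ∈ (P2 V).filter (fun b' => Disjoint b b'), X b' b f =
        ∑ b ∈ P2 V, ∑ b' ∈ (P2 V).filter (fun b' => Disjoint b b'), X b b' f := by
      simp only [Finset.sum_filter]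
      rw [Finset.sum_comm]
      refine Finset.sum_congr rfl fun b _ => Finset.sum_congr rfl fun b' _ => ?_
      simp only [disjoint_comm]
    have h2 : ∑ b ∈ P2 V, ∑ b' ∈ (P2 V).filter (fun b' => Disjoint b b'),
        (Q b b' f - X b b' f / 2 - X b' b f / 2) =
        ∑ b ∈ P2 V, ∑ b' ∈ (P2 V).filter (fun b' => Disjoint b b'), Q b b' f -
        ∑ b ∈ P2 V, ∑ b' ∈ (P2 V).filter (fun b' => Disjoint b b'), X b b' f := by
      simp only [Finset.sum_sub_distrib, ← Finset.sum_div]
      rw [hswap]; ring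
    have h3' : ∑ b ∈ P2 V, ∑ b' ∈ (P2 V).filter (fun b' => Disjoint b b'), X b b' f ≤
        ∑ b ∈ P2 V, ∑ b' ∈ (P2 V).filter (fun b' => Disjoint b b'), Q b b' f :=
      Finset.sum_le_sum fun b hb => hX b hb
    linarith
  linarith

end Abstract

end Crest.Agent.R299
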