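import Crest.Agent.R299.Kernel

/-!
# R299 (S0453): adjacency API and switch connectivity of `realizations d`
-/

set_option autoImplicit false
open Finset
open Crest.SwitchChain

namespace Crest.Agent.R299

variable {n : ℕ}

/-- adjacency in the graph `G` -/
def adj (G : Gr n) (x y : Fin n) : Prop := ∃ h : x ≠ y, mkE x y h ∈ G

instance (G : Gr n) (x y : Fin n) : Decidable (adj G x y) := by
  unfold adj; infer_instance

theorem mkE_comm (x y : Fin n) (h : x ≠ y) : mkE x y h = mkE y x h.symm := by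
  rw [mkE_eq_iff]; right; exact ⟨rfl, rfl⟩

theorem adj_comm (G : Gr n) (x y : Fin n) : adj G x y ↔ adj G y x := by
  constructor
  · rintro ⟨h, hm⟩; exact ⟨h.symm, by rw [← mkE_comm]; exact hm⟩
  · rintro ⟨h, hm⟩; exact ⟨h.symm, by rw [← mkE_comm]; exact hm⟩

theorem adj_ne {G : Gr n} {x y : Fin n} (h : adj G x y) : x ≠ y := h.1

theorem adj_iff (G : Gr n) (x y : Fin n) (h : x ≠ y) : adj G x y ↔ mkE x y h ∈ G :=
  ⟨fun ⟨_, hm⟩ => hm, fun hm => ⟨h, hm⟩⟩

theorem gr_ext (G G' : Gr n) (h : ∀ x y, adj G x y ↔ adj G' x y) : G = G' := by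
  ext e
  obtain ⟨x, y, hxy, rfl⟩ := edge_exists e
  rw [← adj_iff, ← adj_iff]
  exact h x y

/-- neighbourhood -/
def nb (G : Gr n) (v : Fin n) : Finset (Fin n) := univ.filter fun c => adj G v c

@[simp] theorem mem_nb (G : Gr n) (v c : Fin n) : c ∈ nb G v ↔ adj G v c := by
  simp [nb]

theorem deg_eq_card_nb (G : Gr n) (v : Fin n) : deg G v = (nb G v).card := by
  unfold deg
  symm
  apply Finset.card_bij (fun c hc => mkE v c (adj_ne ((mem_nb G v c).1 hc)))
  · intro c hc
    rw [Finset.mem_filter]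
    exact ⟨((mem_nb G v c).1 hc).2, by simp⟩
  · intro c hc c' hc' h
    rw [mkE_eq_iff] at h
    rcases h with h | h
    · exact h.2
    · exact absurd h.2.symm (adj_ne ((mem_nb G v c).1 hc))
  · intro e he
    rw [Finset.mem_filter] at he
    obtain ⟨x, y, hxy, rfl⟩ := edge_exists e
    have hv := he.2
    rw [mem_mkE] at hv
    rcases hv with rfl | rfl
    · exact ⟨y, (mem_nb _ _ _).2 ⟨hxy, he.1⟩, rfl⟩
    · exact ⟨x, (mem_nb _ _ _).2 ⟨hxy.symm, by rw [← mkE_comm]; exact he.1⟩, (mkE_comm _ _ _).symm⟩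

/-- `G` and `G'` cannot be separated by a switch-invariant function. -/
def Conn (d : Fin n → ℕ) (G G' : Gr n) : Prop :=
  ∀ f : Gr n → ℝ, (∀ H ∈ realizations d, ∀ (S : Finset (Fin n)) (F F' : Gr n), F ∈ pmSet S →
    F' ∈ pmSet S → f (switchResult H F F') = f H) → f G = f G'

theorem Conn.refl (d : Fin n → ℕ) (G : Gr n) : Conn d G G := fun _ _ => rfl
theorem Conn.symm {d : Fin n → ℕ} {G G' : Gr n} (h : Conn d G G') : Conn d G' G :=
  fun f hf => (h f hf).symm
theorem Conn.trans {d : Fin n → ℕ} {G G' G'' : Gr n} (h : Conn d G G') (h' : Conn d G' G'') :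
    Conn d G G'' := fun f hf => (h f hf).trans (h' f hf)

/-- the two graphs agree on all slots touching `W` -/
def Agree (W : Finset (Fin n)) (G G' : Gr n) : Prop :=
  ∀ x y, x ∈ W → (adj G x y ↔ adj G' x y)

/-- size of the difference of the neighbourhoods of `k` -/
def nbDiff (k : Fin n) (G G' : Gr n) : ℕ := (nb G k \ nb G' k).card + (nb G' k \ nb G k).card

theorem nbDiff_comm (k : Fin n) (G G' : Gr n) : nbDiff k G G' = nbDiff k G' G := by
  unfold nbDiff; omega

/-- The elementary switch `ka, cb → kb, ca`. -/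
theorem switch_step (d : Fin n → ℕ) (W : Finset (Fin n)) (G G' : Gr n) (hG : G ∈ realizations d)
    (hag : Agree W G G') (k a b c : Fin n) (hkW : k ∉ W) (haW : a ∉ W) (hbW : b ∉ W) (hcW : c ∉ W)
    (hka : adj G k a) (hka' : ¬ adj G' k a) (hkb : ¬ adj G k b) (hkb' : adj G' k b)
    (hck : c ≠ k) (hca : c ≠ a) (hcb : adj G c b) (hca' : ¬ adj G c a) :
    ∃ G₁ ∈ realizations d, Conn d G G₁ ∧ Agree W G₁ G' ∧ nbDiff k G₁ G' < nbDiff k G G' := by
  have nka : k ≠ a := adj_ne hka
  have nkb : k ≠ b := adj_ne hkb'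
  have ncb : c ≠ b := adj_ne hcb
  have nab : a ≠ b := by rintro rfl; exact hkb hka
  set F : Gr n := {mkE k a nka, mkE c b ncb} with hF
  set F' : Gr n := {mkE k b nkb, mkE c a hca} with hF'
  have hFm : F ∈ pmSet ({k, a, c, b} : Finset (Fin n)) :=
    pm_mem k a c b nka hck.symm nkb hca.symm nab ncb
  have hS : ({k, b, c, a} : Finset (Fin n)) = {k, a, c, b} := by
    ext x; simp only [Finset.mem_insert, Finset.mem_singleton]; tauto
  have hFm' : F' ∈ pmSet ({k, a, c, b} : Finset (Fin n)) := by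
    rw [← hS]; exact pm_mem k b c a nkb hck.symm nka ncb.symm nab.symm hca
  have hsub : F ⊆ G := by
    intro e he
    simp only [hF, Finset.mem_insert, Finset.mem_singleton] at he
    rcases he with rfl | rfl
    · exact hka.2
    · exact hcb.2
  have hdis : Disjoint F' G := by
    rw [Finset.disjoint_left]
    intro e he heG
    simp only [hF', Finset.mem_insert, Finset.mem_singleton] at he
    rcases he with rfl | rfl
    · exact hkb ⟨_, heG⟩
    · exact hca' ⟨_, heG⟩
  have hres : switchResult G F F' = G \ F ∪ F' := by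
    unfold switchResult; rw [if_pos ⟨hsub, hdis⟩]
  have hadj : ∀ x y, adj (G \ F ∪ F') x y ↔
      (adj G x y ∧ ¬ (((x = k ∧ y = a) ∨ (x = a ∧ y = k)) ∨ ((x = c ∧ y = b) ∨ (x = b ∧ y = c)))) ∨
        (((x = k ∧ y = b) ∨ (x = b ∧ y = k)) ∨ ((x = c ∧ y = a) ∨ (x = a ∧ y = c))) := by
    intro x y
    by_cases hxy : x = y
    · subst hxy
      constructor
      · intro h; exact absurd rfl (adj_ne h)
      · rintro (⟨h, -⟩ | h)
        · exact absurd rfl (adj_ne h)
        · rcases h with (⟨h1, h2⟩ | ⟨h1, h2⟩) | (⟨h1, h2⟩ | ⟨h1, h2⟩)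
          · exact absurd (h1.symm.trans h2) nkb
          · exact absurd (h2.symm.trans h1) nkb
          · exact absurd (h1.symm.trans h2) hca
          · exact absurd (h2.symm.trans h1) hca
    · rw [adj_iff _ _ _ hxy, adj_iff _ _ _ hxy]
      simp only [hF, hF', Finset.mem_union, Finset.mem_sdiff, Finset.mem_insert,
        Finset.mem_singleton, mkE_eq_iff]
  refine ⟨G \ F ∪ F', ?_, ?_, ?_, ?_⟩
  · rw [← hres]; exact switchResult_mem d _ G F F' hFm hFm' hG
  · intro f hf
    rw [← hres]; exact (hf G hG _ F F' hFm hFm').symm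
  · intro x y hx
    rw [hadj, ← hag x y hx]
    have h1 : x ≠ k := fun h => hkW (h ▸ hx)
    have h2 : x ≠ a := fun h => haW (h ▸ hx)
    have h3 : x ≠ b := fun h => hbW (h ▸ hx)
    have h4 : x ≠ c := fun h => hcW (h ▸ hx)
    simp [h1, h2, h3, h4]
  · have hk : ∀ y, adj (G \ F ∪ F') k y ↔ (adj G k y ∧ y ≠ a) ∨ y = b := by
      intro y
      rw [hadj]
      simp [hck.symm, nka, nkb]
    unfold nbDiff
    have s1 : nb (G \ F ∪ F') k \ nb G' k ⊆ (nb G k \ nb G' k).erase a := by
      intro y hy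
      simp only [Finset.mem_sdiff, mem_nb, Finset.mem_erase, hk] at hy ⊢
      rcases hy with ⟨⟨h1, h2⟩ | rfl, h3⟩
      · exact ⟨h2, h1, h3⟩
      · exact absurd hkb' h3
    have s2 : nb G' k \ nb (G \ F ∪ F') k ⊆ nb G' k \ nb G k := by
      intro y hy
      simp only [Finset.mem_sdiff, mem_nb, hk] at hy ⊢
      refine ⟨hy.1, fun h => hy.2 (Or.inl ⟨h, ?_⟩)⟩
      rintro rfl
      exact hka' hy.1
    have ha : a ∈ nb G k \ nb G' k := by
      simp only [Finset.mem_sdiff, mem_nb]; exact ⟨hka, hka'⟩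
    have c1 := Finset.card_le_card s1
    have c2 := Finset.card_le_card s2
    have c3 := Finset.card_erase_add_one ha
    omega

/-- number of neighbours outside `W` -/
def rdeg (W : Finset (Fin n)) (G : Gr n) (v : Fin n) : ℕ := ((nb G v).filter fun c => c ∉ W).card

theorem rdeg_eq (d : Fin n → ℕ) (W : Finset (Fin n)) (G G' : Gr n) (hG : G ∈ realizations d)
    (hG' : G' ∈ realizations d) (hag : Agree W G G') (v : Fin n) : rdeg W G v = rdeg W G' v := by
  have h1 := Finset.card_filter_add_card_filter_not (s := nb G v) (fun c => c ∈ W)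
  have h2 := Finset.card_filter_add_card_filter_not (s := nb G' v) (fun c => c ∈ W)
  have h3 : (nb G v).filter (fun c => c ∈ W) = (nb G' v).filter (fun c => c ∈ W) := by
    ext c
    simp only [Finset.mem_filter, mem_nb]
    constructor
    · rintro ⟨h, hc⟩; exact ⟨(adj_comm _ _ _).1 ((hag c v hc).1 ((adj_comm _ _ _).1 h)), hc⟩
    · rintro ⟨h, hc⟩; exact ⟨(adj_comm _ _ _).1 ((hag c v hc).2 ((adj_comm _ _ _).1 h)), hc⟩
  have h4 : (nb G v).card = (nb G' v).card := by
    rw [← deg_eq_card_nb, ← deg_eq_card_nb, (mem_realizations d G).1 hG v,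
      (mem_realizations d G').1 hG' v]
  unfold rdeg
  rw [h3] at h1
  omega

theorem rdeg_lt_of_no_switch (W : Finset (Fin n)) (G : Gr n) (k a b : Fin n)
    (hkW : k ∉ W) (hka : adj G k a) (hkb : ¬ adj G k b) (nkb : k ≠ b)
    (haW : a ∉ W) (hbW : b ∉ W)
    (hno : ∀ c, c ∉ W → c ≠ k → c ≠ a → adj G c b → adj G c a) : rdeg W G b < rdeg W G a := by
  unfold rdeg
  set X := (nb G b).filter fun c => c ∉ W with hX
  set Y := (nb G a).filter fun c => c ∉ W with hY
  have hsub : X.erase a ⊆ (Y.erase b).erase k := by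
    intro c hc
    simp only [hX, hY, Finset.mem_erase, Finset.mem_filter, mem_nb] at hc ⊢
    obtain ⟨hca, hbc, hcW⟩ := hc
    have hck : c ≠ k := by
      rintro rfl; exact hkb ((adj_comm _ _ _).1 hbc)
    exact ⟨hck, (adj_ne hbc).symm, (adj_comm _ _ _).1 (hno c hcW hck hca ((adj_comm _ _ _).1 hbc)),
      hcW⟩
  have hk : k ∈ Y.erase b := by
    simp only [hY, Finset.mem_erase, Finset.mem_filter, mem_nb]
    exact ⟨nkb, (adj_comm _ _ _).1 hka, hkW⟩
  have c1 := Finset.card_le_card hsub
  have c2 := Finset.card_erase_add_one hk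
  by_cases hab : adj G a b
  · have ha : a ∈ X := by
      simp only [hX, Finset.mem_filter, mem_nb]; exact ⟨(adj_comm _ _ _).1 hab, haW⟩
    have hb : b ∈ Y := by
      simp only [hY, Finset.mem_filter, mem_nb]; exact ⟨hab, hbW⟩
    have c3 := Finset.card_erase_add_one ha
    have c4 := Finset.card_erase_add_one hb
    omega
  · have ha : a ∉ X := by
      simp only [hX, Finset.mem_filter, mem_nb]; exact fun h => hab ((adj_comm _ _ _).1 h.1)
    have hb : b ∉ Y := by
      simp only [hY, Finset.mem_filter, mem_nb]; exact fun h => hab h.1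
    rw [Finset.erase_eq_of_notMem ha] at c1
    rw [Finset.erase_eq_of_notMem hb] at c1 c2
    omega

theorem Agree.symm {W : Finset (Fin n)} {G G' : Gr n} (h : Agree W G G') : Agree W G' G :=
  fun x y hx => (h x y hx).symm

/-- inner induction: make the neighbourhoods of `k` agree. -/
theorem conn_of_agree_aux (d : Fin n → ℕ) (W : Finset (Fin n)) (k : Fin n) (hkW : k ∉ W)
    (ih : ∀ G ∈ realizations d, ∀ G' ∈ realizations d, Agree (insert k W) G G' → Conn d G G') :
    ∀ (m : ℕ), ∀ G ∈ realizations d, ∀ G' ∈ realizations d, Agree W G G' → nbDiff k G G' = m →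
      Conn d G G' := by
  intro m
  induction m using Nat.strong_induction_on with
  | _ m IH =>
    intro G hG G' hG' hag hm
    by_cases heq : nb G k = nb G' k
    · apply ih G hG G' hG'
      intro x y hx
      rw [Finset.mem_insert] at hx
      rcases hx with rfl | hx
      · rw [← mem_nb, ← mem_nb, heq]
      · exact hag x y hx
    · -- there are `a ∈ N_G(k) \ N_G'(k)` and `b ∈ N_G'(k) \ N_G(k)`
      have hcard : (nb G k).card = (nb G' k).card := by
        rw [← deg_eq_card_nb, ← deg_eq_card_nb, (mem_realizations d G).1 hG k,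
          (mem_realizations d G').1 hG' k]
      have h1 : ¬ nb G k ⊆ nb G' k := fun h => heq (Finset.eq_of_subset_of_card_le h hcard.ge)
      have h2 : ¬ nb G' k ⊆ nb G k := fun h => heq (Finset.eq_of_subset_of_card_le h hcard.le).symm
      rw [Finset.not_subset] at h1 h2
      obtain ⟨a, ha, ha'⟩ := h1
      obtain ⟨b, hb', hb⟩ := h2
      rw [mem_nb] at ha ha' hb hb'
      have haW : a ∉ W := fun h => ha' ((adj_comm _ _ _).1 ((hag a k h).1 ((adj_comm _ _ _).1 ha)))
      have hbW : b ∉ W := fun h => hb ((adj_comm _ _ _).1 ((hag b k h).2 ((adj_comm _ _ _).1 hb')))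
      by_cases hex : ∃ c, c ∉ W ∧ c ≠ k ∧ c ≠ a ∧ adj G c b ∧ ¬ adj G c a
      · obtain ⟨c, hcW, hck, hca, hcb, hca'⟩ := hex
        obtain ⟨G₁, hG₁, hc1, hag1, hlt⟩ := switch_step d W G G' hG hag k a b c hkW haW hbW hcW
          ha ha' hb hb' hck hca hcb hca'
        exact hc1.trans (IH _ (hm ▸ hlt) G₁ hG₁ G' hG' hag1 rfl)
      · by_cases hex' : ∃ c, c ∉ W ∧ c ≠ k ∧ c ≠ b ∧ adj G' c a ∧ ¬ adj G' c b
        · obtain ⟨c, hcW, hck, hcb, hca, hcb'⟩ := hex'
          obtain ⟨G₁, hG₁, hc1, hag1, hlt⟩ := switch_step d W G' G hG' hag.symm k b a c hkW hbW haW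
            hcW hb' hb ha' ha hck hcb hca hcb'
          rw [nbDiff_comm k G₁ G, nbDiff_comm k G' G] at hlt
          exact (IH _ (hm ▸ hlt) G hG G₁ hG₁ hag1.symm rfl).trans hc1.symm
        · exfalso
          push Not at hex hex'
          have l1 := rdeg_lt_of_no_switch W G k a b hkW ha hb (adj_ne hb') haW hbW hex
          have l2 := rdeg_lt_of_no_switch W G' k b a hkW hb' ha' (adj_ne ha) hbW haW hex'
          rw [rdeg_eq d W G G' hG hG' hag a, rdeg_eq d W G G' hG hG' hag b] at l1
          omega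

theorem conn_of_agree (d : Fin n → ℕ) : ∀ (m : ℕ) (W : Finset (Fin n)), (univ \ W).card = m →
    ∀ G ∈ realizations d, ∀ G' ∈ realizations d, Agree W G G' → Conn d G G' := by
  intro m
  induction m with
  | zero =>
    intro W hW G _ G' _ hag
    rw [Finset.card_eq_zero, Finset.sdiff_eq_empty_iff_subset] at hW
    have : G = G' := gr_ext G G' fun x y => hag x y (hW (Finset.mem_univ x))
    rw [this]; exact Conn.refl d G'
  | succ m IH =>
    intro W hW G hG G' hG' hag
    have hne : (univ \ W).Nonempty := by rw [← Finset.card_pos, hW]; exact Nat.succ_pos m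
    obtain ⟨k, hk⟩ := hne
    have hkW : k ∉ W := (Finset.mem_sdiff.1 hk).2
    have hcard : (univ \ insert k W).card = m := by
      have : univ \ insert k W = (univ \ W).erase k := by
        ext x; simp only [Finset.mem_sdiff, Finset.mem_univ, true_and, Finset.mem_insert,
          Finset.mem_erase, not_or]
      rw [this, Finset.card_erase_of_mem hk, hW]; rfl
    exact conn_of_agree_aux d W k hkW (IH (insert k W) hcard) _ G hG G' hG' hag rfl

/-- **Switch connectivity.** A function which is invariant under all switches inside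
`realizations d` is constant on `realizations d`. -/
theorem switch_connected (d : Fin n → ℕ) (f : Gr n → ℝ)
    (hinv : ∀ H ∈ realizations d, ∀ (S : Finset (Fin n)) (F F' : Gr n), F ∈ pmSet S →
      F' ∈ pmSet S → f (switchResult H F F') = f H) :
    ∀ G ∈ realizations d, ∀ G' ∈ realizations d, f G = f G' := by
  intro G hG G' hG'
  exact conn_of_agree d _ ∅ rfl G hG G' hG' (fun x y hx => absurd hx (Finset.notMem_empty x)) f hinv

end Crest.Agent.R299
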