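import Crest.Agent.R299.Caputo
import Crest.Agent.R299.Block
import Crest.Agent.R299.Adj

/-!
# R299 (S0453): from the local pieces to the Poincaré inequality of a degree class

Pairs / triples of vertices are `Finset (Fin n)` of cardinality 2 / 3 (`P2`, `P3` of `Caputo.lean`),
`D_b = DB d (tch b)`, `Q b b' f = ‖(1 - E_{M}) f‖²` with `M = tch b ∩ tch b'`.
-/

set_option autoImplicit false
open Finset
open Crest.SwitchChain

namespace Crest.Agent.R299

variable {n : ℕ}

/-- `‖(1 - E_M) f‖²` for `M = tch b ∩ tch b'` (the slots `b × b'` when `b`, `b'` are disjoint). -/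
noncomputable def Qf (d : Fin n → ℕ) (b b' : Finset (Fin n)) (f : Gr n → ℝ) : ℝ :=
  ipd d (DB d (tch b ∩ tch b') f) (DB d (tch b ∩ tch b') f)

/-- the pair-collision operator `K = ∑_b D_b`. -/
noncomputable def Kop (d : Fin n → ℕ) (f : Gr n → ℝ) : Gr n → ℝ :=
  fun G => ∑ b ∈ P2 (Fin n), DB d (tch b) f G

theorem DB_opOn (d : Fin n → ℕ) (Λ : Gr n) : OpOn (realizations d) (DB d Λ) where
  add := by
    intro f g a _
    show (f + g) a - EB d Λ (f + g) a = (f a - EB d Λ f a) + (g a - EB d Λ g a)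
    have : EB d Λ (f + g) a = EB d Λ f a + EB d Λ g a := EB_add d Λ f g a
    rw [this, Pi.add_apply]; ring
  smul := by
    intro c f a _
    show (c • f) a - EB d Λ (c • f) a = c * (f a - EB d Λ f a)
    have : EB d Λ (c • f) a = c * EB d Λ f a := EB_smul d Λ c f a
    rw [this, Pi.smul_apply, smul_eq_mul]; ring
  loc := by
    intro f g h a ha
    show f a - EB d Λ f a = g a - EB d Λ g a
    rw [h a ha, EB_congr d Λ h a]
  symm := by
    intro f g
    have h := EB_selfadj d Λ f g
    simp only [ipd_def] at h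
    show ∑ a ∈ realizations d, f a * (g a - EB d Λ g a) =
      ∑ a ∈ realizations d, (f a - EB d Λ f a) * g a
    simp only [mul_sub, sub_mul, Finset.sum_sub_distrib]
    rw [h]

theorem Kop_opOn (d : Fin n → ℕ) : OpOn (realizations d) (Kop d) where
  add := by
    intro f g a ha
    simp only [Kop]
    rw [← Finset.sum_add_distrib]
    exact Finset.sum_congr rfl fun b _ => (DB_opOn d (tch b)).add f g a ha
  smul := by
    intro c f a ha
    simp only [Kop]
    rw [Finset.mul_sum]
    exact Finset.sum_congr rfl fun b _ => (DB_opOn d (tch b)).smul c f a ha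
  loc := by
    intro f g h a ha
    simp only [Kop]
    exact Finset.sum_congr rfl fun b _ => (DB_opOn d (tch b)).loc f g h a ha
  symm := by
    intro f g
    simp only [Kop, Finset.mul_sum, Finset.sum_mul]
    rw [Finset.sum_comm, Finset.sum_comm (s := realizations d)]
    exact Finset.sum_congr rfl fun b _ => (DB_opOn d (tch b)).symm f g

theorem ipd_self_DB (d : Fin n → ℕ) (Λ : Gr n) (f : Gr n → ℝ) :
    ipd d f (DB d Λ f) = ipd d (DB d Λ f) (DB d Λ f) :=
  ip_self_D (realizations d) (fun H : Gr n => H \ Λ) f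

theorem sum_f_Kop (d : Fin n → ℕ) (f : Gr n → ℝ) :
    ∑ G ∈ realizations d, f G * Kop d f G = ∑ b ∈ P2 (Fin n), ipd d f (DB d (tch b) f) := by
  simp only [Kop, Finset.mul_sum, ipd_def]
  exact Finset.sum_comm

/-- **Assembly.**  The local pieces imply the Poincaré inequality with constant `C`. -/
theorem poinc_of_pieces (d : Fin n → ℕ)
    (X : Finset (Fin n) → Finset (Fin n) → (Gr n → ℝ) → ℝ) (C : ℝ)
    (I1 : ∀ T ∈ P3 (Fin n), ∀ f : Gr n → ℝ,
      ∑ G ∈ realizations d, f G * (∑ b ∈ T.powersetCard 2, DB d (tch b) f G) ≤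
        ∑ G ∈ realizations d, (∑ b ∈ T.powersetCard 2, DB d (tch b) f G) ^ 2)
    (I2 : ∀ b ∈ P2 (Fin n), ∀ b' ∈ P2 (Fin n), Disjoint b b' → ∀ f : Gr n → ℝ,
      Qf d b b' f - X b b' f / 2 - X b' b f / 2 ≤ ipd d (DB d (tch b) f) (DB d (tch b') f))
    (I3 : ∀ b ∈ P2 (Fin n), ∀ f : Gr n → ℝ,
      ∑ b' ∈ (P2 (Fin n)).filter (fun b' => Disjoint b b'), X b b' f ≤
        ∑ b' ∈ (P2 (Fin n)).filter (fun b' => Disjoint b b'), Qf d b b' f)
    (I4 : ∀ b ∈ P2 (Fin n), ∀ f : Gr n → ℝ,
      ipd d f (DB d (tch b) f) ≤ ∑ b' ∈ (P2 (Fin n)).filter (fun b' => Disjoint b b'), Qf d b b' f)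
    (I5 : ∀ f : Gr n → ℝ,
      ∑ b ∈ P2 (Fin n), ∑ b' ∈ (P2 (Fin n)).filter (fun b' => Disjoint b b'), Qf d b b' f ≤
        C * Dir d f)
    (I6 : ∀ f : Gr n → ℝ,
      (∀ G ∈ realizations d, ∀ b ∈ P2 (Fin n), ∀ H ∈ blk d (tch b) G, f H = f G) →
        ∀ G ∈ realizations d, ∀ H ∈ realizations d, f G = f H) :
    Poinc C d := by
  intro f
  have hpos : ∀ f : Gr n → ℝ, 0 ≤ ∑ G ∈ realizations d, f G * Kop d f G := by
    intro f
    rw [sum_f_Kop]
    refine Finset.sum_nonneg fun b _ => ?_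
    rw [ipd_self_DB]
    exact ip_self_nonneg _ _
  have hsq : ∀ f : Gr n → ℝ, ∑ G ∈ realizations d, f G * Kop d f G ≤
      ∑ G ∈ realizations d, Kop d f G ^ 2 := by
    intro f
    refine caputo_sq_ge (realizations d) (fun b => DB d (tch b)) (Qf d) X f ?_ ?_ ?_ ?_
    · intro b _
      exact (ipd_self_DB d (tch b) f).symm
    · intro T hT; exact I1 T hT f
    · intro b hb b' hb' hd; exact I2 b hb b' hb' hd f
    · intro b hb; exact I3 b hb f
  have hker : ∀ f : Gr n → ℝ, (∀ G ∈ realizations d, Kop d f G = 0) →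
      ∀ G ∈ realizations d, ∀ H ∈ realizations d, f G = f H := by
    intro f h0
    apply I6
    have hsum : ∑ b ∈ P2 (Fin n), ipd d (DB d (tch b) f) (DB d (tch b) f) = 0 := by
      have h1 : ∑ G ∈ realizations d, f G * Kop d f G = 0 :=
        Finset.sum_eq_zero fun G hG => by rw [h0 G hG, mul_zero]
      rw [sum_f_Kop] at h1
      rw [← h1]
      exact Finset.sum_congr rfl fun b _ => (ipd_self_DB d (tch b) f).symm
    have hz := (Finset.sum_eq_zero_iff_of_nonneg
      (fun b _ => ip_self_nonneg (realizations d) (DB d (tch b) f))).1 hsum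
    intro G hG b hb H hH
    have hD : ∀ G' ∈ realizations d, DB d (tch b) f G' = 0 := ip_self_eq_zero _ (hz b hb)
    have h1 : f G = EB d (tch b) f G := by
      have := hD G hG; unfold DB at this; linarith
    have h2 : f H = EB d (tch b) f H := by
      have := hD H (blk_subset d _ _ hH); unfold DB at this; linarith
    rw [h1, h2, EB_eq_of_mem f hH]
  have hone : ∀ G ∈ realizations d, Kop d (fun _ => 1) G = 0 := by
    intro G hG
    simp only [Kop]
    refine Finset.sum_eq_zero fun b _ => ?_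
    show (1 : ℝ) - EB d (tch b) (fun _ => 1) G = 0
    have : EB d (tch b) (fun _ => (1 : ℝ)) G = 1 := Av_const _ _ 1 hG
    rw [this, sub_self]
  have hgap := gap_on (realizations d) (Kop d) (Kop_opOn d) hpos hsq hker hone f
  have hle : ∑ G ∈ realizations d, f G * Kop d f G ≤ C * Dir d f := by
    rw [sum_f_Kop]
    exact le_trans (Finset.sum_le_sum fun b hb => I4 b hb f) (I5 f)
  have hcard : (0 : ℝ) ≤ (realizations d).card := Nat.cast_nonneg _
  calc Vr d f = ((realizations d).card : ℝ) * ∑ G ∈ realizations d, f G ^ 2 -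
        (∑ G ∈ realizations d, f G) ^ 2 := rfl
    _ ≤ ((realizations d).card : ℝ) * ∑ G ∈ realizations d, f G * Kop d f G := hgap
    _ ≤ ((realizations d).card : ℝ) * (C * Dir d f) := mul_le_mul_of_nonneg_left hle hcard
    _ = C * (realizations d).card * Dir d f := by ring

end Crest.Agent.R299
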