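import Mathlib

/-!
# R299 (S0453): abstract spectral steps

* `gap_of_sq_ge`      : `A` symmetric, PSD, `|Ax|² ≥ ⟨x,Ax⟩`  ⟹  `⟨g,Ag⟩ ≥ |g|²` on `(ker A)ᗮ`.
* `sq_ge_of_eigen`    : `S` symmetric and every eigenvalue `κ` has `κ ≤ κ²` ⟹ `⟨x,Sx⟩ ≤ |Sx|²`.
* function versions on a `Fintype`.
-/

set_option autoImplicit false
open Finset

namespace Crest.Agent.R299

section abstract
variable {E : Type*} [NormedAddCommGroup E] [InnerProductSpace ℝ E] [FiniteDimensional ℝ E]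

open scoped InnerProductSpace

theorem gap_of_sq_ge (A : E →ₗ[ℝ] E) (hA : A.IsSymmetric)
    (hpos : ∀ x, 0 ≤ ⟪x, A x⟫_ℝ) (hsq : ∀ x, ⟪x, A x⟫_ℝ ≤ ⟪A x, A x⟫_ℝ)
    (g : E) (hg : g ∈ (LinearMap.ker A)ᗮ) : ⟪g, g⟫_ℝ ≤ ⟪g, A g⟫_ℝ := by
  have hr : LinearMap.range A = (LinearMap.ker A)ᗮ := by
    rw [← hA.orthogonal_range, Submodule.orthogonal_orthogonal]
  rw [← hr] at hg
  obtain ⟨h, rfl⟩ := hg
  have h1 := hpos (h - A h)
  have h2 := hsq h
  have e1 : ⟪h, A (A h)⟫_ℝ = ⟪A h, A h⟫_ℝ := (hA h (A h)).symm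
  have e2 : ⟪A h, A h⟫_ℝ = ⟪A h, A h⟫_ℝ := rfl
  rw [map_sub, inner_sub_left, inner_sub_right, inner_sub_right, e1] at h1
  linarith

/-- projection version: `ker A = ran P`. -/
theorem gap_proj (A P : E →ₗ[ℝ] E) (hA : A.IsSymmetric) (hP : P.IsSymmetric)
    (hPP : ∀ x, P (P x) = P x)
    (hpos : ∀ x, 0 ≤ ⟪x, A x⟫_ℝ) (hsq : ∀ x, ⟪x, A x⟫_ℝ ≤ ⟪A x, A x⟫_ℝ)
    (hker : ∀ x, A x = 0 → P x = x) (hAP : ∀ x, A (P x) = 0) (f : E) :
    ⟪f, f - P f⟫_ℝ ≤ ⟪f, A f⟫_ℝ := by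
  have hmem : f - P f ∈ (LinearMap.ker A)ᗮ := by
    rw [Submodule.mem_orthogonal]
    intro u hu
    have hu' : P u = u := hker u (LinearMap.mem_ker.1 hu)
    rw [inner_sub_right, ← hP u f, hu', sub_self]
  have key := gap_of_sq_ge A hA hpos hsq (f - P f) hmem
  have e1 : A (f - P f) = A f := by rw [map_sub, hAP, sub_zero]
  have e2 : ⟪P f, A f⟫_ℝ = 0 := by rw [← hA, hAP, inner_zero_left]
  have e3 : ⟪P f, f - P f⟫_ℝ = 0 := by
    rw [inner_sub_right, hP f (P f), hPP, hP f f, sub_self]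
  rw [e1, inner_sub_left, inner_sub_left, e2, e3] at key
  linarith

theorem sq_ge_of_eigen (S : E →ₗ[ℝ] E) (hS : S.IsSymmetric)
    (hev : ∀ (κ : ℝ) (v : E), v ≠ 0 → S v = κ • v → κ ≤ κ ^ 2) (x : E) :
    ⟪x, S x⟫_ℝ ≤ ⟪S x, S x⟫_ℝ := by
  classical
  set b := hS.eigenvectorBasis rfl with hb
  set ev := hS.eigenvalues rfl with hev'
  have hSb : ∀ i, S (b i) = (ev i : ℝ) • b i := fun i => hS.apply_eigenvectorBasis rfl i
  have hco : ∀ i, ⟪b i, S x⟫_ℝ = ev i * ⟪b i, x⟫_ℝ := by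
    intro i
    rw [← hS (b i) x, hSb i, inner_smul_left]
    simp
  have e1 : ⟪x, S x⟫_ℝ = ∑ i, ev i * ⟪b i, x⟫_ℝ ^ 2 := by
    rw [← b.sum_inner_mul_inner x (S x)]
    apply Finset.sum_congr rfl
    intro i _
    rw [hco i, real_inner_comm]
    ring
  have e2 : ⟪S x, S x⟫_ℝ = ∑ i, ev i ^ 2 * ⟪b i, x⟫_ℝ ^ 2 := by
    rw [← b.sum_inner_mul_inner (S x) (S x)]
    apply Finset.sum_congr rfl
    intro i _
    rw [real_inner_comm, hco i]
    ring
  rw [e1, e2]
  apply Finset.sum_le_sum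
  intro i _
  have hne : b i ≠ 0 := b.orthonormal.ne_zero i
  exact mul_le_mul_of_nonneg_right (hev (ev i) (b i) hne (hSb i)) (sq_nonneg _)

end abstract

section fintype
variable {ι : Type*} [Fintype ι]

/-- transport of a linear map on functions to `EuclideanSpace`. -/
noncomputable def toEuc (A : (ι → ℝ) →ₗ[ℝ] (ι → ℝ)) : EuclideanSpace ℝ ι →ₗ[ℝ] EuclideanSpace ℝ ι :=
  (WithLp.linearEquiv 2 ℝ (ι → ℝ)).symm.toLinearMap ∘ₗ A ∘ₗ (WithLp.linearEquiv 2 ℝ (ι → ℝ)).toLinearMap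

omit [Fintype ι] in
theorem toEuc_apply (A : (ι → ℝ) →ₗ[ℝ] (ι → ℝ)) (x : EuclideanSpace ℝ ι) (i : ι) :
    toEuc A x i = A (fun j => x j) i := rfl

theorem euc_inner (x y : EuclideanSpace ℝ ι) : inner ℝ x y = ∑ i, x i * y i := by
  rw [PiLp.inner_apply]
  apply Finset.sum_congr rfl
  intro i _
  simp [mul_comm]

theorem toEuc_symm (A : (ι → ℝ) →ₗ[ℝ] (ι → ℝ))
    (hsymm : ∀ f g : ι → ℝ, ∑ i, f i * A g i = ∑ i, A f i * g i) : (toEuc A).IsSymmetric := by
  intro x y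
  rw [euc_inner, euc_inner]
  simp only [toEuc_apply]
  exact (hsymm _ _).symm

theorem gap_fun (A : (ι → ℝ) →ₗ[ℝ] (ι → ℝ))
    (hsymm : ∀ f g : ι → ℝ, ∑ i, f i * A g i = ∑ i, A f i * g i)
    (hpos : ∀ f : ι → ℝ, 0 ≤ ∑ i, f i * A f i)
    (hsq : ∀ f : ι → ℝ, ∑ i, f i * A f i ≤ ∑ i, A f i ^ 2)
    (hker : ∀ f : ι → ℝ, A f = 0 → ∀ i j, f i = f j)
    (hone : A (fun _ => 1) = 0) (f : ι → ℝ) :
    (Fintype.card ι : ℝ) * ∑ i, f i ^ 2 - (∑ i, f i) ^ 2 ≤
      (Fintype.card ι : ℝ) * ∑ i, f i * A f i := by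
  classical
  rcases isEmpty_or_nonempty ι with hι | hι
  · simp
  have hN : (0 : ℝ) < Fintype.card ι := by exact_mod_cast Fintype.card_pos
  set N : ℝ := (Fintype.card ι : ℝ) with hNdef
  set m : ℝ := (∑ i, f i) / N with hm
  set g : ι → ℝ := fun i => f i - m with hg
  have hsumg : ∑ i, g i = 0 := by
    simp only [hg, Finset.sum_sub_distrib, Finset.sum_const, Finset.card_univ, nsmul_eq_mul]
    rw [← hNdef, hm]; field_simp; simp
  have hconst : ∀ c : ℝ, A (fun _ => c) = 0 := by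
    intro c
    have : (fun _ : ι => c) = c • (fun _ : ι => (1 : ℝ)) := by ext; simp
    rw [this, map_smul, hone, smul_zero]
  have hAg : A g = A f := by
    have : g = f - (fun _ => m) := by ext; simp [hg]
    rw [this, map_sub, hconst, sub_zero]
  -- apply the abstract lemma
  set x : EuclideanSpace ℝ ι := WithLp.toLp 2 g with hx
  have hxi : ∀ i, x i = g i := fun i => rfl
  have hmem : x ∈ (LinearMap.ker (toEuc A))ᗮ := by
    rw [Submodule.mem_orthogonal]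
    intro u hu
    have hu' : A (fun j => u j) = 0 := by
      ext i
      have := congrArg (fun z : EuclideanSpace ℝ ι => z i) (LinearMap.mem_ker.1 hu)
      simpa [toEuc_apply] using this
    have hc := hker _ hu'
    obtain ⟨i0⟩ := hι
    rw [euc_inner]
    have : ∀ i, u i * x i = u i0 * g i := by
      intro i; rw [hxi, hc i i0]
    rw [Finset.sum_congr rfl (fun i _ => this i), ← Finset.mul_sum, hsumg, mul_zero]
  have key := gap_of_sq_ge (toEuc A) (toEuc_symm A hsymm)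
    (by intro y; rw [euc_inner]; simp only [toEuc_apply]; exact hpos _)
    (by
      intro y; rw [euc_inner, euc_inner]; simp only [toEuc_apply]
      have := hsq (fun j => y j)
      simpa [sq] using this) x hmem
  rw [euc_inner, euc_inner] at key
  simp only [toEuc_apply] at key
  have hxg : (fun j => x j) = g := rfl
  rw [hxg, hAg] at key
  have k1 : ∑ i, x i * x i = ∑ i, f i ^ 2 - (∑ i, f i) ^ 2 / N := by
    have : ∀ i, x i * x i = f i ^ 2 - 2 * m * f i + m ^ 2 := by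
      intro i; rw [hxi]; simp only [hg]; ring
    rw [Finset.sum_congr rfl (fun i _ => this i), Finset.sum_add_distrib, Finset.sum_sub_distrib,
      ← Finset.mul_sum, Finset.sum_const, Finset.card_univ, nsmul_eq_mul, ← hNdef, hm]
    field_simp
    ring
  have k2 : ∑ i, x i * A f i = ∑ i, f i * A f i := by
    have h0 : ∑ i, (fun _ : ι => m) i * A f i = 0 := by
      rw [hsymm, hconst]; simp
    have : ∀ i, x i * A f i = f i * A f i - (fun _ : ι => m) i * A f i := by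
      intro i; rw [hxi]; simp only [hg]; ring
    rw [Finset.sum_congr rfl (fun i _ => this i), Finset.sum_sub_distrib, h0, sub_zero]
  rw [k1, k2] at key
  have := mul_le_mul_of_nonneg_left key hN.le
  calc N * ∑ i, f i ^ 2 - (∑ i, f i) ^ 2 = N * (∑ i, f i ^ 2 - (∑ i, f i) ^ 2 / N) := by
        field_simp
    _ ≤ _ := this

theorem gap_proj_fun (A P : (ι → ℝ) →ₗ[ℝ] (ι → ℝ))
    (hsymm : ∀ f g : ι → ℝ, ∑ i, f i * A g i = ∑ i, A f i * g i)
    (hsymmP : ∀ f g : ι → ℝ, ∑ i, f i * P g i = ∑ i, P f i * g i)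
    (hPP : ∀ f : ι → ℝ, P (P f) = P f)
    (hpos : ∀ f : ι → ℝ, 0 ≤ ∑ i, f i * A f i)
    (hsq : ∀ f : ι → ℝ, ∑ i, f i * A f i ≤ ∑ i, A f i ^ 2)
    (hker : ∀ f : ι → ℝ, A f = 0 → P f = f)
    (hAP : ∀ f : ι → ℝ, A (P f) = 0) (f : ι → ℝ) :
    ∑ i, f i * (f i - P f i) ≤ ∑ i, f i * A f i := by
  have key := gap_proj (toEuc A) (toEuc P) (toEuc_symm A hsymm) (toEuc_symm P hsymmP)
    (by
      intro y; ext i
      simp only [toEuc_apply]
      exact congrFun (hPP _) i)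
    (by intro y; rw [euc_inner]; simp only [toEuc_apply]; exact hpos _)
    (by
      intro y; rw [euc_inner, euc_inner]; simp only [toEuc_apply]
      have := hsq (fun j => y j)
      simpa [sq] using this)
    (by
      intro y hy; ext i
      simp only [toEuc_apply]
      refine congrFun (hker (fun j => y j) ?_) i
      ext i
      have := congrArg (fun z : EuclideanSpace ℝ ι => z i) hy
      simpa [toEuc_apply] using this)
    (by
      intro y; ext i
      simp only [toEuc_apply]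
      exact congrFun (hAP _) i) (WithLp.toLp 2 f)
  rw [euc_inner, euc_inner] at key
  simpa [toEuc_apply] using key

theorem sq_ge_fun (S : (ι → ℝ) →ₗ[ℝ] (ι → ℝ))
    (hsymm : ∀ f g : ι → ℝ, ∑ i, f i * S g i = ∑ i, S f i * g i)
    (hev : ∀ (κ : ℝ) (v : ι → ℝ), v ≠ 0 → S v = κ • v → κ ≤ κ ^ 2) (f : ι → ℝ) :
    ∑ i, f i * S f i ≤ ∑ i, S f i ^ 2 := by
  have key := sq_ge_of_eigen (toEuc S) (toEuc_symm S hsymm)
    (by
      intro κ v hv hSv
      apply hev κ (fun j => v j)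
      · intro h
        apply hv
        ext i
        exact congrFun h i
      · ext i
        have := congrArg (fun z : EuclideanSpace ℝ ι => z i) hSv
        simpa [toEuc_apply] using this) (WithLp.toLp 2 f)
  rw [euc_inner, euc_inner] at key
  simp only [toEuc_apply] at key
  simpa [sq] using key

end fintype

section onFinset
variable {α : Type*} [DecidableEq α]

/-- extension by zero -/
def extZ (Ω : Finset α) (φ : Ω → ℝ) : α → ℝ := fun a => if h : a ∈ Ω then φ ⟨a, h⟩ else 0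

theorem extZ_coe (Ω : Finset α) (φ : Ω → ℝ) (i : Ω) : extZ Ω φ i.1 = φ i := by
  simp [extZ]

/-- An operator on functions `α → ℝ` which is "linear and local on `Ω`". -/
structure OpOn (Ω : Finset α) (A : (α → ℝ) → (α → ℝ)) : Prop where
  add : ∀ f g : α → ℝ, ∀ a ∈ Ω, A (f + g) a = A f a + A g a
  smul : ∀ (c : ℝ) (f : α → ℝ), ∀ a ∈ Ω, A (c • f) a = c * A f a
  loc : ∀ f g : α → ℝ, (∀ a ∈ Ω, f a = g a) → ∀ a ∈ Ω, A f a = A g a
  symm : ∀ f g : α → ℝ, ∑ a ∈ Ω, f a * A g a = ∑ a ∈ Ω, A f a * g a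

/-- restriction of such an operator to functions on the subtype -/
noncomputable def OpOn.lin {Ω : Finset α} {A : (α → ℝ) → (α → ℝ)} (h : OpOn Ω A) :
    (Ω → ℝ) →ₗ[ℝ] (Ω → ℝ) where
  toFun φ := fun i => A (extZ Ω φ) i.1
  map_add' φ ψ := by
    ext i
    have : extZ Ω (φ + ψ) = extZ Ω φ + extZ Ω ψ := by
      ext a; by_cases ha : a ∈ Ω <;> simp [extZ, ha]
    simp only [this, Pi.add_apply]
    exact h.add _ _ _ i.2
  map_smul' c φ := by
    ext i
    have : extZ Ω (c • φ) = c • extZ Ω φ := by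
      ext a; by_cases ha : a ∈ Ω <;> simp [extZ, ha]
    simp only [this, RingHom.id_apply, Pi.smul_apply, smul_eq_mul]
    exact h.smul _ _ _ i.2

theorem OpOn.lin_apply {Ω : Finset α} {A : (α → ℝ) → (α → ℝ)} (h : OpOn Ω A) (f : α → ℝ) (i : Ω) :
    h.lin (fun j => f j.1) i = A f i.1 := by
  show A (extZ Ω fun j => f j.1) i.1 = A f i.1
  apply h.loc _ _ _ _ i.2
  intro a ha
  simp [extZ, ha]

theorem OpOn.lin_apply' {Ω : Finset α} {A : (α → ℝ) → (α → ℝ)} (h : OpOn Ω A) (φ : Ω → ℝ) (i : Ω) :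
    h.lin φ i = A (extZ Ω φ) i.1 := rfl

theorem gap_on (Ω : Finset α) (A : (α → ℝ) → (α → ℝ)) (h : OpOn Ω A)
    (hpos : ∀ f : α → ℝ, 0 ≤ ∑ a ∈ Ω, f a * A f a)
    (hsq : ∀ f : α → ℝ, ∑ a ∈ Ω, f a * A f a ≤ ∑ a ∈ Ω, A f a ^ 2)
    (hker : ∀ f : α → ℝ, (∀ a ∈ Ω, A f a = 0) → ∀ a ∈ Ω, ∀ b ∈ Ω, f a = f b)
    (hone : ∀ a ∈ Ω, A (fun _ => 1) a = 0) (f : α → ℝ) :
    (Ω.card : ℝ) * ∑ a ∈ Ω, f a ^ 2 - (∑ a ∈ Ω, f a) ^ 2 ≤
      (Ω.card : ℝ) * ∑ a ∈ Ω, f a * A f a := by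
  have key := gap_fun h.lin
    (by
      intro φ ψ
      have := h.symm (extZ Ω φ) (extZ Ω ψ)
      rw [← Finset.sum_coe_sort Ω, ← Finset.sum_coe_sort Ω] at this
      simpa [OpOn.lin_apply', extZ_coe] using this)
    (by
      intro φ
      have := hpos (extZ Ω φ)
      rw [← Finset.sum_coe_sort Ω] at this
      simpa [OpOn.lin_apply', extZ_coe] using this)
    (by
      intro φ
      have := hsq (extZ Ω φ)
      rw [← Finset.sum_coe_sort Ω, ← Finset.sum_coe_sort Ω] at this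
      simpa [OpOn.lin_apply', extZ_coe] using this)
    (by
      intro φ hφ i j
      have := hker (extZ Ω φ) (by
        intro a ha
        exact congrFun hφ ⟨a, ha⟩) i.1 i.2 j.1 j.2
      simpa [extZ_coe] using this)
    (by
      ext i
      have := h.lin_apply (fun _ => 1) i
      rw [this]
      exact hone _ i.2) (fun j => f j.1)
  simp only [h.lin_apply, Fintype.card_coe] at key
  rw [Finset.sum_coe_sort Ω (fun a => f a ^ 2), Finset.sum_coe_sort Ω (fun a => f a),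
    Finset.sum_coe_sort Ω (fun a => f a * A f a)] at key
  exact key

theorem gap_proj_on (Ω : Finset α) (A P : (α → ℝ) → (α → ℝ)) (h : OpOn Ω A) (hP : OpOn Ω P)
    (hPP : ∀ f : α → ℝ, ∀ a ∈ Ω, P (P f) a = P f a)
    (hpos : ∀ f : α → ℝ, 0 ≤ ∑ a ∈ Ω, f a * A f a)
    (hsq : ∀ f : α → ℝ, ∑ a ∈ Ω, f a * A f a ≤ ∑ a ∈ Ω, A f a ^ 2)
    (hker : ∀ f : α → ℝ, (∀ a ∈ Ω, A f a = 0) → ∀ a ∈ Ω, P f a = f a)
    (hAP : ∀ f : α → ℝ, ∀ a ∈ Ω, A (P f) a = 0) (f : α → ℝ) :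
    ∑ a ∈ Ω, f a * (f a - P f a) ≤ ∑ a ∈ Ω, f a * A f a := by
  have key := gap_proj_fun h.lin hP.lin
    (by
      intro φ ψ
      have := h.symm (extZ Ω φ) (extZ Ω ψ)
      rw [← Finset.sum_coe_sort Ω, ← Finset.sum_coe_sort Ω] at this
      simpa [OpOn.lin_apply', extZ_coe] using this)
    (by
      intro φ ψ
      have := hP.symm (extZ Ω φ) (extZ Ω ψ)
      rw [← Finset.sum_coe_sort Ω, ← Finset.sum_coe_sort Ω] at this
      simpa [OpOn.lin_apply', extZ_coe] using this)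
    (by
      intro φ; ext i
      have e : hP.lin φ = fun j : Ω => P (extZ Ω φ) j.1 := rfl
      rw [e, hP.lin_apply]
      exact hPP _ _ i.2)
    (by
      intro φ
      have := hpos (extZ Ω φ)
      rw [← Finset.sum_coe_sort Ω] at this
      simpa [OpOn.lin_apply', extZ_coe] using this)
    (by
      intro φ
      have := hsq (extZ Ω φ)
      rw [← Finset.sum_coe_sort Ω, ← Finset.sum_coe_sort Ω] at this
      simpa [OpOn.lin_apply', extZ_coe] using this)
    (by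
      intro φ hφ; ext i
      have := hker (extZ Ω φ) (by
        intro a ha
        exact congrFun hφ ⟨a, ha⟩) i.1 i.2
      simpa [OpOn.lin_apply', extZ_coe] using this)
    (by
      intro φ; ext i
      have e : hP.lin φ = fun j : Ω => P (extZ Ω φ) j.1 := rfl
      rw [e, h.lin_apply]
      exact hAP _ _ i.2) (fun j => f j.1)
  simp only [h.lin_apply, hP.lin_apply] at key
  rw [Finset.sum_coe_sort Ω (fun a => f a * (f a - P f a)),
    Finset.sum_coe_sort Ω (fun a => f a * A f a)] at key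
  exact key

theorem sq_ge_on (Ω : Finset α) (S : (α → ℝ) → (α → ℝ)) (h : OpOn Ω S)
    (hev : ∀ (κ : ℝ) (v : α → ℝ), (∃ a ∈ Ω, v a ≠ 0) → (∀ a ∈ Ω, S v a = κ * v a) → κ ≤ κ ^ 2)
    (f : α → ℝ) :
    ∑ a ∈ Ω, f a * S f a ≤ ∑ a ∈ Ω, S f a ^ 2 := by
  have key := sq_ge_fun h.lin
    (by
      intro φ ψ
      have := h.symm (extZ Ω φ) (extZ Ω ψ)
      rw [← Finset.sum_coe_sort Ω, ← Finset.sum_coe_sort Ω] at this
      simpa [OpOn.lin_apply', extZ_coe] using this)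
    (by
      intro κ v hv hSv
      apply hev κ (extZ Ω v)
      · by_contra hcon
        push Not at hcon
        apply hv
        ext i
        have := hcon i.1 i.2
        simpa [extZ_coe] using this
      · intro a ha
        have := congrFun hSv ⟨a, ha⟩
        simpa [OpOn.lin_apply', extZ, ha] using this) (fun j => f j.1)
  simp only [h.lin_apply] at key
  rw [Finset.sum_coe_sort Ω (fun a => f a * S f a), Finset.sum_coe_sort Ω (fun a => S f a ^ 2)] at key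
  exact key

end onFinset

end Crest.Agent.R299
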