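import Crest.Agent.R299.Block
import Crest.Agent.R299.Spectral
import Crest.Agent.R299.Adj

/-!
# R299 (S0453): final assembly (Caputo's trick), self-contained version (namespace `Asm`)

`K = ∑_b D_b` over the vertex pairs `b`, `D_b = DB d (tch b)`.
`‖K f‖² = ⟨f, K f⟩ + T3 + T4`, `T3 = ∑` over triples, `T4 = ∑` over disjoint pairs.
-/

set_option autoImplicit false
open Finset
open Crest.SwitchChain

namespace Crest.Agent.R299.Asm

variable {n : ℕ}

section regroup
variable {V : Type*} [DecidableEq V]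

theorem card_union_of_pairs {b b' : Finset V} (hb : b.card = 2) (hb' : b'.card = 2) (hne : b ≠ b')
    (hnd : ¬ Disjoint b b') : (b ∪ b').card = 3 := by
  have h1 := Finset.card_union_add_card_inter b b'
  have h2 : 0 < (b ∩ b').card := by
    rw [Finset.card_pos]
    rwa [Finset.disjoint_iff_inter_eq_empty, ← Ne, ← Finset.nonempty_iff_ne_empty] at hnd
  have h3 : (b ∩ b').card < 2 := by
    by_contra hcon
    push Not at hcon
    apply hne
    have e1 : b ∩ b' = b := Finset.eq_of_subset_of_card_le Finset.inter_subset_left (by omega)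
    have e2 : b ∩ b' = b' := Finset.eq_of_subset_of_card_le Finset.inter_subset_right (by omega)
    rw [← e1]; nth_rewrite 2 [← e2]; rfl
  omega

theorem pairs_in_triple {T b b' : Finset V} (hT : T.card = 3) (hb : b.card = 2) (hb' : b'.card = 2)
    (hbT : b ⊆ T) (hbT' : b' ⊆ T) (hne : b ≠ b') : b ∪ b' = T ∧ ¬ Disjoint b b' := by
  have hsub : b ∪ b' ⊆ T := Finset.union_subset hbT hbT'
  have hnd : ¬ Disjoint b b' := by
    intro hd
    have := Finset.card_union_of_disjoint hd
    have h2 := Finset.card_le_card hsub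
    omega
  refine ⟨Finset.eq_of_subset_of_card_le hsub ?_, hnd⟩
  rw [card_union_of_pairs hb hb' hne hnd, hT]

/-- regrouping of a double sum over pairs of vertices. -/
theorem sum_pairs_regroup (U : Finset V) (Φ : Finset V → Finset V → ℝ) :
    ∑ b ∈ U.powersetCard 2, ∑ b' ∈ U.powersetCard 2, Φ b b' =
      ∑ b ∈ U.powersetCard 2, Φ b b
      + ∑ T ∈ U.powersetCard 3, ∑ p ∈ (T.powersetCard 2).offDiag, Φ p.1 p.2
      + ∑ p ∈ (U.powersetCard 2 ×ˢ U.powersetCard 2).filter (fun p => Disjoint p.1 p.2),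
          Φ p.1 p.2 := by
  set P := U.powersetCard 2 with hP
  have hL : ∑ b ∈ P, ∑ b' ∈ P, Φ b b' = ∑ b ∈ P, Φ b b + ∑ p ∈ P.offDiag, Φ p.1 p.2 := by
    rw [← Finset.sum_product' P P Φ, ← Finset.diag_union_offDiag,
      Finset.sum_union (Finset.disjoint_diag_offDiag P), Finset.sum_diag]
  rw [hL, add_assoc]
  congr 1
  rw [← Finset.sum_filter_add_sum_filter_not P.offDiag (fun p => ¬ Disjoint p.1 p.2)]
  congr 1
  · -- overlapping pairs
    have hmaps : ∀ p ∈ P.offDiag.filter (fun p => ¬ Disjoint p.1 p.2),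
        p.1 ∪ p.2 ∈ U.powersetCard 3 := by
      intro p hp
      simp only [Finset.mem_filter, Finset.mem_offDiag, hP, Finset.mem_powersetCard] at hp
      obtain ⟨⟨⟨h1, h2⟩, ⟨h3, h4⟩, h5⟩, h6⟩ := hp
      rw [Finset.mem_powersetCard]
      exact ⟨Finset.union_subset h1 h3, card_union_of_pairs h2 h4 h5 h6⟩
    rw [← Finset.sum_fiberwise_of_maps_to hmaps]
    apply Finset.sum_congr rfl
    intro T hT
    rw [Finset.mem_powersetCard] at hT
    apply Finset.sum_congr _ (fun _ _ => rfl)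
    ext p
    simp only [Finset.mem_filter, Finset.mem_offDiag, hP, Finset.mem_powersetCard]
    constructor
    · rintro ⟨⟨⟨⟨h1, h2⟩, ⟨h3, h4⟩, h5⟩, h6⟩, h7⟩
      exact ⟨⟨h7 ▸ Finset.subset_union_left, h2⟩, ⟨h7 ▸ Finset.subset_union_right, h4⟩, h5⟩
    · rintro ⟨⟨h1, h2⟩, ⟨h3, h4⟩, h5⟩
      obtain ⟨e1, e2⟩ := pairs_in_triple hT.2 h2 h4 h1 h3 h5
      exact ⟨⟨⟨⟨h1.trans hT.1, h2⟩, ⟨h3.trans hT.1, h4⟩, h5⟩, e2⟩, e1⟩
  · apply Finset.sum_congr _ (fun _ _ => rfl)
    ext p
    simp only [Finset.mem_filter, Finset.mem_offDiag, Finset.mem_product, not_not, hP,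
      Finset.mem_powersetCard]
    constructor
    · rintro ⟨⟨h1, h2, _⟩, h4⟩; exact ⟨⟨h1, h2⟩, h4⟩
    · rintro ⟨⟨h1, h2⟩, h4⟩
      refine ⟨⟨h1, h2, ?_⟩, h4⟩
      intro h
      rw [h, Finset.disjoint_self_iff_empty] at h4
      rw [h4] at h2
      simp at h2

end regroup

section opon
variable {α : Type*}

theorem opOn_sum {ι : Type*} (Ω : Finset α) (s : Finset ι) (A : ι → (α → ℝ) → (α → ℝ))
    (h : ∀ i ∈ s, OpOn Ω (A i)) : OpOn Ω (fun f a => ∑ i ∈ s, A i f a) where
  add f g a ha := by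
    rw [← Finset.sum_add_distrib]
    exact Finset.sum_congr rfl fun i hi => (h i hi).add f g a ha
  smul c f a ha := by
    rw [Finset.mul_sum]
    exact Finset.sum_congr rfl fun i hi => (h i hi).smul c f a ha
  loc f g hfg a ha := by
    exact Finset.sum_congr rfl fun i hi => (h i hi).loc f g hfg a ha
  symm f g := by
    simp only [Finset.mul_sum, Finset.sum_mul]
    rw [Finset.sum_comm]
    rw [Finset.sum_comm (s := Ω)]
    exact Finset.sum_congr rfl fun i hi => (h i hi).symm f g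

end opon

theorem opOn_DB (d : Fin n → ℕ) (Λ : Gr n) : OpOn (realizations d) (DB d Λ) where
  add f g a _ := by
    have := EB_add d Λ f g a
    simp only [DB, Pi.add_apply]
    have e : EB d Λ (f + g) a = EB d Λ f a + EB d Λ g a := this
    rw [e]; ring
  smul c f a _ := by
    have := EB_smul d Λ c f a
    simp only [DB, Pi.smul_apply, smul_eq_mul]
    have e : EB d Λ (c • f) a = c * EB d Λ f a := this
    rw [e]; ring
  loc f g hfg a ha := by
    simp only [DB]
    rw [hfg a ha, EB_congr d Λ hfg a]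
  symm f g := by
    have h := EB_selfadj d Λ f g
    simp only [ipd_def] at h
    simp only [DB, mul_sub, sub_mul, Finset.sum_sub_distrib]
    rw [h]

/-- the set of vertex pairs -/
def vpairs (n : ℕ) : Finset (Finset (Fin n)) := (univ : Finset (Fin n)).powersetCard 2

/-- `K = ∑_b D_b`. -/
noncomputable def KK (d : Fin n → ℕ) (f : Gr n → ℝ) : Gr n → ℝ :=
  fun G => ∑ b ∈ vpairs n, DB d (tch b) f G

theorem opOn_KK (d : Fin n → ℕ) : OpOn (realizations d) (KK d) :=
  opOn_sum (realizations d) (vpairs n) (fun b => DB d (tch b)) fun b _ => opOn_DB d (tch b)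

theorem ipd_self_DB (d : Fin n → ℕ) (Λ : Gr n) (f : Gr n → ℝ) :
    ipd d f (DB d Λ f) = ipd d (DB d Λ f) (DB d Λ f) := ip_self_D _ _ f

theorem ipd_KK (d : Fin n → ℕ) (f : Gr n → ℝ) :
    ipd d f (KK d f) = ∑ b ∈ vpairs n, ipd d (DB d (tch b) f) (DB d (tch b) f) := by
  unfold KK ipd
  rw [ip_sum_right]
  exact Finset.sum_congr rfl fun b _ => ipd_self_DB d (tch b) f

theorem ipd_KK_KK (d : Fin n → ℕ) (f : Gr n → ℝ) :
    ipd d (KK d f) (KK d f) =
      ∑ b ∈ vpairs n, ∑ b' ∈ vpairs n, ipd d (DB d (tch b) f) (DB d (tch b') f) := by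
  unfold KK ipd
  rw [ip_sum_left]
  exact Finset.sum_congr rfl fun b _ => ip_sum_right _ _ _ _

/-- T3 hypothesis: cross terms inside every triple are non-negative. -/
def H3 (d : Fin n → ℕ) : Prop :=
  ∀ f : Gr n → ℝ, ∀ T ∈ (univ : Finset (Fin n)).powersetCard 3,
    0 ≤ ∑ p ∈ (T.powersetCard 2).offDiag, ipd d (DB d (tch p.1) f) (DB d (tch p.2) f)

/-- T4 hypothesis: the sum of the cross terms of disjoint pairs is non-negative. -/
def H4 (d : Fin n → ℕ) : Prop :=
  ∀ f : Gr n → ℝ,
    0 ≤ ∑ p ∈ (vpairs n ×ˢ vpairs n).filter (fun p => Disjoint p.1 p.2),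
      ipd d (DB d (tch p.1) f) (DB d (tch p.2) f)

/-- Johnson hypothesis: each pair block is dominated by the switch Dirichlet form. -/
def HJ (c : ℝ) (d : Fin n → ℕ) : Prop :=
  ∀ f : Gr n → ℝ, ∀ b ∈ vpairs n, ipd d f (DB d (tch b) f) ≤ c * Dir d f

theorem KK_sq_ge (d : Fin n → ℕ) (h3 : H3 d) (h4 : H4 d) (f : Gr n → ℝ) :
    ipd d f (KK d f) ≤ ipd d (KK d f) (KK d f) := by
  rw [ipd_KK, ipd_KK_KK]
  unfold vpairs
  rw [sum_pairs_regroup]
  have a3 : 0 ≤ ∑ T ∈ (univ : Finset (Fin n)).powersetCard 3,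
      ∑ p ∈ (T.powersetCard 2).offDiag, ipd d (DB d (tch p.1) f) (DB d (tch p.2) f) :=
    Finset.sum_nonneg fun T hT => h3 f T hT
  have a4 := h4 f
  unfold vpairs at a4
  linarith

/-- the pairs inside a triple -/
theorem powersetCard_two_triple {V : Type*} [DecidableEq V] {a b c : V} (hab : a ≠ b) (hac : a ≠ c)
    (hbc : b ≠ c) :
    ({a, b, c} : Finset V).powersetCard 2 = {{a, b}, {a, c}, {b, c}} := by
  symm
  have h12 : ({a, b} : Finset V) ≠ {a, c} := by
    intro h
    have : b ∈ ({a, c} : Finset V) := h ▸ (by simp)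
    simp only [Finset.mem_insert, Finset.mem_singleton] at this
    rcases this with h | h
    · exact hab h.symm
    · exact hbc h
  have h13 : ({a, b} : Finset V) ≠ {b, c} := by
    intro h
    have : a ∈ ({b, c} : Finset V) := h ▸ (by simp)
    simp only [Finset.mem_insert, Finset.mem_singleton] at this
    rcases this with h | h
    · exact hab h
    · exact hac h
  have h23 : ({a, c} : Finset V) ≠ {b, c} := by
    intro h
    have : a ∈ ({b, c} : Finset V) := h ▸ (by simp)
    simp only [Finset.mem_insert, Finset.mem_singleton] at this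
    rcases this with h | h
    · exact hab h
    · exact hac h
  apply Finset.eq_of_subset_of_card_le
  · intro x hx
    simp only [Finset.mem_insert, Finset.mem_singleton] at hx
    rw [Finset.mem_powersetCard]
    rcases hx with rfl | rfl | rfl
    · refine ⟨?_, Finset.card_pair hab⟩
      intro y hy; simp only [Finset.mem_insert, Finset.mem_singleton] at hy ⊢; tauto
    · refine ⟨?_, Finset.card_pair hac⟩
      intro y hy; simp only [Finset.mem_insert, Finset.mem_singleton] at hy ⊢; tauto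
    · refine ⟨?_, Finset.card_pair hbc⟩
      intro y hy; simp only [Finset.mem_insert, Finset.mem_singleton] at hy ⊢; tauto
  · rw [Finset.card_powersetCard]
    have e1 : ({a, b, c} : Finset V).card = 3 := by
      rw [Finset.card_eq_three]; exact ⟨a, b, c, hab, hac, hbc, rfl⟩
    have e2 : ({{a, b}, {a, c}, {b, c}} : Finset (Finset V)).card = 3 := by
      rw [Finset.card_eq_three]; exact ⟨_, _, _, h12, h13, h23, rfl⟩
    rw [e1, e2]
    decide

theorem sum_pairs_triple {V : Type*} [DecidableEq V] {a b c : V} (hab : a ≠ b) (hac : a ≠ c)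
    (hbc : b ≠ c) (g : Finset V → ℝ) :
    ∑ x ∈ ({a, b, c} : Finset V).powersetCard 2, g x = g {a, b} + g {a, c} + g {b, c} := by
  rw [powersetCard_two_triple hab hac hbc]
  have h12 : ({a, b} : Finset V) ≠ {a, c} := by
    intro h
    have : b ∈ ({a, c} : Finset V) := h ▸ (by simp)
    simp only [Finset.mem_insert, Finset.mem_singleton] at this
    rcases this with h | h
    · exact hab h.symm
    · exact hbc h
  have h13 : ({a, b} : Finset V) ≠ {b, c} := by
    intro h
    have : a ∈ ({b, c} : Finset V) := h ▸ (by simp)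
    simp only [Finset.mem_insert, Finset.mem_singleton] at this
    rcases this with h | h
    · exact hab h
    · exact hac h
  have h23 : ({a, c} : Finset V) ≠ {b, c} := by
    intro h
    have : a ∈ ({b, c} : Finset V) := h ▸ (by simp)
    simp only [Finset.mem_insert, Finset.mem_singleton] at this
    rcases this with h | h
    · exact hab h
    · exact hac h
  rw [Finset.sum_insert (by simp [h12, h13]), Finset.sum_insert (by simp [h23]),
    Finset.sum_singleton]
  ring

/-- `H3` from the cluster inequality `⟨f, h_T f⟩ ≤ ‖h_T f‖²`, `h_T = ∑_{b ⊆ T} D_b`. -/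
theorem H3_of_cluster (d : Fin n → ℕ)
    (h : ∀ f : Gr n → ℝ, ∀ T ∈ (univ : Finset (Fin n)).powersetCard 3,
      ipd d f (fun G => ∑ b ∈ T.powersetCard 2, DB d (tch b) f G) ≤
        ipd d (fun G => ∑ b ∈ T.powersetCard 2, DB d (tch b) f G)
          (fun G => ∑ b ∈ T.powersetCard 2, DB d (tch b) f G)) : H3 d := by
  intro f T hT
  have h1 := h f T hT
  set P := T.powersetCard 2 with hP
  have e1 : ipd d f (fun G => ∑ b ∈ P, DB d (tch b) f G) =
      ∑ b ∈ P, ipd d (DB d (tch b) f) (DB d (tch b) f) := by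
    unfold ipd
    rw [ip_sum_right]
    exact Finset.sum_congr rfl fun b _ => ipd_self_DB d (tch b) f
  have e2 : ipd d (fun G => ∑ b ∈ P, DB d (tch b) f G) (fun G => ∑ b ∈ P, DB d (tch b) f G) =
      ∑ b ∈ P, ∑ b' ∈ P, ipd d (DB d (tch b) f) (DB d (tch b') f) := by
    unfold ipd
    rw [ip_sum_left]
    exact Finset.sum_congr rfl fun b _ => ip_sum_right _ _ _ _
  have e3 : ∑ b ∈ P, ∑ b' ∈ P, ipd d (DB d (tch b) f) (DB d (tch b') f) =
      ∑ b ∈ P, ipd d (DB d (tch b) f) (DB d (tch b) f) +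
        ∑ p ∈ P.offDiag, ipd d (DB d (tch p.1) f) (DB d (tch p.2) f) := by
    rw [← Finset.sum_product' P P (fun b b' => ipd d (DB d (tch b) f) (DB d (tch b') f)),
      ← Finset.diag_union_offDiag, Finset.sum_union (Finset.disjoint_diag_offDiag P),
      Finset.sum_diag]
  rw [e1, e2, e3] at h1
  linarith

/-- `H3` from the cluster inequality written for three distinct vertices. -/
theorem H3_of_triples (d : Fin n → ℕ)
    (h : ∀ (a b c : Fin n), a ≠ b → a ≠ c → b ≠ c → ∀ f : Gr n → ℝ,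
      ipd d f (fun G => DB d (tch {a, b}) f G + DB d (tch {a, c}) f G + DB d (tch {b, c}) f G) ≤
        ipd d (fun G => DB d (tch {a, b}) f G + DB d (tch {a, c}) f G + DB d (tch {b, c}) f G)
          (fun G => DB d (tch {a, b}) f G + DB d (tch {a, c}) f G + DB d (tch {b, c}) f G)) :
    H3 d := by
  apply H3_of_cluster
  intro f T hT
  rw [Finset.mem_powersetCard, Finset.card_eq_three] at hT
  obtain ⟨-, a, b, c, hab, hac, hbc, rfl⟩ := hT
  have e : (fun G => ∑ x ∈ ({a, b, c} : Finset (Fin n)).powersetCard 2, DB d (tch x) f G) =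
      fun G => DB d (tch {a, b}) f G + DB d (tch {a, c}) f G + DB d (tch {b, c}) f G := by
    funext G
    exact sum_pairs_triple hab hac hbc (fun x => DB d (tch x) f G)
  rw [e]
  exact h a b c hab hac hbc f

/-- `H4` from the local 2×2-block bound and the Johnson bound (J2) per pair. -/
theorem H4_of_local (d : Fin n → ℕ)
    (N X : (Gr n → ℝ) → Finset (Fin n) → Finset (Fin n) → ℝ)
    (hloc : ∀ f : Gr n → ℝ, ∀ b ∈ vpairs n, ∀ b' ∈ vpairs n, Disjoint b b' →
      N f b b' - X f b b' / 2 - X f b' b / 2 ≤ ipd d (DB d (tch b) f) (DB d (tch b') f))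
    (hJ2 : ∀ f : Gr n → ℝ, ∀ b ∈ vpairs n,
      ∑ b' ∈ (vpairs n).filter (fun b' => Disjoint b b'), X f b b' ≤
        ∑ b' ∈ (vpairs n).filter (fun b' => Disjoint b b'), N f b b') : H4 d := by
  intro f
  set Q := (vpairs n ×ˢ vpairs n).filter (fun p => Disjoint p.1 p.2) with hQ
  have hswap : ∑ p ∈ Q, X f p.2 p.1 = ∑ p ∈ Q, X f p.1 p.2 := by
    apply Finset.sum_bij (fun p _ => (p.2, p.1))
    · intro p hp
      simp only [hQ, Finset.mem_filter, Finset.mem_product] at hp ⊢
      exact ⟨⟨hp.1.2, hp.1.1⟩, hp.2.symm⟩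
    · intro p _ q _ hpq
      simp only [Prod.mk.injEq] at hpq
      exact Prod.ext hpq.2 hpq.1
    · intro p hp
      refine ⟨(p.2, p.1), ?_, rfl⟩
      simp only [hQ, Finset.mem_filter, Finset.mem_product] at hp ⊢
      exact ⟨⟨hp.1.2, hp.1.1⟩, hp.2.symm⟩
    · intro p _; rfl
  have hiter : ∀ Y : Finset (Fin n) → Finset (Fin n) → ℝ, ∑ p ∈ Q, Y p.1 p.2 =
      ∑ b ∈ vpairs n, ∑ b' ∈ (vpairs n).filter (fun b' => Disjoint b b'), Y b b' := by
    intro Y
    rw [hQ, Finset.sum_filter, Finset.sum_product]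
    exact Finset.sum_congr rfl fun b _ => by rw [Finset.sum_filter]
  have h1 : ∑ p ∈ Q, (N f p.1 p.2 - X f p.1 p.2 / 2 - X f p.2 p.1 / 2) ≤
      ∑ p ∈ Q, ipd d (DB d (tch p.1) f) (DB d (tch p.2) f) := by
    apply Finset.sum_le_sum
    intro p hp
    simp only [hQ, Finset.mem_filter, Finset.mem_product] at hp
    exact hloc f p.1 hp.1.1 p.2 hp.1.2 hp.2
  have h2 : ∑ p ∈ Q, (N f p.1 p.2 - X f p.1 p.2 / 2 - X f p.2 p.1 / 2) =
      ∑ p ∈ Q, N f p.1 p.2 - ∑ p ∈ Q, X f p.1 p.2 := by
    rw [Finset.sum_sub_distrib, Finset.sum_sub_distrib, ← Finset.sum_div, ← Finset.sum_div, hswap]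
    ring
  have h3 : ∑ p ∈ Q, X f p.1 p.2 ≤ ∑ p ∈ Q, N f p.1 p.2 := by
    rw [hiter (X f), hiter (N f)]
    exact Finset.sum_le_sum fun b hb => hJ2 f b hb
  linarith

theorem two_elts {β : Type*} [DecidableEq β] {F : Finset β} (hc : F.card = 2) {e1 e e' : β}
    (h1 : e1 ∈ F) (h : e ∈ F) (h' : e' ∈ F) (hne : e ≠ e1) (hne' : e' ≠ e1) : e = e' := by
  by_contra hcon
  have hsub : ({e1, e, e'} : Finset β) ⊆ F := by
    intro x hx
    simp only [Finset.mem_insert, Finset.mem_singleton] at hx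
    rcases hx with rfl | rfl | rfl <;> assumption
  have hcard : ({e1, e, e'} : Finset β).card = 3 := by
    rw [Finset.card_eq_three]
    exact ⟨e1, e, e', fun h => hne h.symm, fun h => hne' h.symm, hcon, rfl⟩
  have := Finset.card_le_card hsub
  omega

theorem mem_tch' (U : Finset (Fin n)) (e : Edge n) : e ∈ tch U ↔ ∃ v ∈ U, v ∈ e.1 := by
  simp [tch]

/-- the four slots of an effective switch all touch a common vertex pair (an opposite pair of the
alternating 4-cycle). -/
theorem exists_pair_touching (S : Finset (Fin n)) (F F' : Gr n) (hF : F ∈ pmSet S)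
    (hF' : F' ∈ pmSet S) (hne : F ≠ F') :
    ∃ b ∈ vpairs n, F ⊆ tch b ∧ F' ⊆ tch b := by
  obtain ⟨hc, hS, -⟩ := (mem_pmSet S F).1 hF
  obtain ⟨hc', hS', -⟩ := (mem_pmSet S F').1 hF'
  have hnon : F.Nonempty := by rw [← Finset.card_pos, hc]; norm_num
  obtain ⟨e1, he1⟩ := hnon
  obtain ⟨p, q, hpq, rfl⟩ := edge_exists e1
  have hpS : p ∈ S := hS _ he1 p (by simp)
  have hqS : q ∈ S := hS _ he1 q (by simp)
  obtain ⟨e3, he3, hp3⟩ := pm_exists_edge S F' hF' p hpS
  have hr : ∃ (r : Fin n) (hpr : p ≠ r), e3 = mkE p r hpr := by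
    obtain ⟨x, y, hxy, rfl⟩ := edge_exists e3
    rw [mem_mkE] at hp3
    rcases hp3 with rfl | rfl
    · exact ⟨y, hxy, rfl⟩
    · exact ⟨x, hxy.symm, mkE_comm _ _ _⟩
  obtain ⟨r, hpr, rfl⟩ := hr
  have hrS : r ∈ S := hS' _ he3 r (by simp)
  have hdis := pmSet_disjoint S F F' hF hF' hne
  have hqr : q ≠ r := by
    rintro rfl
    exact (Finset.disjoint_left.1 hdis he1) he3
  refine ⟨{q, r}, ?_, ?_, ?_⟩
  · unfold vpairs
    rw [Finset.mem_powersetCard]
    exact ⟨Finset.subset_univ _, Finset.card_pair hqr⟩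
  · intro e he
    rw [mem_tch']
    by_cases h1 : e = mkE p q hpq
    · exact ⟨q, by simp, by rw [h1]; simp⟩
    · obtain ⟨e', he', hr'⟩ := pm_exists_edge S F hF r hrS
      have h2 : e' ≠ mkE p q hpq := by
        rintro rfl
        rw [mem_mkE] at hr'
        rcases hr' with h | h
        · exact hpr h.symm
        · exact hqr h.symm
      rw [two_elts hc he1 he he' h1 h2]
      exact ⟨r, by simp, hr'⟩
  · intro e he
    rw [mem_tch']
    by_cases h1 : e = mkE p r hpr
    · exact ⟨r, by simp, by rw [h1]; simp⟩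
    · obtain ⟨e', he', hq'⟩ := pm_exists_edge S F' hF' q hqS
      have h2 : e' ≠ mkE p r hpr := by
        rintro rfl
        rw [mem_mkE] at hq'
        rcases hq' with h | h
        · exact hpq h.symm
        · exact hqr h
      rw [two_elts hc' he3 he he' h1 h2]
      exact ⟨q, by simp, hq'⟩

/-- a function fixed by all pair blocks is switch invariant, hence constant. -/
theorem const_of_DB_zero (d : Fin n → ℕ) (f : Gr n → ℝ)
    (h : ∀ b ∈ vpairs n, ∀ G ∈ realizations d, DB d (tch b) f G = 0) :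
    ∀ G ∈ realizations d, ∀ G' ∈ realizations d, f G = f G' := by
  apply switch_connected d f
  intro H hH S F F' hF hF'
  have hmem := switchResult_mem d S H F F' hF hF' hH
  by_cases hc : F ⊆ H ∧ Disjoint F' H
  · have hne : F ≠ F' := by
      rintro rfl
      have hcard := ((mem_pmSet S F).1 hF).1
      have : F = ∅ := by
        rw [← Finset.disjoint_self_iff_empty]
        exact hc.2.mono_right hc.1
      rw [this] at hcard
      simp at hcard
    obtain ⟨b, hb, h1, h2⟩ := exists_pair_touching S F F' hF hF' hne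
    have hres : switchResult H F F' = H \ F ∪ F' := by
      unfold switchResult; rw [if_pos hc]
    have hblk : switchResult H F F' ∈ blk d (tch b) H := by
      rw [mem_blk]
      refine ⟨hmem, ?_⟩
      rw [hres]
      ext e
      simp only [Finset.mem_sdiff, Finset.mem_union]
      constructor
      · rintro ⟨(⟨h3, _⟩ | h3), h4⟩
        · exact ⟨h3, h4⟩
        · exact absurd (h2 h3) h4
      · rintro ⟨h3, h4⟩
        exact ⟨Or.inl ⟨h3, fun h5 => h4 (h1 h5)⟩, h4⟩
    have e1 := h b hb _ hmem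
    have e2 := h b hb _ hH
    have e3 := EB_eq_of_mem f hblk
    simp only [DB] at e1 e2
    linarith
  · unfold switchResult; rw [if_neg hc]

theorem Dir_nonneg (d : Fin n → ℕ) (f : Gr n → ℝ) : 0 ≤ Dir d f := by
  unfold Dir locE
  exact Finset.sum_nonneg fun _ _ => Finset.sum_nonneg fun _ _ => Finset.sum_nonneg fun _ _ =>
    Finset.sum_nonneg fun _ _ => sq_nonneg _

/-- **Assembly.**  `Var f ≤ ∑_b ‖D_b f‖²`. -/
theorem Vr_le_KK (d : Fin n → ℕ) (h3 : H3 d) (h4 : H4 d) (f : Gr n → ℝ) :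
    Vr d f ≤ (realizations d).card * ipd d f (KK d f) := by
  have key := gap_on (realizations d) (KK d) (opOn_KK d)
    (by
      intro g
      have := ipd_KK d g
      rw [ipd_def] at this
      rw [this]
      exact Finset.sum_nonneg fun b _ => ip_self_nonneg _ _)
    (by
      intro g
      have := KK_sq_ge d h3 h4 g
      simp only [ipd_def] at this
      simpa [sq] using this)
    (by
      intro g hg
      apply const_of_DB_zero d g
      have h0 : ipd d g (KK d g) = 0 := by
        rw [ipd_def]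
        exact Finset.sum_eq_zero fun a ha => by rw [hg a ha, mul_zero]
      rw [ipd_KK] at h0
      intro b hb
      have := (Finset.sum_eq_zero_iff_of_nonneg (fun b _ => ip_self_nonneg _ _)).1 h0 b hb
      exact ip_self_eq_zero _ this)
    (by
      intro a ha
      unfold KK
      apply Finset.sum_eq_zero
      intro b _
      simp only [DB]
      have : EB d (tch b) (fun _ => 1) a = 1 := Av_const _ _ 1 ha
      rw [this, sub_self]) f
  exact key

theorem card_vpairs_le (n : ℕ) : 2 * ((vpairs n).card : ℝ) ≤ (n : ℝ) ^ 2 := by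
  unfold vpairs
  rw [Finset.card_powersetCard, Finset.card_univ, Fintype.card_fin]
  have h := Nat.choose_two_right n
  have h2 : 2 * n.choose 2 ≤ n ^ 2 := by
    rw [h]
    calc 2 * (n * (n - 1) / 2) ≤ n * (n - 1) := Nat.mul_div_le _ _
      _ ≤ n * n := Nat.mul_le_mul_left _ (Nat.sub_le _ _)
      _ = n ^ 2 := by ring
  exact_mod_cast h2

/-- `Core n` from the three hypotheses. -/
theorem core_of_hyps (h3 : ∀ d : Fin n → ℕ, H3 d) (h4 : ∀ d : Fin n → ℕ, H4 d)
    (hJ : ∀ d : Fin n → ℕ, HJ 2 d) : Core n := by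
  intro d f
  have h1 := Vr_le_KK d (h3 d) (h4 d) f
  have h2 : ipd d f (KK d f) ≤ (n : ℝ) ^ 2 * Dir d f := by
    have e : ipd d f (KK d f) = ∑ b ∈ vpairs n, ipd d f (DB d (tch b) f) := by
      unfold KK ipd
      rw [ip_sum_right]
    rw [e]
    calc ∑ b ∈ vpairs n, ipd d f (DB d (tch b) f) ≤ ∑ b ∈ vpairs n, 2 * Dir d f :=
          Finset.sum_le_sum fun b hb => hJ d f b hb
      _ = (2 * ((vpairs n).card : ℝ)) * Dir d f := by
          rw [Finset.sum_const, nsmul_eq_mul]; ring
      _ ≤ (n : ℝ) ^ 2 * Dir d f :=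
          mul_le_mul_of_nonneg_right (card_vpairs_le n) (Dir_nonneg d f)
  calc Vr d f ≤ (realizations d).card * ipd d f (KK d f) := h1
    _ ≤ (realizations d).card * ((n : ℝ) ^ 2 * Dir d f) :=
        mul_le_mul_of_nonneg_left h2 (Nat.cast_nonneg _)
    _ = (n : ℝ) ^ 2 * (realizations d).card * Dir d f := by ring

/-- `Core n` from the interface (I1)-(I5). -/
theorem core_of_interface
    (Q X : (d : Fin n → ℕ) → (Gr n → ℝ) → Finset (Fin n) → Finset (Fin n) → ℝ)
    (I1 : ∀ (d : Fin n → ℕ) (f : Gr n → ℝ), ∀ T ∈ (univ : Finset (Fin n)).powersetCard 3,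
      ipd d f (fun G => ∑ b ∈ T.powersetCard 2, DB d (tch b) f G) ≤
        ipd d (fun G => ∑ b ∈ T.powersetCard 2, DB d (tch b) f G)
          (fun G => ∑ b ∈ T.powersetCard 2, DB d (tch b) f G))
    (I2 : ∀ (d : Fin n → ℕ) (f : Gr n → ℝ), ∀ b ∈ vpairs n, ∀ b' ∈ vpairs n, Disjoint b b' →
      Q d f b b' - X d f b b' / 2 - X d f b' b / 2 ≤ ipd d (DB d (tch b) f) (DB d (tch b') f))
    (I3 : ∀ (d : Fin n → ℕ) (f : Gr n → ℝ), ∀ b ∈ vpairs n,
      ∑ b' ∈ (vpairs n).filter (fun b' => Disjoint b b'), X d f b b' ≤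
        ∑ b' ∈ (vpairs n).filter (fun b' => Disjoint b b'), Q d f b b')
    (I4 : ∀ (d : Fin n → ℕ) (f : Gr n → ℝ), ∀ b ∈ vpairs n,
      ipd d f (DB d (tch b) f) ≤ ∑ b' ∈ (vpairs n).filter (fun b' => Disjoint b b'), Q d f b b')
    (I5 : ∀ (d : Fin n → ℕ) (f : Gr n → ℝ),
      ∑ b ∈ vpairs n, ∑ b' ∈ (vpairs n).filter (fun b' => Disjoint b b'), Q d f b b' ≤
        (n : ℝ) ^ 2 * Dir d f) : Core n := by
  intro d f
  have h1 := Vr_le_KK d (H3_of_cluster d (I1 d)) (H4_of_local d (Q d) (X d) (I2 d) (I3 d)) f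
  have h2 : ipd d f (KK d f) ≤ (n : ℝ) ^ 2 * Dir d f := by
    have e : ipd d f (KK d f) = ∑ b ∈ vpairs n, ipd d f (DB d (tch b) f) := by
      unfold KK ipd
      rw [ip_sum_right]
    rw [e]
    exact (Finset.sum_le_sum fun b hb => I4 d f b hb).trans (I5 d f)
  calc Vr d f ≤ (realizations d).card * ipd d f (KK d f) := h1
    _ ≤ (realizations d).card * ((n : ℝ) ^ 2 * Dir d f) :=
        mul_le_mul_of_nonneg_left h2 (Nat.cast_nonneg _)
    _ = (n : ℝ) ^ 2 * (realizations d).card * Dir d f := by ring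

end Crest.Agent.R299.Asm
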