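import Crest.Agent.R299.Core

/-!
# R299 (S0453): hypothesis (I6) of `poinc_of_pieces` from switch connectivity
-/

set_option autoImplicit false
open Finset
open Crest.SwitchChain

namespace Crest.Agent.R299

variable {n : ℕ}

namespace CoreConn

theorem edge_of_mem (e : Edge n) (u : Fin n) (h : u ∈ e.1) :
    ∃ (y : Fin n) (hy : u ≠ y), e = mkE u y hy := by
  obtain ⟨a, b, hab, rfl⟩ := edge_exists e
  rw [mem_mkE] at h
  rcases h with rfl | rfl
  · exact ⟨b, hab, rfl⟩
  · exact ⟨a, hab.symm, by rw [mkE_eq_iff]; right; exact ⟨rfl, rfl⟩⟩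

/-- two distinct perfect matchings on `S` are covered by a pair of vertices (a diagonal). -/
theorem pm_cover (S : Finset (Fin n)) (F F' : Gr n) (hF : F ∈ pmSet S) (hF' : F' ∈ pmSet S)
    (hne : F ≠ F') : ∃ b ∈ P2 (Fin n), F ⊆ tch b ∧ F' ⊆ tch b := by
  obtain ⟨hc, hS, -⟩ := (mem_pmSet S F).1 hF
  obtain ⟨hc', hS', -⟩ := (mem_pmSet S F').1 hF'
  have hdisj := pmSet_disjoint S F F' hF hF' hne
  obtain ⟨e1, e2, he12, hFeq⟩ := Finset.card_eq_two.1 hc
  have he1 : e1 ∈ F := by rw [hFeq]; simp
  have he2 : e2 ∈ F := by rw [hFeq]; simp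
  obtain ⟨u, x, hux, rfl⟩ := edge_exists e1
  have huS : u ∈ S := hS _ he1 u (by simp)
  obtain ⟨e', he', hue'⟩ := pm_exists_edge S F' hF' u huS
  obtain ⟨y, huy, rfl⟩ := edge_of_mem e' u hue'
  have hyS : y ∈ S := hS' _ he' y (by simp)
  have hyx : y ≠ x := by
    rintro rfl
    exact Finset.disjoint_left.1 hdisj he1 he'
  obtain ⟨e, he, hye⟩ := pm_exists_edge S F hF y hyS
  have hee2 : e = e2 := by
    rw [hFeq] at he
    simp only [Finset.mem_insert, Finset.mem_singleton] at he
    rcases he with rfl | rfl
    · rw [mem_mkE] at hye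
      rcases hye with h | h
      · exact absurd h.symm huy
      · exact absurd h hyx
    · rfl
  subst hee2
  obtain ⟨v, hyv, rfl⟩ := edge_of_mem e y hye
  have hvS : v ∈ S := hS _ he2 v (by simp)
  have huv : u ≠ v := by
    rintro rfl
    exact he12 (pm_edge_unique S F hF u huS _ _ he1 he2 (by simp) (by simp))
  refine ⟨{u, v}, mem_P2.2 (Finset.card_pair huv), ?_, ?_⟩
  · intro e he
    rw [hFeq] at he
    simp only [Finset.mem_insert, Finset.mem_singleton] at he
    rcases he with rfl | rfl
    · rw [mkE_mem_tch]; left; simp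
    · rw [mkE_mem_tch]; right; simp
  · intro e he
    by_cases hue : u ∈ e.1
    · simp only [tch, Finset.mem_filter, Finset.mem_univ, true_and]
      exact ⟨u, by simp, hue⟩
    · obtain ⟨e3, he3, hve3⟩ := pm_exists_edge S F' hF' v hvS
      have h3 : e3 ≠ mkE u y huy := by
        rintro rfl
        rw [mem_mkE] at hve3
        rcases hve3 with h | h
        · exact huv h.symm
        · exact hyv h.symm
      have h4 : e ≠ mkE u y huy := by
        rintro rfl
        exact hue (by simp)
      -- `F'` has two elements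
      have h5 : e = e3 := by
        by_contra hcon
        have hsub : ({e, e3, mkE u y huy} : Gr n) ⊆ F' := by
          intro z hz
          simp only [Finset.mem_insert, Finset.mem_singleton] at hz
          rcases hz with rfl | rfl | rfl <;> assumption
        have hcard : ({e, e3, mkE u y huy} : Gr n).card = 3 := by
          rw [Finset.card_eq_three]
          exact ⟨e, e3, mkE u y huy, hcon, h4, h3, rfl⟩
        have := Finset.card_le_card hsub
        omega
      subst h5
      simp only [tch, Finset.mem_filter, Finset.mem_univ, true_and]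
      exact ⟨v, by simp, hve3⟩

end CoreConn

/-- hypothesis (I6) of `poinc_of_pieces`. -/
theorem conn_of_blocks (d : Fin n → ℕ) (f : Gr n → ℝ)
    (h : ∀ G ∈ realizations d, ∀ b ∈ P2 (Fin n), ∀ H ∈ blk d (tch b) G, f H = f G) :
    ∀ G ∈ realizations d, ∀ H ∈ realizations d, f G = f H := by
  apply switch_connected d f
  intro H hH S F F' hF hF'
  unfold switchResult
  split_ifs with hc
  · obtain ⟨hsub, hdis⟩ := hc
    have hne : F ≠ F' := by
      rintro rfl
      obtain ⟨hcard, -, -⟩ := (mem_pmSet S F).1 hF
      have : F = ∅ := by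
        rw [← Finset.subset_empty]
        intro e he
        exact absurd (hsub he) (Finset.disjoint_left.1 hdis he)
      rw [this] at hcard
      simp at hcard
    obtain ⟨b, hb, h1, h2⟩ := CoreConn.pm_cover S F F' hF hF' hne
    apply h H hH b hb
    rw [mem_blk]
    constructor
    · have := switchResult_mem d S H F F' hF hF' hH
      unfold switchResult at this
      rwa [if_pos ⟨hsub, hdis⟩] at this
    · ext e
      simp only [Finset.mem_sdiff, Finset.mem_union]
      constructor
      · rintro ⟨(⟨h3, _⟩ | h3), h4⟩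
        · exact ⟨h3, h4⟩
        · exact absurd (h2 h3) h4
      · rintro ⟨h3, h4⟩
        exact ⟨Or.inl ⟨h3, fun h5 => h4 (h1 h5)⟩, h4⟩
  · rfl

end Crest.Agent.R299
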