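import Crest.Prelude.Def_SwitchChain

/-!
# R299 (S0453): common definitions for the switch-chain row

Everything is stated on `Fin n`; a *removed* vertex is simply a vertex of degree `0`
(so no relabelling `Fin n \ k ≃ Fin (n-1)` is ever needed).
-/

set_option autoImplicit false
open Finset
open Crest.SwitchChain

namespace Crest.Agent.R299

variable {n : ℕ}

/-- State space of graphs on `Fin n`. -/
abbrev Gr (n : ℕ) := Finset (Edge n)

/-- The non-lazy part of the kernel: `kernel = 1/2 I + 1/2 K'`. -/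
noncomputable def K' (n : ℕ) : Matrix (Gr n) (Gr n) ℝ :=
  fun E E' => (proposalCount E E' : ℝ) / (6 * (n.choose 4 : ℝ))

/-- `|Ω|² Var(f)` on a finite set `Ω`. -/
noncomputable def VrOn {α : Type*} (Ω : Finset α) (f : α → ℝ) : ℝ :=
  (Ω.card : ℝ) * (∑ G ∈ Ω, f G ^ 2) - (∑ G ∈ Ω, f G) ^ 2

/-- `|Ω|² Var(f)` for the uniform law on the realizations of `d`. -/
noncomputable def Vr (d : Fin n → ℕ) (f : Gr n → ℝ) : ℝ := VrOn (realizations d) f

/-- The local (one graph) unnormalised switch energy: sum over all proposals. -/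
noncomputable def locE (f : Gr n → ℝ) (G : Gr n) : ℝ :=
  ∑ S ∈ (univ : Finset (Fin n)).powersetCard 4,
    ∑ F ∈ pmSet S, ∑ F' ∈ (pmSet S).erase F, (f G - f (switchResult G F F')) ^ 2

/-- The unnormalised Dirichlet form: `Dir d f = ∑_{G ∈ Ω} ∑_{proposals} (f G - f (result))²`
(`= 2 |Ω| ⟨f, L f⟩_π` for the unnormalised switch Laplacian `L`). -/
noncomputable def Dir (d : Fin n → ℕ) (f : Gr n → ℝ) : ℝ :=
  ∑ G ∈ realizations d, locE f G

/-- Poincaré inequality with constant `c` for the class of `d`: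
`|Ω|² Var f ≤ c |Ω| Dir f`, i.e. `Var f ≤ 2 c ⟨f, L f⟩`. -/
def Poinc (c : ℝ) (d : Fin n → ℕ) : Prop :=
  ∀ f : Gr n → ℝ, Vr d f ≤ c * (realizations d).card * Dir d f

/-- The core target of the row: `Var f ≤ 2 n² ⟨f, L f⟩` for every class. -/
def Core (n : ℕ) : Prop := ∀ d : Fin n → ℕ, Poinc ((n : ℝ) ^ 2) d

/-- The star of `k` in `G` (the edges of `G` at `k`); this is our encoding of `N(k)`. -/
def star (G : Gr n) (k : Fin n) : Gr n := G.filter fun e => k ∈ e.1

/-- The fibre `{G ∈ Ω_d : star G k = A}`. -/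
def fib (d : Fin n → ℕ) (k : Fin n) (A : Gr n) : Finset (Gr n) :=
  (realizations d).filter fun G => star G k = A

/-- The reduced degree vector after deleting the star `A`. -/
def dred (d : Fin n → ℕ) (A : Gr n) : Fin n → ℕ := fun v => d v - deg A v

/-- The active (non isolated) vertices. -/
def act (d : Fin n → ℕ) : Finset (Fin n) := univ.filter fun v => d v ≠ 0

/-- `|Ω|² Var(E[f | star k])`. -/
noncomputable def VrP (d : Fin n → ℕ) (k : Fin n) (f : Gr n → ℝ) : ℝ :=
  (realizations d).card *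
      (∑ A ∈ (realizations d).image (fun G => star G k),
        (∑ G ∈ fib d k A, f G) ^ 2 / (fib d k A).card) -
    (∑ G ∈ realizations d, f G) ^ 2

/-- KEY with constant `μ` for the class of `d`:
`∑_k Var(E[f | N(k)]) ≤ μ Var f`. -/
def Key (μ : ℝ) (d : Fin n → ℕ) : Prop :=
  ∀ f : Gr n → ℝ, ∑ k, VrP d k f ≤ μ * Vr d f

end Crest.Agent.R299
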