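import Crest.Agent.R299.PM

/-!
# R299 (S0453), task T3: structure of the switch kernel
-/

set_option autoImplicit false
open Finset
open Crest.SwitchChain

namespace Crest.Agent.R299

variable {n : ℕ}

theorem deg_union_of_disjoint (A B : Gr n) (h : Disjoint A B) (v : Fin n) :
    deg (A ∪ B) v = deg A v + deg B v := by
  unfold deg
  rw [Finset.filter_union, Finset.card_union_of_disjoint]
  exact Finset.disjoint_filter_filter h

theorem deg_sdiff_add (E F : Gr n) (h : F ⊆ E) (v : Fin n) :
    deg (E \ F) v + deg F v = deg E v := by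
  rw [← deg_union_of_disjoint _ _ Finset.sdiff_disjoint, Finset.sdiff_union_of_subset h]

theorem deg_switchResult (S : Finset (Fin n)) (E F F' : Gr n) (hF : F ∈ pmSet S) (hF' : F' ∈ pmSet S)
    (v : Fin n) : deg (switchResult E F F') v = deg E v := by
  unfold switchResult
  split_ifs with h
  · obtain ⟨h1, h2⟩ := h
    have hd : Disjoint (E \ F) F' := (h2.mono_right Finset.sdiff_subset).symm
    rw [deg_union_of_disjoint _ _ hd, ← deg_sdiff_add E F h1 v, deg_pm S F hF, deg_pm S F' hF']
  · rfl

theorem mem_realizations (d : Fin n → ℕ) (E : Gr n) : E ∈ realizations d ↔ ∀ v, deg E v = d v := by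
  simp [realizations]

theorem switchResult_mem (d : Fin n → ℕ) (S : Finset (Fin n)) (E F F' : Gr n) (hF : F ∈ pmSet S)
    (hF' : F' ∈ pmSet S) (hE : E ∈ realizations d) : switchResult E F F' ∈ realizations d := by
  rw [mem_realizations] at hE ⊢
  intro v
  rw [deg_switchResult S E F F' hF hF' v, hE v]

/-- reversing an effective switch -/
theorem switchResult_reverse (E E' F F' : Gr n) (hd : Disjoint F F') (hne : E ≠ E')
    (h : switchResult E F F' = E') : switchResult E' F' F = E := by
  unfold switchResult at h
  split_ifs at h with hc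
  · obtain ⟨h1, h2⟩ := hc
    subst h
    unfold switchResult
    have c1 : F' ⊆ E \ F ∪ F' := Finset.subset_union_right
    have c2 : Disjoint F (E \ F ∪ F') := by
      rw [Finset.disjoint_union_right]
      exact ⟨Finset.disjoint_sdiff, hd⟩
    rw [if_pos ⟨c1, c2⟩]
    ext e
    simp only [Finset.mem_union, Finset.mem_sdiff]
    constructor
    · rintro (⟨(⟨h3, -⟩ | h3), h4⟩ | h3)
      · exact h3
      · exact absurd h3 h4
      · exact h1 h3
    · intro he
      by_cases hf : e ∈ F
      · right; exact hf
      · left
        exact ⟨Or.inl ⟨he, hf⟩, fun h3 => (Finset.disjoint_left.1 h2 h3) he⟩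
  · exact absurd h hne

theorem switchResult_eq_iff_reverse (E E' F F' : Gr n) (hd : Disjoint F F') (hne : E ≠ E') :
    switchResult E F F' = E' ↔ switchResult E' F' F = E :=
  ⟨switchResult_reverse E E' F F' hd hne, switchResult_reverse E' E F' F hd.symm hne.symm⟩

theorem proposalCount_symm (E E' : Gr n) : proposalCount E E' = proposalCount E' E := by
  by_cases hne : E = E'
  · rw [hne]
  unfold proposalCount
  apply Finset.sum_congr rfl
  intro S _
  rw [Finset.sum_comm' (t' := pmSet S) (s' := fun F' => (pmSet S).erase F')]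
  · apply Finset.sum_congr rfl
    intro F' hF'
    apply Finset.sum_congr rfl
    intro F hF
    rw [Finset.mem_erase] at hF
    have hd : Disjoint F F' := pmSet_disjoint S F F' hF.2 hF' hF.1
    simp only [switchResult_eq_iff_reverse E E' F F' hd hne]
  · intro F F'
    simp only [Finset.mem_erase]
    constructor
    · rintro ⟨h1, h2, h3⟩; exact ⟨⟨fun h => h2 h.symm, h1⟩, h3⟩
    · rintro ⟨⟨h1, h2⟩, h3⟩; exact ⟨h2, fun h => h1 h.symm, h3⟩

theorem proposalCount_row_sum (E : Gr n) : ∑ E', proposalCount E E' = 6 * n.choose 4 := by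
  unfold proposalCount
  rw [Finset.sum_comm]
  have key : ∀ S ∈ (univ : Finset (Fin n)).powersetCard 4,
      (∑ E' : Gr n, ∑ F ∈ pmSet S, ∑ F' ∈ (pmSet S).erase F,
        if switchResult E F F' = E' then 1 else 0) = 6 := by
    intro S hS
    rw [Finset.mem_powersetCard] at hS
    rw [Finset.sum_comm]
    have h1 : ∀ F ∈ pmSet S, (∑ E' : Gr n, ∑ F' ∈ (pmSet S).erase F,
        if switchResult E F F' = E' then 1 else 0) = 2 := by
      intro F hF
      rw [Finset.sum_comm]
      have h2 : ∀ F' ∈ (pmSet S).erase F,
          (∑ E' : Gr n, if switchResult E F F' = E' then 1 else 0) = 1 := by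
        intro F' _
        rw [Finset.sum_ite_eq]
        simp
      rw [Finset.sum_congr rfl h2, Finset.sum_const, Finset.card_erase_of_mem hF,
        card_pmSet S hS.2]
      rfl
    rw [Finset.sum_congr rfl h1, Finset.sum_const, card_pmSet S hS.2]
    rfl
  rw [Finset.sum_congr rfl key, Finset.sum_const, Finset.card_powersetCard, Finset.card_univ,
    Fintype.card_fin, smul_eq_mul, mul_comm]

theorem proposalCount_closed (d : Fin n → ℕ) (E E' : Gr n) (hE : E ∈ realizations d)
    (hE' : E' ∉ realizations d) : proposalCount E E' = 0 := by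
  unfold proposalCount
  apply Finset.sum_eq_zero
  intro S _
  apply Finset.sum_eq_zero
  intro F hF
  apply Finset.sum_eq_zero
  intro F' hF'
  rw [if_neg]
  intro h
  apply hE'
  rw [← h]
  exact switchResult_mem d S E F F' hF (Finset.mem_of_mem_erase hF') hE

theorem kernel_lazy (E E' : Gr n) :
    kernel n E E' = (if E = E' then 1 / 2 else 0) + K' n E E' / 2 := by
  unfold kernel K'
  congr 1
  ring

end Crest.Agent.R299
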