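import Crest.Agent.R299.Mixing
import Crest.Agent.R299.Kernel

set_option autoImplicit false
open Finset
open Crest.SwitchChain

namespace Crest.Agent.R299

variable {n : ℕ}

theorem kernel_symm (E E' : Gr n) : kernel n E E' = kernel n E' E := by
  unfold kernel
  rw [proposalCount_symm E E']
  by_cases h : E = E'
  · subst h; rfl
  · have h' : ¬ E' = E := fun h'' => h h''.symm
    simp [h, h']

theorem K'_symm (E E' : Gr n) : K' n E E' = K' n E' E := by
  unfold K'; rw [proposalCount_symm E E']

theorem K'_nonneg (E E' : Gr n) : 0 ≤ K' n E E' := by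
  unfold K'; positivity

theorem K'_row_sum (hn : 4 ≤ n) (E : Gr n) : ∑ E', K' n E E' = 1 := by
  unfold K'
  rw [← Finset.sum_div]
  have h := proposalCount_row_sum E
  have hR : (∑ E', (proposalCount E E' : ℝ)) = 6 * (n.choose 4 : ℝ) := by exact_mod_cast h
  rw [hR]
  have hch : (0 : ℝ) < (n.choose 4 : ℝ) := by exact_mod_cast Nat.choose_pos hn
  field_simp

theorem K'_closed (d : Fin n → ℕ) (E : Gr n) (hE : E ∈ realizations d) (E' : Gr n)
    (hE' : E' ∉ realizations d) : K' n E E' = 0 := by
  unfold K'; rw [proposalCount_closed d E E' hE hE']; simp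

theorem kernel_row_sum_on (hn : 4 ≤ n) (d : Fin n → ℕ) (E : Gr n) (hE : E ∈ realizations d) :
    ∑ E' ∈ realizations d, kernel n E E' = 1 := by
  have h1 : ∑ E' ∈ realizations d, kernel n E E' = ∑ E', kernel n E E' := by
    apply Finset.sum_subset (Finset.subset_univ _)
    intro E' _ hE'
    rw [kernel_lazy, K'_closed d E hE E' hE']
    have : E ≠ E' := fun h => hE' (h ▸ hE)
    simp [this]
  rw [h1]
  simp_rw [kernel_lazy]
  rw [Finset.sum_add_distrib, ← Finset.sum_div, K'_row_sum hn]
  simp
  norm_num

/-- the sum of `proposalCount`-weighted terms is the sum over proposals -/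
theorem sum_proposalCount (E : Gr n) (g : Gr n → ℝ) :
    ∑ E', (proposalCount E E' : ℝ) * g E' =
      ∑ S ∈ (univ : Finset (Fin n)).powersetCard 4,
        ∑ F ∈ pmSet S, ∑ F' ∈ (pmSet S).erase F, g (switchResult E F F') := by
  unfold proposalCount
  push_cast
  simp_rw [Finset.sum_mul]
  rw [Finset.sum_comm]
  apply Finset.sum_congr rfl; intro S _
  rw [Finset.sum_comm]
  apply Finset.sum_congr rfl; intro F _
  rw [Finset.sum_comm]
  apply Finset.sum_congr rfl; intro F' _
  simp

theorem dirichlet_eq (hn : 4 ≤ n) (d : Fin n → ℕ) (f : Gr n → ℝ) :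
    ∑ G ∈ realizations d, f G * (f G - ∑ G' ∈ realizations d, kernel n G G' * f G') =
      Dir d f / (24 * (n.choose 4 : ℝ)) := by
  rw [dirichlet_abstract (realizations d) (kernel n) kernel_symm
    (fun a ha => kernel_row_sum_on hn d a ha) f]
  unfold Dir
  rw [Finset.sum_div, Finset.mul_sum]
  apply Finset.sum_congr rfl
  intro G hG
  have h1 : ∑ b ∈ realizations d, kernel n G b * (f G - f b) ^ 2 =
      ∑ b, (proposalCount G b : ℝ) * ((f G - f b) ^ 2 / (12 * (n.choose 4 : ℝ))) := by
    rw [← Finset.sum_subset (Finset.subset_univ (realizations d))]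
    · apply Finset.sum_congr rfl
      intro b _
      unfold kernel
      by_cases h : G = b
      · subst h; simp
      · simp [h]; ring
    · intro b _ hb
      rw [proposalCount_closed d G b hG hb]; simp
  rw [h1, sum_proposalCount]
  unfold locE
  simp_rw [← Finset.sum_div]
  ring

end Crest.Agent.R299
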