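import Crest.Agent.R299.Adj
import Crest.Agent.R299.Block

/-!
# R299 (S0453): the `2 × 2` slot block `M4 = {ux, uy, vx, vy}` and the switch energy

For pairwise distinct `u v x y`:
* `En.blk_M4` : the block of `G` for the slot set `M4 u v x y` is `{G, sg u v x y G}`,
  `sg` = the switch `{ux, vy} ↔ {uy, vx}` (identity if it is not available);
* `En.ipd_DB_M4` : `‖f - E_{M4} f‖² = (1/4) ∑_G (f G - f (sg G))²`;
* `En.sum_energy` : the sum of the switch energies over all ordered 4-tuples of distinct vertices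
  is `8 * Dir d f`.
-/

set_option autoImplicit false
open Finset
open Crest.SwitchChain

namespace Crest.Agent.R299.En

variable {n : ℕ}

/-- the slot `{a,b}` as a set of edges (empty if `a = b`). -/
def pairE (a b : Fin n) : Gr n := univ.filter fun e => e.1 = s(a, b)

/-- the two slots `{a,b}`, `{c,e}`. -/
def E2 (a b c e : Fin n) : Gr n := pairE a b ∪ pairE c e

/-- the switch on the 4-cycle `u - x - v - y`: `{ux, vy} ↔ {uy, vx}`. -/
def sg (u v x y : Fin n) (G : Gr n) : Gr n :=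
  if E2 u x v y ⊆ G ∧ Disjoint (E2 u y v x) G then switchResult G (E2 u x v y) (E2 u y v x)
  else switchResult G (E2 u y v x) (E2 u x v y)

/-- the four slots `ux, vy, uy, vx`. -/
def M4 (u v x y : Fin n) : Gr n := E2 u x v y ∪ E2 u y v x

/-- `u, v, x, y` are pairwise distinct. -/
structure D4 (u v x y : Fin n) : Prop where
  uv : u ≠ v
  xy : x ≠ y
  ux : u ≠ x
  uy : u ≠ y
  vx : v ≠ x
  vy : v ≠ y

theorem pairE_eq (a b : Fin n) (h : a ≠ b) : pairE a b = {mkE a b h} := by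
  ext e
  simp [pairE, mkE, Subtype.ext_iff]

theorem E2_eq (a b c e : Fin n) (h : a ≠ b) (h' : c ≠ e) :
    E2 a b c e = {mkE a b h, mkE c e h'} := by
  rw [E2, pairE_eq _ _ h, pairE_eq _ _ h']; rfl

/-- indicator -/
def ind (P : Prop) [Decidable P] : ℕ := if P then 1 else 0

theorem ind_le (P : Prop) [Decidable P] : ind P ≤ 1 := by unfold ind; split_ifs <;> simp
theorem ind_one (P : Prop) [Decidable P] : ind P = 1 ↔ P := by unfold ind; split_ifs <;> simp [*]
theorem ind_zero (P : Prop) [Decidable P] : ind P = 0 ↔ ¬ P := by unfold ind; split_ifs <;> simp [*]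
theorem ind_eq (P Q : Prop) [Decidable P] [Decidable Q] : ind P = ind Q ↔ (P ↔ Q) := by
  unfold ind; split_ifs <;> simp [*]

section fixed
variable {u v x y : Fin n} (h : D4 u v x y)
include h

theorem M4_eq : M4 u v x y = {mkE u x h.ux, mkE v y h.vy, mkE u y h.uy, mkE v x h.vx} := by
  rw [M4, E2_eq _ _ _ _ h.ux h.vy, E2_eq _ _ _ _ h.uy h.vx]
  ext e; simp only [mem_union, mem_insert, mem_singleton]; tauto

theorem mem_M4 (e : Edge n) : e ∈ M4 u v x y ↔
    e = mkE u x h.ux ∨ e = mkE v y h.vy ∨ e = mkE u y h.uy ∨ e = mkE v x h.vx := by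
  rw [M4_eq h]; simp only [mem_insert, mem_singleton]

theorem deg_inter_M4 (H : Gr n) (w : Fin n) :
    deg (H ∩ M4 u v x y) w =
      ind (mkE u x h.ux ∈ H ∧ (w = u ∨ w = x)) + ind (mkE v y h.vy ∈ H ∧ (w = v ∨ w = y))
      + ind (mkE u y h.uy ∈ H ∧ (w = u ∨ w = y)) + ind (mkE v x h.vx ∈ H ∧ (w = v ∨ w = x)) := by
  have hu := h.uv; have h2 := h.xy; have h3 := h.ux; have h4 := h.uy; have h5 := h.vx
  have h6 := h.vy
  unfold deg
  rw [inter_comm, ← filter_mem_eq_inter, filter_filter, card_filter, M4_eq h]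
  rw [sum_insert, sum_insert, sum_insert, sum_singleton]
  · simp only [mem_mkE, ind]; ring
  · simp only [mem_singleton, mkE_eq_iff]; tauto
  · simp only [mem_insert, mem_singleton, mkE_eq_iff]; tauto
  · simp only [mem_insert, mem_singleton, mkE_eq_iff]; tauto

omit h in
theorem deg_inter_eq (d : Fin n → ℕ) {G H : Gr n} (hG : G ∈ realizations d)
    (hH : H ∈ realizations d) (L : Gr n) (hHG : H \ L = G \ L) (w : Fin n) :
    deg (H ∩ L) w = deg (G ∩ L) w := by
  have e1 := deg_sdiff_add H (H ∩ L) inter_subset_left w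
  have e2 := deg_sdiff_add G (G ∩ L) inter_subset_left w
  rw [sdiff_inter_self_left] at e1 e2
  rw [mem_realizations] at hG hH
  rw [hHG, hH w] at e1
  rw [hG w] at e2
  omega

/-- the three possibilities for two realizations which agree off `M4`. -/
theorem tricho (d : Fin n → ℕ) {G H : Gr n} (hG : G ∈ realizations d)
    (hH : H ∈ realizations d) (hHG : H \ M4 u v x y = G \ M4 u v x y) :
    ((mkE u x h.ux ∈ H ↔ mkE u x h.ux ∈ G) ∧ (mkE v y h.vy ∈ H ↔ mkE v y h.vy ∈ G) ∧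
      (mkE u y h.uy ∈ H ↔ mkE u y h.uy ∈ G) ∧ (mkE v x h.vx ∈ H ↔ mkE v x h.vx ∈ G)) ∨
    (mkE u x h.ux ∈ G ∧ mkE v y h.vy ∈ G ∧ mkE u y h.uy ∉ G ∧ mkE v x h.vx ∉ G ∧
      mkE u x h.ux ∉ H ∧ mkE v y h.vy ∉ H ∧ mkE u y h.uy ∈ H ∧ mkE v x h.vx ∈ H) ∨
    (mkE u x h.ux ∉ G ∧ mkE v y h.vy ∉ G ∧ mkE u y h.uy ∈ G ∧ mkE v x h.vx ∈ G ∧
      mkE u x h.ux ∈ H ∧ mkE v y h.vy ∈ H ∧ mkE u y h.uy ∉ H ∧ mkE v x h.vx ∉ H) := by
  have hu := h.uv; have h2 := h.xy; have h3 := h.ux; have h4 := h.uy; have h5 := h.vx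
  have h6 := h.vy
  have key := fun w => deg_inter_eq d hG hH _ hHG w
  have ku := key u; have kv := key v; have kx := key x; have ky := key y
  rw [deg_inter_M4 h, deg_inter_M4 h] at ku kv kx ky
  simp only [true_or, or_true, and_true, hu, hu.symm, h2, h2.symm, h3, h3.symm, h4, h4.symm,
    h5, h5.symm, h6, h6.symm, or_self, and_false] at ku kv kx ky
  have z : ind False = 0 := rfl
  rw [z] at ku kv kx ky
  have b1 := ind_le (mkE u x h.ux ∈ H); have b2 := ind_le (mkE v y h.vy ∈ H)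
  have b3 := ind_le (mkE u y h.uy ∈ H); have b4 := ind_le (mkE v x h.vx ∈ H)
  have c1 := ind_le (mkE u x h.ux ∈ G); have c2 := ind_le (mkE v y h.vy ∈ G)
  have c3 := ind_le (mkE u y h.uy ∈ G); have c4 := ind_le (mkE v x h.vx ∈ G)
  have main : (ind (mkE u x h.ux ∈ H) = ind (mkE u x h.ux ∈ G) ∧
      ind (mkE v y h.vy ∈ H) = ind (mkE v y h.vy ∈ G) ∧
      ind (mkE u y h.uy ∈ H) = ind (mkE u y h.uy ∈ G) ∧
      ind (mkE v x h.vx ∈ H) = ind (mkE v x h.vx ∈ G)) ∨
    (ind (mkE u x h.ux ∈ G) = 1 ∧ ind (mkE v y h.vy ∈ G) = 1 ∧ ind (mkE u y h.uy ∈ G) = 0 ∧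
      ind (mkE v x h.vx ∈ G) = 0 ∧ ind (mkE u x h.ux ∈ H) = 0 ∧ ind (mkE v y h.vy ∈ H) = 0 ∧
      ind (mkE u y h.uy ∈ H) = 1 ∧ ind (mkE v x h.vx ∈ H) = 1) ∨
    (ind (mkE u x h.ux ∈ G) = 0 ∧ ind (mkE v y h.vy ∈ G) = 0 ∧ ind (mkE u y h.uy ∈ G) = 1 ∧
      ind (mkE v x h.vx ∈ G) = 1 ∧ ind (mkE u x h.ux ∈ H) = 1 ∧ ind (mkE v y h.vy ∈ H) = 1 ∧
      ind (mkE u y h.uy ∈ H) = 0 ∧ ind (mkE v x h.vx ∈ H) = 0) := by
    omega
  simpa only [ind_eq, ind_one, ind_zero] using main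

omit h in
theorem E2_subset (a b c e : Fin n) (h1 : a ≠ b) (h2 : c ≠ e) (G : Gr n) :
    E2 a b c e ⊆ G ↔ mkE a b h1 ∈ G ∧ mkE c e h2 ∈ G := by
  rw [E2_eq _ _ _ _ h1 h2, insert_subset_iff, singleton_subset_iff]

omit h in
theorem E2_disjoint (a b c e : Fin n) (h1 : a ≠ b) (h2 : c ≠ e) (G : Gr n) :
    Disjoint (E2 a b c e) G ↔ mkE a b h1 ∉ G ∧ mkE c e h2 ∉ G := by
  rw [E2_eq _ _ _ _ h1 h2, disjoint_insert_left, disjoint_singleton_left]

omit h in
theorem switchResult_sdiff (G F F' M : Gr n) (hF : F ⊆ M) (hF' : F' ⊆ M) :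
    switchResult G F F' \ M = G \ M := by
  unfold switchResult
  split_ifs
  · ext e
    have h1 := @hF e
    have h2 := @hF' e
    simp only [mem_sdiff, mem_union]
    tauto
  · rfl

omit h in
theorem sg_sdiff (u v x y : Fin n) (G : Gr n) : sg u v x y G \ M4 u v x y = G \ M4 u v x y := by
  unfold sg M4
  split_ifs
  · exact switchResult_sdiff _ _ _ _ subset_union_left subset_union_right
  · exact switchResult_sdiff _ _ _ _ subset_union_right subset_union_left

theorem E2_mem_pm1 : E2 u x v y ∈ pmSet ({u, v, x, y} : Finset (Fin n)) := by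
  rw [E2_eq _ _ _ _ h.ux h.vy]
  have := pm_mem u x v y h.ux h.uv h.uy h.vx.symm h.xy h.vy
  have e : ({u, x, v, y} : Finset (Fin n)) = {u, v, x, y} := by
    ext w; simp only [mem_insert, mem_singleton]; tauto
  rwa [e] at this

theorem E2_mem_pm2 : E2 u y v x ∈ pmSet ({u, v, x, y} : Finset (Fin n)) := by
  rw [E2_eq _ _ _ _ h.uy h.vx]
  have := pm_mem u y v x h.uy h.uv h.ux h.vy.symm h.xy.symm h.vx
  have e : ({u, y, v, x} : Finset (Fin n)) = {u, v, x, y} := by
    ext w; simp only [mem_insert, mem_singleton]; tauto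
  rwa [e] at this

theorem sg_mem (d : Fin n → ℕ) {G : Gr n} (hG : G ∈ realizations d) :
    sg u v x y G ∈ realizations d := by
  unfold sg
  split_ifs
  · exact switchResult_mem d _ _ _ _ (E2_mem_pm1 h) (E2_mem_pm2 h) hG
  · exact switchResult_mem d _ _ _ _ (E2_mem_pm2 h) (E2_mem_pm1 h) hG

theorem sg_c1 {G : Gr n} (a1 : mkE u x h.ux ∈ G) (a2 : mkE v y h.vy ∈ G) (a3 : mkE u y h.uy ∉ G)
    (a4 : mkE v x h.vx ∉ G) :
    sg u v x y G = G \ {mkE u x h.ux, mkE v y h.vy} ∪ {mkE u y h.uy, mkE v x h.vx} := by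
  have c : E2 u x v y ⊆ G ∧ Disjoint (E2 u y v x) G :=
    ⟨(E2_subset _ _ _ _ h.ux h.vy G).2 ⟨a1, a2⟩, (E2_disjoint _ _ _ _ h.uy h.vx G).2 ⟨a3, a4⟩⟩
  unfold sg
  rw [if_pos c]
  unfold switchResult
  rw [if_pos c, E2_eq _ _ _ _ h.ux h.vy, E2_eq _ _ _ _ h.uy h.vx]

theorem sg_c2 {G : Gr n} (a1 : mkE u x h.ux ∉ G) (a2 : mkE v y h.vy ∉ G) (a3 : mkE u y h.uy ∈ G)
    (a4 : mkE v x h.vx ∈ G) :
    sg u v x y G = G \ {mkE u y h.uy, mkE v x h.vx} ∪ {mkE u x h.ux, mkE v y h.vy} := by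
  have c : E2 u y v x ⊆ G ∧ Disjoint (E2 u x v y) G :=
    ⟨(E2_subset _ _ _ _ h.uy h.vx G).2 ⟨a3, a4⟩, (E2_disjoint _ _ _ _ h.ux h.vy G).2 ⟨a1, a2⟩⟩
  have c' : ¬ (E2 u x v y ⊆ G ∧ Disjoint (E2 u y v x) G) := by
    rintro ⟨c1, -⟩
    exact a1 ((E2_subset _ _ _ _ h.ux h.vy G).1 c1).1
  unfold sg
  rw [if_neg c']
  unfold switchResult
  rw [if_pos c, E2_eq _ _ _ _ h.ux h.vy, E2_eq _ _ _ _ h.uy h.vx]

/-- **(M1)** the block of the four slots. -/
theorem blk_M4 (d : Fin n → ℕ) {G : Gr n} (hG : G ∈ realizations d) :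
    blk d (M4 u v x y) G = {G, sg u v x y G} := by
  have hu := h.uv; have h2 := h.xy; have h3 := h.ux; have h4 := h.uy; have h5 := h.vx
  have h6 := h.vy
  ext H
  rw [mem_blk, mem_insert, mem_singleton]
  constructor
  · rintro ⟨hH, hHG⟩
    have off : ∀ e, e ∉ M4 u v x y → (e ∈ H ↔ e ∈ G) := by
      intro e he
      have : e ∈ H \ M4 u v x y ↔ e ∈ G \ M4 u v x y := by rw [hHG]
      simpa only [mem_sdiff, he, not_false_eq_true, and_true] using this
    rcases tricho h d hG hH hHG with ⟨a1, a2, a3, a4⟩ | ⟨a1, a2, a3, a4, b1, b2, b3, b4⟩ |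
      ⟨a1, a2, a3, a4, b1, b2, b3, b4⟩
    · left
      ext e
      by_cases he : e ∈ M4 u v x y
      · rw [mem_M4 h] at he
        rcases he with rfl | rfl | rfl | rfl <;> assumption
      · exact off e he
    · right
      rw [sg_c1 h a1 a2 a3 a4]
      ext e
      simp only [mem_union, mem_sdiff, mem_insert, mem_singleton]
      by_cases he : e ∈ M4 u v x y
      · rw [mem_M4 h] at he
        rcases he with rfl | rfl | rfl | rfl
        · simp only [mkE_eq_iff]; tauto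
        · simp only [mkE_eq_iff]; tauto
        · simp only [mkE_eq_iff]; tauto
        · simp only [mkE_eq_iff]; tauto
      · rw [off e he]
        rw [mem_M4 h] at he
        tauto
    · right
      rw [sg_c2 h a1 a2 a3 a4]
      ext e
      simp only [mem_union, mem_sdiff, mem_insert, mem_singleton]
      by_cases he : e ∈ M4 u v x y
      · rw [mem_M4 h] at he
        rcases he with rfl | rfl | rfl | rfl
        · simp only [mkE_eq_iff]; tauto
        · simp only [mkE_eq_iff]; tauto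
        · simp only [mkE_eq_iff]; tauto
        · simp only [mkE_eq_iff]; tauto
      · rw [off e he]
        rw [mem_M4 h] at he
        tauto
  · rintro (rfl | rfl)
    · exact ⟨hG, rfl⟩
    · exact ⟨sg_mem h d hG, sg_sdiff u v x y G⟩

/-- pointwise form of (M2). -/
theorem DB_M4_sq (d : Fin n → ℕ) (f : Gr n → ℝ) {G : Gr n} (hG : G ∈ realizations d) :
    DB d (M4 u v x y) f G * DB d (M4 u v x y) f G = (1 / 4) * (f G - f (sg u v x y G)) ^ 2 := by
  unfold DB
  rw [EB_def, blk_M4 h d hG]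
  by_cases hs : sg u v x y G = G
  · rw [hs]; simp
  · rw [sum_pair (Ne.symm hs), card_pair (Ne.symm hs)]
    push_cast
    ring

/-- **(M2)** `‖f - E_{M4} f‖² = (1/4) ∑_G (f G - f (sg G))²`. -/
theorem ipd_DB_M4 (d : Fin n → ℕ) (f : Gr n → ℝ) :
    ipd d (DB d (M4 u v x y) f) (DB d (M4 u v x y) f) =
      (1 / 4) * ∑ G ∈ realizations d, (f G - f (sg u v x y G)) ^ 2 := by
  rw [ipd_def, mul_sum]
  exact sum_congr rfl fun G hG => DB_M4_sq h d f hG

/-- the four slots are the slots between `{u,v}` and `{x,y}` (`= Mx {u,v} {x,y}` of `T4Defs`). -/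
theorem M4_eq_tch : M4 u v x y = tch {u, v} ∩ tch {x, y} := by
  have hu := h.uv; have h2 := h.xy; have h3 := h.ux; have h4 := h.uy; have h5 := h.vx
  have h6 := h.vy
  ext e
  obtain ⟨a, b, hab, rfl⟩ := edge_exists e
  rw [mem_M4 h, mem_inter, mkE_mem_tch, mkE_mem_tch]
  simp only [mkE_eq_iff, mem_insert, mem_singleton]
  constructor
  · tauto
  · rintro ⟨k1, k2⟩
    rcases k1 with (rfl | rfl) | (rfl | rfl) <;> rcases k2 with (rfl | rfl) | (rfl | rfl) <;>
      simp_all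

omit h in
/-- the energy of `sg` is the sum of the energies of the two opposite proposals. -/
theorem sq_sg (u v x y : Fin n) (f : Gr n → ℝ) (G : Gr n) (hne : (E2 u y v x).Nonempty) :
    (f G - f (sg u v x y G)) ^ 2 =
      (f G - f (switchResult G (E2 u x v y) (E2 u y v x))) ^ 2 +
      (f G - f (switchResult G (E2 u y v x) (E2 u x v y))) ^ 2 := by
  unfold sg
  split_ifs with c
  · have : switchResult G (E2 u y v x) (E2 u x v y) = G := by
      unfold switchResult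
      rw [if_neg]
      rintro ⟨c1, -⟩
      obtain ⟨e, he⟩ := hne
      exact (disjoint_left.1 c.2 he) (c1 he)
    rw [this]; simp
  · have : switchResult G (E2 u x v y) (E2 u y v x) = G := by
      unfold switchResult
      rw [if_neg c]
    rw [this]; simp

end fixed

end Crest.Agent.R299.En
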