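import Crest.Agent.R299.Energy
import Crest.Agent.R299.Core

/-!
# R299 (S0453): (I5) by the cheap route, constant `9`

`∑_b ∑_{b' disjoint} Qf d b b' f ≤ 9 * Dir d f`  (the true constant is `1/2`; any `C ≤ n²` is enough).
-/

set_option autoImplicit false
open Finset
open Crest.SwitchChain

namespace Crest.Agent.R299

namespace I5c

variable {n : ℕ}

/-- the part of `locE` belonging to the 4-set `S`. -/
noncomputable def locS (f : Gr n → ℝ) (G : Gr n) (S : Finset (Fin n)) : ℝ :=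
  ∑ F ∈ pmSet S, ∑ F' ∈ (pmSet S).erase F, (f G - f (switchResult G F F')) ^ 2

theorem locS_nonneg (f : Gr n → ℝ) (G : Gr n) (S : Finset (Fin n)) : 0 ≤ locS f G S :=
  sum_nonneg fun _ _ => sum_nonneg fun _ _ => sq_nonneg _

theorem two_le_locS (f : Gr n → ℝ) (G : Gr n) (S : Finset (Fin n)) (F F' : Gr n)
    (hF : F ∈ pmSet S) (hF' : F' ∈ pmSet S) (hne : F ≠ F') :
    (f G - f (switchResult G F F')) ^ 2 + (f G - f (switchResult G F' F)) ^ 2 ≤ locS f G S := by
  classical
  unfold locS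
  have h1 : ∑ F₁ ∈ ({F, F'} : Finset (Gr n)),
      ∑ F₂ ∈ (pmSet S).erase F₁, (f G - f (switchResult G F₁ F₂)) ^ 2 ≤
      ∑ F₁ ∈ pmSet S, ∑ F₂ ∈ (pmSet S).erase F₁, (f G - f (switchResult G F₁ F₂)) ^ 2 := by
    apply sum_le_sum_of_subset_of_nonneg
    · intro A hA
      rw [mem_insert, mem_singleton] at hA
      rcases hA with rfl | rfl <;> assumption
    · intro _ _ _
      exact sum_nonneg fun _ _ => sq_nonneg _
  rw [sum_pair hne] at h1
  have h2 : (f G - f (switchResult G F F')) ^ 2 ≤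
      ∑ F₂ ∈ (pmSet S).erase F, (f G - f (switchResult G F F₂)) ^ 2 :=
    single_le_sum (f := fun F₂ => (f G - f (switchResult G F F₂)) ^ 2)
      (fun _ _ => sq_nonneg _) (mem_erase.2 ⟨hne.symm, hF'⟩)
  have h3 : (f G - f (switchResult G F' F)) ^ 2 ≤
      ∑ F₂ ∈ (pmSet S).erase F', (f G - f (switchResult G F' F₂)) ^ 2 :=
    single_le_sum (f := fun F₂ => (f G - f (switchResult G F' F₂)) ^ 2)
      (fun _ _ => sq_nonneg _) (mem_erase.2 ⟨hne, hF⟩)
  linarith

theorem Qf_le (d : Fin n → ℕ) (f : Gr n → ℝ) (b b' : Finset (Fin n)) (hb : b.card = 2)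
    (hb' : b'.card = 2) (hd : Disjoint b b') :
    Qf d b b' f ≤ (1 / 4) * ∑ G ∈ realizations d, locS f G (b ∪ b') := by
  obtain ⟨u, v, huv, rfl⟩ := card_eq_two.1 hb
  obtain ⟨x, y, hxy, rfl⟩ := card_eq_two.1 hb'
  have key : ∀ w, w ∈ ({u, v} : Finset (Fin n)) → w ∈ ({x, y} : Finset (Fin n)) → False :=
    fun w h1 h2 => disjoint_left.1 hd h1 h2
  have hux : u ≠ x := by
    rintro rfl; exact key u (by simp) (by simp)
  have huy : u ≠ y := by
    rintro rfl; exact key u (by simp) (by simp)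
  have hvx : v ≠ x := by
    rintro rfl; exact key v (by simp) (by simp)
  have hvy : v ≠ y := by
    rintro rfl; exact key v (by simp) (by simp)
  have h : En.D4 u v x y := ⟨huv, hxy, hux, huy, hvx, hvy⟩
  have hS : ({u, v} ∪ {x, y} : Finset (Fin n)) = {u, v, x, y} := by
    ext w; simp only [mem_union, mem_insert, mem_singleton]; tauto
  unfold Qf
  rw [← En.M4_eq_tch h, En.ipd_DB_M4 h, hS]
  apply mul_le_mul_of_nonneg_left _ (by norm_num)
  apply sum_le_sum
  intro G _
  have hne : (En.E2 u y v x).Nonempty := by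
    rw [En.E2_eq _ _ _ _ huy hvx]; exact ⟨_, mem_insert_self _ _⟩
  rw [En.sq_sg u v x y f G hne]
  apply two_le_locS f G _ _ _ (En.E2_mem_pm1 h) (En.E2_mem_pm2 h)
  intro heq
  have : mkE u x hux ∈ En.E2 u y v x := by
    rw [← heq, En.E2_eq _ _ _ _ hux hvy]; exact mem_insert_self _ _
  rw [En.E2_eq _ _ _ _ huy hvx, mem_insert, mem_singleton, mkE_eq_iff, mkE_eq_iff] at this
  rcases this with (⟨_, h1⟩ | ⟨h1, _⟩) | (⟨h1, _⟩ | ⟨h1, _⟩)
  · exact hxy h1
  · exact huy h1
  · exact huv h1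
  · exact hux h1

/-- crude counting: every 4-set is `b ∪ b'` for at most `36` ordered pairs. -/
theorem sum_union_le (ψ : Finset (Fin n) → ℝ) (hψ : ∀ S, 0 ≤ ψ S) :
    ∑ b ∈ P2 (Fin n), ∑ b' ∈ (P2 (Fin n)).filter (fun b' => Disjoint b b'), ψ (b ∪ b') ≤
      36 * ∑ S ∈ (univ : Finset (Fin n)).powersetCard 4, ψ S := by
  classical
  set P4 := (univ : Finset (Fin n)).powersetCard 4 with hP4
  have h1 : ∀ b ∈ P2 (Fin n), ∀ b' ∈ (P2 (Fin n)).filter (fun b' => Disjoint b b'),
      ψ (b ∪ b') ≤ ∑ S ∈ P4, if b ⊆ S ∧ b' ⊆ S then ψ S else 0 := by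
    intro b hb b' hb'
    rw [mem_filter] at hb'
    have hmem : b ∪ b' ∈ P4 := by
      rw [hP4, mem_powersetCard]
      refine ⟨subset_univ _, ?_⟩
      rw [card_union_of_disjoint hb'.2, mem_P2.1 hb, mem_P2.1 hb'.1]
    have := single_le_sum (f := fun S => if b ⊆ S ∧ b' ⊆ S then ψ S else 0)
      (fun S _ => by split_ifs <;> simp [hψ]) hmem
    simpa [subset_union_left, subset_union_right] using this
  calc ∑ b ∈ P2 (Fin n), ∑ b' ∈ (P2 (Fin n)).filter (fun b' => Disjoint b b'), ψ (b ∪ b')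
      ≤ ∑ b ∈ P2 (Fin n), ∑ b' ∈ (P2 (Fin n)).filter (fun b' => Disjoint b b'),
          ∑ S ∈ P4, if b ⊆ S ∧ b' ⊆ S then ψ S else 0 :=
        sum_le_sum fun b hb => sum_le_sum fun b' hb' => h1 b hb b' hb'
    _ ≤ ∑ b ∈ P2 (Fin n), ∑ b' ∈ P2 (Fin n), ∑ S ∈ P4, if b ⊆ S ∧ b' ⊆ S then ψ S else 0 := by
        apply sum_le_sum
        intro b _
        apply sum_le_sum_of_subset_of_nonneg (filter_subset _ _)
        intro b' _ _
        exact sum_nonneg fun S _ => by split_ifs <;> simp [hψ]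
    _ = ∑ S ∈ P4, ∑ b ∈ P2 (Fin n), ∑ b' ∈ P2 (Fin n), if b ⊆ S ∧ b' ⊆ S then ψ S else 0 := by
        rw [sum_congr rfl (fun b _ => sum_comm), sum_comm]
    _ = 36 * ∑ S ∈ P4, ψ S := by
        rw [mul_sum]
        apply sum_congr rfl
        intro S hS
        rw [hP4, mem_powersetCard] at hS
        have hc : ((P2 (Fin n)).filter (fun b => b ⊆ S)).card = 6 := by
          have : (P2 (Fin n)).filter (fun b => b ⊆ S) = S.powersetCard 2 := by
            ext b
            simp only [mem_filter, mem_powersetCard, subset_univ, true_and]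
            tauto
          rw [this, card_powersetCard, hS.2]
          rfl
        have e1 : ∀ b ∈ P2 (Fin n), ∑ b' ∈ P2 (Fin n), (if b ⊆ S ∧ b' ⊆ S then ψ S else 0) =
            if b ⊆ S then 6 * ψ S else 0 := by
          intro b _
          by_cases hb : b ⊆ S
          · simp only [hb, true_and, if_true]
            rw [← sum_filter, sum_const, hc]
            simp
          · simp [hb]
        rw [sum_congr rfl e1, ← sum_filter, sum_const, hc]
        simp only [nsmul_eq_mul]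
        push_cast
        ring

theorem I5 (d : Fin n → ℕ) (f : Gr n → ℝ) :
    ∑ b ∈ P2 (Fin n), ∑ b' ∈ (P2 (Fin n)).filter (fun b' => Disjoint b b'), Qf d b b' f ≤
      9 * Dir d f := by
  have h1 : ∑ b ∈ P2 (Fin n), ∑ b' ∈ (P2 (Fin n)).filter (fun b' => Disjoint b b'), Qf d b b' f ≤
      ∑ b ∈ P2 (Fin n), ∑ b' ∈ (P2 (Fin n)).filter (fun b' => Disjoint b b'),
        (fun S => (1 / 4) * ∑ G ∈ realizations d, locS f G S) (b ∪ b') := by
    apply sum_le_sum
    intro b hb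
    apply sum_le_sum
    intro b' hb'
    rw [mem_filter] at hb'
    exact Qf_le d f b b' (mem_P2.1 hb) (mem_P2.1 hb'.1) hb'.2
  have h2 := sum_union_le (fun S => (1 / 4) * ∑ G ∈ realizations d, locS f G S)
    (fun S => mul_nonneg (by norm_num) (sum_nonneg fun G _ => locS_nonneg f G S))
  have h3 : ∑ S ∈ (univ : Finset (Fin n)).powersetCard 4,
      (1 / 4) * ∑ G ∈ realizations d, locS f G S = (1 / 4) * Dir d f := by
    rw [← mul_sum, sum_comm]
    rfl
  rw [h3] at h2
  linarith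

end I5c

end Crest.Agent.R299
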