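import Mathlib

/-!
# R299 (S0453): sums over ordered pairs versus sums over 2-subsets
-/

set_option autoImplicit false
open Finset

namespace Crest.Agent.R299.ES

variable {V : Type*} [DecidableEq V]

/-- ordered pairs versus 2-subsets -/
theorem sum_offDiag_pair (Z : Finset V) (c : Finset V → ℝ) :
    ∑ e ∈ Z.offDiag, c {e.1, e.2} = 2 * ∑ b ∈ Z.powersetCard 2, c b := by
  have hmaps : ∀ e ∈ Z.offDiag, ({e.1, e.2} : Finset V) ∈ Z.powersetCard 2 := by
    intro e he
    rw [Finset.mem_offDiag] at he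
    rw [Finset.mem_powersetCard]
    refine ⟨?_, Finset.card_pair he.2.2⟩
    intro w hw
    simp only [Finset.mem_insert, Finset.mem_singleton] at hw
    rcases hw with rfl | rfl
    · exact he.1
    · exact he.2.1
  rw [← Finset.sum_fiberwise_of_maps_to hmaps, Finset.mul_sum]
  refine Finset.sum_congr rfl fun b hb => ?_
  rw [Finset.mem_powersetCard] at hb
  obtain ⟨p, q, hpq, rfl⟩ := Finset.card_eq_two.1 hb.2
  have hp : p ∈ Z := hb.1 (by simp)
  have hq : q ∈ Z := hb.1 (by simp)
  have hfib : (Z.offDiag.filter fun e => ({e.1, e.2} : Finset V) = {p, q}) = {(p, q), (q, p)} := by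
    ext ⟨a, b⟩
    simp only [Finset.mem_filter, Finset.mem_offDiag, Finset.mem_insert, Finset.mem_singleton,
      Prod.mk.injEq]
    constructor
    · rintro ⟨⟨-, -, hab⟩, h⟩
      have ha : a ∈ ({p, q} : Finset V) := by rw [← h]; simp
      have hb' : b ∈ ({p, q} : Finset V) := by rw [← h]; simp
      simp only [Finset.mem_insert, Finset.mem_singleton] at ha hb'
      rcases ha with rfl | rfl <;> rcases hb' with rfl | rfl
      · exact absurd rfl hab
      · exact Or.inl ⟨rfl, rfl⟩
      · exact Or.inr ⟨rfl, rfl⟩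
      · exact absurd rfl hab
    · rintro (⟨rfl, rfl⟩ | ⟨rfl, rfl⟩)
      · exact ⟨⟨hp, hq, hpq⟩, rfl⟩
      · exact ⟨⟨hq, hp, hpq.symm⟩, Finset.pair_comm _ _⟩
  have hne : ((p, q) : V × V) ≠ (q, p) := by
    intro h; exact hpq (Prod.mk.inj h).1
  rw [Finset.sum_congr rfl (fun e he => by rw [(Finset.mem_filter.1 he).2] :
    ∀ e ∈ Z.offDiag.filter (fun e => ({e.1, e.2} : Finset V) = {p, q}),
      c {e.1, e.2} = c {p, q}), hfib, Finset.sum_pair hne]
  ring

/-- the 2-subsets disjoint from `b` are the 2-subsets of the complement -/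
theorem filter_disjoint_eq [Fintype V] (b : Finset V) :
    ((univ : Finset V).powersetCard 2).filter (fun b' => Disjoint b b') =
      (univ \ b).powersetCard 2 := by
  ext b'
  simp only [Finset.mem_filter, Finset.mem_powersetCard, Finset.subset_univ, true_and]
  constructor
  · rintro ⟨h2, hd⟩
    refine ⟨?_, h2⟩
    intro w hw
    rw [Finset.mem_sdiff]
    exact ⟨Finset.mem_univ _, fun hwb => Finset.disjoint_left.1 hd hwb hw⟩
  · rintro ⟨hs, h2⟩
    refine ⟨h2, ?_⟩
    rw [Finset.disjoint_left]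
    intro w hwb hw
    exact (Finset.mem_sdiff.1 (hs hw)).2 hwb

/-- sum over the 2-subsets disjoint from `b`, as a sum over ordered pairs -/
theorem sum_offDiag_compl [Fintype V] (b : Finset V) (c : Finset V → ℝ) :
    ∑ e ∈ (univ \ b).offDiag, c {e.1, e.2} =
      2 * ∑ b' ∈ ((univ : Finset V).powersetCard 2).filter (fun b' => Disjoint b b'), c b' := by
  rw [filter_disjoint_eq, sum_offDiag_pair]

/-- ordered 4-tuples versus ordered pairs of disjoint 2-subsets -/
theorem sum_offDiag_offDiag [Fintype V] (c : Finset V → Finset V → ℝ) :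
    ∑ e ∈ (univ : Finset V).offDiag, ∑ e' ∈ (univ \ {e.1, e.2}).offDiag, c {e.1, e.2} {e'.1, e'.2} =
      4 * ∑ b ∈ (univ : Finset V).powersetCard 2,
        ∑ b' ∈ ((univ : Finset V).powersetCard 2).filter (fun b' => Disjoint b b'), c b b' := by
  rw [sum_offDiag_pair (univ : Finset V)
    (fun b => ∑ e' ∈ (univ \ b).offDiag, c b {e'.1, e'.2})]
  rw [Finset.sum_congr rfl (fun b _ => sum_offDiag_compl b (c b)), ← Finset.mul_sum]
  ring

end Crest.Agent.R299.ES
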