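import Crest.Agent.R299.Energy
import Crest.Agent.R299.OffDiag
import Crest.Agent.R299.Core

/-!
# R299 (S0453): (I5) the sum of the 2x2 block energies is half the Dirichlet form
-/

set_option autoImplicit false
open Finset
open Crest.SwitchChain

namespace Crest.Agent.R299.ES

open Crest.Agent.R299.En

variable {n : ℕ}

/-- the triples `(v, x, y)` such that `u, v, x, y` are pairwise distinct -/
def T3 (u : Fin n) : Finset (Fin n × Fin n × Fin n) :=
  univ.filter fun p => u ≠ p.1 ∧ p.2.1 ≠ p.2.2 ∧ u ≠ p.2.1 ∧ u ≠ p.2.2 ∧ p.1 ≠ p.2.1 ∧ p.1 ≠ p.2.2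

theorem mem_T3 (u : Fin n) (p : Fin n × Fin n × Fin n) : p ∈ T3 u ↔ D4 u p.1 p.2.1 p.2.2 := by
  simp only [T3, Finset.mem_filter, Finset.mem_univ, true_and]
  constructor
  · rintro ⟨h1, h2, h3, h4, h5, h6⟩; exact ⟨h1, h2, h3, h4, h5, h6⟩
  · rintro ⟨h1, h2, h3, h4, h5, h6⟩; exact ⟨h1, h2, h3, h4, h5, h6⟩

/-- reindexing of the ordered 4-tuples -/
theorem sum_reindex (h : Fin n → Fin n → Fin n → Fin n → ℝ) :
    ∑ e ∈ (univ : Finset (Fin n)).offDiag, ∑ e' ∈ (univ \ {e.1, e.2}).offDiag,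
      h e.1 e.2 e'.1 e'.2 = ∑ u, ∑ p ∈ T3 u, h u p.1 p.2.1 p.2.2 := by
  rw [Finset.sum_finset_product' (univ : Finset (Fin n)).offDiag univ (fun u => univ.erase u)
    (by
      intro p
      simp only [Finset.mem_offDiag, Finset.mem_univ, true_and, Finset.mem_erase, and_true]
      exact ne_comm)
    (f := fun u v => ∑ e' ∈ (univ \ {u, v}).offDiag, h u v e'.1 e'.2)]
  refine Finset.sum_congr rfl fun u _ => ?_
  rw [Finset.sum_finset_product' (T3 u) (univ.erase u) (fun v => (univ \ {u, v}).offDiag)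
    (by
      intro p
      simp only [T3, Finset.mem_filter, Finset.mem_offDiag, Finset.mem_univ, true_and,
        Finset.mem_erase, and_true, Finset.mem_sdiff, Finset.mem_insert, Finset.mem_singleton,
        not_or]
      constructor
      · rintro ⟨h1, h2, h3, h4, h5, h6⟩
        exact ⟨h1.symm, ⟨h3.symm, h5.symm⟩, ⟨h4.symm, h6.symm⟩, h2⟩
      · rintro ⟨h1, ⟨h3, h5⟩, ⟨h4, h6⟩, h2⟩
        exact ⟨Ne.symm h1, h2, Ne.symm h3, Ne.symm h4, Ne.symm h5, Ne.symm h6⟩)
    (f := fun v e' => h u v e'.1 e'.2)]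

/-- the partner of `u` in a perfect matching -/
theorem pm_partner (S : Finset (Fin n)) (F : Gr n) (hF : F ∈ pmSet S) (u : Fin n) (hu : u ∈ S) :
    ∃ (x : Fin n) (hx : u ≠ x), x ∈ S ∧ mkE u x hx ∈ F := by
  obtain ⟨-, h1, -⟩ := (mem_pmSet S F).1 hF
  obtain ⟨e, he, hue⟩ := pm_exists_edge S F hF u hu
  obtain ⟨a, b, hab, rfl⟩ := edge_exists e
  rw [mem_mkE] at hue
  rcases hue with rfl | rfl
  · exact ⟨b, hab, h1 _ he b (by simp), he⟩
  · refine ⟨a, hab.symm, h1 _ he a (by simp), ?_⟩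
    rw [mkE_comm]; exact he

/-- for fixed `u`: triples `(v,x,y)` versus proposals `(S ∋ u, F, F')` -/
theorem bij_u (u : Fin n) (t : Gr n → Gr n → ℝ) :
    ∑ p ∈ T3 u, t (E2 u p.2.1 p.1 p.2.2) (E2 u p.2.2 p.1 p.2.1) =
      ∑ S ∈ ((univ : Finset (Fin n)).powersetCard 4).filter (fun S => u ∈ S),
        ∑ F ∈ pmSet S, ∑ F' ∈ (pmSet S).erase F, t F F' := by
  have e1 : ∀ S : Finset (Fin n), ∑ F ∈ pmSet S, ∑ F' ∈ (pmSet S).erase F, t F F' =
      ∑ z ∈ (pmSet S).sigma (fun F => (pmSet S).erase F), t z.1 z.2 := by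
    intro S
    rw [Finset.sum_sigma']
  rw [Finset.sum_congr rfl (fun S _ => e1 S), Finset.sum_sigma']
  refine Finset.sum_bij
    (fun p _ => ⟨{u, p.1, p.2.1, p.2.2}, ⟨E2 u p.2.1 p.1 p.2.2, E2 u p.2.2 p.1 p.2.1⟩⟩) ?_ ?_ ?_ ?_
  · -- maps into
    rintro ⟨v, x, y⟩ hp
    rw [mem_T3] at hp
    simp only at hp
    simp only [Finset.mem_sigma, Finset.mem_filter, Finset.mem_powersetCard, Finset.subset_univ,
      true_and, Finset.mem_erase]
    refine ⟨⟨?_, by simp⟩, E2_mem_pm1 hp, ?_, E2_mem_pm2 hp⟩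
    · rw [Finset.card_insert_of_notMem, Finset.card_insert_of_notMem, Finset.card_pair hp.xy]
      · simp only [Finset.mem_insert, Finset.mem_singleton, not_or]; exact ⟨hp.vx, hp.vy⟩
      · simp only [Finset.mem_insert, Finset.mem_singleton, not_or]; exact ⟨hp.uv, hp.ux, hp.uy⟩
    · intro h
      have : mkE u y hp.uy ∈ E2 u x v y := by
        rw [← h, E2_eq _ _ _ _ hp.uy hp.vx]; simp
      rw [E2_eq _ _ _ _ hp.ux hp.vy] at this
      simp only [Finset.mem_insert, Finset.mem_singleton, mkE_eq_iff] at this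
      have h1 := hp.xy; have h2 := hp.uv; have h3 := hp.uy
      tauto
  · -- injective
    rintro ⟨v, x, y⟩ hp ⟨v', x', y'⟩ hp' h
    rw [mem_T3] at hp hp'
    simp only at hp hp'
    simp only [Sigma.mk.injEq, heq_eq_eq] at h
    obtain ⟨-, hF, hF'⟩ := h
    have a1 : mkE u x hp.ux ∈ E2 u x' v' y' := by
      rw [← hF, E2_eq _ _ _ _ hp.ux hp.vy]; simp
    have a2 : mkE u y hp.uy ∈ E2 u y' v' x' := by
      rw [← hF', E2_eq _ _ _ _ hp.uy hp.vx]; simp
    have a3 : mkE v y hp.vy ∈ E2 u x' v' y' := by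
      rw [← hF, E2_eq _ _ _ _ hp.ux hp.vy]; simp
    rw [E2_eq _ _ _ _ hp'.ux hp'.vy] at a1 a3
    rw [E2_eq _ _ _ _ hp'.uy hp'.vx] at a2
    simp only [Finset.mem_insert, Finset.mem_singleton, mkE_eq_iff] at a1 a2 a3
    have h1 := hp.xy; have h2 := hp.uv; have h3 := hp.uy; have h4 := hp.ux; have h5 := hp.vx
    have h6 := hp.vy
    have k1 := hp'.xy; have k2 := hp'.uv; have k3 := hp'.uy; have k4 := hp'.ux; have k5 := hp'.vx
    have k6 := hp'.vy
    have hx : x = x' := by tauto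
    have hy : y = y' := by tauto
    subst hx hy
    have hv : v = v' := by
      rcases a3 with (⟨b1, b2⟩ | ⟨b1, b2⟩) | (⟨b1, b2⟩ | ⟨b1, b2⟩)
      · exact absurd b1.symm h2
      · exact absurd b2.symm h3
      · exact b1
      · exact absurd b1 h6
    subst hv
    rfl
  · -- surjective
    rintro ⟨S, F, F'⟩ hw
    simp only [Finset.mem_sigma, Finset.mem_filter, Finset.mem_powersetCard, Finset.subset_univ,
      true_and, Finset.mem_erase] at hw
    obtain ⟨⟨hS, hu⟩, hF, hne, hF'⟩ := hw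
    obtain ⟨x, hux, hxS, hxF⟩ := pm_partner S F hF u hu
    obtain ⟨y, huy, hyS, hyF'⟩ := pm_partner S F' hF' u hu
    have hxy : x ≠ y := by
      rintro rfl
      exact Finset.disjoint_left.1 (pmSet_disjoint S F F' hF hF' (Ne.symm hne)) hxF hyF'
    have hsub : ({u, x, y} : Finset (Fin n)) ⊆ S := by
      intro w hw
      simp only [Finset.mem_insert, Finset.mem_singleton] at hw
      rcases hw with rfl | rfl | rfl <;> assumption
    have hc3 : ({u, x, y} : Finset (Fin n)).card = 3 := by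
      rw [Finset.card_eq_three]; exact ⟨u, x, y, hux, huy, hxy, rfl⟩
    have hc1 : (S \ {u, x, y}).card = 1 := by
      rw [Finset.card_sdiff_of_subset hsub, hS, hc3]
    obtain ⟨v, hv⟩ := Finset.card_eq_one.1 hc1
    have hvm : v ∈ S \ {u, x, y} := by rw [hv]; simp
    rw [Finset.mem_sdiff] at hvm
    obtain ⟨hvS, hvn⟩ := hvm
    simp only [Finset.mem_insert, Finset.mem_singleton, not_or] at hvn
    obtain ⟨hvu, hvx, hvy⟩ := hvn
    have hD : D4 u v x y := ⟨Ne.symm hvu, hxy, hux, huy, hvx, hvy⟩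
    refine ⟨(v, x, y), (mem_T3 u _).2 hD, ?_⟩
    have hSeq : ({u, v, x, y} : Finset (Fin n)) = S := by
      ext w
      constructor
      · intro hw
        simp only [Finset.mem_insert, Finset.mem_singleton] at hw
        rcases hw with rfl | rfl | rfl | rfl <;> assumption
      · intro hw
        by_cases hw3 : w ∈ ({u, x, y} : Finset (Fin n))
        · simp only [Finset.mem_insert, Finset.mem_singleton] at hw3 ⊢
          tauto
        · have : w ∈ S \ {u, x, y} := Finset.mem_sdiff.2 ⟨hw, hw3⟩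
          rw [hv, Finset.mem_singleton] at this
          rw [this]; simp
    have hFeq : E2 u x v y = F := by
      rw [E2_eq _ _ _ _ hux hvy]
      exact (pm_of_edge u x v y hux (Ne.symm hvu) huy (Ne.symm hvx) hxy hvy S hvS hyS F hF hxF).symm
    have hFeq' : E2 u y v x = F' := by
      rw [E2_eq _ _ _ _ huy hvx]
      exact (pm_of_edge u y v x huy (Ne.symm hvu) hux (Ne.symm hvy) (Ne.symm hxy) hvx S hvS hxS F'
        hF' hyF').symm
    simp only [hSeq, hFeq, hFeq']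
  · intro p _
    rfl

/-- every proposal `(S, F, F')` corresponds to four ordered 4-tuples -/
theorem sum_tuples (t : Gr n → Gr n → ℝ) :
    ∑ u, ∑ p ∈ T3 u, t (E2 u p.2.1 p.1 p.2.2) (E2 u p.2.2 p.1 p.2.1) =
      4 * ∑ S ∈ (univ : Finset (Fin n)).powersetCard 4,
        ∑ F ∈ pmSet S, ∑ F' ∈ (pmSet S).erase F, t F F' := by
  rw [Finset.sum_congr rfl (fun u _ => bij_u u t)]
  rw [Finset.sum_comm' (s := (univ : Finset (Fin n)))
    (t := fun u => ((univ : Finset (Fin n)).powersetCard 4).filter (fun S => u ∈ S))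
    (t' := (univ : Finset (Fin n)).powersetCard 4) (s' := fun S => S)
    (by
      intro u S
      simp only [Finset.mem_univ, true_and, Finset.mem_filter]
      exact and_comm)]
  rw [Finset.mul_sum]
  refine Finset.sum_congr rfl fun S hS => ?_
  rw [Finset.sum_const, (Finset.mem_powersetCard.1 hS).2]
  simp

/-- the same with the roles of `F`, `F'` exchanged -/
theorem sum_tuples' (t : Gr n → Gr n → ℝ) :
    ∑ u, ∑ p ∈ T3 u, t (E2 u p.2.2 p.1 p.2.1) (E2 u p.2.1 p.1 p.2.2) =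
      4 * ∑ S ∈ (univ : Finset (Fin n)).powersetCard 4,
        ∑ F ∈ pmSet S, ∑ F' ∈ (pmSet S).erase F, t F F' := by
  rw [sum_tuples (fun A B => t B A)]
  congr 1
  refine Finset.sum_congr rfl fun S _ => ?_
  refine Finset.sum_comm' ?_
  intro F F'
  simp only [Finset.mem_erase]
  constructor
  · rintro ⟨h1, h2, h3⟩; exact ⟨⟨Ne.symm h2, h1⟩, h3⟩
  · rintro ⟨⟨h1, h2⟩, h3⟩; exact ⟨h2, Ne.symm h1, h3⟩

/-- the energy of `sg` is the sum of the energies of the two proposals -/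
theorem sg_energy {u v x y : Fin n} (h : D4 u v x y) (f : Gr n → ℝ) (G : Gr n) :
    (f G - f (sg u v x y G)) ^ 2 =
      (f G - f (switchResult G (E2 u x v y) (E2 u y v x))) ^ 2 +
        (f G - f (switchResult G (E2 u y v x) (E2 u x v y))) ^ 2 := by
  unfold sg
  by_cases c : E2 u x v y ⊆ G ∧ Disjoint (E2 u y v x) G
  · rw [if_pos c]
    have c' : ¬ (E2 u y v x ⊆ G ∧ Disjoint (E2 u x v y) G) := by
      rintro ⟨c1, -⟩
      exact ((E2_disjoint _ _ _ _ h.uy h.vx G).1 c.2).1 ((E2_subset _ _ _ _ h.uy h.vx G).1 c1).1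
    have : switchResult G (E2 u y v x) (E2 u x v y) = G := by
      unfold switchResult; rw [if_neg c']
    rw [this]; ring
  · rw [if_neg c]
    have : switchResult G (E2 u x v y) (E2 u y v x) = G := by
      unfold switchResult; rw [if_neg c]
    rw [this]; ring

/-- **(M3)**, pointwise -/
theorem sum_sg_energy (f : Gr n → ℝ) (G : Gr n) :
    ∑ u, ∑ p ∈ T3 u, (f G - f (sg u p.1 p.2.1 p.2.2 G)) ^ 2 = 8 * locE f G := by
  have h1 : ∀ u, ∀ p ∈ T3 u, (f G - f (sg u p.1 p.2.1 p.2.2 G)) ^ 2 =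
      (f G - f (switchResult G (E2 u p.2.1 p.1 p.2.2) (E2 u p.2.2 p.1 p.2.1))) ^ 2 +
        (f G - f (switchResult G (E2 u p.2.2 p.1 p.2.1) (E2 u p.2.1 p.1 p.2.2))) ^ 2 :=
    fun u p hp => sg_energy ((mem_T3 u p).1 hp) f G
  rw [Finset.sum_congr rfl (fun u _ => Finset.sum_congr rfl (h1 u))]
  simp only [Finset.sum_add_distrib]
  rw [sum_tuples (fun A B => (f G - f (switchResult G A B)) ^ 2),
    sum_tuples' (fun A B => (f G - f (switchResult G A B)) ^ 2)]
  unfold locE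
  ring

/-- the four slots are the slots touching both pairs -/
theorem M4_eq_tch {u v x y : Fin n} (h : D4 u v x y) :
    M4 u v x y = tch {u, v} ∩ tch {x, y} := by
  ext e
  obtain ⟨a, b, hab, rfl⟩ := edge_exists e
  rw [mem_M4 h, Finset.mem_inter, mkE_mem_tch, mkE_mem_tch]
  simp only [mkE_eq_iff, Finset.mem_insert, Finset.mem_singleton]
  have h1 := h.xy; have h2 := h.uv; have h3 := h.uy; have h4 := h.ux; have h5 := h.vx
  have h6 := h.vy
  constructor
  · rintro ((⟨rfl, rfl⟩ | ⟨rfl, rfl⟩) | (⟨rfl, rfl⟩ | ⟨rfl, rfl⟩) | (⟨rfl, rfl⟩ | ⟨rfl, rfl⟩) |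
      (⟨rfl, rfl⟩ | ⟨rfl, rfl⟩)) <;> simp
  · rintro ⟨(rfl | rfl) | (rfl | rfl), (rfl | rfl) | (rfl | rfl)⟩ <;> simp_all

/-- `Qf` in terms of the switch `sg` -/
theorem Qf_eq {u v x y : Fin n} (h : D4 u v x y) (d : Fin n → ℕ) (f : Gr n → ℝ) :
    Qf d {u, v} {x, y} f = (1 / 4) * ∑ G ∈ realizations d, (f G - f (sg u v x y G)) ^ 2 := by
  unfold Qf
  rw [← M4_eq_tch h, ipd_DB_M4 h]

/-- **(I5)** the sum of the block energies over the ordered pairs of disjoint pairs. -/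
theorem I5 (d : Fin n → ℕ) (f : Gr n → ℝ) :
    ∑ b ∈ P2 (Fin n), ∑ b' ∈ (P2 (Fin n)).filter (fun b' => Disjoint b b'), Qf d b b' f =
      Dir d f / 2 := by
  have h4 := sum_offDiag_offDiag (V := Fin n) (fun b b' => Qf d b b' f)
  rw [sum_reindex (fun u v x y => Qf d {u, v} {x, y} f)] at h4
  have h5 : ∑ u, ∑ p ∈ T3 u, Qf d {u, p.1} {p.2.1, p.2.2} f = 2 * Dir d f := by
    rw [Finset.sum_congr rfl (fun u _ => Finset.sum_congr rfl
      (fun p hp => Qf_eq ((mem_T3 u p).1 hp) d f))]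
    simp only [← Finset.mul_sum]
    have : ∑ u, ∑ p ∈ T3 u, ∑ G ∈ realizations d, (f G - f (sg u p.1 p.2.1 p.2.2 G)) ^ 2 =
        ∑ G ∈ realizations d, ∑ u, ∑ p ∈ T3 u, (f G - f (sg u p.1 p.2.1 p.2.2 G)) ^ 2 := by
      rw [Finset.sum_comm]
      refine Finset.sum_congr rfl fun u _ => ?_
      rw [Finset.sum_comm]
    rw [this, Finset.sum_congr rfl (fun G _ => sum_sg_energy f G), ← Finset.mul_sum]
    unfold Dir
    ring
  rw [h5] at h4
  have h6 : ∑ b ∈ P2 (Fin n), ∑ b' ∈ (P2 (Fin n)).filter (fun b' => Disjoint b b'), Qf d b b' f =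
      ∑ b ∈ (univ : Finset (Fin n)).powersetCard 2,
        ∑ b' ∈ ((univ : Finset (Fin n)).powersetCard 2).filter (fun b' => Disjoint b b'),
          Qf d b b' f := rfl
  rw [h6]
  linarith

end Crest.Agent.R299.ES
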