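import Crest.Agent.R299.PM

/-!
# R299 (S0453), task T7: conditioning on the star of `k` = reduced class
-/

set_option autoImplicit false
open Finset
open Crest.SwitchChain

namespace Crest.Agent.R299

variable {n : ℕ}

theorem mem_realizations (d : Fin n → ℕ) (G : Gr n) :
    G ∈ realizations d ↔ ∀ v, deg G v = d v := by
  simp [realizations]

theorem deg_union_of_disjoint (H A : Gr n) (h : Disjoint H A) (v : Fin n) :
    deg (H ∪ A) v = deg H v + deg A v := by
  unfold deg
  rw [Finset.filter_union, Finset.card_union_of_disjoint]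
  exact Finset.disjoint_filter_filter h

theorem deg_sdiff_of_subset (G A : Gr n) (h : A ⊆ G) (v : Fin n) :
    deg (G \ A) v = deg G v - deg A v := by
  have h1 : deg ((G \ A) ∪ A) v = deg (G \ A) v + deg A v :=
    deg_union_of_disjoint _ _ Finset.sdiff_disjoint v
  rw [Finset.sdiff_union_of_subset h] at h1
  omega

theorem deg_mono (A G : Gr n) (h : A ⊆ G) (v : Fin n) : deg A v ≤ deg G v := by
  unfold deg
  exact Finset.card_le_card (Finset.filter_subset_filter _ h)

theorem star_subset (G : Gr n) (k : Fin n) : star G k ⊆ G := Finset.filter_subset _ _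

theorem deg_star_self (G : Gr n) (k : Fin n) : deg (star G k) k = deg G k := by
  unfold deg star
  rw [Finset.filter_filter]
  congr 1
  ext e
  simp

theorem mem_star (G : Gr n) (k : Fin n) (e : Edge n) : e ∈ star G k ↔ e ∈ G ∧ k ∈ e.1 := by
  simp [star]

theorem deg_eq_zero_iff (E : Gr n) (v : Fin n) : deg E v = 0 ↔ ∀ e ∈ E, v ∉ e.1 := by
  unfold deg
  rw [Finset.card_eq_zero, Finset.filter_eq_empty_iff]

theorem dred_self (d : Fin n → ℕ) (k : Fin n) (A : Gr n)
    (hA : A ∈ (realizations d).image (fun G => star G k)) : dred d A k = 0 := by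
  obtain ⟨G0, hG0, rfl⟩ := Finset.mem_image.1 hA
  have h := (mem_realizations d G0).1 hG0 k
  unfold dred
  rw [deg_star_self, h]
  exact Nat.sub_self _

theorem deg_le_of_star (d : Fin n → ℕ) (k : Fin n) (A : Gr n)
    (hA : A ∈ (realizations d).image (fun G => star G k)) (v : Fin n) : deg A v ≤ d v := by
  obtain ⟨G0, hG0, rfl⟩ := Finset.mem_image.1 hA
  rw [← (mem_realizations d G0).1 hG0 v]
  exact deg_mono _ _ (star_subset G0 k) v

theorem mem_of_star (d : Fin n → ℕ) (k : Fin n) (A : Gr n)
    (hA : A ∈ (realizations d).image (fun G => star G k)) (e : Edge n) (he : e ∈ A) : k ∈ e.1 := by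
  obtain ⟨G0, -, rfl⟩ := Finset.mem_image.1 hA
  exact ((mem_star G0 k e).1 he).2

/-- a realization of the reduced class has no edge at `k` -/
theorem not_mem_of_dred (d : Fin n → ℕ) (k : Fin n) (A H : Gr n)
    (hA : A ∈ (realizations d).image (fun G => star G k)) (hH : H ∈ realizations (dred d A))
    (e : Edge n) (he : e ∈ H) : k ∉ e.1 := by
  have h := (mem_realizations _ H).1 hH k
  rw [dred_self d k A hA] at h
  exact (deg_eq_zero_iff H k).1 h e he

theorem disjoint_of_dred (d : Fin n → ℕ) (k : Fin n) (A H : Gr n)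
    (hA : A ∈ (realizations d).image (fun G => star G k)) (hH : H ∈ realizations (dred d A)) :
    Disjoint H A := by
  rw [Finset.disjoint_left]
  intro e he heA
  exact not_mem_of_dred d k A H hA hH e he (mem_of_star d k A hA e heA)

/-- `G ↦ G \ A` is a bijection `fib d k A → realizations (dred d A)` with inverse `H ↦ H ∪ A`. -/
theorem fib_eq_image (d : Fin n → ℕ) (k : Fin n) (A : Gr n)
    (hA : A ∈ (realizations d).image (fun G => star G k)) :
    fib d k A = (realizations (dred d A)).image (fun H => H ∪ A) ∧
      Set.InjOn (fun H : Gr n => H ∪ A) (realizations (dred d A)) := by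
  constructor
  · ext G
    rw [Finset.mem_image]
    constructor
    · intro hG
      obtain ⟨hGd, hGA⟩ := Finset.mem_filter.1 hG
      have hsub : A ⊆ G := hGA ▸ star_subset G k
      refine ⟨G \ A, ?_, Finset.sdiff_union_of_subset hsub⟩
      rw [mem_realizations]
      intro v
      rw [deg_sdiff_of_subset G A hsub v, (mem_realizations d G).1 hGd v]
      rfl
    · rintro ⟨H, hH, rfl⟩
      have hdis := disjoint_of_dred d k A H hA hH
      refine Finset.mem_filter.2 ⟨?_, ?_⟩
      · rw [mem_realizations]
        intro v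
        rw [deg_union_of_disjoint H A hdis v, (mem_realizations _ H).1 hH v]
        have := deg_le_of_star d k A hA v
        unfold dred
        omega
      · ext e
        rw [mem_star, Finset.mem_union]
        constructor
        · rintro ⟨h | h, hk⟩
          · exact absurd hk (not_mem_of_dred d k A H hA hH e h)
          · exact h
        · intro h
          exact ⟨Or.inr h, mem_of_star d k A hA e h⟩
  · intro H hH H' hH' hEq
    have h1 := disjoint_of_dred d k A H hA hH
    have h2 := disjoint_of_dred d k A H' hA hH'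
    have e1 : (H ∪ A) \ A = H := Finset.union_sdiff_cancel_right h1
    have e2 : (H' ∪ A) \ A = H' := Finset.union_sdiff_cancel_right h2
    have hEq' : H ∪ A = H' ∪ A := hEq
    rw [← e1, ← e2, hEq']

theorem act_dred_subset (d : Fin n → ℕ) (k : Fin n) (A : Gr n)
    (hA : A ∈ (realizations d).image (fun G => star G k)) : act (dred d A) ⊆ (act d).erase k := by
  intro v hv
  have hv' : dred d A v ≠ 0 := (Finset.mem_filter.1 hv).2
  rw [Finset.mem_erase]
  constructor
  · rintro rfl
    exact hv' (dred_self d v A hA)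
  · refine Finset.mem_filter.2 ⟨Finset.mem_univ _, ?_⟩
    intro h0
    apply hv'
    unfold dred
    omega

/-- switching commutes with adding the star when `k ∉ S` -/
theorem switchResult_union (d : Fin n → ℕ) (k : Fin n) (A H : Gr n) (S : Finset (Fin n)) (F F' : Gr n)
    (hA : A ∈ (realizations d).image (fun G => star G k)) (hH : H ∈ realizations (dred d A))
    (hk : k ∉ S) (hF : F ∈ pmSet S) (hF' : F' ∈ pmSet S) :
    switchResult (H ∪ A) F F' = switchResult H F F' ∪ A := by
  have hFA : Disjoint F A := by
    rw [Finset.disjoint_left]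
    intro e he heA
    exact hk (((mem_pmSet S F).1 hF).2.1 e he k (mem_of_star d k A hA e heA))
  have hF'A : Disjoint F' A := by
    rw [Finset.disjoint_left]
    intro e he heA
    exact hk (((mem_pmSet S F').1 hF').2.1 e he k (mem_of_star d k A hA e heA))
  have h1 : F ⊆ H ∪ A ↔ F ⊆ H := by
    constructor
    · intro h e he
      rcases Finset.mem_union.1 (h he) with h' | h'
      · exact h'
      · exact absurd h' (Finset.disjoint_left.1 hFA he)
    · intro h
      exact h.trans Finset.subset_union_left
  have h2 : Disjoint F' (H ∪ A) ↔ Disjoint F' H := by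
    rw [Finset.disjoint_union_right]
    exact ⟨fun h => h.1, fun h => ⟨h, hF'A⟩⟩
  unfold switchResult
  by_cases hc : F ⊆ H ∧ Disjoint F' H
  · have hc' : F ⊆ H ∪ A ∧ Disjoint F' (H ∪ A) := ⟨h1.2 hc.1, h2.2 hc.2⟩
    rw [if_pos hc, if_pos hc']
    ext e
    simp only [Finset.mem_union, Finset.mem_sdiff]
    constructor
    · rintro (⟨h | h, hn⟩ | h)
      · exact Or.inl (Or.inl ⟨h, hn⟩)
      · exact Or.inr h
      · exact Or.inl (Or.inr h)
    · rintro ((⟨h, hn⟩ | h) | h)
      · exact Or.inl ⟨Or.inl h, hn⟩
      · exact Or.inr h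
      · exact Or.inl ⟨Or.inr h, fun hf => Finset.disjoint_left.1 hFA hf h⟩
  · have hc' : ¬ (F ⊆ H ∪ A ∧ Disjoint F' (H ∪ A)) := fun h => hc ⟨h1.1 h.1, h2.1 h.2⟩
    rw [if_neg hc, if_neg hc']

/-- a proposal on a 4-set containing an isolated vertex does nothing -/
theorem switchResult_isolated (E : Gr n) (S : Finset (Fin n)) (F F' : Gr n) (v : Fin n) (hv : v ∈ S)
    (hdeg : deg E v = 0) (hF : F ∈ pmSet S) : switchResult E F F' = E := by
  unfold switchResult
  rw [if_neg]
  rintro ⟨hsub, -⟩
  obtain ⟨e, he, hve⟩ := pm_exists_edge S F hF v hv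
  exact (deg_eq_zero_iff E v).1 hdeg e (hsub he) hve

end Crest.Agent.R299
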