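import Crest.Agent.R299.Defs

set_option autoImplicit false
open Finset
open Crest.SwitchChain

namespace Crest.Agent.R299

variable {n : ℕ}

theorem card_realizations_le (d : Fin n → ℕ) : (realizations d).card ≤ 2 ^ (n.choose 2) := by
  have h1 : (realizations d).card ≤ (univ : Finset (Finset (Edge n))).card :=
    Finset.card_le_card (Finset.subset_univ _)
  have h2 : (univ : Finset (Finset (Edge n))).card = 2 ^ (n.choose 2) := by
    rw [Finset.card_univ, Fintype.card_finset]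
    congr 1
    have := Sym2.card_subtype_not_diag (α := Fin n)
    simpa using this
  omega

theorem choose_four_bound (n : ℕ) : 24 * n.choose 4 ≤ n ^ 4 := by
  have h := Nat.choose_le_pow_div (α := ℚ) 4 n
  have h24 : (((4 : ℕ).factorial : ℕ) : ℚ) = 24 := by norm_num [Nat.factorial]
  rw [h24, le_div_iff₀ (by norm_num)] at h
  have h' : ((24 * n.choose 4 : ℕ) : ℚ) ≤ ((n ^ 4 : ℕ) : ℚ) := by push_cast; linarith
  exact_mod_cast h'

theorem numerics (hn : 4 ≤ n) (N : ℕ) (hN : N ≤ 2 ^ (n.choose 2)) :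
    (N : ℝ) * (1 - 1 / (24 * (n : ℝ) ^ 2 * (n.choose 4 : ℝ))) ^ (2 * n ^ 8) ≤ 1 / 4 := by
  set C : ℝ := 24 * (n : ℝ) ^ 2 * (n.choose 4 : ℝ) with hC
  have hnR : (4 : ℝ) ≤ n := by exact_mod_cast hn
  have hch : 1 ≤ n.choose 4 := Nat.choose_pos hn
  have hchR : (1 : ℝ) ≤ (n.choose 4 : ℝ) := by exact_mod_cast hch
  have hC1 : 1 ≤ C := by
    have : (1 : ℝ) ≤ (n : ℝ) ^ 2 := by nlinarith
    rw [hC]; nlinarith
  have hCpos : 0 < C := by linarith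
  have hC6 : C ≤ (n : ℝ) ^ 6 := by
    have h := choose_four_bound n
    have hR : (24 : ℝ) * (n.choose 4 : ℝ) ≤ (n : ℝ) ^ 4 := by exact_mod_cast h
    have hn2 : (0 : ℝ) ≤ (n : ℝ) ^ 2 := by positivity
    calc C = (n : ℝ) ^ 2 * (24 * (n.choose 4 : ℝ)) := by rw [hC]; ring
      _ ≤ (n : ℝ) ^ 2 * (n : ℝ) ^ 4 := mul_le_mul_of_nonneg_left hR hn2
      _ = (n : ℝ) ^ 6 := by ring
  -- (1 - 1/C) ≤ exp (-1/C)
  have h0 : 0 ≤ 1 - 1 / C := by
    have : 1 / C ≤ 1 := by rw [div_le_one hCpos]; exact hC1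
    linarith
  have h1 : 1 - 1 / C ≤ Real.exp (-(1 / C)) := by
    have := Real.add_one_le_exp (-(1 / C)); linarith
  have h2 : (1 - 1 / C) ^ (2 * n ^ 8) ≤ Real.exp (-(1 / C)) ^ (2 * n ^ 8) :=
    pow_le_pow_left₀ h0 h1 _
  have h3 : Real.exp (-(1 / C)) ^ (2 * n ^ 8) = Real.exp (((2 * n ^ 8 : ℕ) : ℝ) * (-(1 / C))) := by
    rw [Real.exp_nat_mul]
  have h4 : ((2 * n ^ 8 : ℕ) : ℝ) * (-(1 / C)) ≤ -((2 * n ^ 2 : ℕ) : ℝ) := by
    push_cast
    have hn6 : (0 : ℝ) < (n : ℝ) ^ 6 := by positivity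
    have : 2 * (n : ℝ) ^ 2 ≤ 2 * (n : ℝ) ^ 8 * (1 / C) := by
      rw [mul_one_div, le_div_iff₀ hCpos]
      calc 2 * (n : ℝ) ^ 2 * C ≤ 2 * (n : ℝ) ^ 2 * (n : ℝ) ^ 6 := by
            apply mul_le_mul_of_nonneg_left hC6; positivity
        _ = 2 * (n : ℝ) ^ 8 := by ring
    linarith
  have h5 : Real.exp (((2 * n ^ 8 : ℕ) : ℝ) * (-(1 / C))) ≤ Real.exp (-((2 * n ^ 2 : ℕ) : ℝ)) :=
    Real.exp_le_exp.mpr h4
  have h6 : Real.exp (-((2 * n ^ 2 : ℕ) : ℝ)) ≤ (1 / 2 : ℝ) ^ (2 * n ^ 2) := by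
    have he : Real.exp (-1) ≤ 1 / 2 := by
      rw [Real.exp_neg, one_div]
      apply inv_anti₀ (by norm_num)
      have := Real.add_one_le_exp (1 : ℝ); linarith
    have : Real.exp (-((2 * n ^ 2 : ℕ) : ℝ)) = Real.exp (-1) ^ (2 * n ^ 2) := by
      rw [← Real.exp_nat_mul]; congr 1; ring
    rw [this]
    exact pow_le_pow_left₀ (Real.exp_pos _).le he _
  have h7 : (1 - 1 / C) ^ (2 * n ^ 8) ≤ (1 / 2 : ℝ) ^ (2 * n ^ 2) := by
    calc _ ≤ _ := h2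
      _ = _ := h3
      _ ≤ _ := h5
      _ ≤ _ := h6
  have hch2 : n.choose 2 + 2 ≤ 2 * n ^ 2 := by
    have h1 := Nat.choose_le_pow n 2
    have : 2 ≤ n ^ 2 := by nlinarith
    omega
  have hNR : (N : ℝ) ≤ (2 : ℝ) ^ (n.choose 2) := by exact_mod_cast hN
  have hpos : (0 : ℝ) ≤ (1 / 2 : ℝ) ^ (2 * n ^ 2) := by positivity
  calc (N : ℝ) * (1 - 1 / C) ^ (2 * n ^ 8) ≤ (2 : ℝ) ^ (n.choose 2) * (1 / 2 : ℝ) ^ (2 * n ^ 2) := by
        apply mul_le_mul hNR h7 (pow_nonneg h0 _) (by positivity)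
    _ ≤ (2 : ℝ) ^ (n.choose 2) * (1 / 2 : ℝ) ^ (n.choose 2 + 2) := by
        apply mul_le_mul_of_nonneg_left _ (by positivity)
        exact pow_le_pow_of_le_one (by norm_num) (by norm_num) hch2
    _ = 1 / 4 := by
        rw [pow_add, ← mul_assoc, ← mul_pow]; norm_num

end Crest.Agent.R299
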