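import Crest.Agent.R299.Dirichlet
import Crest.Agent.R299.Numerics

set_option autoImplicit false
open Finset
open Crest.SwitchChain

namespace Crest.Agent.R299

variable {n : ℕ}

/-- The Poincaré half of S0453 from `Core`. -/
theorem poincare_of_core (hn : 4 ≤ n) (hcore : Core n) (d : Fin n → ℕ) (f : Gr n → ℝ) :
    VrOn (realizations d) f ≤
      24 * (n : ℝ) ^ 2 * (n.choose 4 : ℝ) * (realizations d).card *
        ∑ G ∈ realizations d, f G * (f G - ∑ G' ∈ realizations d, kernel n G G' * f G') := by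
  rw [dirichlet_eq hn d f]
  have h := hcore d f
  unfold Vr at h
  have hch : (0 : ℝ) < (n.choose 4 : ℝ) := by exact_mod_cast Nat.choose_pos hn
  calc VrOn (realizations d) f ≤ (n : ℝ) ^ 2 * (realizations d).card * Dir d f := h
    _ = _ := by field_simp

theorem result_of_core (hn : 4 ≤ n) (hcore : Core n)
    (d : Fin n → ℕ) (hd : (Crest.SwitchChain.realizations d).Nonempty) :
    (∃ t : ℕ, t ≤ 2 * n ^ 8 ∧ ∀ G ∈ Crest.SwitchChain.realizations d,
        Crest.SwitchChain.tvDist (fun G' => (Crest.SwitchChain.kernel n ^ t) G G')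
          (Crest.SwitchChain.unifOn (Crest.SwitchChain.realizations d)) ≤ 1 / 4) ∧
      ∀ f : Finset (Crest.SwitchChain.Edge n) → ℝ,
        ((Crest.SwitchChain.realizations d).card : ℝ) *
              (∑ G ∈ Crest.SwitchChain.realizations d, f G ^ 2) -
            (∑ G ∈ Crest.SwitchChain.realizations d, f G) ^ 2 ≤
          24 * (n : ℝ) ^ 2 * (n.choose 4 : ℝ) * (Crest.SwitchChain.realizations d).card *
            ∑ G ∈ Crest.SwitchChain.realizations d,
              f G * (f G - ∑ G' ∈ Crest.SwitchChain.realizations d,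
                Crest.SwitchChain.kernel n G G' * f G') := by
  refine ⟨⟨2 * n ^ 8, le_rfl, ?_⟩, fun f => poincare_of_core hn hcore d f⟩
  have hnR : (4 : ℝ) ≤ n := by exact_mod_cast hn
  have hchR : (1 : ℝ) ≤ (n.choose 4 : ℝ) := by exact_mod_cast Nat.choose_pos hn
  have hC1 : (1 : ℝ) ≤ 24 * (n : ℝ) ^ 2 * (n.choose 4 : ℝ) := by
    have : (1 : ℝ) ≤ (n : ℝ) ^ 2 := by nlinarith
    nlinarith
  exact tv_of_poincare (realizations d) hd (kernel n) (K' n) kernel_lazy K'_symm K'_nonneg
    (K'_row_sum hn) (fun a ha b hb => K'_closed d a ha b hb)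
    (24 * (n : ℝ) ^ 2 * (n.choose 4 : ℝ)) hC1 (fun f => poincare_of_core hn hcore d f)
    (2 * n ^ 8) (numerics hn _ (card_realizations_le d))

end Crest.Agent.R299
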