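import Mathlib

/-!
# R299 (S0453): the abstract Johnson model `J(Z,t) = Z.powersetCard t` — shared definitions
-/

set_option autoImplicit false
open Finset

namespace Crest.Agent.R299

variable {α : Type*} [DecidableEq α]

/-- transpose the two sites `e.1, e.2` in the subset `S`. -/
def jtau (e : α × α) (S : Finset α) : Finset α := S.image (Equiv.swap e.1 e.2)

/-- exactly one of the two sites `e.1, e.2` lies in `S` (the transposition is "active"). -/
def jchi (e : α × α) (S : Finset α) : Prop := ¬ (e.1 ∈ S ↔ e.2 ∈ S)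

instance (e : α × α) : DecidablePred (jchi e) := fun S => by unfold jchi; infer_instance

theorem mem_jtau (e : α × α) (S : Finset α) (a : α) :
    a ∈ jtau e S ↔ Equiv.swap e.1 e.2 a ∈ S := by
  unfold jtau
  constructor
  · intro h
    obtain ⟨b, hb, rfl⟩ := Finset.mem_image.1 h
    simpa using hb
  · intro h
    exact Finset.mem_image.2 ⟨_, h, by simp⟩

@[simp] theorem jtau_jtau (e : α × α) (S : Finset α) : jtau e (jtau e S) = S := by
  ext a; simp [mem_jtau]

theorem jtau_comm (x y : α) (S : Finset α) : jtau (x, y) S = jtau (y, x) S := by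
  ext a; simp [mem_jtau, Equiv.swap_comm]

theorem card_jtau (e : α × α) (S : Finset α) : (jtau e S).card = S.card :=
  Finset.card_image_of_injective _ (Equiv.injective _)

theorem jtau_mem_powersetCard (Z : Finset α) (t : ℕ) (e : α × α) (h1 : e.1 ∈ Z) (h2 : e.2 ∈ Z)
    (S : Finset α) (hS : S ∈ Z.powersetCard t) : jtau e S ∈ Z.powersetCard t := by
  rw [Finset.mem_powersetCard] at hS ⊢
  refine ⟨fun a ha => ?_, by rw [card_jtau]; exact hS.2⟩
  rw [mem_jtau] at ha
  by_cases h : a = e.1
  · subst h; exact h1
  · by_cases h' : a = e.2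
    · subst h'; exact h2
    · rw [Equiv.swap_apply_of_ne_of_ne h h'] at ha; exact hS.1 ha

/-- an inactive transposition does nothing. -/
theorem jtau_of_not_jchi (e : α × α) (S : Finset α) (h : ¬ jchi e S) : jtau e S = S := by
  unfold jchi at h
  rw [not_not] at h
  ext a
  rw [mem_jtau]
  by_cases h1 : a = e.1
  · subst h1; rw [Equiv.swap_apply_left]; exact h.symm
  · by_cases h2 : a = e.2
    · subst h2; rw [Equiv.swap_apply_right]; exact h
    · rw [Equiv.swap_apply_of_ne_of_ne h1 h2]

end Crest.Agent.R299
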