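import Mathlib

/-!
# R299 (S0453): the Johnson graph `J(z,t)` — spectral gap `z` (abstract, no graphs)

States: `Z.powersetCard t`.  Moves: `A ↦ insert y (A.erase x)`, `x ∈ A`, `y ∈ Z \ A`.
-/

set_option autoImplicit false
open Finset

namespace Crest.Agent.R299.JGap

variable {α : Type*} [DecidableEq α]

/-- double counting of the pairs `B ⊂ A`, `|A| = t+1`, `|B| = t`. -/
theorem sum_erase_eq_sum_insert (Z : Finset α) (t : ℕ) (F : Finset α → Finset α → ℝ) :
    ∑ A ∈ Z.powersetCard (t + 1), ∑ x ∈ A, F A (A.erase x) =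
      ∑ B ∈ Z.powersetCard t, ∑ y ∈ Z \ B, F (insert y B) B := by
  rw [Finset.sum_sigma', Finset.sum_sigma']
  refine Finset.sum_bij' (fun p _ => ⟨p.1.erase p.2, p.2⟩) (fun p _ => ⟨insert p.2 p.1, p.2⟩)
    ?_ ?_ ?_ ?_ ?_
  · rintro ⟨A, x⟩ h
    simp only [mem_sigma, mem_powersetCard, mem_sdiff, mem_erase] at h ⊢
    obtain ⟨⟨hA, hc⟩, hx⟩ := h
    refine ⟨⟨(erase_subset _ _).trans hA, ?_⟩, hA hx, by simp⟩
    rw [card_erase_of_mem hx, hc]; rfl
  · rintro ⟨B, y⟩ h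
    simp only [mem_sigma, mem_powersetCard, mem_sdiff] at h ⊢
    obtain ⟨⟨hB, hc⟩, hy, hyB⟩ := h
    refine ⟨⟨insert_subset hy hB, ?_⟩, mem_insert_self _ _⟩
    rw [card_insert_of_notMem hyB, hc]
  · rintro ⟨A, x⟩ h
    simp only [mem_sigma, mem_powersetCard] at h
    simp [insert_erase h.2]
  · rintro ⟨B, y⟩ h
    simp only [mem_sigma, mem_powersetCard, mem_sdiff] at h
    simp [erase_insert h.2.2]
  · rintro ⟨A, x⟩ h
    simp only [mem_sigma, mem_powersetCard] at h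
    simp [insert_erase h.2]

/-- squared norm on level `t`. -/
noncomputable def nrm (Z : Finset α) (t : ℕ) (f : Finset α → ℝ) : ℝ :=
  ∑ A ∈ Z.powersetCard t, f A ^ 2

/-- down operator. -/
noncomputable def Dn (Z : Finset α) (f : Finset α → ℝ) (B : Finset α) : ℝ :=
  ∑ y ∈ Z \ B, f (insert y B)

/-- up operator. -/
noncomputable def Up (g : Finset α → ℝ) (A : Finset α) : ℝ :=
  ∑ x ∈ A, g (A.erase x)

/-- twice the Dirichlet form of the Johnson graph (sum over ordered neighbours). -/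
noncomputable def En (Z : Finset α) (t : ℕ) (f : Finset α → ℝ) : ℝ :=
  ∑ A ∈ Z.powersetCard t, ∑ x ∈ A, ∑ y ∈ Z \ A, (f A - f (insert y (A.erase x))) ^ 2

theorem sum_sq_diff {ι : Type*} [DecidableEq ι] (W : Finset ι) (φ : ι → ℝ) :
    ∑ x ∈ W, ∑ y ∈ W.erase x, (φ x - φ y) ^ 2 =
      2 * (W.card : ℝ) * ∑ x ∈ W, φ x ^ 2 - 2 * (∑ x ∈ W, φ x) ^ 2 := by
  have h1 : ∀ x ∈ W, ∑ y ∈ W.erase x, (φ x - φ y) ^ 2 = ∑ y ∈ W, (φ x - φ y) ^ 2 := by
    intro x hx
    rw [← Finset.add_sum_erase W _ hx]; simp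
  rw [Finset.sum_congr rfl h1]
  have h2 : ∀ x ∈ W, ∑ y ∈ W, (φ x - φ y) ^ 2 =
      (W.card : ℝ) * φ x ^ 2 - 2 * φ x * (∑ y ∈ W, φ y) + ∑ y ∈ W, φ y ^ 2 := by
    intro x _
    have : ∀ y ∈ W, (φ x - φ y) ^ 2 = φ x ^ 2 - 2 * φ x * φ y + φ y ^ 2 := by
      intro y _; ring
    rw [Finset.sum_congr rfl this, Finset.sum_add_distrib, Finset.sum_sub_distrib,
      Finset.sum_const, nsmul_eq_mul, ← Finset.mul_sum]
  rw [Finset.sum_congr rfl h2, Finset.sum_add_distrib, Finset.sum_sub_distrib,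
    ← Finset.mul_sum, Finset.sum_const, nsmul_eq_mul, ← Finset.sum_mul, ← Finset.mul_sum]
  ring

theorem adj (Z : Finset α) (t : ℕ) (f g : Finset α → ℝ) :
    ∑ A ∈ Z.powersetCard (t + 1), f A * Up g A = ∑ B ∈ Z.powersetCard t, Dn Z f B * g B := by
  have := sum_erase_eq_sum_insert Z t (fun A B => f A * g B)
  simp only [Up, Dn, Finset.mul_sum, Finset.sum_mul]
  exact this

theorem sum_Dn (Z : Finset α) (t : ℕ) (f : Finset α → ℝ) :
    ∑ B ∈ Z.powersetCard t, Dn Z f B = ((t : ℝ) + 1) * ∑ A ∈ Z.powersetCard (t + 1), f A := by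
  have := sum_erase_eq_sum_insert Z t (fun A _ => f A)
  simp only [Dn]
  rw [← this, Finset.mul_sum]
  refine Finset.sum_congr rfl fun A hA => ?_
  rw [Finset.sum_const, (mem_powersetCard.1 hA).2, nsmul_eq_mul]; push_cast; ring

theorem En_succ (Z : Finset α) (t : ℕ) (f : Finset α → ℝ) :
    En Z (t + 1) f = 2 * (((t : ℝ) + 1) * ((Z.card : ℝ) - t) * nrm Z (t + 1) f
      - nrm Z t (Dn Z f)) := by
  have h := sum_erase_eq_sum_insert Z t
    (fun A B => ∑ y ∈ Z \ A, (f A - f (insert y B)) ^ 2)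
  have h0 : En Z (t + 1) f = ∑ B ∈ Z.powersetCard t, ∑ x ∈ Z \ B,
      ∑ y ∈ Z \ insert x B, (f (insert x B) - f (insert y B)) ^ 2 := h
  have h1 : ∀ B ∈ Z.powersetCard t, ∑ x ∈ Z \ B,
      ∑ y ∈ Z \ insert x B, (f (insert x B) - f (insert y B)) ^ 2 =
      2 * ((Z.card : ℝ) - t) * ∑ x ∈ Z \ B, f (insert x B) ^ 2 - 2 * (Dn Z f B) ^ 2 := by
    intro B hB
    obtain ⟨hBZ, hc⟩ := mem_powersetCard.1 hB
    have hW : ((Z \ B).card : ℝ) = (Z.card : ℝ) - t := by
      rw [card_sdiff_of_subset hBZ, hc, Nat.cast_sub (hc ▸ card_le_card hBZ)]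
    have := sum_sq_diff (Z \ B) (fun x => f (insert x B))
    rw [hW] at this
    rw [Dn, ← this]
    refine Finset.sum_congr rfl fun x _ => ?_
    congr 1
    ext y; simp only [mem_sdiff, mem_insert, mem_erase]; tauto
  rw [h0, Finset.sum_congr rfl h1, Finset.sum_sub_distrib, ← Finset.mul_sum, ← Finset.mul_sum]
  have h2 := sum_erase_eq_sum_insert Z t (fun A _ => f A ^ 2)
  rw [← h2]
  have h3 : ∑ A ∈ Z.powersetCard (t + 1), ∑ _x ∈ A, f A ^ 2 = ((t : ℝ) + 1) * nrm Z (t + 1) f := by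
    rw [nrm, Finset.mul_sum]
    refine Finset.sum_congr rfl fun A hA => ?_
    rw [Finset.sum_const, (mem_powersetCard.1 hA).2, nsmul_eq_mul]; push_cast; ring
  rw [h3]; simp only [nrm]; ring

theorem En_level (Z : Finset α) (t : ℕ) (g : Finset α → ℝ) :
    En Z t g = 2 * (((t : ℝ) + 1) * ((Z.card : ℝ) - t) * nrm Z t g
      - ∑ A ∈ Z.powersetCard (t + 1), (Up g A) ^ 2) := by
  have h := sum_erase_eq_sum_insert Z t
    (fun A B => ∑ x ∈ B, (g B - g (A.erase x)) ^ 2)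
  have h0 : En Z t g = ∑ B ∈ Z.powersetCard t, ∑ y ∈ Z \ B,
      ∑ x ∈ B, (g B - g ((insert y B).erase x)) ^ 2 := by
    rw [En]
    refine Finset.sum_congr rfl fun B _ => ?_
    rw [Finset.sum_comm]
    refine Finset.sum_congr rfl fun y hy => Finset.sum_congr rfl fun x hx => ?_
    have hne : x ≠ y := by
      rintro rfl; exact (mem_sdiff.1 hy).2 hx
    rw [erase_insert_of_ne (Ne.symm hne)]
  rw [h0, ← h]
  have h1 : ∀ A ∈ Z.powersetCard (t + 1), ∑ y ∈ A, ∑ x ∈ A.erase y,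
      (g (A.erase y) - g (A.erase x)) ^ 2 =
      2 * ((t : ℝ) + 1) * ∑ x ∈ A, g (A.erase x) ^ 2 - 2 * (Up g A) ^ 2 := by
    intro A hA
    have := sum_sq_diff A (fun x => g (A.erase x))
    rw [(mem_powersetCard.1 hA).2] at this
    rw [this, Up]; push_cast; ring
  rw [Finset.sum_congr rfl h1, Finset.sum_sub_distrib, ← Finset.mul_sum, ← Finset.mul_sum]
  have h2 := sum_erase_eq_sum_insert Z t (fun _ B => g B ^ 2)
  rw [h2]
  have h3 : ∑ B ∈ Z.powersetCard t, ∑ _y ∈ Z \ B, g B ^ 2 = ((Z.card : ℝ) - t) * nrm Z t g := by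
    rw [nrm, Finset.mul_sum]
    refine Finset.sum_congr rfl fun B hB => ?_
    obtain ⟨hBZ, hc⟩ := mem_powersetCard.1 hB
    rw [Finset.sum_const, card_sdiff_of_subset hBZ, hc, nsmul_eq_mul,
      Nat.cast_sub (hc ▸ card_le_card hBZ)]
  rw [h3]; ring

omit [DecidableEq α] in
theorem nrm_nonneg (Z : Finset α) (t : ℕ) (f : Finset α → ℝ) : 0 ≤ nrm Z t f :=
  Finset.sum_nonneg fun _ _ => sq_nonneg _

/-- Johnson gap for mean-zero functions. -/
theorem gap_zero (Z : Finset α) (t : ℕ) : ∀ f : Finset α → ℝ,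
    ∑ A ∈ Z.powersetCard t, f A = 0 → 2 * (Z.card : ℝ) * nrm Z t f ≤ En Z t f := by
  induction t with
  | zero =>
    intro f hf
    simp only [powersetCard_zero, sum_singleton] at hf
    simp [nrm, En, hf]
  | succ t ih =>
    intro f hf
    by_cases hle : t + 1 ≤ Z.card
    · set g := Dn Z f with hg
      have hg0 : ∑ B ∈ Z.powersetCard t, g B = 0 := by
        rw [hg, sum_Dn, hf, mul_zero]
      have h1 := ih g hg0
      rw [En_level] at h1
      set U := ∑ A ∈ Z.powersetCard (t + 1), (Up g A) ^ 2 with hU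
      have hz : ((t : ℝ) + 1) ≤ (Z.card : ℝ) := by exact_mod_cast hle
      have ht0 : (0 : ℝ) ≤ t := Nat.cast_nonneg t
      set c : ℝ := (t : ℝ) * ((Z.card : ℝ) - t - 1) with hc
      have hc0 : 0 ≤ c := mul_nonneg ht0 (by linarith)
      have hUc : U ≤ c * nrm Z t g := by
        have : ((t : ℝ) + 1) * ((Z.card : ℝ) - t) - (Z.card : ℝ) = c := by rw [hc]; ring
        nlinarith [h1]
      have hadj : nrm Z t g = ∑ A ∈ Z.powersetCard (t + 1), f A * Up g A := by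
        rw [adj, nrm]
        refine Finset.sum_congr rfl fun B _ => ?_
        rw [sq]
      have hcs : (nrm Z t g) ^ 2 ≤ nrm Z (t + 1) f * U := by
        rw [hadj]
        exact Finset.sum_mul_sq_le_sq_mul_sq _ _ _
      have hgn := nrm_nonneg Z t g
      have hfn := nrm_nonneg Z (t + 1) f
      have hfin : nrm Z t g ≤ c * nrm Z (t + 1) f := by
        rcases hgn.eq_or_lt with h0 | hpos
        · rw [← h0]; exact mul_nonneg hc0 hfn
        · have h2 : (nrm Z t g) ^ 2 ≤ nrm Z (t + 1) f * (c * nrm Z t g) :=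
            hcs.trans (mul_le_mul_of_nonneg_left hUc hfn)
          have h3 : nrm Z t g * nrm Z t g ≤ (c * nrm Z (t + 1) f) * nrm Z t g := by
            nlinarith [h2]
          exact le_of_mul_le_mul_right h3 hpos
      rw [En_succ]
      have : ((t : ℝ) + 1) * ((Z.card : ℝ) - t) - c = (Z.card : ℝ) := by rw [hc]; ring
      nlinarith [hfin]
    · have : Z.powersetCard (t + 1) = ∅ := powersetCard_eq_empty.2 (by omega)
      simp [nrm, En, this]

/-- **Johnson gap** (J1), unnormalised form: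
`z (N ∑ f² - (∑ f)²) ≤ N · ½ ∑_A ∑_{x ∈ A} ∑_{y ∈ Z \ A} (f A - f (A - x + y))²`. -/
theorem johnson_gap (Z : Finset α) (t : ℕ) (f : Finset α → ℝ) :
    (Z.card : ℝ) * (((Z.powersetCard t).card : ℝ) * ∑ A ∈ Z.powersetCard t, f A ^ 2
        - (∑ A ∈ Z.powersetCard t, f A) ^ 2) ≤
      ((Z.powersetCard t).card : ℝ) * (1 / 2) * En Z t f := by
  set Ω := Z.powersetCard t with hΩ
  rcases Ω.eq_empty_or_nonempty with h0 | hne
  · simp [h0]
  have hN : (0 : ℝ) < (Ω.card : ℝ) := by exact_mod_cast card_pos.2 hne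
  set m : ℝ := (∑ A ∈ Ω, f A) / Ω.card with hm
  have hsum : ∑ A ∈ Ω, (f A - m) = 0 := by
    rw [Finset.sum_sub_distrib, Finset.sum_const, nsmul_eq_mul, hm]
    field_simp; ring
  have h1 := gap_zero Z t (fun A => f A - m) hsum
  have hEn : En Z t (fun A => f A - m) = En Z t f := by
    simp only [En]
    refine Finset.sum_congr rfl fun A _ => Finset.sum_congr rfl fun x _ =>
      Finset.sum_congr rfl fun y _ => ?_
    ring
  have hn : (Ω.card : ℝ) * nrm Z t (fun A => f A - m) =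
      (Ω.card : ℝ) * ∑ A ∈ Ω, f A ^ 2 - (∑ A ∈ Ω, f A) ^ 2 := by
    have : nrm Z t (fun A => f A - m) =
        ∑ A ∈ Ω, f A ^ 2 - 2 * m * ∑ A ∈ Ω, f A + Ω.card * m ^ 2 := by
      simp only [nrm]
      have : ∀ A ∈ Ω, (f A - m) ^ 2 = f A ^ 2 - 2 * m * f A + m ^ 2 := by intro A _; ring
      rw [Finset.sum_congr rfl this, Finset.sum_add_distrib, Finset.sum_sub_distrib,
        ← Finset.mul_sum, Finset.sum_const, nsmul_eq_mul]
    rw [this, hm]; field_simp; ring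
  rw [hEn] at h1
  rw [← hn]
  nlinarith [h1, hN]

end Crest.Agent.R299.JGap
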