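import Crest.Agent.R299.Defs
import Crest.Agent.R299.JohnsonDefs
import Crest.Agent.R299.JohnsonGap

/-!
# R299 (S0453): (J1) the Johnson gap in the `jtau` / `offDiag` form
-/

set_option autoImplicit false
open Finset

namespace Crest.Agent.R299

variable {α : Type*} [DecidableEq α]

theorem jtau_eq_insert_erase (x y : α) (S : Finset α) (hx : x ∈ S) (hy : y ∉ S) :
    jtau (x, y) S = insert y (S.erase x) := by
  have hxy : x ≠ y := by rintro rfl; exact hy hx
  ext a
  rw [mem_jtau, mem_insert, mem_erase]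
  by_cases h1 : a = x
  · subst h1
    simp [hy, hxy]
  · by_cases h2 : a = y
    · subst h2
      simp [hx]
    · simp only [Equiv.swap_apply_of_ne_of_ne h1 h2]
      tauto

/-- the `offDiag` energy is twice the `insert/erase` energy. -/
theorem sum_offDiag_eq_En (Z : Finset α) (t : ℕ) (g : Finset α → ℝ) :
    ∑ e ∈ Z.offDiag, ∑ S ∈ Z.powersetCard t, (g S - g (jtau e S)) ^ 2 = 2 * JGap.En Z t g := by
  rw [Finset.sum_comm, JGap.En, Finset.mul_sum]
  refine Finset.sum_congr rfl fun S hS => ?_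
  have hSZ : S ⊆ Z := (mem_powersetCard.1 hS).1
  have hsub : (S ×ˢ (Z \ S)) ∪ ((Z \ S) ×ˢ S) ⊆ Z.offDiag := by
    rintro ⟨x, y⟩ h
    simp only [mem_union, mem_product, mem_sdiff] at h
    rw [mem_offDiag]
    rcases h with ⟨h1, h2, h3⟩ | ⟨⟨h1, h2⟩, h3⟩
    · refine ⟨hSZ h1, h2, fun h => h3 ?_⟩
      have h' : x = y := h
      exact h' ▸ h1
    · refine ⟨h1, hSZ h3, fun h => h2 ?_⟩
      have h' : x = y := h
      exact h' ▸ h3
  rw [← Finset.sum_subset hsub]
  · have hdisj : Disjoint (S ×ˢ (Z \ S)) ((Z \ S) ×ˢ S) := by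
      rw [Finset.disjoint_left]
      rintro ⟨x, y⟩ h1 h2
      simp only [mem_product, mem_sdiff] at h1 h2
      exact h2.1.2 h1.1
    rw [Finset.sum_union hdisj, Finset.sum_product, Finset.sum_product_right, two_mul]
    congr 1
    · refine Finset.sum_congr rfl fun x hx => Finset.sum_congr rfl fun y hy => ?_
      rw [jtau_eq_insert_erase x y S hx (mem_sdiff.1 hy).2]
    · refine Finset.sum_congr rfl fun x hx => Finset.sum_congr rfl fun y hy => ?_
      rw [jtau_comm, jtau_eq_insert_erase x y S hx (mem_sdiff.1 hy).2]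
  · rintro ⟨x, y⟩ h1 h2
    rw [mem_offDiag] at h1
    simp only [mem_union, mem_product, mem_sdiff, not_or, not_and, not_not] at h2
    have : ¬ jchi (x, y) S := by
      unfold jchi
      rw [not_not]
      constructor
      · intro hx; exact h2.1 hx h1.2.1
      · intro hy
        by_contra hx
        exact (h2.2 ⟨h1.1, hx⟩) hy
    rw [jtau_of_not_jchi _ _ this]; simp

/-- (J1), sharp form: `z · VrOn J g ≤ (|J|/4) ∑_{e ∈ offDiag} ∑_S (g S - g (τ_e S))²`. -/
theorem johnson_J1_sharp (Z : Finset α) (t : ℕ) (g : Finset α → ℝ) :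
    (Z.card : ℝ) * VrOn (Z.powersetCard t) g ≤ (((Z.powersetCard t).card : ℝ) / 4) *
      ∑ e ∈ Z.offDiag, ∑ S ∈ Z.powersetCard t, (g S - g (jtau e S)) ^ 2 := by
  have h := JGap.johnson_gap Z t g
  rw [sum_offDiag_eq_En, VrOn]
  linarith

/-- (J1): `VrOn J g ≤ (|J|/8) ∑_{e ∈ offDiag} ∑_S (g S - g (τ_e S))²`  (`L_b ≥ 2 D_b` on a fibre). -/
theorem johnson_J1 (Z : Finset α) (t : ℕ) (g : Finset α → ℝ) :
    VrOn (Z.powersetCard t) g ≤ (((Z.powersetCard t).card : ℝ) / 8) *
      ∑ e ∈ Z.offDiag, ∑ S ∈ Z.powersetCard t, (g S - g (jtau e S)) ^ 2 := by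
  have h := johnson_J1_sharp Z t g
  set E := ∑ e ∈ Z.offDiag, ∑ S ∈ Z.powersetCard t, (g S - g (jtau e S)) ^ 2 with hE
  have hE0 : 0 ≤ E := Finset.sum_nonneg fun _ _ => Finset.sum_nonneg fun _ _ => sq_nonneg _
  have hN0 : (0 : ℝ) ≤ ((Z.powersetCard t).card : ℝ) := Nat.cast_nonneg _
  have hV0 : 0 ≤ VrOn (Z.powersetCard t) g := by
    rw [VrOn]
    have := Finset.sum_mul_sq_le_sq_mul_sq (Z.powersetCard t) (fun _ => (1 : ℝ)) g
    simp only [one_mul, one_pow, Finset.sum_const, nsmul_eq_mul, mul_one] at this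
    linarith
  by_cases hz : 2 ≤ Z.card
  · have hz' : (2 : ℝ) ≤ (Z.card : ℝ) := by exact_mod_cast hz
    have : 2 * VrOn (Z.powersetCard t) g ≤ (Z.card : ℝ) * VrOn (Z.powersetCard t) g :=
      mul_le_mul_of_nonneg_right hz' hV0
    linarith
  · -- at most one state
    have hcard : (Z.powersetCard t).card ≤ 1 := by
      rw [card_powersetCard]
      have hz1 : Z.card ≤ 1 := by omega
      rcases Nat.le_one_iff_eq_zero_or_eq_one.1 hz1 with h0 | h1
      · rw [h0]; cases t <;> simp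
      · rw [h1]; rcases t with _ | _ | t
        · simp
        · simp
        · rw [Nat.choose_eq_zero_of_lt (by omega)]; omega
    have hV : VrOn (Z.powersetCard t) g = 0 := by
      rw [VrOn]
      rcases Nat.le_one_iff_eq_zero_or_eq_one.1 hcard with h0 | h1
      · rw [card_eq_zero.1 h0]; simp
      · obtain ⟨A, hA⟩ := card_eq_one.1 h1
        rw [hA]; simp
    rw [hV]; positivity

end Crest.Agent.R299
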