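import Crest.Agent.R299.JohnsonDefs

/-!
# R299 (S0453): the inequality (J2) on the abstract Johnson model
-/

set_option autoImplicit false
open Finset

namespace Crest.Agent.R299

variable {α : Type*} [DecidableEq α]

/-! ## generic sums -/

theorem sum_offDiag_of_diag_zero (Z : Finset α) (F : α × α → ℝ) (h : ∀ x, F (x, x) = 0) :
    ∑ e ∈ Z.offDiag, F e = ∑ x ∈ Z, ∑ y ∈ Z, F (x, y) := by
  rw [← Finset.sum_product', ← Finset.diag_union_offDiag Z,
    Finset.sum_union (Finset.disjoint_diag_offDiag Z)]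
  have : ∑ e ∈ Z.diag, F e = 0 := by
    apply Finset.sum_eq_zero
    intro e he
    rw [Finset.mem_diag] at he
    obtain ⟨x, y⟩ := e
    simp only at he
    obtain ⟨_, rfl⟩ := he
    exact h x
  rw [this, zero_add]

omit [DecidableEq α] in
theorem sum_sum_sub_sq (Y : Finset α) (h : α → ℝ) :
    ∑ y ∈ Y, ∑ w ∈ Y, (h y - h w) ^ 2 = 2 * Y.card * ∑ y ∈ Y, h y ^ 2 - 2 * (∑ y ∈ Y, h y) ^ 2 := by
  have : ∀ y w, (h y - h w) ^ 2 = h y ^ 2 - 2 * (h y * h w) + h w ^ 2 := by intro y w; ring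
  simp only [this, Finset.sum_add_distrib, Finset.sum_sub_distrib, Finset.sum_const, nsmul_eq_mul,
    ← Finset.mul_sum, ← Finset.sum_mul]
  ring

/-- Poincaré inequality on the pairs of `Z` (the Johnson graph `J(z,2)`), as a sum of squares. -/
theorem pairs_poincare (Z : Finset α) (hZ : 2 ≤ Z.card) (a : α → α → ℝ)
    (hsymm : ∀ x y, a x y = a y x) (hdiag : ∀ x, a x x = 0)
    (hsum : ∑ x ∈ Z, ∑ y ∈ Z, a x y = 0) :
    (Z.card : ℝ) * ∑ x ∈ Z, ∑ y ∈ Z, a x y ^ 2 ≤
      ∑ x ∈ Z, ∑ y ∈ Z.erase x, ∑ w ∈ Z.erase x, (a x y - a x w) ^ 2 := by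
  set z : ℝ := (Z.card : ℝ) with hz
  set S : α → ℝ := fun x => ∑ y ∈ Z, a x y with hS
  set Q : ℝ := ∑ x ∈ Z, ∑ y ∈ Z, a x y ^ 2 with hQ
  set P : ℝ := ∑ x ∈ Z, S x ^ 2 with hP
  have hz2 : (2 : ℝ) ≤ z := by rw [hz]; exact_mod_cast hZ
  have hQ0 : 0 ≤ Q := Finset.sum_nonneg fun x _ => Finset.sum_nonneg fun y _ => sq_nonneg _
  have hP0 : 0 ≤ P := Finset.sum_nonneg fun x _ => sq_nonneg _
  have hSsum : ∑ x ∈ Z, S x = 0 := hsum
  -- the right-hand side
  have hR : ∑ x ∈ Z, ∑ y ∈ Z.erase x, ∑ w ∈ Z.erase x, (a x y - a x w) ^ 2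
      = 2 * (z - 1) * Q - 2 * P := by
    have : ∀ x ∈ Z, ∑ y ∈ Z.erase x, ∑ w ∈ Z.erase x, (a x y - a x w) ^ 2
        = 2 * (z - 1) * ∑ y ∈ Z, a x y ^ 2 - 2 * S x ^ 2 := by
      intro x hx
      rw [sum_sum_sub_sq (Z.erase x) (a x), Finset.card_erase_of_mem hx,
        Finset.sum_erase Z (by rw [hdiag]; norm_num), Finset.sum_erase Z (hdiag x)]
      have h1 : 1 ≤ Z.card := by omega
      rw [Nat.cast_sub h1, Nat.cast_one]
    rw [Finset.sum_congr rfl this, Finset.sum_sub_distrib, ← Finset.mul_sum, ← Finset.mul_sum]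
  rw [hR]
  -- V and U
  have hV : ∑ x ∈ Z, ∑ y ∈ Z, a x y * (S x + S y) = 2 * P := by
    have h1 : ∑ x ∈ Z, ∑ y ∈ Z, a x y * S x = P := by
      apply Finset.sum_congr rfl
      intro x _
      rw [← Finset.sum_mul]
      ring
    have h2 : ∑ x ∈ Z, ∑ y ∈ Z, a x y * S y = P := by
      rw [Finset.sum_comm]
      apply Finset.sum_congr rfl
      intro y _
      rw [← Finset.sum_mul]
      have : ∑ x ∈ Z, a x y = S y := Finset.sum_congr rfl fun x _ => hsymm x y
      rw [this]; ring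
    simp only [mul_add, Finset.sum_add_distrib, h1, h2]
    ring
  have hU : ∑ x ∈ Z, ∑ y ∈ Z, (S x + S y) ^ 2 = 2 * z * P := by
    have : ∀ x y, (S x + S y) ^ 2 = S x ^ 2 + 2 * (S x * S y) + S y ^ 2 := by intro x y; ring
    simp only [this, Finset.sum_add_distrib, Finset.sum_const, nsmul_eq_mul,
      ← Finset.mul_sum, ← Finset.sum_mul, hSsum]
    ring
  -- the sum of squares over the off-diagonal
  have key : ∀ l : ℝ, 0 ≤ l ^ 2 * Q - 4 * l * P + 2 * z * P - 4 * P := by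
    intro l
    have h0 : 0 ≤ ∑ x ∈ Z, ∑ y ∈ Z.erase x, (l * a x y - (S x + S y)) ^ 2 :=
      Finset.sum_nonneg fun x _ => Finset.sum_nonneg fun y _ => sq_nonneg _
    have h1 : ∑ x ∈ Z, ∑ y ∈ Z.erase x, (l * a x y - (S x + S y)) ^ 2
        = ∑ x ∈ Z, (∑ y ∈ Z, (l * a x y - (S x + S y)) ^ 2 - 4 * S x ^ 2) := by
      apply Finset.sum_congr rfl
      intro x hx
      rw [← Finset.add_sum_erase Z _ hx, hdiag]
      ring
    have h2 : ∑ x ∈ Z, ∑ y ∈ Z, (l * a x y - (S x + S y)) ^ 2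
        = l ^ 2 * Q - 2 * l * (2 * P) + 2 * z * P := by
      rw [← hV, ← hU, hQ]
      simp only [Finset.mul_sum, ← Finset.sum_sub_distrib, ← Finset.sum_add_distrib]
      apply Finset.sum_congr rfl; intro x _
      apply Finset.sum_congr rfl; intro y _
      ring
    rw [h1, Finset.sum_sub_distrib, h2, ← Finset.mul_sum] at h0
    linarith
  -- conclusion : 2 P ≤ (z - 2) Q
  have hfin : 2 * P ≤ (z - 2) * Q := by
    rcases eq_or_lt_of_le hz2 with h | h
    · -- z = 2
      have hP' : P ≤ 0 := by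
        by_contra hc
        push Not at hc
        rcases eq_or_lt_of_le hQ0 with hq | hq
        · have := key 1
          rw [← hq, ← h] at this
          nlinarith
        · have := key (2 * P / Q)
          rw [← h] at this
          have e : (2 * P / Q) ^ 2 * Q = 4 * P ^ 2 / Q := by field_simp; ring
          have e2 : 4 * (2 * P / Q) * P = 8 * P ^ 2 / Q := by field_simp; ring
          rw [e, e2] at this
          have : 0 ≤ - (4 * P ^ 2 / Q) := by
            have e3 : 4 * P ^ 2 / Q - 8 * P ^ 2 / Q = - (4 * P ^ 2 / Q) := by ring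
            linarith
          have hpos : 0 < 4 * P ^ 2 / Q := by positivity
          linarith
      rw [← h]; nlinarith
    · have := key (z - 2)
      have e : (z - 2) ^ 2 * Q - 4 * (z - 2) * P + 2 * z * P - 4 * P
          = (z - 2) * ((z - 2) * Q - 2 * P) := by ring
      rw [e] at this
      have h2 : 0 < z - 2 := by linarith
      have := nonneg_of_mul_nonneg_right this h2
      linarith
  nlinarith


/-! ## membership in a transposed set -/

theorem mem_jtau_left (y w : α) (S : Finset α) : y ∈ jtau (y, w) S ↔ w ∈ S := by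
  rw [mem_jtau]; simp

theorem mem_jtau_right (y w : α) (S : Finset α) : w ∈ jtau (y, w) S ↔ y ∈ S := by
  rw [mem_jtau]; simp

theorem mem_jtau_of_ne (y w a : α) (S : Finset α) (h1 : a ≠ y) (h2 : a ≠ w) :
    a ∈ jtau (y, w) S ↔ a ∈ S := by
  rw [mem_jtau]; simp only; rw [Equiv.swap_apply_of_ne_of_ne h1 h2]

theorem jchi_jtau_right (x y w : α) (S : Finset α) (h1 : x ≠ y) (h2 : x ≠ w) :
    jchi (x, w) (jtau (y, w) S) ↔ jchi (x, y) S := by
  unfold jchi
  simp only
  rw [mem_jtau_of_ne y w x S h1 h2, mem_jtau_right]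

theorem jchi_jtau_left (x y w : α) (S : Finset α) (h1 : x ≠ y) (h2 : x ≠ w) :
    jchi (x, y) (jtau (y, w) S) ↔ jchi (x, w) S := by
  unfold jchi
  simp only
  rw [mem_jtau_of_ne y w x S h1 h2, mem_jtau_left]

theorem jchi_symm (x y : α) (S : Finset α) : jchi (x, y) S ↔ jchi (y, x) S := by
  unfold jchi; simp only; tauto

theorem not_jchi_diag (x : α) (S : Finset α) : ¬ jchi (x, x) S := by
  unfold jchi; simp

theorem jtau_diag (x : α) (S : Finset α) : jtau (x, x) S = S :=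
  jtau_of_not_jchi _ _ (not_jchi_diag x S)

/-! ## the sets `c_e` -/

/-- transport of sums from `c_{xw}` to `c_{xy}` by `τ_{yw}`. -/
theorem sum_jc_transport (Z : Finset α) (t : ℕ) (g : Finset α → ℝ) (x y w : α)
    (hy : y ∈ Z) (hw : w ∈ Z) (h1 : x ≠ y) (h2 : x ≠ w) :
    ∑ S ∈ (Z.powersetCard t).filter (jchi (x, w)), g S
      = ∑ S ∈ (Z.powersetCard t).filter (jchi (x, y)), g (jtau (y, w) S) := by
  symm
  apply Finset.sum_nbij' (jtau (y, w)) (jtau (y, w))
  · intro S hS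
    rw [Finset.mem_filter] at hS ⊢
    exact ⟨jtau_mem_powersetCard Z t (y, w) hy hw S hS.1, (jchi_jtau_right x y w S h1 h2).2 hS.2⟩
  · intro S hS
    rw [Finset.mem_filter] at hS ⊢
    exact ⟨jtau_mem_powersetCard Z t (y, w) hy hw S hS.1, (jchi_jtau_left x y w S h1 h2).2 hS.2⟩
  · intro S _; exact jtau_jtau _ _
  · intro S _; exact jtau_jtau _ _
  · intro S _; rfl

theorem card_jc_transport (Z : Finset α) (t : ℕ) (x y w : α)
    (hy : y ∈ Z) (hw : w ∈ Z) (h1 : x ≠ y) (h2 : x ≠ w) :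
    ((Z.powersetCard t).filter (jchi (x, w))).card = ((Z.powersetCard t).filter (jchi (x, y))).card := by
  have := sum_jc_transport Z t (fun _ => (1 : ℝ)) x y w hy hw h1 h2
  simp only [Finset.sum_const, nsmul_eq_mul, mul_one] at this
  exact_mod_cast this

theorem jc_symm (Z : Finset α) (t : ℕ) (x y : α) :
    (Z.powersetCard t).filter (jchi (x, y)) = (Z.powersetCard t).filter (jchi (y, x)) :=
  Finset.filter_congr fun S _ => jchi_symm x y S

/-- all the sets `c_e` have the same cardinality. -/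
theorem card_jc_eq (Z : Finset α) (t : ℕ) (e e' : α × α) (he : e ∈ Z.offDiag) (he' : e' ∈ Z.offDiag) :
    ((Z.powersetCard t).filter (jchi e)).card = ((Z.powersetCard t).filter (jchi e')).card := by
  obtain ⟨x, y⟩ := e
  obtain ⟨x', y'⟩ := e'
  rw [Finset.mem_offDiag] at he he'
  simp only at he he'
  obtain ⟨hx, hy, hxy⟩ := he
  obtain ⟨hx', hy', hxy'⟩ := he'
  by_cases h : y' = x
  · subst h
    rw [card_jc_transport Z t y' x' y hx' hy hxy'.symm hxy, jc_symm Z t x' y']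
  · rw [← card_jc_transport Z t x y y' hy hy' hxy (Ne.symm h), jc_symm Z t x y',
      card_jc_transport Z t y' x' x hx' hx hxy'.symm h, jc_symm Z t x' y']

/-- half of `c_{xy}` is active for `(y,w)`. -/
theorem two_mul_card_jc_filter (Z : Finset α) (t : ℕ) (x y w : α) (hx : x ∈ Z) (hy : y ∈ Z)
    (h1 : x ≠ y) (h2 : x ≠ w) (h3 : y ≠ w) :
    2 * (((Z.powersetCard t).filter (jchi (x, y))).filter (jchi (y, w))).card
      = ((Z.powersetCard t).filter (jchi (x, y))).card := by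
  rw [← Finset.card_filter_add_card_filter_not (s := (Z.powersetCard t).filter (jchi (x, y)))
    (jchi (y, w)), two_mul]
  congr 1
  apply Finset.card_nbij' (jtau (x, y)) (jtau (x, y))
  · intro S hS
    simp only [Finset.coe_filter, Finset.mem_filter] at hS ⊢
    obtain ⟨⟨hS1, hS2⟩, hS3⟩ := hS
    refine ⟨⟨jtau_mem_powersetCard Z t (x, y) hx hy S hS1, ?_⟩, ?_⟩
    · unfold jchi at *
      simp only at *
      rw [mem_jtau_left, mem_jtau_right]; tauto
    · unfold jchi at *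
      simp only at *
      rw [mem_jtau_right, mem_jtau_of_ne x y w S (Ne.symm h2) (Ne.symm h3)]; tauto
  · intro S hS
    simp only [Finset.coe_filter, Finset.mem_filter] at hS ⊢
    obtain ⟨⟨hS1, hS2⟩, hS3⟩ := hS
    refine ⟨⟨jtau_mem_powersetCard Z t (x, y) hx hy S hS1, ?_⟩, ?_⟩
    · unfold jchi at *
      simp only at *
      rw [mem_jtau_left, mem_jtau_right]; tauto
    · unfold jchi at *
      simp only at *
      rw [mem_jtau_right, mem_jtau_of_ne x y w S (Ne.symm h2) (Ne.symm h3)]; tauto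
  · intro S _; exact jtau_jtau _ _
  · intro S _; exact jtau_jtau _ _


/-- difference of the sums over two neighbouring sets `c_{xy}`, `c_{xw}`. -/
theorem jc_diff_sq_le (Z : Finset α) (t : ℕ) (g : Finset α → ℝ) (x y w : α) (hx : x ∈ Z)
    (hy : y ∈ Z) (hw : w ∈ Z) (h1 : x ≠ y) (h2 : x ≠ w) :
    2 * (∑ S ∈ (Z.powersetCard t).filter (jchi (x, y)), g S
        - ∑ S ∈ (Z.powersetCard t).filter (jchi (x, w)), g S) ^ 2 ≤
      (((Z.powersetCard t).filter (jchi (x, y))).card : ℝ) *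
        ∑ S ∈ Z.powersetCard t, if (x ∈ S ↔ w ∈ S) then (g S - g (jtau (y, w) S)) ^ 2 else 0 := by
  have hnn : 0 ≤ ∑ S ∈ Z.powersetCard t,
      if (x ∈ S ↔ w ∈ S) then (g S - g (jtau (y, w) S)) ^ 2 else 0 := by
    apply Finset.sum_nonneg; intro S _; split_ifs
    · exact sq_nonneg _
    · exact le_refl _
  by_cases h3 : y = w
  · subst h3
    rw [sub_self]
    have : (0 : ℝ) ≤ (((Z.powersetCard t).filter (jchi (x, y))).card : ℝ) := Nat.cast_nonneg _
    nlinarith [mul_nonneg this hnn]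
  set A := (Z.powersetCard t).filter (jchi (x, y)) with hA
  set B := A.filter (jchi (y, w)) with hB
  rw [sum_jc_transport Z t g x y w hy hw h1 h2, ← Finset.sum_sub_distrib]
  have e1 : ∑ S ∈ A, (g S - g (jtau (y, w) S)) = ∑ S ∈ B, (g S - g (jtau (y, w) S)) := by
    symm
    apply Finset.sum_filter_of_ne
    intro S _ hne
    by_contra hc
    rw [jtau_of_not_jchi _ _ hc, sub_self] at hne
    exact hne rfl
  rw [e1]
  have e2 : (∑ S ∈ B, (g S - g (jtau (y, w) S))) ^ 2
      ≤ (B.card : ℝ) * ∑ S ∈ B, (g S - g (jtau (y, w) S)) ^ 2 := sq_sum_le_card_mul_sum_sq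
  have e3 : ∑ S ∈ B, (g S - g (jtau (y, w) S)) ^ 2 ≤ ∑ S ∈ Z.powersetCard t,
      if (x ∈ S ↔ w ∈ S) then (g S - g (jtau (y, w) S)) ^ 2 else 0 := by
    rw [← Finset.sum_filter]
    apply Finset.sum_le_sum_of_subset_of_nonneg
    · intro S hS
      rw [hB, hA, Finset.mem_filter, Finset.mem_filter] at hS
      rw [Finset.mem_filter]
      refine ⟨hS.1.1, ?_⟩
      have a1 := hS.1.2
      have a2 := hS.2
      unfold jchi at a1 a2
      simp only at a1 a2
      tauto
    · intro S _ _; exact sq_nonneg _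
  have e4 : 2 * (B.card : ℝ) = (A.card : ℝ) := by
    have := two_mul_card_jc_filter Z t x y w hx hy h1 h2 h3
    rw [← hA, ← hB] at this
    exact_mod_cast this
  have hB0 : (0 : ℝ) ≤ (B.card : ℝ) := Nat.cast_nonneg _
  calc 2 * (∑ S ∈ B, (g S - g (jtau (y, w) S))) ^ 2
      ≤ 2 * ((B.card : ℝ) * ∑ S ∈ B, (g S - g (jtau (y, w) S)) ^ 2) := by linarith
    _ = (A.card : ℝ) * ∑ S ∈ B, (g S - g (jtau (y, w) S)) ^ 2 := by rw [← e4]; ring
    _ ≤ _ := mul_le_mul_of_nonneg_left e3 (Nat.cast_nonneg _)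

/-- the number of active ordered pairs is the same for all `S ∈ J(Z,t)`. -/
theorem sum_sum_jchi (Z : Finset α) (t : ℕ) (S : Finset α) (hS : S ∈ Z.powersetCard t) :
    ∑ x ∈ Z, ∑ y ∈ Z, (if jchi (x, y) S then (1 : ℝ) else 0) = 2 * (t * ((Z.card : ℝ) - t)) := by
  rw [Finset.mem_powersetCard] at hS
  obtain ⟨hsub, hcard⟩ := hS
  have hin : (Z.filter (fun y => y ∈ S)).card = t := by
    rw [← hcard]; congr 1; ext a; simp only [Finset.mem_filter]
    exact ⟨fun h => h.2, fun h => ⟨hsub h, h⟩⟩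
  have hout : ((Z.filter (fun y => y ∉ S)).card : ℝ) = (Z.card : ℝ) - t := by
    have := Finset.card_filter_add_card_filter_not (s := Z) (fun y => y ∈ S)
    rw [hin] at this
    rw [← this]; push_cast; ring
  have h1 : ∀ x ∈ Z, ∑ y ∈ Z, (if jchi (x, y) S then (1 : ℝ) else 0)
      = if x ∈ S then (Z.card : ℝ) - t else t := by
    intro x _
    rw [← Finset.sum_filter, Finset.sum_const, nsmul_eq_mul, mul_one]
    split_ifs with hx
    · rw [← hout]; congr 2; ext y; simp only [Finset.mem_filter, jchi]; tauto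
    · rw [← hin]; congr 2; ext y; simp only [Finset.mem_filter, jchi]; tauto
  rw [Finset.sum_congr rfl h1, Finset.sum_ite, Finset.sum_const, Finset.sum_const, hin,
    nsmul_eq_mul, nsmul_eq_mul, hout]
  ring

/-- **(J2)** on the Johnson model. -/
theorem johnson_J2 (Z : Finset α) (t : ℕ) (g : Finset α → ℝ)
    (hg : ∑ S ∈ Z.powersetCard t, g S = 0) :
    ∑ e ∈ Z.offDiag, (∑ S ∈ (Z.powersetCard t).filter (jchi e), g S) ^ 2 /
        (((Z.powersetCard t).filter (jchi e)).card : ℝ) ≤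
      (1 / 4) * ∑ e ∈ Z.offDiag, ∑ S ∈ Z.powersetCard t, (g S - g (jtau e S)) ^ 2 := by
  have hRnn : 0 ≤ ∑ e ∈ Z.offDiag, ∑ S ∈ Z.powersetCard t, (g S - g (jtau e S)) ^ 2 :=
    Finset.sum_nonneg fun e _ => Finset.sum_nonneg fun S _ => sq_nonneg _
  rcases Finset.eq_empty_or_nonempty Z.offDiag with hemp | ⟨e0, he0⟩
  · rw [hemp]; simp
  set w0 : ℝ := (((Z.powersetCard t).filter (jchi e0)).card : ℝ) with hw0
  have hw0nn : 0 ≤ w0 := Nat.cast_nonneg _
  have hcard : ∀ e ∈ Z.offDiag, (((Z.powersetCard t).filter (jchi e)).card : ℝ) = w0 := by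
    intro e he; rw [hw0, card_jc_eq Z t e e0 he he0]
  have hZ2 : 2 ≤ Z.card := by
    rw [Finset.mem_offDiag] at he0
    exact Finset.one_lt_card.2 ⟨_, he0.1, _, he0.2.1, he0.2.2⟩
  set z : ℝ := (Z.card : ℝ) with hz
  have hzpos : 0 < z := by rw [hz]; exact_mod_cast (by omega : 0 < Z.card)
  set a : α → α → ℝ := fun x y => ∑ S ∈ (Z.powersetCard t).filter (jchi (x, y)), g S with ha
  set H : ℝ := ∑ y ∈ Z, ∑ w ∈ Z, ∑ S ∈ Z.powersetCard t, (g S - g (jtau (y, w) S)) ^ 2 with hH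
  have hsymm : ∀ x y, a x y = a y x := by intro x y; simp only [ha]; rw [jc_symm]
  have hdiag : ∀ x, a x x = 0 := by
    intro x; simp only [ha]
    apply Finset.sum_eq_zero
    intro S hS
    exact absurd (Finset.mem_filter.1 hS).2 (not_jchi_diag x S)
  -- (a)
  have hsum : ∑ x ∈ Z, ∑ y ∈ Z, a x y = 0 := by
    simp only [ha, Finset.sum_filter]
    have : ∀ x ∈ Z, ∑ y ∈ Z, ∑ S ∈ Z.powersetCard t, (if jchi (x, y) S then g S else 0)
        = ∑ S ∈ Z.powersetCard t, ∑ y ∈ Z, (if jchi (x, y) S then g S else 0) :=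
      fun x _ => Finset.sum_comm
    rw [Finset.sum_congr rfl this, Finset.sum_comm]
    have h2 : ∀ S ∈ Z.powersetCard t, ∑ x ∈ Z, ∑ y ∈ Z, (if jchi (x, y) S then g S else 0)
        = g S * (2 * (t * ((Z.card : ℝ) - t))) := by
      intro S hS
      rw [← sum_sum_jchi Z t S hS, Finset.mul_sum]
      apply Finset.sum_congr rfl; intro x _
      rw [Finset.mul_sum]
      apply Finset.sum_congr rfl; intro y _
      split_ifs <;> simp
    rw [Finset.sum_congr rfl h2, ← Finset.sum_mul, hg, zero_mul]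
  -- (b)
  have hb := pairs_poincare Z hZ2 a hsymm hdiag hsum
  -- (c)
  have hc : 2 * ∑ x ∈ Z, ∑ y ∈ Z.erase x, ∑ w ∈ Z.erase x, (a x y - a x w) ^ 2 ≤
      w0 * ∑ x ∈ Z, ∑ y ∈ Z, ∑ w ∈ Z, ∑ S ∈ Z.powersetCard t,
        if (x ∈ S ↔ w ∈ S) then (g S - g (jtau (y, w) S)) ^ 2 else 0 := by
    have hnn : ∀ x y w : α, 0 ≤ ∑ S ∈ Z.powersetCard t,
        if (x ∈ S ↔ w ∈ S) then (g S - g (jtau (y, w) S)) ^ 2 else 0 := by
      intro x y w
      apply Finset.sum_nonneg; intro S _; split_ifs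
      · exact sq_nonneg _
      · exact le_refl _
    rw [Finset.mul_sum, Finset.mul_sum]
    apply Finset.sum_le_sum; intro x hx
    calc 2 * ∑ y ∈ Z.erase x, ∑ w ∈ Z.erase x, (a x y - a x w) ^ 2
        ≤ w0 * ∑ y ∈ Z.erase x, ∑ w ∈ Z.erase x, ∑ S ∈ Z.powersetCard t,
            if (x ∈ S ↔ w ∈ S) then (g S - g (jtau (y, w) S)) ^ 2 else 0 := by
          rw [Finset.mul_sum, Finset.mul_sum]
          apply Finset.sum_le_sum; intro y hy
          rw [Finset.mul_sum, Finset.mul_sum]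
          apply Finset.sum_le_sum; intro w hw
          rw [Finset.mem_erase] at hy hw
          have := jc_diff_sq_le Z t g x y w hx hy.2 hw.2 (Ne.symm hy.1) (Ne.symm hw.1)
          rw [hcard (x, y) (Finset.mem_offDiag.2 ⟨hx, hy.2, Ne.symm hy.1⟩)] at this
          exact this
      _ ≤ _ := by
          apply mul_le_mul_of_nonneg_left _ hw0nn
          calc ∑ y ∈ Z.erase x, ∑ w ∈ Z.erase x, ∑ S ∈ Z.powersetCard t,
                (if (x ∈ S ↔ w ∈ S) then (g S - g (jtau (y, w) S)) ^ 2 else 0)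
              ≤ ∑ y ∈ Z.erase x, ∑ w ∈ Z, ∑ S ∈ Z.powersetCard t,
                (if (x ∈ S ↔ w ∈ S) then (g S - g (jtau (y, w) S)) ^ 2 else 0) := by
                apply Finset.sum_le_sum; intro y _
                exact Finset.sum_le_sum_of_subset_of_nonneg (Finset.erase_subset _ _)
                  (fun w _ _ => hnn x y w)
            _ ≤ _ := Finset.sum_le_sum_of_subset_of_nonneg (Finset.erase_subset _ _)
                  (fun y _ _ => Finset.sum_nonneg fun w _ => hnn x y w)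
  -- (d)
  have hd : 2 * ∑ x ∈ Z, ∑ y ∈ Z, ∑ w ∈ Z, ∑ S ∈ Z.powersetCard t,
        (if (x ∈ S ↔ w ∈ S) then (g S - g (jtau (y, w) S)) ^ 2 else 0) = z * H := by
    have hswap : ∀ x ∈ Z, ∑ y ∈ Z, ∑ w ∈ Z, ∑ S ∈ Z.powersetCard t,
        (if (x ∈ S ↔ w ∈ S) then (g S - g (jtau (y, w) S)) ^ 2 else 0)
        = ∑ y ∈ Z, ∑ w ∈ Z, ∑ S ∈ Z.powersetCard t,
        (if (x ∈ S ↔ y ∈ S) then (g S - g (jtau (y, w) S)) ^ 2 else 0) := by
      intro x _
      rw [Finset.sum_comm]
      apply Finset.sum_congr rfl; intro y _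
      apply Finset.sum_congr rfl; intro w _
      apply Finset.sum_congr rfl; intro S _
      rw [jtau_comm]
    have hx : ∀ x ∈ Z, 2 * ∑ y ∈ Z, ∑ w ∈ Z, ∑ S ∈ Z.powersetCard t,
        (if (x ∈ S ↔ w ∈ S) then (g S - g (jtau (y, w) S)) ^ 2 else 0) = H := by
      intro x hx
      rw [two_mul]
      nth_rewrite 2 [hswap x hx]
      rw [hH, ← Finset.sum_add_distrib]
      apply Finset.sum_congr rfl; intro y _
      rw [← Finset.sum_add_distrib]
      apply Finset.sum_congr rfl; intro w _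
      rw [← Finset.sum_add_distrib]
      apply Finset.sum_congr rfl; intro S _
      by_cases hch : jchi (y, w) S
      · unfold jchi at hch
        simp only at hch
        by_cases h1 : (x ∈ S ↔ w ∈ S)
        · have h2 : ¬ (x ∈ S ↔ y ∈ S) := by tauto
          rw [if_pos h1, if_neg h2, add_zero]
        · have h2 : (x ∈ S ↔ y ∈ S) := by tauto
          rw [if_neg h1, if_pos h2, zero_add]
      · rw [jtau_of_not_jchi _ _ hch]; simp
    rw [Finset.mul_sum, Finset.sum_congr rfl hx, Finset.sum_const, nsmul_eq_mul]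
  -- assembling
  set Q : ℝ := ∑ x ∈ Z, ∑ y ∈ Z, a x y ^ 2 with hQ
  have hQle : 4 * Q ≤ w0 * H := by
    have h1 : 4 * (z * Q) ≤ z * (w0 * H) := by
      have : 2 * (2 * ∑ x ∈ Z, ∑ y ∈ Z.erase x, ∑ w ∈ Z.erase x, (a x y - a x w) ^ 2)
          ≤ w0 * (z * H) := by
        rw [← hd]; linarith
      nlinarith
    have h2 : z * (4 * Q) ≤ z * (w0 * H) := by linarith
    exact le_of_mul_le_mul_left h2 hzpos
  have hL : ∑ e ∈ Z.offDiag, (∑ S ∈ (Z.powersetCard t).filter (jchi e), g S) ^ 2 /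
        (((Z.powersetCard t).filter (jchi e)).card : ℝ) = Q / w0 := by
    have h1 : ∀ e ∈ Z.offDiag, (∑ S ∈ (Z.powersetCard t).filter (jchi e), g S) ^ 2 /
        (((Z.powersetCard t).filter (jchi e)).card : ℝ) = (a e.1 e.2) ^ 2 / w0 := by
      intro e he; rw [hcard e he]
    rw [Finset.sum_congr rfl h1, ← Finset.sum_div,
      sum_offDiag_of_diag_zero Z (fun e => a e.1 e.2 ^ 2) (by intro x; simp [hdiag])]
  have hR : ∑ e ∈ Z.offDiag, ∑ S ∈ Z.powersetCard t, (g S - g (jtau e S)) ^ 2 = H := by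
    rw [sum_offDiag_of_diag_zero Z (fun e => ∑ S ∈ Z.powersetCard t, (g S - g (jtau e S)) ^ 2)
      (by intro x; simp [jtau_diag])]
  rw [hL, hR]
  rcases eq_or_lt_of_le hw0nn with h0 | h0
  · rw [← h0, div_zero]; rw [hR] at hRnn; linarith
  · rw [div_le_iff₀ h0]; linarith

end Crest.Agent.R299
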