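import Crest.Agent.R299.Defs

/-!
# R299 / T1: abstract mixing bound from a Poincaré inequality, abstract Dirichlet identity
-/

set_option autoImplicit false
open Finset
open Crest.SwitchChain

namespace Crest.Agent.R299

section T1
variable {α : Type*} [Fintype α] [DecidableEq α]

/-- abstract Dirichlet identity -/
theorem dirichlet_abstract (Ω : Finset α) (K : Matrix α α ℝ)
    (hsymm : ∀ a b, K a b = K b a)
    (hrow : ∀ a ∈ Ω, ∑ b ∈ Ω, K a b = 1) (f : α → ℝ) :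
    ∑ a ∈ Ω, f a * (f a - ∑ b ∈ Ω, K a b * f b) =
      (1 / 2) * ∑ a ∈ Ω, ∑ b ∈ Ω, K a b * (f a - f b) ^ 2 := by
  have h1 : ∑ a ∈ Ω, ∑ b ∈ Ω, K a b * (f a - f b) ^ 2 =
      ∑ a ∈ Ω, ∑ b ∈ Ω, K a b * f a ^ 2 + ∑ a ∈ Ω, ∑ b ∈ Ω, K a b * f b ^ 2
        - 2 * ∑ a ∈ Ω, ∑ b ∈ Ω, K a b * (f a * f b) := by
    rw [Finset.mul_sum, ← Finset.sum_add_distrib, ← Finset.sum_sub_distrib]
    refine Finset.sum_congr rfl fun a _ => ?_
    rw [Finset.mul_sum, ← Finset.sum_add_distrib, ← Finset.sum_sub_distrib]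
    refine Finset.sum_congr rfl fun b _ => ?_
    ring
  have h2 : ∑ a ∈ Ω, ∑ b ∈ Ω, K a b * f a ^ 2 = ∑ a ∈ Ω, f a ^ 2 := by
    refine Finset.sum_congr rfl fun a ha => ?_
    rw [← Finset.sum_mul, hrow a ha, one_mul]
  have h3 : ∑ a ∈ Ω, ∑ b ∈ Ω, K a b * f b ^ 2 = ∑ a ∈ Ω, f a ^ 2 := by
    rw [Finset.sum_comm]
    refine Finset.sum_congr rfl fun b hb => ?_
    rw [← Finset.sum_mul]
    have : ∑ a ∈ Ω, K a b = 1 := by
      rw [← hrow b hb]; exact Finset.sum_congr rfl fun a _ => hsymm a b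
    rw [this, one_mul]
  have h4 : ∑ a ∈ Ω, f a * (f a - ∑ b ∈ Ω, K a b * f b) =
      ∑ a ∈ Ω, f a ^ 2 - ∑ a ∈ Ω, ∑ b ∈ Ω, K a b * (f a * f b) := by
    rw [← Finset.sum_sub_distrib]
    refine Finset.sum_congr rfl fun a _ => ?_
    rw [mul_sub, Finset.mul_sum]
    congr 1
    · ring
    · exact Finset.sum_congr rfl fun b _ => by ring
  rw [h4, h1, h2, h3]; ring

/-- Jensen for a stochastic symmetric matrix: `‖K₁ g‖² ≤ ‖g‖²`. -/
theorem sum_sq_mulVec_le (K₁ : Matrix α α ℝ)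
    (hsymm : ∀ a b, K₁ a b = K₁ b a)
    (hnn : ∀ a b, 0 ≤ K₁ a b)
    (hrow : ∀ a, ∑ b, K₁ a b = 1) (g : α → ℝ) :
    ∑ a, (∑ b, K₁ a b * g b) ^ 2 ≤ ∑ a, g a ^ 2 := by
  have h1 : ∀ a, (∑ b, K₁ a b * g b) ^ 2 ≤ ∑ b, K₁ a b * g b ^ 2 := by
    intro a
    have := Finset.sum_mul_sq_le_sq_mul_sq (univ : Finset α)
      (fun b => Real.sqrt (K₁ a b)) (fun b => Real.sqrt (K₁ a b) * g b)
    have e1 : ∀ b, Real.sqrt (K₁ a b) * (Real.sqrt (K₁ a b) * g b) = K₁ a b * g b := by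
      intro b; rw [← mul_assoc, Real.mul_self_sqrt (hnn a b)]
    have e2 : ∀ b, Real.sqrt (K₁ a b) ^ 2 = K₁ a b := fun b => Real.sq_sqrt (hnn a b)
    have e3 : ∀ b, (Real.sqrt (K₁ a b) * g b) ^ 2 = K₁ a b * g b ^ 2 := by
      intro b; rw [mul_pow, e2]
    simp only [e1, e2, e3, hrow, one_mul] at this
    exact this
  calc ∑ a, (∑ b, K₁ a b * g b) ^ 2 ≤ ∑ a, ∑ b, K₁ a b * g b ^ 2 :=
        Finset.sum_le_sum fun a _ => h1 a
    _ = ∑ b, ∑ a, K₁ a b * g b ^ 2 := Finset.sum_comm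
    _ = ∑ b, g b ^ 2 := by
        refine Finset.sum_congr rfl fun b _ => ?_
        rw [← Finset.sum_mul]
        have : ∑ a, K₁ a b = 1 := by
          rw [← hrow b]; exact Finset.sum_congr rfl fun a _ => hsymm a b
        rw [this, one_mul]

theorem tv_of_poincare (Ω : Finset α) (hΩ : Ω.Nonempty) (K K₁ : Matrix α α ℝ)
    (hlazy : ∀ a b, K a b = (if a = b then 1 / 2 else 0) + K₁ a b / 2)
    (hsymm : ∀ a b, K₁ a b = K₁ b a)
    (hnn : ∀ a b, 0 ≤ K₁ a b)
    (hrow : ∀ a, ∑ b, K₁ a b = 1)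
    (hclosed : ∀ a ∈ Ω, ∀ b, b ∉ Ω → K₁ a b = 0)
    (C : ℝ) (hC : 1 ≤ C)
    (hP : ∀ f : α → ℝ, VrOn Ω f ≤
        C * Ω.card * ∑ a ∈ Ω, f a * (f a - ∑ b ∈ Ω, K a b * f b))
    (t : ℕ) (ht : (Ω.card : ℝ) * (1 - 1 / C) ^ t ≤ 1 / 4) :
    ∀ a ∈ Ω, tvDist (fun b => (K ^ t) a b) (unifOn Ω) ≤ 1 / 4 := by
  intro a ha
  have hN : (0 : ℝ) < Ω.card := by exact_mod_cast hΩ.card_pos
  have hC0 : (0 : ℝ) < C := by linarith
  -- the action of `K` on row vectors
  have hopK1 : ∀ (g : α → ℝ) (b : α),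
      ∑ c, g c * K c b = g b / 2 + (∑ c, K₁ b c * g c) / 2 := by
    intro g b
    have h : ∀ c, g c * K c b = (if c = b then g c / 2 else 0) + (K₁ b c * g c) / 2 := by
      intro c; rw [hlazy, hsymm c b]; split_ifs <;> ring
    rw [Finset.sum_congr rfl (fun c _ => h c), Finset.sum_add_distrib, ← Finset.sum_div]
    simp
  -- one step
  have hstep : ∀ g : α → ℝ, (∀ b, b ∉ Ω → g b = 0) → ∑ b, g b = 0 →
      (∀ b, b ∉ Ω → ∑ c, g c * K c b = 0) ∧ ∑ b, ∑ c, g c * K c b = 0 ∧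
        ∑ b, (∑ c, g c * K c b) ^ 2 ≤ (1 - 1 / C) * ∑ b, g b ^ 2 := by
    intro g hg0 hgs
    have hK1g : ∀ b, b ∉ Ω → ∑ c, K₁ b c * g c = 0 := by
      intro b hb
      refine Finset.sum_eq_zero fun c _ => ?_
      by_cases hc : c ∈ Ω
      · rw [hsymm b c, hclosed c hc b hb, zero_mul]
      · rw [hg0 c hc, mul_zero]
    refine ⟨?_, ?_, ?_⟩
    · intro b hb
      rw [hopK1, hg0 b hb, hK1g b hb]; simp
    · rw [Finset.sum_comm]
      have : ∀ c, ∑ b, g c * K c b = g c := by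
        intro c
        rw [← Finset.mul_sum]
        have : ∑ b, K c b = 1 := by
          simp only [hlazy, Finset.sum_add_distrib, ← Finset.sum_div, hrow]
          simp; norm_num
        rw [this, mul_one]
      rw [Finset.sum_congr rfl (fun c _ => this c), hgs]
    · -- notation
      set S : ℝ := ∑ b, g b ^ 2 with hS
      set X : ℝ := ∑ b, g b * ∑ c, K₁ b c * g c with hX
      set Y : ℝ := ∑ b, (∑ c, K₁ b c * g c) ^ 2 with hY
      have hYS : Y ≤ S := sum_sq_mulVec_le K₁ hsymm hnn hrow g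
      have hnorm : ∑ b, (∑ c, g c * K c b) ^ 2 = (S + 2 * X + Y) / 4 := by
        rw [hS, hX, hY, Finset.mul_sum, ← Finset.sum_add_distrib, ← Finset.sum_add_distrib,
          Finset.sum_div]
        refine Finset.sum_congr rfl fun b _ => ?_
        rw [hopK1]; ring
      -- Poincaré
      have hp := hP g
      have hsumΩ : ∀ F : α → ℝ, (∀ b, b ∉ Ω → F b = 0) → ∑ b ∈ Ω, F b = ∑ b, F b := by
        intro F hF
        exact Finset.sum_subset (Finset.subset_univ _) (fun b _ hb => hF b hb)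
      have hv : VrOn Ω g = Ω.card * S := by
        unfold VrOn
        rw [hsumΩ (fun b => g b ^ 2) (fun b hb => by simp [hg0 b hb]), hsumΩ g hg0, hgs]
        simp [hS]
      have hE : ∑ a ∈ Ω, g a * (g a - ∑ b ∈ Ω, K a b * g b) = (S - X) / 2 := by
        have h1 : ∀ a, ∑ b ∈ Ω, K a b * g b = g a / 2 + (∑ c, K₁ a c * g c) / 2 := by
          intro a
          rw [hsumΩ (fun b => K a b * g b) (fun b hb => by simp [hg0 b hb]), ← hopK1]
          refine Finset.sum_congr rfl fun c _ => ?_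
          have : K a c = K c a := by
            rw [hlazy, hlazy, hsymm a c]
            by_cases h : a = c
            · subst h; rfl
            · rw [if_neg h, if_neg (Ne.symm h)]
          rw [this]; ring
        rw [hsumΩ (fun a => g a * (g a - ∑ b ∈ Ω, K a b * g b))
          (fun b hb => by simp [hg0 b hb])]
        rw [hS, hX, ← Finset.sum_sub_distrib, Finset.sum_div]
        refine Finset.sum_congr rfl fun b _ => ?_
        rw [h1]; ring
      rw [hv, hE] at hp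
      -- `S ≤ C (S - X)/2`
      have hp' : S ≤ C * ((S - X) / 2) := by
        have : (Ω.card : ℝ) * S ≤ Ω.card * (C * ((S - X) / 2)) := by
          calc (Ω.card : ℝ) * S ≤ C * Ω.card * ((S - X) / 2) := hp
            _ = Ω.card * (C * ((S - X) / 2)) := by ring
        exact le_of_mul_le_mul_left this hN
      have hp'' : S / C ≤ (S - X) / 2 := by
        rw [div_le_iff₀ hC0]; linarith
      rw [hnorm]
      have : (1 - 1 / C) * S = S - S / C := by ring
      rw [this]; linarith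
  -- the error vector
  set u : α → ℝ := unifOn Ω with hu
  have hu_out : ∀ b, b ∉ Ω → u b = 0 := by
    intro b hb; simp [hu, unifOn, hb]
  have hu_in : ∀ b, b ∈ Ω → u b = 1 / (Ω.card : ℝ) := by
    intro b hb; simp [hu, unifOn, hb]
  have hu_sum : ∑ b, u b = 1 := by
    have : ∑ b, u b = ∑ b ∈ Ω, u b :=
      (Finset.sum_subset (Finset.subset_univ _) (fun b _ hb => hu_out b hb)).symm
    rw [this, Finset.sum_congr rfl (fun b hb => hu_in b hb), Finset.sum_const, nsmul_eq_mul]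
    field_simp
  have hK1u : ∀ b, ∑ c, K₁ b c * u c = u b := by
    intro b
    by_cases hb : b ∈ Ω
    · have : ∑ c, K₁ b c * u c = ∑ c, K₁ b c * (1 / (Ω.card : ℝ)) := by
        refine Finset.sum_congr rfl fun c _ => ?_
        by_cases hc : c ∈ Ω
        · rw [hu_in c hc]
        · rw [hclosed b hb c hc]; simp
      rw [this, ← Finset.sum_mul, hrow, one_mul, hu_in b hb]
    · rw [hu_out b hb]
      refine Finset.sum_eq_zero fun c _ => ?_
      by_cases hc : c ∈ Ω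
      · rw [hsymm b c, hclosed c hc b hb, zero_mul]
      · rw [hu_out c hc, mul_zero]
  have huK : ∀ b, ∑ c, u c * K c b = u b := by
    intro b; rw [hopK1, hK1u]; ring
  have hmain : ∀ s : ℕ, (∀ b, b ∉ Ω → (K ^ s) a b - u b = 0) ∧ ∑ b, ((K ^ s) a b - u b) = 0 ∧
      ∑ b, ((K ^ s) a b - u b) ^ 2 ≤ (1 - 1 / C) ^ s := by
    intro s
    induction s with
    | zero =>
      refine ⟨?_, ?_, ?_⟩
      · intro b hb
        have hab : a ≠ b := fun h => hb (h ▸ ha)
        simp [Matrix.one_apply, hab, hu_out b hb]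
      · rw [Finset.sum_sub_distrib, hu_sum]; simp [Matrix.one_apply]
      · have h1 : ∀ b, ((K ^ 0) a b - u b) ^ 2 =
            (if a = b then 1 - 2 * u b else 0) + u b * u b := by
          intro b
          simp only [pow_zero, Matrix.one_apply]
          split_ifs <;> ring
        rw [Finset.sum_congr rfl (fun b _ => h1 b), Finset.sum_add_distrib]
        have h2 : ∑ b, u b * u b = 1 / (Ω.card : ℝ) := by
          have : ∑ b, u b * u b = ∑ b, (1 / (Ω.card : ℝ)) * u b := by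
            refine Finset.sum_congr rfl fun b _ => ?_
            by_cases hb : b ∈ Ω
            · rw [hu_in b hb]
            · rw [hu_out b hb]; simp
          rw [this, ← Finset.mul_sum, hu_sum, mul_one]
        rw [h2]
        simp only [Finset.sum_ite_eq, Finset.mem_univ, if_true, pow_zero]
        rw [hu_in a ha]
        have : 0 < 1 / (Ω.card : ℝ) := by positivity
        linarith
    | succ s ih =>
      obtain ⟨i1, i2, i3⟩ := ih
      have hrec : ∀ b, (K ^ (s + 1)) a b - u b = ∑ c, ((K ^ s) a c - u c) * K c b := by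
        intro b
        rw [pow_succ, Matrix.mul_apply]
        simp only [sub_mul, Finset.sum_sub_distrib, huK]
      obtain ⟨j1, j2, j3⟩ := hstep (fun c => (K ^ s) a c - u c) i1 i2
      refine ⟨fun b hb => by rw [hrec]; exact j1 b hb, ?_, ?_⟩
      · rw [Finset.sum_congr rfl (fun b _ => hrec b)]; exact j2
      · rw [Finset.sum_congr rfl (fun b _ => by rw [hrec b])]
        have hq : 0 ≤ 1 - 1 / C := by
          have : 1 / C ≤ 1 := by rw [div_le_one hC0]; exact hC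
          linarith
        calc _ ≤ (1 - 1 / C) * ∑ b, ((K ^ s) a b - u b) ^ 2 := j3
          _ ≤ (1 - 1 / C) * (1 - 1 / C) ^ s := mul_le_mul_of_nonneg_left i3 hq
          _ = (1 - 1 / C) ^ (s + 1) := by ring
  obtain ⟨m1, _, m3⟩ := hmain t
  unfold tvDist
  have hsum : ∑ b, |(K ^ t) a b - u b| = ∑ b ∈ Ω, |(K ^ t) a b - u b| :=
    (Finset.sum_subset (Finset.subset_univ _) (fun b _ hb => by rw [m1 b hb]; simp)).symm
  have hcs : (∑ b ∈ Ω, |(K ^ t) a b - u b|) ^ 2 ≤ Ω.card * ∑ b ∈ Ω, |(K ^ t) a b - u b| ^ 2 :=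
    sq_sum_le_card_mul_sum_sq
  have hle : ∑ b ∈ Ω, |(K ^ t) a b - u b| ^ 2 ≤ (1 - 1 / C) ^ t := by
    calc ∑ b ∈ Ω, |(K ^ t) a b - u b| ^ 2 = ∑ b ∈ Ω, ((K ^ t) a b - u b) ^ 2 :=
          Finset.sum_congr rfl fun b _ => sq_abs _
      _ ≤ ∑ b, ((K ^ t) a b - u b) ^ 2 :=
          Finset.sum_le_sum_of_subset_of_nonneg (Finset.subset_univ _)
            (fun b _ _ => sq_nonneg _)
      _ ≤ _ := m3
  have hsq : (∑ b ∈ Ω, |(K ^ t) a b - u b|) ^ 2 ≤ (1 / 2) ^ 2 := by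
    calc _ ≤ (Ω.card : ℝ) * ∑ b ∈ Ω, |(K ^ t) a b - u b| ^ 2 := hcs
      _ ≤ Ω.card * (1 - 1 / C) ^ t := mul_le_mul_of_nonneg_left hle hN.le
      _ ≤ 1 / 4 := ht
      _ = (1 / 2) ^ 2 := by norm_num
  have hfin : ∑ b ∈ Ω, |(K ^ t) a b - u b| ≤ 1 / 2 :=
    abs_le_of_sq_le_sq' hsq (by norm_num) |>.2
  rw [hsum]; linarith

end T1

end Crest.Agent.R299
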