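import Crest.Agent.R299.T4Defs

/-!
# R299 (S0453): the block of the four slots between two disjoint pairs

`Mx b b'` = the four slots `b × b'`; `sgS b b' G` flips them when the `2 × 2` block of `G` is
diagonal (`chiS b b' G`).  Main results: `blk_Mx : blk d (Mx b b') G = {G, sgS b b' G}` and
`Q_eq : ‖f - E_{Mx} f‖² = (1/4) ∑_G (f G - f (sgS G))²`.
-/

set_option autoImplicit false
open Finset
open Crest.SwitchChain

namespace Crest.Agent.R299

variable {n : ℕ}

/-- the switch on the four slots `b × b'` (identity unless the `2 × 2` block is diagonal). -/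
def sgS (b b' : Finset (Fin n)) (G : Gr n) : Gr n :=
  if chiS b b' G then symmDiff G (Mx b b') else G

theorem mkE_mem_Mx (b b' : Finset (Fin n)) (a c : Fin n) (h : a ≠ c) :
    mkE a c h ∈ Mx b b' ↔ (a ∈ b ∨ c ∈ b) ∧ (a ∈ b' ∨ c ∈ b') := by
  rw [Mx, Finset.mem_inter, mkE_mem_tch, mkE_mem_tch]

theorem Mx_symm (b b' : Finset (Fin n)) : Mx b b' = Mx b' b := Finset.inter_comm _ _

theorem chiS_symm (b b' : Finset (Fin n)) (G : Gr n) : chiS b b' G ↔ chiS b' b G := by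
  unfold chiS
  rw [Mx_symm, Finset.union_comm]

theorem sgS_comm (b b' : Finset (Fin n)) (G : Gr n) : sgS b b' G = sgS b' b G := by
  unfold sgS
  simp only [chiS_symm b b' G, Mx_symm b b']

theorem mkE_mem_Mx_of_disj {b b' : Finset (Fin n)} (hd : Disjoint b b') (a c : Fin n) (h : a ≠ c) :
    mkE a c h ∈ Mx b b' ↔ (a ∈ b ∧ c ∈ b') ∨ (a ∈ b' ∧ c ∈ b) := by
  rw [mkE_mem_Mx]
  have h1 : ∀ z, z ∈ b → z ∉ b' := fun z hz => Finset.disjoint_left.1 hd hz
  constructor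
  · rintro ⟨h2 | h2, h3 | h3⟩
    · exact absurd h3 (h1 _ h2)
    · exact Or.inl ⟨h2, h3⟩
    · exact Or.inr ⟨h3, h2⟩
    · exact absurd h3 (h1 _ h2)
  · rintro (⟨h2, h3⟩ | ⟨h2, h3⟩)
    · exact ⟨Or.inl h2, Or.inr h3⟩
    · exact ⟨Or.inr h3, Or.inl h2⟩

theorem adj_inter_Mx {b b' : Finset (Fin n)} (hd : Disjoint b b') (G : Gr n) (a c : Fin n) :
    adj (G ∩ Mx b b') a c ↔ adj G a c ∧ ((a ∈ b ∧ c ∈ b') ∨ (a ∈ b' ∧ c ∈ b)) := by
  constructor
  · rintro ⟨h, hm⟩
    rw [Finset.mem_inter, mkE_mem_Mx_of_disj hd] at hm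
    exact ⟨⟨h, hm.1⟩, hm.2⟩
  · rintro ⟨⟨h, hm⟩, h2⟩
    exact ⟨h, Finset.mem_inter.2 ⟨hm, (mkE_mem_Mx_of_disj hd a c h).2 h2⟩⟩

theorem adj_sdiff_Mx {b b' : Finset (Fin n)} (hd : Disjoint b b') (G : Gr n) (a c : Fin n) :
    adj (G \ Mx b b') a c ↔ adj G a c ∧ ¬ ((a ∈ b ∧ c ∈ b') ∨ (a ∈ b' ∧ c ∈ b)) := by
  constructor
  · rintro ⟨h, hm⟩
    rw [Finset.mem_sdiff, mkE_mem_Mx_of_disj hd] at hm
    exact ⟨⟨h, hm.1⟩, hm.2⟩
  · rintro ⟨⟨h, hm⟩, h2⟩
    exact ⟨h, Finset.mem_sdiff.2 ⟨hm, fun h3 => h2 ((mkE_mem_Mx_of_disj hd a c h).1 h3)⟩⟩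

/-- degree in the block, at a vertex of `b`. -/
theorem deg_inter_Mx_left {b b' : Finset (Fin n)} (hd : Disjoint b b') (G : Gr n) {w : Fin n}
    (hw : w ∈ b) : deg (G ∩ Mx b b') w = (b'.filter fun c => adj G w c).card := by
  rw [deg_eq_card_nb]
  congr 1
  ext c
  rw [mem_nb, adj_inter_Mx hd, Finset.mem_filter]
  have hw' : w ∉ b' := Finset.disjoint_left.1 hd hw
  constructor
  · rintro ⟨h1, ⟨_, h2⟩ | ⟨h2, _⟩⟩
    · exact ⟨h2, h1⟩
    · exact absurd h2 hw'
  · rintro ⟨h1, h2⟩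
    exact ⟨h2, Or.inl ⟨hw, h1⟩⟩

theorem deg_inter_Mx_right {b b' : Finset (Fin n)} (hd : Disjoint b b') (G : Gr n) {w : Fin n}
    (hw : w ∈ b') : deg (G ∩ Mx b b') w = (b.filter fun c => adj G w c).card := by
  rw [Mx_symm, deg_inter_Mx_left hd.symm G hw]

theorem card_filter_pair (p : Fin n → Prop) [DecidablePred p] (x y : Fin n) (h : x ≠ y) :
    (({x, y} : Finset (Fin n)).filter p).card = (if p x then 1 else 0) + (if p y then 1 else 0) := by
  rw [Finset.filter_insert, Finset.filter_singleton]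
  by_cases hx : p x <;> by_cases hy : p y <;> simp [hx, hy, h]

theorem disj_pair {u v x y : Fin n} (hux : u ≠ x) (huy : u ≠ y) (hvx : v ≠ x) (hvy : v ≠ y) :
    Disjoint ({u, v} : Finset (Fin n)) {x, y} := by
  rw [Finset.disjoint_left]
  intro a ha hb
  simp only [Finset.mem_insert, Finset.mem_singleton] at ha hb
  rcases ha with rfl | rfl <;> rcases hb with rfl | rfl <;> simp_all

/-- `chiS` in terms of adjacency. -/
theorem chiS_pair {u v x y : Fin n} (huv : u ≠ v) (hxy : x ≠ y) (hux : u ≠ x) (huy : u ≠ y)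
    (hvx : v ≠ x) (hvy : v ≠ y) (G : Gr n) :
    chiS {u, v} {x, y} G ↔ (adj G u x ∧ adj G v y ∧ ¬ adj G u y ∧ ¬ adj G v x) ∨
      (¬ adj G u x ∧ ¬ adj G v y ∧ adj G u y ∧ adj G v x) := by
  have hd := disj_pair hux huy hvx hvy
  have hu := deg_inter_Mx_left hd G (w := u) (by simp)
  have hv := deg_inter_Mx_left hd G (w := v) (by simp)
  have hx := deg_inter_Mx_right hd G (w := x) (by simp)
  have hy := deg_inter_Mx_right hd G (w := y) (by simp)
  rw [card_filter_pair _ _ _ hxy] at hu hv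
  rw [card_filter_pair _ _ _ huv] at hx hy
  simp only [adj_comm G x u, adj_comm G x v] at hx
  simp only [adj_comm G y u, adj_comm G y v] at hy
  unfold chiS
  simp only [Finset.mem_union, Finset.mem_insert, Finset.mem_singleton]
  constructor
  · intro h
    have h1 := h u (by simp)
    have h2 := h v (by simp)
    have h3 := h x (by simp)
    have h4 := h y (by simp)
    rw [hu] at h1; rw [hv] at h2; rw [hx] at h3; rw [hy] at h4
    by_cases a1 : adj G u x <;> by_cases a2 : adj G u y <;> by_cases a3 : adj G v x <;>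
      by_cases a4 : adj G v y <;> simp [a1, a2, a3, a4] at h1 h2 h3 h4 ⊢
  · intro h w hw
    rcases hw with (rfl | rfl) | (rfl | rfl)
    · rw [hu]; rcases h with ⟨a1, a4, a2, a3⟩ | ⟨a1, a4, a2, a3⟩ <;> simp [a1, a2]
    · rw [hv]; rcases h with ⟨a1, a4, a2, a3⟩ | ⟨a1, a4, a2, a3⟩ <;> simp [a3, a4]
    · rw [hx]; rcases h with ⟨a1, a4, a2, a3⟩ | ⟨a1, a4, a2, a3⟩ <;> simp [a1, a3]
    · rw [hy]; rcases h with ⟨a1, a4, a2, a3⟩ | ⟨a1, a4, a2, a3⟩ <;> simp [a2, a4]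

theorem ne_of_block {b b' : Finset (Fin n)} (hd : Disjoint b b') {a c : Fin n}
    (h : (a ∈ b ∧ c ∈ b') ∨ (a ∈ b' ∧ c ∈ b)) : a ≠ c := by
  rintro rfl
  rcases h with ⟨h1, h2⟩ | ⟨h1, h2⟩
  · exact Finset.disjoint_left.1 hd h1 h2
  · exact Finset.disjoint_left.1 hd h2 h1

theorem adj_symmDiff_Mx {b b' : Finset (Fin n)} (hd : Disjoint b b') (G : Gr n) (a c : Fin n) :
    adj (symmDiff G (Mx b b')) a c ↔
      if (a ∈ b ∧ c ∈ b') ∨ (a ∈ b' ∧ c ∈ b) then ¬ adj G a c else adj G a c := by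
  split_ifs with h
  · have hne := ne_of_block hd h
    rw [adj_iff _ _ _ hne, adj_iff _ _ _ hne, Finset.mem_symmDiff]
    have hM := (mkE_mem_Mx_of_disj hd a c hne).2 h
    tauto
  · constructor
    · rintro ⟨hne, hm⟩
      rw [Finset.mem_symmDiff, mkE_mem_Mx_of_disj hd] at hm
      rw [adj_iff _ _ _ hne]
      tauto
    · rintro ⟨hne, hm⟩
      refine ⟨hne, ?_⟩
      rw [Finset.mem_symmDiff, mkE_mem_Mx_of_disj hd]
      tauto

/-- adjacency in the switched graph. -/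
theorem adj_sgS {b b' : Finset (Fin n)} (hd : Disjoint b b') (G : Gr n) (a c : Fin n) :
    adj (sgS b b' G) a c ↔
      if chiS b b' G ∧ ((a ∈ b ∧ c ∈ b') ∨ (a ∈ b' ∧ c ∈ b)) then ¬ adj G a c else adj G a c := by
  unfold sgS
  by_cases hc : chiS b b' G
  · rw [if_pos hc, adj_symmDiff_Mx hd]
    simp only [hc, true_and]
  · rw [if_neg hc]
    simp only [hc, false_and, if_false]

theorem sgS_of_not_chiS {b b' : Finset (Fin n)} {G : Gr n} (h : ¬ chiS b b' G) : sgS b b' G = G :=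
  if_neg h

theorem sgS_of_chiS {b b' : Finset (Fin n)} {G : Gr n} (h : chiS b b' G) :
    sgS b b' G = symmDiff G (Mx b b') := if_pos h

theorem sgS_sdiff_Mx (b b' : Finset (Fin n)) (G : Gr n) : sgS b b' G \ Mx b b' = G \ Mx b b' := by
  unfold sgS
  split_ifs
  · ext e
    simp only [Finset.mem_sdiff, Finset.mem_symmDiff]
    tauto
  · rfl

theorem Mx_pair {u v x y : Fin n} (hux : u ≠ x) (huy : u ≠ y) (hvx : v ≠ x) (hvy : v ≠ y) :
    Mx {u, v} {x, y} = ({mkE u x hux, mkE v y hvy} ∪ {mkE u y huy, mkE v x hvx} : Gr n) := by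
  have hd := disj_pair hux huy hvx hvy
  ext e
  obtain ⟨a, c, h, rfl⟩ := edge_exists e
  rw [mkE_mem_Mx_of_disj hd]
  simp only [Finset.mem_union, Finset.mem_insert, Finset.mem_singleton, mkE_eq_iff]
  constructor
  · rintro (⟨rfl | rfl, rfl | rfl⟩ | ⟨rfl | rfl, rfl | rfl⟩) <;> simp
  · rintro (((⟨rfl, rfl⟩ | ⟨rfl, rfl⟩) | (⟨rfl, rfl⟩ | ⟨rfl, rfl⟩)) |
      ((⟨rfl, rfl⟩ | ⟨rfl, rfl⟩) | (⟨rfl, rfl⟩ | ⟨rfl, rfl⟩))) <;> simp

theorem symmDiff_union_eq (G F F' : Gr n) (h1 : F ⊆ G) (h2 : Disjoint F' G) :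
    symmDiff G (F ∪ F') = G \ F ∪ F' := by
  ext e
  have h3 := @h1 e
  have h4 : e ∈ F' → e ∉ G := fun he => Finset.disjoint_left.1 h2 he
  simp only [Finset.mem_symmDiff, Finset.mem_union, Finset.mem_sdiff]
  tauto

/-- the switch as a `switchResult`. -/
theorem sgS_eq_switchResult {u v x y : Fin n} (huv : u ≠ v) (hxy : x ≠ y) (hux : u ≠ x)
    (huy : u ≠ y) (hvx : v ≠ x) (hvy : v ≠ y) (G : Gr n)
    (a1 : adj G u x) (a4 : adj G v y) (a2 : ¬ adj G u y) (a3 : ¬ adj G v x) :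
    sgS {u, v} {x, y} G =
      switchResult G {mkE u x hux, mkE v y hvy} {mkE u y huy, mkE v x hvx} := by
  have hc : chiS {u, v} {x, y} G :=
    (chiS_pair huv hxy hux huy hvx hvy G).2 (Or.inl ⟨a1, a4, a2, a3⟩)
  rw [adj_iff _ _ _ hux] at a1
  rw [adj_iff _ _ _ hvy] at a4
  rw [adj_iff _ _ _ huy] at a2
  rw [adj_iff _ _ _ hvx] at a3
  have h1 : ({mkE u x hux, mkE v y hvy} : Gr n) ⊆ G := by
    intro e he
    simp only [Finset.mem_insert, Finset.mem_singleton] at he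
    rcases he with rfl | rfl
    · exact a1
    · exact a4
  have h2 : Disjoint ({mkE u y huy, mkE v x hvx} : Gr n) G := by
    rw [Finset.disjoint_left]
    intro e he
    simp only [Finset.mem_insert, Finset.mem_singleton] at he
    rcases he with rfl | rfl
    · exact a2
    · exact a3
  rw [sgS_of_chiS hc, Mx_pair hux huy hvx hvy, symmDiff_union_eq _ _ _ h1 h2, switchResult,
    if_pos ⟨h1, h2⟩]

theorem sgS_mem_pair {d : Fin n → ℕ} {u v x y : Fin n} (huv : u ≠ v) (hxy : x ≠ y) (hux : u ≠ x)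
    (huy : u ≠ y) (hvx : v ≠ x) (hvy : v ≠ y) {G : Gr n} (hG : G ∈ realizations d) :
    sgS {u, v} {x, y} G ∈ realizations d := by
  by_cases hc : chiS {u, v} {x, y} G
  · rcases (chiS_pair huv hxy hux huy hvx hvy G).1 hc with ⟨a1, a4, a2, a3⟩ | ⟨a1, a4, a2, a3⟩
    · rw [sgS_eq_switchResult huv hxy hux huy hvx hvy G a1 a4 a2 a3]
      have e1 := pm_mem u x v y hux huv huy hvx.symm hxy hvy
      have e2 := pm_mem u y v x huy huv hux hvy.symm hxy.symm hvx
      have e3 : ({u, y, v, x} : Finset (Fin n)) = {u, x, v, y} := by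
        ext z; simp only [Finset.mem_insert, Finset.mem_singleton]; tauto
      rw [e3] at e2
      exact switchResult_mem d _ G _ _ e1 e2 hG
    · rw [Finset.pair_comm x y, sgS_eq_switchResult huv hxy.symm huy hux hvy hvx G a2 a3 a1 a4]
      have e1 := pm_mem u x v y hux huv huy hvx.symm hxy hvy
      have e2 := pm_mem u y v x huy huv hux hvy.symm hxy.symm hvx
      have e3 : ({u, y, v, x} : Finset (Fin n)) = {u, x, v, y} := by
        ext z; simp only [Finset.mem_insert, Finset.mem_singleton]; tauto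
      rw [e3] at e2
      exact switchResult_mem d _ G _ _ e2 e1 hG
  · rw [sgS_of_not_chiS hc]; exact hG

/-- unpack two disjoint pairs. -/
theorem exists_pairs {b b' : Finset (Fin n)} (hb : b.card = 2) (hb' : b'.card = 2)
    (hd : Disjoint b b') : ∃ u v x y : Fin n, u ≠ v ∧ x ≠ y ∧ u ≠ x ∧ u ≠ y ∧ v ≠ x ∧ v ≠ y ∧
      b = {u, v} ∧ b' = {x, y} := by
  obtain ⟨u, v, huv, rfl⟩ := Finset.card_eq_two.1 hb
  obtain ⟨x, y, hxy, rfl⟩ := Finset.card_eq_two.1 hb'
  have h : ∀ a, a ∈ ({u, v} : Finset (Fin n)) → a ∉ ({x, y} : Finset (Fin n)) :=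
    fun a ha => Finset.disjoint_left.1 hd ha
  simp only [Finset.mem_insert, Finset.mem_singleton] at h
  refine ⟨u, v, x, y, huv, hxy, ?_, ?_, ?_, ?_, rfl, rfl⟩
  · intro e; exact h u (Or.inl rfl) (Or.inl e)
  · intro e; exact h u (Or.inl rfl) (Or.inr e)
  · intro e; exact h v (Or.inr rfl) (Or.inl e)
  · intro e; exact h v (Or.inr rfl) (Or.inr e)

theorem sgS_mem {d : Fin n → ℕ} {b b' : Finset (Fin n)} (hb : b.card = 2) (hb' : b'.card = 2)
    (hd : Disjoint b b') {G : Gr n} (hG : G ∈ realizations d) : sgS b b' G ∈ realizations d := by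
  obtain ⟨u, v, x, y, huv, hxy, hux, huy, hvx, hvy, rfl, rfl⟩ := exists_pairs hb hb' hd
  exact sgS_mem_pair huv hxy hux huy hvx hvy hG

theorem two_by_two (g1 g2 g3 g4 h1 h2 h3 h4 : Prop) [Decidable g1] [Decidable g2] [Decidable g3]
    [Decidable g4] [Decidable h1] [Decidable h2] [Decidable h3] [Decidable h4]
    (e1 : (if h1 then 1 else 0) + (if h2 then 1 else 0) =
      (if g1 then 1 else 0) + (if g2 then 1 else 0))
    (e2 : (if h3 then 1 else 0) + (if h4 then 1 else 0) =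
      (if g3 then 1 else 0) + (if g4 then 1 else 0))
    (e3 : (if h1 then 1 else 0) + (if h3 then 1 else 0) =
      (if g1 then 1 else 0) + (if g3 then 1 else 0)) :
    ((h1 ↔ g1) ∧ (h2 ↔ g2) ∧ (h3 ↔ g3) ∧ (h4 ↔ g4)) ∨
      (((g1 ∧ g4 ∧ ¬ g2 ∧ ¬ g3) ∨ (¬ g1 ∧ ¬ g4 ∧ g2 ∧ g3)) ∧
        (h1 ↔ ¬ g1) ∧ (h2 ↔ ¬ g2) ∧ (h3 ↔ ¬ g3) ∧ (h4 ↔ ¬ g4)) := by
  by_cases a1 : g1 <;> by_cases a2 : g2 <;> by_cases a3 : g3 <;> by_cases a4 : g4 <;>
    by_cases c1 : h1 <;> by_cases c2 : h2 <;> by_cases c3 : h3 <;> by_cases c4 : h4 <;>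
    simp [a1, a2, a3, a4, c1, c2, c3, c4] at e1 e2 e3 ⊢

/-- two graphs which agree off the block and on the four slots are equal. -/
theorem eq_of_block {u v x y : Fin n} (hux : u ≠ x) (huy : u ≠ y) (hvx : v ≠ x) (hvy : v ≠ y)
    (H K : Gr n) (hoff : H \ Mx {u, v} {x, y} = K \ Mx {u, v} {x, y})
    (h1 : adj H u x ↔ adj K u x) (h2 : adj H u y ↔ adj K u y) (h3 : adj H v x ↔ adj K v x)
    (h4 : adj H v y ↔ adj K v y) : H = K := by
  have hd := disj_pair hux huy hvx hvy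
  apply gr_ext
  intro a c
  by_cases hb : (a ∈ ({u, v} : Finset (Fin n)) ∧ c ∈ ({x, y} : Finset (Fin n))) ∨
      (a ∈ ({x, y} : Finset (Fin n)) ∧ c ∈ ({u, v} : Finset (Fin n)))
  · simp only [Finset.mem_insert, Finset.mem_singleton] at hb
    rcases hb with ⟨rfl | rfl, rfl | rfl⟩ | ⟨rfl | rfl, rfl | rfl⟩
    · exact h1
    · exact h2
    · exact h3
    · exact h4
    · rw [adj_comm H, adj_comm K]; exact h1
    · rw [adj_comm H, adj_comm K]; exact h3
    · rw [adj_comm H, adj_comm K]; exact h2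
    · rw [adj_comm H, adj_comm K]; exact h4
  · have e1 := adj_sdiff_Mx hd H a c
    have e2 := adj_sdiff_Mx hd K a c
    rw [hoff] at e1
    constructor
    · intro h; exact (e2.1 (e1.2 ⟨h, hb⟩)).1
    · intro h; exact (e1.1 (e2.2 ⟨h, hb⟩)).1

theorem adj_sgS_flip {b b' : Finset (Fin n)} (hd : Disjoint b b') {G : Gr n} (hc : chiS b b' G)
    {a c : Fin n} (ha : a ∈ b) (hc' : c ∈ b') : adj (sgS b b' G) a c ↔ ¬ adj G a c := by
  rw [adj_sgS hd, if_pos ⟨hc, Or.inl ⟨ha, hc'⟩⟩]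

theorem chiS_sgS {b b' : Finset (Fin n)} (hb : b.card = 2) (hb' : b'.card = 2)
    (hd : Disjoint b b') (G : Gr n) : chiS b b' (sgS b b' G) ↔ chiS b b' G := by
  by_cases hc : chiS b b' G
  · obtain ⟨u, v, x, y, huv, hxy, hux, huy, hvx, hvy, rfl, rfl⟩ := exists_pairs hb hb' hd
    have e1 := adj_sgS_flip hd hc (a := u) (c := x) (by simp) (by simp)
    have e2 := adj_sgS_flip hd hc (a := u) (c := y) (by simp) (by simp)
    have e3 := adj_sgS_flip hd hc (a := v) (c := x) (by simp) (by simp)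
    have e4 := adj_sgS_flip hd hc (a := v) (c := y) (by simp) (by simp)
    rw [chiS_pair huv hxy hux huy hvx hvy, chiS_pair huv hxy hux huy hvx hvy, e1, e2, e3, e4]
    tauto
  · rw [sgS_of_not_chiS hc]

theorem sgS_sgS {b b' : Finset (Fin n)} (hb : b.card = 2) (hb' : b'.card = 2)
    (hd : Disjoint b b') (G : Gr n) : sgS b b' (sgS b b' G) = G := by
  by_cases hc : chiS b b' G
  · rw [sgS_of_chiS ((chiS_sgS hb hb' hd G).2 hc), sgS_of_chiS hc, symmDiff_symmDiff_cancel_right]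
  · rw [sgS_of_not_chiS hc, sgS_of_not_chiS hc]

theorem sgS_ne {b b' : Finset (Fin n)} (hb : b.card = 2) (hb' : b'.card = 2)
    (hd : Disjoint b b') {G : Gr n} (hc : chiS b b' G) : sgS b b' G ≠ G := by
  obtain ⟨u, v, x, y, huv, hxy, hux, huy, hvx, hvy, rfl, rfl⟩ := exists_pairs hb hb' hd
  intro h
  have e1 := adj_sgS_flip hd hc (a := u) (c := x) (by simp) (by simp)
  rw [h] at e1
  tauto

/-- **the block of the four slots**. -/
theorem blk_Mx {d : Fin n → ℕ} {b b' : Finset (Fin n)} (hb : b.card = 2) (hb' : b'.card = 2)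
    (hd : Disjoint b b') {G : Gr n} (hG : G ∈ realizations d) :
    blk d (Mx b b') G = {G, sgS b b' G} := by
  ext H
  rw [mem_blk]
  simp only [Finset.mem_insert, Finset.mem_singleton]
  constructor
  · rintro ⟨hH, hoff⟩
    have hdeg : ∀ w, deg (H ∩ Mx b b') w = deg (G ∩ Mx b b') w := by
      intro w
      have e1 := deg_split H (Mx b b') w
      have e2 := deg_split G (Mx b b') w
      rw [hoff] at e1
      have e3 := (mem_realizations d H).1 hH w
      have e4 := (mem_realizations d G).1 hG w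
      omega
    obtain ⟨u, v, x, y, huv, hxy, hux, huy, hvx, hvy, rfl, rfl⟩ := exists_pairs hb hb' hd
    have hu := hdeg u
    have hv := hdeg v
    have hx := hdeg x
    rw [deg_inter_Mx_left hd H (w := u) (by simp), deg_inter_Mx_left hd G (w := u) (by simp),
      card_filter_pair _ _ _ hxy, card_filter_pair _ _ _ hxy] at hu
    rw [deg_inter_Mx_left hd H (w := v) (by simp), deg_inter_Mx_left hd G (w := v) (by simp),
      card_filter_pair _ _ _ hxy, card_filter_pair _ _ _ hxy] at hv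
    rw [deg_inter_Mx_right hd H (w := x) (by simp), deg_inter_Mx_right hd G (w := x) (by simp),
      card_filter_pair _ _ _ huv, card_filter_pair _ _ _ huv] at hx
    simp only [adj_comm H x u, adj_comm H x v, adj_comm G x u, adj_comm G x v] at hx
    rcases two_by_two _ _ _ _ _ _ _ _ hu hv hx with ⟨h1, h2, h3, h4⟩ | ⟨hc, h1, h2, h3, h4⟩
    · exact Or.inl (eq_of_block hux huy hvx hvy H G hoff h1 h2 h3 h4)
    · right
      have hc' : chiS {u, v} {x, y} G := (chiS_pair huv hxy hux huy hvx hvy G).2 hc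
      apply eq_of_block hux huy hvx hvy H _ (by rw [sgS_sdiff_Mx, hoff])
      · rw [adj_sgS_flip hd hc' (by simp) (by simp)]; exact h1
      · rw [adj_sgS_flip hd hc' (by simp) (by simp)]; exact h2
      · rw [adj_sgS_flip hd hc' (by simp) (by simp)]; exact h3
      · rw [adj_sgS_flip hd hc' (by simp) (by simp)]; exact h4
  · rintro (rfl | rfl)
    · exact ⟨hG, rfl⟩
    · exact ⟨sgS_mem hb hb' hd hG, sgS_sdiff_Mx b b' G⟩

theorem DB_Mx {d : Fin n → ℕ} {b b' : Finset (Fin n)} (hb : b.card = 2) (hb' : b'.card = 2)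
    (hd : Disjoint b b') (f : Gr n → ℝ) {G : Gr n} (hG : G ∈ realizations d) :
    DB d (Mx b b') f G = (f G - f (sgS b b' G)) / 2 := by
  unfold DB
  rw [EB_def, blk_Mx hb hb' hd hG]
  by_cases hc : chiS b b' G
  · have hne := (sgS_ne hb hb' hd hc).symm
    rw [Finset.sum_pair hne, Finset.card_pair hne]
    push_cast
    ring
  · rw [sgS_of_not_chiS hc]
    simp

/-- `Q = (1/4) ∑ (f G - f (σ G))²`. -/
theorem Q_eq (d : Fin n → ℕ) {b b' : Finset (Fin n)} (hb : b.card = 2) (hb' : b'.card = 2)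
    (hd : Disjoint b b') (f : Gr n → ℝ) :
    ipd d (DB d (Mx b b') f) (DB d (Mx b b') f) =
      (1 / 4) * ∑ G ∈ realizations d, (f G - f (sgS b b' G)) ^ 2 := by
  rw [ipd_def, Finset.mul_sum]
  apply Finset.sum_congr rfl
  intro G hG
  rw [DB_Mx hb hb' hd f hG]
  ring

end Crest.Agent.R299
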