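import Crest.Agent.R299.Defs

/-!
# R299 (S0453), task T2: perfect matchings on a four-set
-/

set_option autoImplicit false
open Finset
open Crest.SwitchChain

namespace Crest.Agent.R299

variable {n : ℕ}

/-- the edge `{x,y}` -/
def mkE (x y : Fin n) (h : x ≠ y) : Edge n := ⟨s(x, y), by simpa [Sym2.mk_isDiag_iff] using h⟩

@[simp] theorem mem_mkE (x y : Fin n) (h : x ≠ y) (v : Fin n) :
    v ∈ (mkE x y h).1 ↔ v = x ∨ v = y := by
  simp [mkE]

theorem mkE_eq_iff (x y z w : Fin n) (h : x ≠ y) (h' : z ≠ w) :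
    mkE x y h = mkE z w h' ↔ (x = z ∧ y = w) ∨ (x = w ∧ y = z) := by
  simp [mkE, Subtype.ext_iff]

theorem mem_pmSet (S : Finset (Fin n)) (F : Gr n) :
    F ∈ pmSet S ↔ F.card = 2 ∧ (∀ e ∈ F, ∀ v : Fin n, v ∈ e.1 → v ∈ S) ∧
      ∀ v ∈ S, (F.filter fun e => v ∈ e.1).card = 1 := by
  simp [pmSet, Finset.mem_powersetCard]

/-- degrees of a perfect matching on `S` -/
theorem deg_pm (S : Finset (Fin n)) (F : Gr n) (hF : F ∈ pmSet S) (v : Fin n) :
    deg F v = if v ∈ S then 1 else 0 := by
  obtain ⟨-, h1, h2⟩ := (mem_pmSet S F).1 hF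
  unfold deg
  split_ifs with hv
  · exact h2 v hv
  · rw [Finset.card_eq_zero, Finset.filter_eq_empty_iff]
    intro e he hve
    exact hv (h1 e he v hve)

/-- every vertex of `S` lies on an edge of the matching -/
theorem pm_exists_edge (S : Finset (Fin n)) (F : Gr n) (hF : F ∈ pmSet S) (v : Fin n) (hv : v ∈ S) :
    ∃ e ∈ F, v ∈ e.1 := by
  obtain ⟨-, -, h2⟩ := (mem_pmSet S F).1 hF
  have h := h2 v hv
  have hne : (F.filter fun e => v ∈ e.1).Nonempty := by
    rw [← Finset.card_pos, h]; exact Nat.one_pos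
  obtain ⟨e, he⟩ := hne
  rw [Finset.mem_filter] at he
  exact ⟨e, he.1, he.2⟩

/-- two edges of the matching through the same vertex of `S` coincide -/
theorem pm_edge_unique (S : Finset (Fin n)) (F : Gr n) (hF : F ∈ pmSet S) (v : Fin n) (hv : v ∈ S)
    (e e' : Edge n) (he : e ∈ F) (he' : e' ∈ F) (hve : v ∈ e.1) (hve' : v ∈ e'.1) : e = e' := by
  obtain ⟨-, -, h2⟩ := (mem_pmSet S F).1 hF
  have h := h2 v hv
  rw [Finset.card_eq_one] at h
  obtain ⟨e0, h0⟩ := h
  have a1 : e ∈ F.filter fun e => v ∈ e.1 := Finset.mem_filter.2 ⟨he, hve⟩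
  have a2 : e' ∈ F.filter fun e => v ∈ e.1 := Finset.mem_filter.2 ⟨he', hve'⟩
  rw [h0, Finset.mem_singleton] at a1 a2
  rw [a1, a2]

theorem edge_eq_mkE (e : Edge n) (x y : Fin n) (h : x ≠ y) (hx : x ∈ e.1) (hy : y ∈ e.1) :
    e = mkE x y h := by
  apply Subtype.ext
  exact (Sym2.mem_and_mem_iff h).1 ⟨hx, hy⟩

theorem edge_exists (e : Edge n) : ∃ (x y : Fin n) (h : x ≠ y), e = mkE x y h := by
  obtain ⟨z, hz⟩ := e
  induction z using Sym2.ind with
  | _ x y =>
    have h : x ≠ y := by simpa [Sym2.mk_isDiag_iff] using hz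
    exact ⟨x, y, h, rfl⟩

theorem pmSet_disjoint (S : Finset (Fin n)) (F F' : Gr n) (hF : F ∈ pmSet S) (hF' : F' ∈ pmSet S)
    (hne : F ≠ F') : Disjoint F F' := by
  rw [Finset.disjoint_left]
  intro e he he'
  apply hne
  obtain ⟨hc, h1, -⟩ := (mem_pmSet S F).1 hF
  obtain ⟨hc', h1', -⟩ := (mem_pmSet S F').1 hF'
  -- it is enough to show `F ⊆ F'`
  apply Finset.eq_of_subset_of_card_le _ (by rw [hc, hc'])
  intro e1 he1
  by_cases hee : e1 = e
  · rw [hee]; exact he'
  obtain ⟨c, d, hcd, rfl⟩ := edge_exists e1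
  have hcS : c ∈ S := h1 _ he1 c (by simp)
  have hdS : d ∈ S := h1 _ he1 d (by simp)
  have hce : c ∉ e.1 := fun h => hee (pm_edge_unique S F hF c hcS _ _ he1 he (by simp) h)
  have hde : d ∉ e.1 := fun h => hee (pm_edge_unique S F hF d hdS _ _ he1 he (by simp) h)
  obtain ⟨e2, he2, hc2⟩ := pm_exists_edge S F' hF' c hcS
  obtain ⟨e3, he3, hd3⟩ := pm_exists_edge S F' hF' d hdS
  have h2e : e2 ≠ e := fun h => hce (h ▸ hc2)
  have h3e : e3 ≠ e := fun h => hde (h ▸ hd3)
  -- `F'` has two elements, one of which is `e`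
  have h23 : e2 = e3 := by
    by_contra h23
    have hsub : ({e, e2, e3} : Finset (Edge n)) ⊆ F' := by
      intro x hx
      simp only [Finset.mem_insert, Finset.mem_singleton] at hx
      rcases hx with rfl | rfl | rfl <;> assumption
    have hcard : ({e, e2, e3} : Finset (Edge n)).card = 3 := by
      rw [Finset.card_eq_three]
      exact ⟨e, e2, e3, fun h => h2e h.symm, fun h => h3e h.symm, h23, rfl⟩
    have := Finset.card_le_card hsub
    omega
  have : e2 = mkE c d hcd := edge_eq_mkE e2 c d hcd hc2 (h23 ▸ hd3)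
  rw [← this]; exact he2

/-- the matching `{ax, yz}` is a perfect matching of `{a,x,y,z}` -/
theorem pm_mem (a x y z : Fin n) (hax : a ≠ x) (hay : a ≠ y) (haz : a ≠ z) (hxy : x ≠ y)
    (hxz : x ≠ z) (hyz : y ≠ z) :
    ({mkE a x hax, mkE y z hyz} : Gr n) ∈ pmSet ({a, x, y, z} : Finset (Fin n)) := by
  have hne : mkE a x hax ≠ mkE y z hyz := by
    rw [Ne, mkE_eq_iff]; tauto
  rw [mem_pmSet]
  refine ⟨Finset.card_pair hne, ?_, ?_⟩
  · intro e he v hv
    simp only [Finset.mem_insert, Finset.mem_singleton] at he ⊢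
    rcases he with rfl | rfl
    · rw [mem_mkE] at hv; tauto
    · rw [mem_mkE] at hv; tauto
  · intro v hv
    simp only [Finset.mem_insert, Finset.mem_singleton] at hv
    rw [Finset.card_eq_one]
    rcases hv with rfl | rfl | rfl | rfl
    · refine ⟨mkE v x hax, ?_⟩
      ext e
      simp only [Finset.mem_filter, Finset.mem_insert, Finset.mem_singleton]
      constructor
      · rintro ⟨rfl | rfl, h⟩
        · rfl
        · rw [mem_mkE] at h; tauto
      · rintro rfl; simp
    · refine ⟨mkE a v hax, ?_⟩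
      ext e
      simp only [Finset.mem_filter, Finset.mem_insert, Finset.mem_singleton]
      constructor
      · rintro ⟨rfl | rfl, h⟩
        · rfl
        · rw [mem_mkE] at h; tauto
      · rintro rfl; simp
    · refine ⟨mkE v z hyz, ?_⟩
      ext e
      simp only [Finset.mem_filter, Finset.mem_insert, Finset.mem_singleton]
      constructor
      · rintro ⟨rfl | rfl, h⟩
        · rw [mem_mkE] at h
          rcases h with h | h
          · exact absurd h.symm hay
          · exact absurd h.symm hxy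
        · rfl
      · rintro rfl; simp
    · refine ⟨mkE y v hyz, ?_⟩
      ext e
      simp only [Finset.mem_filter, Finset.mem_insert, Finset.mem_singleton]
      constructor
      · rintro ⟨rfl | rfl, h⟩
        · rw [mem_mkE] at h
          rcases h with h | h
          · exact absurd h.symm haz
          · exact absurd h.symm hxz
        · rfl
      · rintro rfl; simp

/-- a perfect matching of `{a,x,y,z}` containing the edge `ax` is `{ax, yz}` -/
theorem pm_of_edge (a x y z : Fin n) (hax : a ≠ x) (hay : a ≠ y) (haz : a ≠ z) (hxy : x ≠ y)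
    (hxz : x ≠ z) (hyz : y ≠ z) (S : Finset (Fin n)) (hyS : y ∈ S) (hzS : z ∈ S)
    (F : Gr n) (hF : F ∈ pmSet S) (he : mkE a x hax ∈ F) :
    F = {mkE a x hax, mkE y z hyz} := by
  obtain ⟨hc, -, -⟩ := (mem_pmSet S F).1 hF
  have hne : mkE a x hax ≠ mkE y z hyz := by
    rw [Ne, mkE_eq_iff]; tauto
  symm
  apply Finset.eq_of_subset_of_card_le _ (by rw [hc, Finset.card_pair hne])
  obtain ⟨e2, he2, hy2⟩ := pm_exists_edge S F hF y hyS
  obtain ⟨e3, he3, hz3⟩ := pm_exists_edge S F hF z hzS
  have h2e : e2 ≠ mkE a x hax := by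
    rintro rfl
    rw [mem_mkE] at hy2
    rcases hy2 with h | h
    · exact hay h.symm
    · exact hxy h.symm
  have h3e : e3 ≠ mkE a x hax := by
    rintro rfl
    rw [mem_mkE] at hz3
    rcases hz3 with h | h
    · exact haz h.symm
    · exact hxz h.symm
  have h23 : e2 = e3 := by
    by_contra h23
    have hsub : ({mkE a x hax, e2, e3} : Finset (Edge n)) ⊆ F := by
      intro w hw
      simp only [Finset.mem_insert, Finset.mem_singleton] at hw
      rcases hw with rfl | rfl | rfl <;> assumption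
    have hcard : ({mkE a x hax, e2, e3} : Finset (Edge n)).card = 3 := by
      rw [Finset.card_eq_three]
      exact ⟨_, e2, e3, fun h => h2e h.symm, fun h => h3e h.symm, h23, rfl⟩
    have := Finset.card_le_card hsub
    omega
  have h2 : e2 = mkE y z hyz := edge_eq_mkE e2 y z hyz hy2 (h23 ▸ hz3)
  intro w hw
  simp only [Finset.mem_insert, Finset.mem_singleton] at hw
  rcases hw with rfl | rfl
  · exact he
  · rw [← h2]; exact he2

theorem card_pmSet (S : Finset (Fin n)) (hS : S.card = 4) : (pmSet S).card = 3 := by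
  obtain ⟨a, t, hat, rfl, ht⟩ := Finset.card_eq_succ.1 hS
  obtain ⟨b, c, d, hbc, hbd, hcd, rfl⟩ := Finset.card_eq_three.1 ht
  simp only [Finset.mem_insert, Finset.mem_singleton, not_or] at hat
  obtain ⟨hab, hac, had⟩ := hat
  have e2 : ({a, b, c, d} : Finset (Fin n)) = {a, c, b, d} := by
    ext v; simp only [Finset.mem_insert, Finset.mem_singleton]; tauto
  have e3 : ({a, b, c, d} : Finset (Fin n)) = {a, d, b, c} := by
    ext v; simp only [Finset.mem_insert, Finset.mem_singleton]; tauto
  rw [Finset.card_eq_three]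
  refine ⟨{mkE a b hab, mkE c d hcd}, {mkE a c hac, mkE b d hbd}, {mkE a d had, mkE b c hbc},
    ?_, ?_, ?_, ?_⟩
  · intro h
    have : mkE a b hab ∈ ({mkE a c hac, mkE b d hbd} : Gr n) := by rw [← h]; simp
    simp only [Finset.mem_insert, Finset.mem_singleton, mkE_eq_iff] at this
    tauto
  · intro h
    have : mkE a b hab ∈ ({mkE a d had, mkE b c hbc} : Gr n) := by rw [← h]; simp
    simp only [Finset.mem_insert, Finset.mem_singleton, mkE_eq_iff] at this
    tauto
  · intro h
    have : mkE a c hac ∈ ({mkE a d had, mkE b c hbc} : Gr n) := by rw [← h]; simp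
    simp only [Finset.mem_insert, Finset.mem_singleton, mkE_eq_iff] at this
    tauto
  · ext F
    simp only [Finset.mem_insert, Finset.mem_singleton]
    constructor
    · intro hF
      obtain ⟨-, h1, -⟩ := (mem_pmSet _ F).1 hF
      obtain ⟨e, he, hae⟩ := pm_exists_edge _ F hF a (by simp)
      obtain ⟨x, y, hxy, rfl⟩ := edge_exists e
      -- the partner of `a`
      have hp : ∃ (w : Fin n) (hw : a ≠ w), mkE x y hxy = mkE a w hw := by
        rw [mem_mkE] at hae
        rcases hae with rfl | rfl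
        · exact ⟨y, hxy, rfl⟩
        · exact ⟨x, hxy.symm, by rw [mkE_eq_iff]; right; exact ⟨rfl, rfl⟩⟩
      obtain ⟨w, hw, hew⟩ := hp
      rw [hew] at he
      have hwS := h1 _ he w (by simp)
      simp only [Finset.mem_insert, Finset.mem_singleton] at hwS
      rcases hwS with rfl | rfl | rfl | rfl
      · exact absurd rfl hw
      · left
        exact pm_of_edge a w c d hw hac had hbc hbd hcd _ (by simp) (by simp) F hF he
      · right; left
        exact pm_of_edge a w b d hw hab had hbc.symm hcd hbd _ (by simp) (by simp) F hF he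
      · right; right
        exact pm_of_edge a w b c hw hab hac hbd.symm hcd.symm hbc _ (by simp) (by simp) F hF he
    · rintro (rfl | rfl | rfl)
      · exact pm_mem a b c d hab hac had hbc hbd hcd
      · rw [e2]; exact pm_mem a c b d hac hab had hbc.symm hcd hbd
      · rw [e3]; exact pm_mem a d b c had hab hac hbd.symm hcd.symm hbc

end Crest.Agent.R299
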