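import Crest.Agent.R299.Connect
import Crest.Agent.R299.Avg
import Crest.Agent.R299.JohnsonJ1

/-!
# R299 (S0453): the pair fibre `{H ∈ Ω_d | H = G off the slots touching u or v}` is a Johnson model

Everything lives in the namespace `Crest.Agent.R299.PF`.
For `u ≠ v`:
* `T2 u v`    : the slots touching `u` or `v` (`= tch {u,v}`);
* `fib d u v G = cls (realizations d) (· \ T2 u v) G` (`= blk d (tch {u,v}) G`);
* `SM u v x y`: the four slots `ux, uy, vx, vy`;
* `chi u v x y G` : the switch on the 4-cycle `u x v y` is available;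
* `sig u v x y G` : the result of this switch (`G` itself if it is not available);
* `ZZ u v G`  : the vertices `w ∉ {u,v}` adjacent to exactly one of `u, v`;
* `phi u v G` : the vertices `w ≠ v` adjacent to `u` and not to `v` (`= N(u) ∩ ZZ`);
* `psi d u v G S` : the graph of the fibre of `G` with `phi = S`.

Main results: `fib_eq_image`, `psi_injOn`, `sum_fib`, `chi_psi`, `sig_psi`
(the fibre is `J(ZZ, |phi G|)`, the switches are the transpositions).
-/

set_option autoImplicit false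
open Finset
open Crest.SwitchChain

namespace Crest.Agent.R299.PF

variable {n : ℕ}

/-- the slots touching `u` or `v`. -/
def T2 (u v : Fin n) : Gr n := univ.filter fun e : Edge n => u ∈ e.1 ∨ v ∈ e.1

/-- the pair fibre of `G`. -/
def fib (d : Fin n → ℕ) (u v : Fin n) (G : Gr n) : Finset (Gr n) :=
  cls (realizations d) (fun H : Gr n => H \ T2 u v) G

/-- the four slots `ux, uy, vx, vy` (for pairwise distinct `u v x y`). -/
def SM (u v x y : Fin n) : Gr n :=
  univ.filter fun e : Edge n => (u ∈ e.1 ∨ v ∈ e.1) ∧ (x ∈ e.1 ∨ y ∈ e.1)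

/-- the switch on the 4-cycle `u x v y` is available in `G`. -/
def chi (u v x y : Fin n) (G : Gr n) : Prop :=
  (adj G u x ∧ adj G v y ∧ ¬ adj G u y ∧ ¬ adj G v x) ∨
    (¬ adj G u x ∧ ¬ adj G v y ∧ adj G u y ∧ adj G v x)

instance (u v x y : Fin n) (G : Gr n) : Decidable (chi u v x y G) := by
  unfold chi; infer_instance

/-- the switch on the 4-cycle `u x v y` (identity if it is not available). -/
def sig (u v x y : Fin n) (G : Gr n) : Gr n :=
  if chi u v x y G then symmDiff G (SM u v x y) else G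

/-- the vertices outside `{u,v}` adjacent to exactly one of `u, v`. -/
def ZZ (u v : Fin n) (G : Gr n) : Finset (Fin n) :=
  univ.filter fun w => w ≠ u ∧ w ≠ v ∧ ¬ (adj G u w ↔ adj G v w)

/-- the vertices `≠ v` adjacent to `u` but not to `v`. -/
def phi (u v : Fin n) (G : Gr n) : Finset (Fin n) :=
  univ.filter fun w => w ≠ v ∧ adj G u w ∧ ¬ adj G v w

open Classical in
/-- the inverse of `phi` on the fibre of `G`. -/
noncomputable def psi (d : Fin n → ℕ) (u v : Fin n) (G : Gr n) (S : Finset (Fin n)) : Gr n :=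
  if h : ∃ H ∈ fib d u v G, phi u v H = S then h.choose else G

/-! ## basic membership lemmas -/

theorem mem_T2 (u v : Fin n) (e : Edge n) : e ∈ T2 u v ↔ u ∈ e.1 ∨ v ∈ e.1 := by
  simp [T2]

theorem mem_SM (u v x y : Fin n) (e : Edge n) :
    e ∈ SM u v x y ↔ (u ∈ e.1 ∨ v ∈ e.1) ∧ (x ∈ e.1 ∨ y ∈ e.1) := by
  simp [SM]

theorem mkE_mem_T2 (u v a b : Fin n) (h : a ≠ b) :
    mkE a b h ∈ T2 u v ↔ (u = a ∨ u = b) ∨ (v = a ∨ v = b) := by
  simp [mem_T2]

theorem mkE_mem_SM (u v x y a b : Fin n) (h : a ≠ b) :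
    mkE a b h ∈ SM u v x y ↔
      ((u = a ∨ u = b) ∨ (v = a ∨ v = b)) ∧ ((x = a ∨ x = b) ∨ (y = a ∨ y = b)) := by
  simp [mem_SM]

@[simp] theorem mem_ZZ (u v : Fin n) (G : Gr n) (w : Fin n) :
    w ∈ ZZ u v G ↔ w ≠ u ∧ w ≠ v ∧ ¬ (adj G u w ↔ adj G v w) := by
  simp [ZZ]

@[simp] theorem mem_phi (u v : Fin n) (G : Gr n) (w : Fin n) :
    w ∈ phi u v G ↔ w ≠ v ∧ adj G u w ∧ ¬ adj G v w := by
  simp [phi]

theorem mem_fib {d : Fin n → ℕ} {u v : Fin n} {G H : Gr n} :
    H ∈ fib d u v G ↔ H ∈ realizations d ∧ H \ T2 u v = G \ T2 u v := by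
  simp [fib, mem_cls]

theorem self_mem_fib {d : Fin n → ℕ} (u v : Fin n) {G : Gr n} (hG : G ∈ realizations d) :
    G ∈ fib d u v G := mem_fib.2 ⟨hG, rfl⟩

theorem fib_eq_of_mem {d : Fin n → ℕ} {u v : Fin n} {G H : Gr n} (h : H ∈ fib d u v G) :
    fib d u v H = fib d u v G := cls_eq_of_mem _ _ h

theorem SM_subset_T2 (u v x y : Fin n) : SM u v x y ⊆ T2 u v := by
  intro e he
  rw [mem_SM] at he
  rw [mem_T2]
  exact he.1

theorem phi_subset_ZZ (u v : Fin n) (G : Gr n) : phi u v G ⊆ ZZ u v G := by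
  intro w hw
  rw [mem_phi] at hw
  rw [mem_ZZ]
  refine ⟨(adj_ne hw.2.1).symm, hw.1, fun h => hw.2.2 (h.1 hw.2.1)⟩

/-- agreement off `T2` in terms of adjacency. -/
theorem sdiff_T2_eq_iff (u v : Fin n) (G H : Gr n) :
    H \ T2 u v = G \ T2 u v ↔
      ∀ a b, a ≠ u → a ≠ v → b ≠ u → b ≠ v → (adj H a b ↔ adj G a b) := by
  constructor
  · intro h a b hau hav hbu hbv
    by_cases hab : a = b
    · subst hab
      exact ⟨fun h => absurd rfl (adj_ne h), fun h => absurd rfl (adj_ne h)⟩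
    · rw [adj_iff _ _ _ hab, adj_iff _ _ _ hab]
      have hn : mkE a b hab ∉ T2 u v := by
        rw [mkE_mem_T2]
        rintro ((h | h) | (h | h))
        · exact hau h.symm
        · exact hbu h.symm
        · exact hav h.symm
        · exact hbv h.symm
      have h1 : mkE a b hab ∈ H \ T2 u v ↔ mkE a b hab ∈ G \ T2 u v := by rw [h]
      simpa [mem_sdiff, hn] using h1
  · intro h
    ext e
    obtain ⟨a, b, hab, rfl⟩ := edge_exists e
    rw [mem_sdiff, mem_sdiff, mkE_mem_T2]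
    constructor
    · rintro ⟨h1, h2⟩
      refine ⟨?_, h2⟩
      simp only [not_or] at h2
      exact (adj_iff _ _ _ hab).1 ((h a b (Ne.symm h2.1.1) (Ne.symm h2.2.1) (Ne.symm h2.1.2) (Ne.symm h2.2.2)).1
        ((adj_iff _ _ _ hab).2 h1))
    · rintro ⟨h1, h2⟩
      refine ⟨?_, h2⟩
      simp only [not_or] at h2
      exact (adj_iff _ _ _ hab).1 ((h a b (Ne.symm h2.1.1) (Ne.symm h2.2.1) (Ne.symm h2.1.2) (Ne.symm h2.2.2)).2
        ((adj_iff _ _ _ hab).2 h1))

/-! ## degree bookkeeping -/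

/-- indicator -/
def ind (p : Prop) [Decidable p] : ℕ := if p then 1 else 0

theorem ind_congr {p q : Prop} [Decidable p] [Decidable q] (h : p ↔ q) : ind p = ind q := by
  unfold ind; simp only [h]

theorem ind_adj_comm (G : Gr n) (a b : Fin n) : ind (adj G a b) = ind (adj G b a) :=
  ind_congr (adj_comm G a b)

theorem ind_le_one (p : Prop) [Decidable p] : ind p ≤ 1 := by
  unfold ind; split_ifs <;> simp

theorem ind_eq_one {p : Prop} [Decidable p] : ind p = 1 ↔ p := by
  unfold ind; split_ifs with h <;> simp [h]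

theorem ind_eq_zero {p : Prop} [Decidable p] : ind p = 0 ↔ ¬ p := by
  unfold ind; split_ifs with h <;> simp [h]

theorem deg_eq_sum (G : Gr n) (a : Fin n) : deg G a = ∑ c, ind (adj G a c) := by
  rw [deg_eq_card_nb, nb, card_filter]
  rfl

/-- the vertices different from `u, v`. -/
def RR (u v : Fin n) : Finset (Fin n) := (univ.erase u).erase v

theorem mem_RR (u v w : Fin n) : w ∈ RR u v ↔ w ≠ u ∧ w ≠ v := by
  simp [RR, and_comm]

theorem sum_split {u v : Fin n} (huv : u ≠ v) (F : Fin n → ℕ) :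
    ∑ c, F c = F u + F v + ∑ c ∈ RR u v, F c := by
  rw [RR, ← add_sum_erase univ F (mem_univ u),
    ← add_sum_erase (univ.erase u) F (mem_erase.2 ⟨huv.symm, mem_univ v⟩), add_assoc]

/-- column sum. -/
def cs (u v : Fin n) (G : Gr n) (w : Fin n) : ℕ := ind (adj G u w) + ind (adj G v w)

theorem cs_eq {d : Fin n → ℕ} {u v : Fin n} (huv : u ≠ v) {G H : Gr n} (hG : G ∈ realizations d)
    (hH : H ∈ fib d u v G) {w : Fin n} (hwu : w ≠ u) (hwv : w ≠ v) : cs u v H w = cs u v G w := by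
  obtain ⟨hH1, hH2⟩ := mem_fib.1 hH
  rw [sdiff_T2_eq_iff] at hH2
  have h1 : deg H w = deg G w := by
    rw [(mem_realizations d H).1 hH1 w, (mem_realizations d G).1 hG w]
  rw [deg_eq_sum, deg_eq_sum, sum_split huv, sum_split huv] at h1
  have h2 : ∑ c ∈ RR u v, ind (adj H w c) = ∑ c ∈ RR u v, ind (adj G w c) := by
    refine sum_congr rfl fun c hc => ?_
    rw [mem_RR] at hc
    exact ind_congr (hH2 w c hwu hwv hc.1 hc.2)
  unfold cs
  rw [ind_adj_comm H u w, ind_adj_comm H v w, ind_adj_comm G u w, ind_adj_comm G v w]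
  omega

theorem adj_uv_iff {d : Fin n → ℕ} {u v : Fin n} (huv : u ≠ v) {G H : Gr n}
    (hG : G ∈ realizations d) (hH : H ∈ fib d u v G) : adj H u v ↔ adj G u v := by
  obtain ⟨hH1, -⟩ := mem_fib.1 hH
  have hu : deg H u = deg G u := by
    rw [(mem_realizations d H).1 hH1 u, (mem_realizations d G).1 hG u]
  have hv : deg H v = deg G v := by
    rw [(mem_realizations d H).1 hH1 v, (mem_realizations d G).1 hG v]
  rw [deg_eq_sum, deg_eq_sum, sum_split huv, sum_split huv] at hu hv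
  have h2 : ∑ c ∈ RR u v, cs u v H c = ∑ c ∈ RR u v, cs u v G c := by
    refine sum_congr rfl fun c hc => ?_
    rw [mem_RR] at hc
    exact cs_eq huv hG hH hc.1 hc.2
  simp only [cs, sum_add_distrib] at h2
  have e1 : ∀ (K : Gr n) (a : Fin n), ind (adj K a a) = 0 := fun K a =>
    ind_eq_zero.2 fun h => adj_ne h rfl
  rw [e1, e1] at hu
  rw [e1, e1, ind_adj_comm H v u, ind_adj_comm G v u] at hv
  have h3 : ind (adj H u v) = ind (adj G u v) := by omega
  exact ⟨fun h => ind_eq_one.1 (h3 ▸ ind_eq_one.2 h), fun h => ind_eq_one.1 (h3.symm ▸ ind_eq_one.2 h)⟩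


/-! ## the fibre in terms of `phi` -/

theorem mem_ZZ_iff_cs (u v : Fin n) (G : Gr n) (w : Fin n) :
    w ∈ ZZ u v G ↔ w ≠ u ∧ w ≠ v ∧ cs u v G w = 1 := by
  rw [mem_ZZ]
  unfold cs ind
  by_cases h1 : adj G u w <;> by_cases h2 : adj G v w <;> simp [h1, h2]

theorem ZZ_eq {d : Fin n → ℕ} {u v : Fin n} (huv : u ≠ v) {G H : Gr n} (hG : G ∈ realizations d)
    (hH : H ∈ fib d u v G) : ZZ u v H = ZZ u v G := by
  ext w
  rw [mem_ZZ_iff_cs, mem_ZZ_iff_cs]
  constructor
  · rintro ⟨h1, h2, h3⟩; exact ⟨h1, h2, by rw [← cs_eq huv hG hH h1 h2]; exact h3⟩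
  · rintro ⟨h1, h2, h3⟩; exact ⟨h1, h2, by rw [cs_eq huv hG hH h1 h2]; exact h3⟩

theorem adj_u_iff (u v : Fin n) (H : Gr n) (w : Fin n) (hwv : w ≠ v) :
    adj H u w ↔ w ∈ phi u v H ∨ cs u v H w = 2 := by
  rw [mem_phi]
  unfold cs ind
  by_cases h1 : adj H u w <;> by_cases h2 : adj H v w <;> simp [h1, h2, hwv]

theorem adj_v_iff (u v : Fin n) (H : Gr n) (w : Fin n) (hwv : w ≠ v) :
    adj H v w ↔ cs u v H w = 2 ∨ (cs u v H w = 1 ∧ w ∉ phi u v H) := by
  rw [mem_phi]
  unfold cs ind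
  by_cases h1 : adj H u w <;> by_cases h2 : adj H v w <;> simp [h1, h2, hwv]

theorem deg_u_eq {u v : Fin n} (huv : u ≠ v) (H : Gr n) :
    deg H u = ind (adj H u v) + ((phi u v H).card + ∑ c ∈ RR u v, ind (cs u v H c = 2)) := by
  rw [deg_eq_sum, sum_split huv]
  have e1 : ind (adj H u u) = 0 := ind_eq_zero.2 fun h => adj_ne h rfl
  have e2 : (phi u v H).card = ∑ c ∈ RR u v, ind (c ∈ phi u v H) := by
    have : phi u v H = (RR u v).filter fun c => c ∈ phi u v H := by
      ext c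
      rw [mem_filter, mem_RR]
      constructor
      · intro h
        have := phi_subset_ZZ u v H h
        rw [mem_ZZ] at this
        exact ⟨⟨this.1, this.2.1⟩, h⟩
      · exact fun h => h.2
    conv_lhs => rw [this]
    rw [card_filter]
    rfl
  rw [e1, e2, ← sum_add_distrib, zero_add]
  congr 1
  refine sum_congr rfl fun c hc => ?_
  rw [mem_RR] at hc
  have hcv := hc.2
  rw [ind_congr (mem_phi u v H c)]
  unfold cs ind
  by_cases h1 : adj H u c <;> by_cases h2 : adj H v c <;> simp [h1, h2, hcv]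

theorem card_phi_eq {d : Fin n → ℕ} {u v : Fin n} (huv : u ≠ v) {G H : Gr n}
    (hG : G ∈ realizations d) (hH : H ∈ fib d u v G) : (phi u v H).card = (phi u v G).card := by
  obtain ⟨hH1, -⟩ := mem_fib.1 hH
  have hu : deg H u = deg G u := by
    rw [(mem_realizations d H).1 hH1 u, (mem_realizations d G).1 hG u]
  rw [deg_u_eq huv, deg_u_eq huv, ind_congr (adj_uv_iff huv hG hH)] at hu
  have h2 : ∑ c ∈ RR u v, ind (cs u v H c = 2) = ∑ c ∈ RR u v, ind (cs u v G c = 2) := by
    refine sum_congr rfl fun c hc => ?_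
    rw [mem_RR] at hc
    rw [cs_eq huv hG hH hc.1 hc.2]
  omega

theorem phi_mem {d : Fin n → ℕ} {u v : Fin n} (huv : u ≠ v) {G H : Gr n} (hG : G ∈ realizations d)
    (hH : H ∈ fib d u v G) : phi u v H ∈ (ZZ u v G).powersetCard (phi u v G).card := by
  rw [mem_powersetCard]
  exact ⟨ZZ_eq huv hG hH ▸ phi_subset_ZZ u v H, card_phi_eq huv hG hH⟩

theorem ext_rows {u v : Fin n} {H H' : Gr n} (h0 : H \ T2 u v = H' \ T2 u v)
    (hu : ∀ w, adj H u w ↔ adj H' u w) (hv : ∀ w, adj H v w ↔ adj H' v w) : H = H' := by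
  rw [sdiff_T2_eq_iff] at h0
  apply gr_ext
  intro a b
  by_cases hau : a = u
  · subst hau; exact hu b
  by_cases hav : a = v
  · subst hav; exact hv b
  by_cases hbu : b = u
  · subst hbu; rw [adj_comm H, adj_comm H']; exact hu a
  by_cases hbv : b = v
  · subst hbv; rw [adj_comm H, adj_comm H']; exact hv a
  exact h0 a b hau hav hbu hbv

theorem phi_inj {d : Fin n → ℕ} {u v : Fin n} (huv : u ≠ v) {G H H' : Gr n}
    (hG : G ∈ realizations d) (hH : H ∈ fib d u v G) (hH' : H' ∈ fib d u v G)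
    (h : phi u v H = phi u v H') : H = H' := by
  apply ext_rows (u := u) (v := v)
  · rw [(mem_fib.1 hH).2, (mem_fib.1 hH').2]
  · intro w
    by_cases hwv : w = v
    · subst hwv; rw [adj_uv_iff huv hG hH, adj_uv_iff huv hG hH']
    by_cases hwu : w = u
    · subst hwu; exact ⟨fun h => absurd rfl (adj_ne h), fun h => absurd rfl (adj_ne h)⟩
    rw [adj_u_iff u v H w hwv, adj_u_iff u v H' w hwv, h, cs_eq huv hG hH hwu hwv,
      cs_eq huv hG hH' hwu hwv]
  · intro w
    by_cases hwv : w = v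
    · subst hwv; exact ⟨fun h => absurd rfl (adj_ne h), fun h => absurd rfl (adj_ne h)⟩
    by_cases hwu : w = u
    · subst hwu
      rw [adj_comm H, adj_comm H', adj_uv_iff huv hG hH, adj_uv_iff huv hG hH']
    rw [adj_v_iff u v H w hwv, adj_v_iff u v H' w hwv, h, cs_eq huv hG hH hwu hwv,
      cs_eq huv hG hH' hwu hwv]

/-! ## the switch -/

theorem SM_swap_right (u v x y : Fin n) : SM u v x y = SM u v y x := by
  ext e; rw [mem_SM, mem_SM, or_comm (a := x ∈ e.1)]

theorem SM_swap_left (u v x y : Fin n) : SM u v x y = SM v u x y := by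
  ext e; rw [mem_SM, mem_SM, or_comm (a := u ∈ e.1)]

theorem SM_swap_pairs (u v x y : Fin n) : SM u v x y = SM x y u v := by
  ext e; rw [mem_SM, mem_SM, and_comm]

theorem chi_swap_right (u v x y : Fin n) (G : Gr n) : chi u v x y G ↔ chi u v y x G := by
  unfold chi; tauto

theorem chi_swap_left (u v x y : Fin n) (G : Gr n) : chi u v x y G ↔ chi v u x y G := by
  unfold chi; tauto

theorem chi_swap_pairs (u v x y : Fin n) (G : Gr n) : chi u v x y G ↔ chi x y u v G := by
  unfold chi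
  rw [adj_comm G u x, adj_comm G v y, adj_comm G u y, adj_comm G v x]
  tauto

theorem sig_swap_right (u v x y : Fin n) (G : Gr n) : sig u v x y G = sig u v y x G := by
  unfold sig; simp only [chi_swap_right u v x y G, SM_swap_right u v x y]

theorem sig_swap_left (u v x y : Fin n) (G : Gr n) : sig u v x y G = sig v u x y G := by
  unfold sig; simp only [chi_swap_left u v x y G, SM_swap_left u v x y]

theorem sig_swap_pairs (u v x y : Fin n) (G : Gr n) : sig u v x y G = sig x y u v G := by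
  unfold sig; simp only [chi_swap_pairs u v x y G, SM_swap_pairs u v x y]

theorem sig_of_not_chi {u v x y : Fin n} {G : Gr n} (h : ¬ chi u v x y G) : sig u v x y G = G := by
  unfold sig; rw [if_neg h]

theorem sig_of_chi {u v x y : Fin n} {G : Gr n} (h : chi u v x y G) :
    sig u v x y G = symmDiff G (SM u v x y) := by
  unfold sig; rw [if_pos h]

theorem SM_eq {u v x y : Fin n} (huv : u ≠ v) (hxy : x ≠ y) (hux : u ≠ x) (huy : u ≠ y)
    (hvx : v ≠ x) (hvy : v ≠ y) :
    SM u v x y = {mkE u x hux, mkE v y hvy, mkE u y huy, mkE v x hvx} := by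
  ext e
  obtain ⟨a, b, hab, rfl⟩ := edge_exists e
  rw [mkE_mem_SM]
  simp only [mem_insert, mem_singleton, mkE_eq_iff]
  constructor
  · rintro ⟨(rfl | rfl) | (rfl | rfl), (rfl | rfl) | (rfl | rfl)⟩ <;> simp_all
  · rintro ((⟨rfl, rfl⟩ | ⟨rfl, rfl⟩) | (⟨rfl, rfl⟩ | ⟨rfl, rfl⟩) | (⟨rfl, rfl⟩ | ⟨rfl, rfl⟩) |
      (⟨rfl, rfl⟩ | ⟨rfl, rfl⟩)) <;> simp

/-- the switch as a `switchResult` (first orientation). -/
theorem sig_eq_switchResult {u v x y : Fin n} (huv : u ≠ v) (hxy : x ≠ y) (hux : u ≠ x)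
    (huy : u ≠ y) (hvx : v ≠ x) (hvy : v ≠ y) {G : Gr n}
    (h : adj G u x ∧ adj G v y ∧ ¬ adj G u y ∧ ¬ adj G v x) :
    sig u v x y G = switchResult G {mkE u x hux, mkE v y hvy} {mkE u y huy, mkE v x hvx} := by
  obtain ⟨h1, h2, h3, h4⟩ := h
  rw [adj_iff _ _ _ hux] at h1
  rw [adj_iff _ _ _ hvy] at h2
  rw [adj_iff _ _ _ huy] at h3
  rw [adj_iff _ _ _ hvx] at h4
  have hsub : ({mkE u x hux, mkE v y hvy} : Gr n) ⊆ G := by
    intro e he
    simp only [mem_insert, mem_singleton] at he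
    rcases he with rfl | rfl
    · exact h1
    · exact h2
  have hdis : Disjoint ({mkE u y huy, mkE v x hvx} : Gr n) G := by
    rw [disjoint_left]
    intro e he heG
    simp only [mem_insert, mem_singleton] at he
    rcases he with rfl | rfl
    · exact h3 heG
    · exact h4 heG
  have hchi : chi u v x y G := Or.inl ⟨⟨hux, h1⟩, ⟨hvy, h2⟩, fun h => h3 h.2, fun h => h4 h.2⟩
  unfold switchResult
  rw [if_pos ⟨hsub, hdis⟩, sig_of_chi hchi, SM_eq huv hxy hux huy hvx hvy]
  ext e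
  simp only [mem_symmDiff, mem_union, mem_sdiff, mem_insert, mem_singleton]
  constructor
  · rintro (⟨g1, g2⟩ | ⟨g1, g2⟩)
    · left; exact ⟨g1, fun h => g2 (by tauto)⟩
    · rcases g1 with rfl | rfl | rfl | rfl
      · exact absurd h1 g2
      · exact absurd h2 g2
      · right; left; rfl
      · right; right; rfl
  · rintro (⟨g1, g2⟩ | g1)
    · left
      refine ⟨g1, ?_⟩
      rintro (rfl | rfl | rfl | rfl)
      · exact g2 (Or.inl rfl)
      · exact g2 (Or.inr rfl)
      · exact h3 g1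
      · exact h4 g1
    · right
      rcases g1 with rfl | rfl
      · exact ⟨by tauto, h3⟩
      · exact ⟨by tauto, h4⟩

/-- the switch as a `switchResult` (second orientation). -/
theorem sig_eq_switchResult' {u v x y : Fin n} (huv : u ≠ v) (hxy : x ≠ y) (hux : u ≠ x)
    (huy : u ≠ y) (hvx : v ≠ x) (hvy : v ≠ y) {G : Gr n}
    (h : ¬ adj G u x ∧ ¬ adj G v y ∧ adj G u y ∧ adj G v x) :
    sig u v x y G = switchResult G {mkE u y huy, mkE v x hvx} {mkE u x hux, mkE v y hvy} := by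
  rw [sig_swap_right]
  exact sig_eq_switchResult huv hxy.symm huy hux hvy hvx ⟨h.2.2.1, h.2.2.2, h.1, h.2.1⟩

theorem sig_mem_realizations {d : Fin n → ℕ} {u v x y : Fin n} (huv : u ≠ v) (hxy : x ≠ y)
    (hux : u ≠ x) (huy : u ≠ y) (hvx : v ≠ x) (hvy : v ≠ y) {H : Gr n} (hH : H ∈ realizations d) :
    sig u v x y H ∈ realizations d := by
  have hS : ({u, y, v, x} : Finset (Fin n)) = {u, x, v, y} := by
    ext w; simp only [mem_insert, mem_singleton]; tauto
  have m1 : ({mkE u x hux, mkE v y hvy} : Gr n) ∈ pmSet ({u, x, v, y} : Finset (Fin n)) :=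
    pm_mem u x v y hux huv huy hvx.symm hxy hvy
  have m2 : ({mkE u y huy, mkE v x hvx} : Gr n) ∈ pmSet ({u, x, v, y} : Finset (Fin n)) := by
    rw [← hS]; exact pm_mem u y v x huy huv hux hvy.symm hxy.symm hvx
  by_cases hc : chi u v x y H
  · rcases hc with hc | hc
    · rw [sig_eq_switchResult huv hxy hux huy hvx hvy hc]
      exact switchResult_mem d _ H _ _ m1 m2 hH
    · rw [sig_eq_switchResult' huv hxy hux huy hvx hvy hc]
      exact switchResult_mem d _ H _ _ m2 m1 hH
  · rw [sig_of_not_chi hc]; exact hH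

theorem sig_sdiff_SM (u v x y : Fin n) (H : Gr n) :
    sig u v x y H \ SM u v x y = H \ SM u v x y := by
  by_cases hc : chi u v x y H
  · rw [sig_of_chi hc]
    ext e
    simp only [mem_sdiff, mem_symmDiff]
    tauto
  · rw [sig_of_not_chi hc]

theorem sig_sdiff_T2 (u v x y : Fin n) (H : Gr n) :
    sig u v x y H \ T2 u v = H \ T2 u v := by
  by_cases hc : chi u v x y H
  · rw [sig_of_chi hc]
    ext e
    have := @SM_subset_T2 n u v x y e
    simp only [mem_sdiff, mem_symmDiff]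
    tauto
  · rw [sig_of_not_chi hc]

theorem sig_mem_fib {d : Fin n → ℕ} {u v x y : Fin n} (huv : u ≠ v) (hxy : x ≠ y) (hux : u ≠ x)
    (huy : u ≠ y) (hvx : v ≠ x) (hvy : v ≠ y) {H : Gr n} (hH : H ∈ realizations d) :
    sig u v x y H ∈ fib d u v H :=
  mem_fib.2 ⟨sig_mem_realizations huv hxy hux huy hvx hvy hH, sig_sdiff_T2 u v x y H⟩

/-- availability of the switch in Johnson terms (any graph `H`). -/
theorem chi_iff {u v x y : Fin n} (hux : u ≠ x) (huy : u ≠ y) (hvx : v ≠ x) (hvy : v ≠ y)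
    (H : Gr n) :
    chi u v x y H ↔ x ∈ ZZ u v H ∧ y ∈ ZZ u v H ∧ jchi (x, y) (phi u v H) := by
  unfold chi jchi
  simp only [mem_ZZ, mem_phi]
  have a1 := hux.symm
  have a2 := huy.symm
  have a3 := hvx.symm
  have a4 := hvy.symm
  by_cases h1 : adj H u x <;> by_cases h2 : adj H v y <;> by_cases h3 : adj H u y <;>
    by_cases h4 : adj H v x <;> simp [h1, h2, h3, h4, a1, a2, a3, a4]

theorem adj_sig_of_chi {u v x y : Fin n} {G : Gr n} (h : chi u v x y G) (a b : Fin n)
    (hab : a ≠ b) :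
    adj (sig u v x y G) a b ↔
      (adj G a b ∧ mkE a b hab ∉ SM u v x y) ∨ (mkE a b hab ∈ SM u v x y ∧ ¬ adj G a b) := by
  rw [sig_of_chi h, adj_iff _ _ _ hab, mem_symmDiff, adj_iff _ _ _ hab]

theorem adj_sig_u {u v x y : Fin n} (hux : u ≠ x) (huy : u ≠ y) {G : Gr n}
    (h : chi u v x y G) (w : Fin n) :
    adj (sig u v x y G) u w ↔ if w = x ∨ w = y then ¬ adj G u w else adj G u w := by
  by_cases huw : u = w
  · subst huw
    rw [if_neg (by tauto)]
    exact ⟨fun h => absurd rfl (adj_ne h), fun h => absurd rfl (adj_ne h)⟩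
  · rw [adj_sig_of_chi h u w huw, mkE_mem_SM]
    have e : (((u = u ∨ u = w) ∨ (v = u ∨ v = w)) ∧ ((x = u ∨ x = w) ∨ (y = u ∨ y = w))) ↔
        (w = x ∨ w = y) := by
      constructor
      · rintro ⟨-, (h | h) | (h | h)⟩
        · exact absurd h.symm hux
        · exact Or.inl h.symm
        · exact absurd h.symm huy
        · exact Or.inr h.symm
      · rintro (h | h)
        · exact ⟨Or.inl (Or.inl rfl), Or.inl (Or.inr h.symm)⟩
        · exact ⟨Or.inl (Or.inl rfl), Or.inr (Or.inr h.symm)⟩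
    rw [e]
    split_ifs with hw <;> tauto

theorem adj_sig_v {u v x y : Fin n} (hvx : v ≠ x) (hvy : v ≠ y) {G : Gr n}
    (h : chi u v x y G) (w : Fin n) :
    adj (sig u v x y G) v w ↔ if w = x ∨ w = y then ¬ adj G v w else adj G v w := by
  rw [sig_swap_left]
  exact adj_sig_u hvx hvy ((chi_swap_left u v x y G).1 h) w

/-- the switch acts as the transposition `(x y)` on `phi`. -/
theorem phi_sig {u v x y : Fin n} (_huv : u ≠ v) (hxy : x ≠ y) (hux : u ≠ x)
    (huy : u ≠ y) (hvx : v ≠ x) (hvy : v ≠ y) (H : Gr n) (hx : x ∈ ZZ u v H) (hy : y ∈ ZZ u v H) :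
    phi u v (sig u v x y H) = jtau (x, y) (phi u v H) := by
  by_cases hc : chi u v x y H
  · ext w
    rw [mem_jtau, mem_phi, mem_phi, adj_sig_u hux huy hc, adj_sig_v hvx hvy hc]
    show _ ↔ (Equiv.swap x y w ≠ v ∧ adj H u (Equiv.swap x y w) ∧ ¬ adj H v (Equiv.swap x y w))
    by_cases hwx : w = x
    · subst hwx
      rw [Equiv.swap_apply_left, if_pos (Or.inl rfl), if_pos (Or.inl rfl)]
      unfold chi at hc
      have a3 := hvx.symm
      have a4 := hvy.symm
      tauto
    · by_cases hwy : w = y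
      · subst hwy
        rw [Equiv.swap_apply_right, if_pos (Or.inr rfl), if_pos (Or.inr rfl)]
        unfold chi at hc
        have a3 := hvx.symm
        have a4 := hvy.symm
        tauto
      · rw [Equiv.swap_apply_of_ne_of_ne hwx hwy, if_neg (by tauto), if_neg (by tauto)]
  · rw [sig_of_not_chi hc]
    rw [chi_iff hux huy hvx hvy] at hc
    exact (jtau_of_not_jchi _ _ (fun h => hc ⟨hx, hy, h⟩)).symm

/-! ## surjectivity of `phi` on the fibre -/

theorem phi_surj_aux {d : Fin n → ℕ} {u v : Fin n} (huv : u ≠ v) {G : Gr n}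
    (hG : G ∈ realizations d) {S : Finset (Fin n)}
    (hS : S ∈ (ZZ u v G).powersetCard (phi u v G).card) :
    ∀ (m : ℕ) (H : Gr n), H ∈ fib d u v G → (S \ phi u v H).card = m →
      ∃ H' ∈ fib d u v G, phi u v H' = S := by
  obtain ⟨hS1, hS2⟩ := mem_powersetCard.1 hS
  intro m
  induction m with
  | zero =>
    intro H hH hm
    refine ⟨H, hH, ?_⟩
    rw [card_eq_zero, sdiff_eq_empty_iff_subset] at hm
    exact (eq_of_subset_of_card_le hm (by rw [card_phi_eq huv hG hH, hS2])).symm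
  | succ m ih =>
    intro H hH hm
    have hHr := (mem_fib.1 hH).1
    have hne : (S \ phi u v H).Nonempty := by rw [← card_pos, hm]; exact Nat.succ_pos m
    obtain ⟨y, hy⟩ := hne
    rw [mem_sdiff] at hy
    have hex : ∃ x ∈ phi u v H, x ∉ S := by
      by_contra hcon
      simp only [not_exists, not_and, not_not] at hcon
      have hsub : phi u v H ⊆ S := hcon
      have := eq_of_subset_of_card_le hsub (by rw [card_phi_eq huv hG hH, hS2])
      exact hy.2 (this ▸ hy.1)
    obtain ⟨x, hx, hxS⟩ := hex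
    have hxy : x ≠ y := by rintro rfl; exact hxS hy.1
    have hZ := ZZ_eq huv hG hH
    have hxZ : x ∈ ZZ u v H := phi_subset_ZZ u v H hx
    have hyZ : y ∈ ZZ u v H := hZ ▸ hS1 hy.1
    have hx' := (mem_ZZ u v H x).1 hxZ
    have hy' := (mem_ZZ u v H y).1 hyZ
    have hphi := phi_sig huv hxy hx'.1.symm hy'.1.symm hx'.2.1.symm hy'.2.1.symm H hxZ hyZ
    rw [jtau_eq_insert_erase x y _ hx hy.2] at hphi
    have hmem : sig u v x y H ∈ fib d u v G := by
      rw [← fib_eq_of_mem hH]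
      exact sig_mem_fib huv hxy hx'.1.symm hy'.1.symm hx'.2.1.symm hy'.2.1.symm hHr
    refine ih (sig u v x y H) hmem ?_
    rw [hphi]
    have : S \ insert y ((phi u v H).erase x) = (S \ phi u v H).erase y := by
      ext w
      simp only [mem_sdiff, mem_insert, mem_erase, not_or, not_and]
      constructor
      · rintro ⟨h1, h2, h3⟩
        refine ⟨h2, h1, fun h4 => ?_⟩
        by_cases hwx : w = x
        · subst hwx; exact hxS h1
        · exact h3 hwx h4
      · rintro ⟨h1, h2, h3⟩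
        exact ⟨h2, h1, fun _ h4 => h3 h4⟩
    rw [this, card_erase_of_mem (mem_sdiff.2 hy), hm]
    rfl

theorem phi_surj {d : Fin n → ℕ} {u v : Fin n} (huv : u ≠ v) {G : Gr n}
    (hG : G ∈ realizations d) {S : Finset (Fin n)}
    (hS : S ∈ (ZZ u v G).powersetCard (phi u v G).card) :
    ∃ H ∈ fib d u v G, phi u v H = S :=
  phi_surj_aux huv hG hS _ G (self_mem_fib u v hG) rfl

theorem psi_spec {d : Fin n → ℕ} {u v : Fin n} (huv : u ≠ v) {G : Gr n} (hG : G ∈ realizations d)
    {S : Finset (Fin n)} (hS : S ∈ (ZZ u v G).powersetCard (phi u v G).card) :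
    psi d u v G S ∈ fib d u v G ∧ phi u v (psi d u v G S) = S := by
  have h := phi_surj huv hG hS
  unfold psi
  rw [dif_pos h]
  exact h.choose_spec

theorem psi_mem {d : Fin n → ℕ} {u v : Fin n} (huv : u ≠ v) {G : Gr n} (hG : G ∈ realizations d)
    {S : Finset (Fin n)} (hS : S ∈ (ZZ u v G).powersetCard (phi u v G).card) :
    psi d u v G S ∈ fib d u v G := (psi_spec huv hG hS).1

theorem phi_psi {d : Fin n → ℕ} {u v : Fin n} (huv : u ≠ v) {G : Gr n} (hG : G ∈ realizations d)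
    {S : Finset (Fin n)} (hS : S ∈ (ZZ u v G).powersetCard (phi u v G).card) :
    phi u v (psi d u v G S) = S := (psi_spec huv hG hS).2

theorem psi_phi {d : Fin n → ℕ} {u v : Fin n} (huv : u ≠ v) {G H : Gr n} (hG : G ∈ realizations d)
    (hH : H ∈ fib d u v G) : psi d u v G (phi u v H) = H :=
  phi_inj huv hG (psi_mem huv hG (phi_mem huv hG hH)) hH (phi_psi huv hG (phi_mem huv hG hH))

/-- the fibre is the injective image of the Johnson model. -/
theorem fib_eq_image {d : Fin n → ℕ} {u v : Fin n} (huv : u ≠ v) {G : Gr n}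
    (hG : G ∈ realizations d) :
    fib d u v G = ((ZZ u v G).powersetCard (phi u v G).card).image (psi d u v G) := by
  ext H
  rw [mem_image]
  constructor
  · intro hH
    exact ⟨phi u v H, phi_mem huv hG hH, psi_phi huv hG hH⟩
  · rintro ⟨S, hS, rfl⟩
    exact psi_mem huv hG hS

theorem psi_injOn {d : Fin n → ℕ} {u v : Fin n} (huv : u ≠ v) {G : Gr n}
    (hG : G ∈ realizations d) :
    Set.InjOn (psi d u v G)
      ((ZZ u v G).powersetCard (phi u v G).card : Finset (Finset (Fin n))) := by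
  intro S hS S' hS' h
  rw [← phi_psi huv hG hS, ← phi_psi huv hG hS', h]

/-- sums over the fibre are sums over the Johnson model. -/
theorem sum_fib {d : Fin n → ℕ} {u v : Fin n} (huv : u ≠ v) {G : Gr n}
    (hG : G ∈ realizations d) (F : Gr n → ℝ) :
    ∑ H ∈ fib d u v G, F H =
      ∑ S ∈ (ZZ u v G).powersetCard (phi u v G).card, F (psi d u v G S) := by
  rw [fib_eq_image huv hG, sum_image (psi_injOn huv hG)]

theorem card_fib {d : Fin n → ℕ} {u v : Fin n} (huv : u ≠ v) {G : Gr n}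
    (hG : G ∈ realizations d) :
    (fib d u v G).card = ((ZZ u v G).powersetCard (phi u v G).card).card := by
  rw [fib_eq_image huv hG, card_image_of_injOn (psi_injOn huv hG)]

theorem sig_psi {d : Fin n → ℕ} {u v x y : Fin n} (huv : u ≠ v) (hxy : x ≠ y) {G : Gr n}
    (hG : G ∈ realizations d) (hx : x ∈ ZZ u v G) (hy : y ∈ ZZ u v G)
    {S : Finset (Fin n)} (hS : S ∈ (ZZ u v G).powersetCard (phi u v G).card) :
    sig u v x y (psi d u v G S) = psi d u v G (jtau (x, y) S) := by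
  have hH := psi_mem huv hG hS
  have hZ := ZZ_eq huv hG hH
  have hx' := (mem_ZZ u v G x).1 hx
  have hy' := (mem_ZZ u v G y).1 hy
  have hmem : sig u v x y (psi d u v G S) ∈ fib d u v G := by
    rw [← fib_eq_of_mem hH]
    exact sig_mem_fib huv hxy hx'.1.symm hy'.1.symm hx'.2.1.symm hy'.2.1.symm (mem_fib.1 hH).1
  have hxH : x ∈ ZZ u v (psi d u v G S) := by rw [hZ]; exact hx
  have hyH : y ∈ ZZ u v (psi d u v G S) := by rw [hZ]; exact hy
  have h1 : phi u v (sig u v x y (psi d u v G S)) = jtau (x, y) S := by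
    rw [phi_sig huv hxy hx'.1.symm hy'.1.symm hx'.2.1.symm hy'.2.1.symm _ hxH hyH, phi_psi huv hG hS]
  calc sig u v x y (psi d u v G S) = psi d u v G (phi u v (sig u v x y (psi d u v G S))) :=
        (psi_phi huv hG hmem).symm
    _ = psi d u v G (jtau (x, y) S) := by rw [h1]

theorem chi_psi {d : Fin n → ℕ} {u v x y : Fin n} (huv : u ≠ v) (hux : u ≠ x)
    (huy : u ≠ y) (hvx : v ≠ x) (hvy : v ≠ y) {G : Gr n}
    (hG : G ∈ realizations d)
    {S : Finset (Fin n)} (hS : S ∈ (ZZ u v G).powersetCard (phi u v G).card) :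
    chi u v x y (psi d u v G S) ↔ x ∈ ZZ u v G ∧ y ∈ ZZ u v G ∧ jchi (x, y) S := by
  rw [chi_iff hux huy hvx hvy, ZZ_eq huv hG (psi_mem huv hG hS), phi_psi huv hG hS]

/-- sums over the part of the fibre where the switch is available. -/
theorem sum_fib_chi {d : Fin n → ℕ} {u v x y : Fin n} (huv : u ≠ v) (hux : u ≠ x)
    (huy : u ≠ y) (hvx : v ≠ x) (hvy : v ≠ y) {G : Gr n}
    (hG : G ∈ realizations d) (hx : x ∈ ZZ u v G) (hy : y ∈ ZZ u v G) (F : Gr n → ℝ) :
    ∑ H ∈ (fib d u v G).filter (fun H => chi u v x y H), F H =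
      ∑ S ∈ ((ZZ u v G).powersetCard (phi u v G).card).filter (jchi (x, y)),
        F (psi d u v G S) := by
  rw [sum_filter, sum_fib huv hG, sum_filter]
  refine sum_congr rfl fun S hS => ?_
  have := chi_psi huv hux huy hvx hvy hG hS
  by_cases hj : jchi (x, y) S
  · rw [if_pos (this.2 ⟨hx, hy, hj⟩), if_pos hj]
  · rw [if_neg (fun h => hj (this.1 h).2.2), if_neg hj]

theorem card_fib_chi {d : Fin n → ℕ} {u v x y : Fin n} (huv : u ≠ v) (hux : u ≠ x)
    (huy : u ≠ y) (hvx : v ≠ x) (hvy : v ≠ y) {G : Gr n}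
    (hG : G ∈ realizations d) (hx : x ∈ ZZ u v G) (hy : y ∈ ZZ u v G) :
    (((fib d u v G).filter (fun H => chi u v x y H)).card : ℝ) =
      ((((ZZ u v G).powersetCard (phi u v G).card).filter (jchi (x, y))).card : ℝ) := by
  have := sum_fib_chi huv hux huy hvx hvy hG hx hy (fun _ => (1 : ℝ))
  simpa using this

/-- the switch is not available anywhere on the fibre if `x` or `y` is not in `ZZ`. -/
theorem not_chi_of_not_mem {d : Fin n → ℕ} {u v x y : Fin n} (huv : u ≠ v) (hux : u ≠ x)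
    (huy : u ≠ y) (hvx : v ≠ x) (hvy : v ≠ y) {G H : Gr n}
    (hG : G ∈ realizations d) (hH : H ∈ fib d u v G) (h : ¬ (x ∈ ZZ u v G ∧ y ∈ ZZ u v G)) :
    ¬ chi u v x y H := by
  rw [chi_iff hux huy hvx hvy, ZZ_eq huv hG hH]
  tauto

/-! ## further properties of the switch -/

theorem chi_sig {u v x y : Fin n} (hux : u ≠ x) (huy : u ≠ y) (hvx : v ≠ x) (hvy : v ≠ y)
    (G : Gr n) : chi u v x y (sig u v x y G) ↔ chi u v x y G := by
  by_cases hc : chi u v x y G
  · have h1 := adj_sig_u hux huy hc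
    have h2 := adj_sig_v hvx hvy hc
    have e1 := h1 x
    have e2 := h1 y
    have e3 := h2 x
    have e4 := h2 y
    rw [if_pos (Or.inl rfl)] at e1 e3
    rw [if_pos (Or.inr rfl)] at e2 e4
    unfold chi at hc ⊢
    rw [e1, e2, e3, e4]
    tauto
  · rw [sig_of_not_chi hc]

theorem sig_sig {u v x y : Fin n} (hux : u ≠ x) (huy : u ≠ y) (hvx : v ≠ x) (hvy : v ≠ y)
    (G : Gr n) : sig u v x y (sig u v x y G) = G := by
  by_cases hc : chi u v x y G
  · rw [sig_of_chi ((chi_sig hux huy hvx hvy G).2 hc), sig_of_chi hc]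
    ext e
    simp only [mem_symmDiff]
    tauto
  · rw [sig_of_not_chi hc, sig_of_not_chi hc]

theorem sig_ne_of_chi {u v x y : Fin n} (hux : u ≠ x) (huy : u ≠ y) {G : Gr n}
    (hc : chi u v x y G) : sig u v x y G ≠ G := by
  intro h
  have e1 := adj_sig_u hux huy hc x
  rw [if_pos (Or.inl rfl), h] at e1
  tauto

/-! ## a generic fibrewise comparison -/

/-- to compare two sums over `Ω` it suffices to compare them on every class. -/
theorem sum_le_sum_of_cls {α κ : Type*} [DecidableEq κ] (Ω : Finset α) (k : α → κ) (a b : α → ℝ)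
    (h : ∀ G ∈ Ω, ∑ H ∈ cls Ω k G, a H ≤ ∑ H ∈ cls Ω k G, b H) :
    ∑ G ∈ Ω, a G ≤ ∑ G ∈ Ω, b G := by
  classical
  have key : ∀ c : α → ℝ, ∑ G ∈ Ω, c G = ∑ G ∈ Ω, Av Ω k c G := by
    intro c
    have h1 := Av_selfadj Ω k c (fun _ => 1)
    have h2 : ip Ω c (Av Ω k fun _ => 1) = ip Ω c (fun _ => 1) :=
      ip_congr Ω (fun _ _ => rfl) fun x hx => Av_const Ω k 1 hx
    rw [h2] at h1
    simpa [ip] using h1.symm
  rw [key a, key b]
  refine sum_le_sum fun G hG => ?_
  unfold Av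
  exact div_le_div_of_nonneg_right (h G hG) (card_cls_pos Ω k hG).le

end Crest.Agent.R299.PF
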