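import Crest.Agent.R299.Adj
import Crest.Agent.R299.Block
import Crest.Agent.R299.JohnsonDefs

/-!
# R299 (S0453): the pair fibre `blk d (tch {u,v}) G` is a Johnson model
-/

set_option autoImplicit false
open Finset
open Crest.SwitchChain

namespace Crest.Agent.R299.PFB

variable {n : ℕ}

/-- the free columns of the pair `u, v`: vertices adjacent to exactly one of `u, v`. -/
def Zs (G : Gr n) (u v : Fin n) : Finset (Fin n) :=
  univ.filter fun w => w ≠ u ∧ w ≠ v ∧ ¬ (adj G u w ↔ adj G v w)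

/-- the share of `u`. -/
def Ss (G : Gr n) (u v : Fin n) : Finset (Fin n) := (Zs G u v).filter fun w => adj G u w

theorem mem_Zs {G : Gr n} {u v w : Fin n} :
    w ∈ Zs G u v ↔ w ≠ u ∧ w ≠ v ∧ ¬ (adj G u w ↔ adj G v w) := by
  simp [Zs]

theorem mem_Ss {G : Gr n} {u v w : Fin n} : w ∈ Ss G u v ↔ w ∈ Zs G u v ∧ adj G u w := by
  simp [Ss]

theorem Ss_subset (G : Gr n) (u v : Fin n) : Ss G u v ⊆ Zs G u v := Finset.filter_subset _ _

/-- the relation defining `psi`. -/
def rel (G : Gr n) (u v : Fin n) (S : Finset (Fin n)) (a b : Fin n) : Prop :=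
  (a = u ∧ b ∈ Zs G u v ∧ b ∈ S) ∨ (b = u ∧ a ∈ Zs G u v ∧ a ∈ S) ∨
  (a = v ∧ b ∈ Zs G u v ∧ b ∉ S) ∨ (b = v ∧ a ∈ Zs G u v ∧ a ∉ S) ∨
  (adj G a b ∧ ¬ ((a = u ∨ a = v) ∧ b ∈ Zs G u v) ∧ ¬ ((b = u ∨ b = v) ∧ a ∈ Zs G u v))

instance (G : Gr n) (u v : Fin n) (S : Finset (Fin n)) : DecidableRel (rel G u v S) :=
  fun a b => by unfold rel; infer_instance

theorem rel_symm (G : Gr n) (u v : Fin n) (S : Finset (Fin n)) (a b : Fin n)
    (h : rel G u v S a b) : rel G u v S b a := by
  unfold rel at *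
  rcases h with h | h | h | h | h
  · exact Or.inr (Or.inl h)
  · exact Or.inl h
  · exact Or.inr (Or.inr (Or.inr (Or.inl h)))
  · exact Or.inr (Or.inr (Or.inl h))
  · exact Or.inr (Or.inr (Or.inr (Or.inr ⟨(adj_comm G a b).1 h.1, h.2.2, h.2.1⟩)))

/-- the graph in the `{u,v}`-fibre of `G` in which `u` takes the share `S ⊆ Zs G u v`. -/
def psi (G : Gr n) (u v : Fin n) (S : Finset (Fin n)) : Gr n := ofAdj (rel G u v S)

theorem adj_psi (G : Gr n) (u v : Fin n) (S : Finset (Fin n)) (a b : Fin n) :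
    adj (psi G u v S) a b ↔ a ≠ b ∧ rel G u v S a b :=
  adj_ofAdj _ (rel_symm G u v S) a b

theorem adj_psi_u (G : Gr n) {u v : Fin n} (huv : u ≠ v) (S : Finset (Fin n)) (w : Fin n) :
    adj (psi G u v S) u w ↔ (w ∈ Zs G u v ∧ w ∈ S) ∨ (w ∉ Zs G u v ∧ adj G u w) := by
  rw [adj_psi]
  unfold rel
  have hu : u ∉ Zs G u v := fun h => (mem_Zs.1 h).1 rfl
  constructor
  · rintro ⟨-, h⟩
    rcases h with h | h | h | h | h
    · exact Or.inl h.2
    · exact absurd h.2.1 hu
    · exact absurd h.1 huv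
    · exact absurd h.2.1 hu
    · refine Or.inr ⟨fun hw => h.2.1 ⟨Or.inl rfl, hw⟩, h.1⟩
  · rintro (h | h)
    · exact ⟨fun e => (mem_Zs.1 h.1).1 e.symm, Or.inl ⟨rfl, h⟩⟩
    · refine ⟨adj_ne h.2, Or.inr (Or.inr (Or.inr (Or.inr ⟨h.2, fun e => h.1 e.2, fun e => hu e.2⟩)))⟩

theorem adj_psi_v (G : Gr n) {u v : Fin n} (huv : u ≠ v) (S : Finset (Fin n)) (w : Fin n) :
    adj (psi G u v S) v w ↔ (w ∈ Zs G u v ∧ w ∉ S) ∨ (w ∉ Zs G u v ∧ adj G v w) := by
  rw [adj_psi]
  unfold rel
  have hv : v ∉ Zs G u v := fun h => (mem_Zs.1 h).2.1 rfl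
  constructor
  · rintro ⟨-, h⟩
    rcases h with h | h | h | h | h
    · exact absurd h.1.symm huv
    · exact absurd h.2.1 hv
    · exact Or.inl h.2
    · exact absurd h.2.1 hv
    · refine Or.inr ⟨fun hw => h.2.1 ⟨Or.inr rfl, hw⟩, h.1⟩
  · rintro (h | h)
    · exact ⟨fun e => (mem_Zs.1 h.1).2.1 e.symm, Or.inr (Or.inr (Or.inl ⟨rfl, h⟩))⟩
    · refine ⟨adj_ne h.2, Or.inr (Or.inr (Or.inr (Or.inr ⟨h.2, fun e => h.1 e.2, fun e => hv e.2⟩)))⟩

theorem adj_psi_off (G : Gr n) (u v : Fin n) (S : Finset (Fin n)) {a b : Fin n}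
    (hau : a ≠ u) (hav : a ≠ v) (hbu : b ≠ u) (hbv : b ≠ v) :
    adj (psi G u v S) a b ↔ adj G a b := by
  rw [adj_psi]
  unfold rel
  constructor
  · rintro ⟨-, h⟩
    rcases h with h | h | h | h | h
    · exact absurd h.1 hau
    · exact absurd h.1 hbu
    · exact absurd h.1 hav
    · exact absurd h.1 hbv
    · exact h.1
  · intro h
    refine ⟨adj_ne h, Or.inr (Or.inr (Or.inr (Or.inr ⟨h, ?_, ?_⟩)))⟩
    · rintro ⟨h1 | h1, -⟩
      · exact hau h1
      · exact hav h1
    · rintro ⟨h1 | h1, -⟩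
      · exact hbu h1
      · exact hbv h1

/-- extensionality adapted to a pair `u, v`. -/
theorem ext_pair {G H : Gr n} (u v : Fin n)
    (hu : ∀ w, adj G u w ↔ adj H u w) (hv : ∀ w, adj G v w ↔ adj H v w)
    (hoff : ∀ a b, a ≠ u → a ≠ v → b ≠ u → b ≠ v → (adj G a b ↔ adj H a b)) : G = H := by
  apply gr_ext
  intro a b
  by_cases hau : a = u
  · subst hau; exact hu b
  by_cases hav : a = v
  · subst hav; exact hv b
  by_cases hbu : b = u
  · subst hbu; rw [adj_comm G, adj_comm H]; exact hu a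
  by_cases hbv : b = v
  · subst hbv; rw [adj_comm G, adj_comm H]; exact hv a
  exact hoff a b hau hav hbu hbv

theorem psi_Ss (G : Gr n) {u v : Fin n} (huv : u ≠ v) : psi G u v (Ss G u v) = G := by
  apply ext_pair u v
  · intro w
    rw [adj_psi_u G huv, mem_Ss]
    tauto
  · intro w
    rw [adj_psi_v G huv, mem_Ss]
    by_cases hw : w ∈ Zs G u v
    · have := (mem_Zs.1 hw).2.2
      tauto
    · tauto
  · intro a b hau hav hbu hbv
    exact adj_psi_off G u v _ hau hav hbu hbv

theorem psi_injOn (G : Gr n) {u v : Fin n} (huv : u ≠ v) :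
    Set.InjOn (psi G u v) {S | S ⊆ Zs G u v} := by
  intro S hS S' hS' h
  ext w
  have h1 := adj_psi_u G huv S w
  have h2 := adj_psi_u G huv S' w
  rw [h] at h1
  have hS1 : w ∈ S → w ∈ Zs G u v := fun hw => hS hw
  have hS2 : w ∈ S' → w ∈ Zs G u v := fun hw => hS' hw
  tauto

theorem psi_sdiff_tch (G : Gr n) (u v : Fin n) (S : Finset (Fin n)) :
    psi G u v S \ tch {u, v} = G \ tch {u, v} := by
  rw [sdiff_tch_eq_iff]
  intro a b ha hb
  simp only [Finset.mem_insert, Finset.mem_singleton, not_or] at ha hb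
  exact adj_psi_off G u v S ha.1 ha.2 hb.1 hb.2


/-! ### degrees of `psi` -/

theorem nb_u_split (G : Gr n) (u v : Fin n) : nb G u = Ss G u v ∪ (nb G u \ Zs G u v) := by
  ext w
  simp only [mem_nb, Finset.mem_union, Finset.mem_sdiff, mem_Ss]
  tauto

theorem nb_v_split (G : Gr n) (u v : Fin n) :
    nb G v = (Zs G u v \ Ss G u v) ∪ (nb G v \ Zs G u v) := by
  ext w
  simp only [mem_nb, Finset.mem_union, Finset.mem_sdiff, mem_Ss]
  by_cases hw : w ∈ Zs G u v
  · have := (mem_Zs.1 hw).2.2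
    tauto
  · tauto

theorem nb_psi_u (G : Gr n) {u v : Fin n} (huv : u ≠ v) {S : Finset (Fin n)}
    (hS : S ⊆ Zs G u v) : nb (psi G u v S) u = S ∪ (nb G u \ Zs G u v) := by
  ext w
  simp only [mem_nb, Finset.mem_union, Finset.mem_sdiff, adj_psi_u G huv]
  have : w ∈ S → w ∈ Zs G u v := fun h => hS h
  tauto

theorem nb_psi_v (G : Gr n) {u v : Fin n} (huv : u ≠ v) (S : Finset (Fin n)) :
    nb (psi G u v S) v = (Zs G u v \ S) ∪ (nb G v \ Zs G u v) := by
  ext w
  simp only [mem_nb, Finset.mem_union, Finset.mem_sdiff, adj_psi_v G huv]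
  tauto

theorem deg_psi_u (G : Gr n) {u v : Fin n} (huv : u ≠ v) {S : Finset (Fin n)}
    (hS : S ⊆ Zs G u v) (hc : S.card = (Ss G u v).card) : deg (psi G u v S) u = deg G u := by
  rw [deg_eq_card_nb, deg_eq_card_nb, nb_psi_u G huv hS]
  conv_rhs => rw [nb_u_split G u v]
  rw [Finset.card_union_of_disjoint, Finset.card_union_of_disjoint, hc]
  · exact Finset.disjoint_of_subset_left (Ss_subset G u v) Finset.disjoint_sdiff
  · exact Finset.disjoint_of_subset_left hS Finset.disjoint_sdiff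

theorem deg_psi_v (G : Gr n) {u v : Fin n} (huv : u ≠ v) {S : Finset (Fin n)}
    (hS : S ⊆ Zs G u v) (hc : S.card = (Ss G u v).card) : deg (psi G u v S) v = deg G v := by
  rw [deg_eq_card_nb, deg_eq_card_nb, nb_psi_v G huv]
  conv_rhs => rw [nb_v_split G u v]
  rw [Finset.card_union_of_disjoint, Finset.card_union_of_disjoint,
    Finset.card_sdiff_of_subset hS, Finset.card_sdiff_of_subset (Ss_subset G u v), hc]
  · exact Finset.disjoint_of_subset_left Finset.sdiff_subset Finset.disjoint_sdiff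
  · exact Finset.disjoint_of_subset_left Finset.sdiff_subset Finset.disjoint_sdiff

theorem card_nb_of_swap {G H : Gr n} {u v w : Fin n}
    (h : ∀ c, adj H w c ↔ adj G w (Equiv.swap u v c)) : (nb H w).card = (nb G w).card := by
  have : nb H w = (nb G w).image (Equiv.swap u v) := by
    ext c
    rw [mem_nb, h c, Finset.mem_image]
    constructor
    · intro hc
      exact ⟨_, (mem_nb _ _ _).2 hc, by simp⟩
    · rintro ⟨c', hc', rfl⟩
      simpa using hc'
  rw [this, Finset.card_image_of_injective _ (Equiv.injective _)]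

theorem card_nb_of_same {G H : Gr n} {w : Fin n}
    (h : ∀ c, adj H w c ↔ adj G w c) : (nb H w).card = (nb G w).card := by
  have : nb H w = nb G w := by
    ext c; rw [mem_nb, mem_nb, h c]
  rw [this]

theorem deg_psi_off (G : Gr n) {u v : Fin n} (huv : u ≠ v) (S : Finset (Fin n)) {w : Fin n}
    (hwu : w ≠ u) (hwv : w ≠ v) : deg (psi G u v S) w = deg G w := by
  rw [deg_eq_card_nb, deg_eq_card_nb]
  have hu := adj_psi_u G huv S w
  have hv := adj_psi_v G huv S w
  by_cases hsame : w ∈ Zs G u v ∧ ¬ (w ∈ S ↔ adj G u w)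
  · -- swapped
    apply card_nb_of_swap (u := u) (v := v)
    intro c
    have hz := (mem_Zs.1 hsame.1).2.2
    by_cases hcu : c = u
    · subst hcu
      rw [Equiv.swap_apply_left, adj_comm _ w c, adj_comm _ w v]
      tauto
    by_cases hcv : c = v
    · subst hcv
      rw [Equiv.swap_apply_right, adj_comm _ w c, adj_comm _ w u]
      tauto
    rw [Equiv.swap_apply_of_ne_of_ne hcu hcv]
    exact adj_psi_off G u v S hwu hwv hcu hcv
  · apply card_nb_of_same
    intro c
    by_cases hcu : c = u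
    · subst hcu
      rw [adj_comm _ w c, adj_comm _ w c]
      tauto
    by_cases hcv : c = v
    · subst hcv
      rw [adj_comm _ w c, adj_comm _ w c]
      by_cases hw : w ∈ Zs G u c
      · have hz := (mem_Zs.1 hw).2.2
        tauto
      · tauto
    exact adj_psi_off G u v S hwu hwv hcu hcv

theorem psi_mem_realizations {d : Fin n → ℕ} {G : Gr n} (hG : G ∈ realizations d) {u v : Fin n}
    (huv : u ≠ v) {S : Finset (Fin n)} (hS : S ∈ (Zs G u v).powersetCard (Ss G u v).card) :
    psi G u v S ∈ realizations d := by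
  rw [Finset.mem_powersetCard] at hS
  rw [mem_realizations] at hG ⊢
  intro w
  rw [← hG w]
  by_cases hwu : w = u
  · subst hwu; exact deg_psi_u G huv hS.1 hS.2
  by_cases hwv : w = v
  · subst hwv; exact deg_psi_v G huv hS.1 hS.2
  exact deg_psi_off G huv S hwu hwv

theorem psi_mem_blk {d : Fin n → ℕ} {G : Gr n} (hG : G ∈ realizations d) {u v : Fin n}
    (huv : u ≠ v) {S : Finset (Fin n)} (hS : S ∈ (Zs G u v).powersetCard (Ss G u v).card) :
    psi G u v S ∈ blk d (tch {u, v}) G :=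
  mem_blk.2 ⟨psi_mem_realizations hG huv hS, psi_sdiff_tch G u v S⟩


/-! ### the converse: every element of the fibre is a `psi` -/

theorem deg_eq_sum (G : Gr n) (w : Fin n) :
    deg G w = ∑ c : Fin n, if adj G w c then 1 else 0 := by
  rw [deg_eq_card_nb, nb, Finset.card_filter]

theorem deg_split3 (G : Gr n) {u v : Fin n} (huv : u ≠ v) (w : Fin n) :
    deg G w = (if adj G w u then 1 else 0) + ((if adj G w v then 1 else 0) +
      ∑ c ∈ (univ.erase u).erase v, if adj G w c then 1 else 0) := by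
  rw [deg_eq_sum, ← Finset.add_sum_erase univ _ (Finset.mem_univ u),
    ← Finset.add_sum_erase (univ.erase u) _ (Finset.mem_erase.2 ⟨huv.symm, Finset.mem_univ v⟩)]

/-- hypotheses describing `H ∈ blk d (tch {u,v}) G`. -/
structure Fib (d : Fin n → ℕ) (G H : Gr n) (u v : Fin n) : Prop where
  huv : u ≠ v
  hG : G ∈ realizations d
  hH : H ∈ realizations d
  hoff : ∀ a b, a ≠ u → a ≠ v → b ≠ u → b ≠ v → (adj H a b ↔ adj G a b)

theorem fib_of_mem_blk {d : Fin n → ℕ} {G H : Gr n} {u v : Fin n} (huv : u ≠ v)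
    (hG : G ∈ realizations d) (hH : H ∈ blk d (tch {u, v}) G) : Fib d G H u v := by
  rw [mem_blk] at hH
  refine ⟨huv, hG, hH.1, ?_⟩
  intro a b hau hav hbu hbv
  refine (sdiff_tch_eq_iff H G {u, v}).1 hH.2 a b ?_ ?_
  · simp [hau, hav]
  · simp [hbu, hbv]

namespace Fib

variable {d : Fin n → ℕ} {G H : Gr n} {u v : Fin n}

theorem count (h : Fib d G H u v) {w : Fin n} (hwu : w ≠ u) (hwv : w ≠ v) :
    (if adj H u w then 1 else 0) + (if adj H v w then 1 else 0) =
      (if adj G u w then 1 else 0) + (if adj G v w then 1 else 0) := by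
  have h1 := deg_split3 H h.huv w
  have h2 := deg_split3 G h.huv w
  have h3 : deg H w = deg G w := by
    rw [(mem_realizations d H).1 h.hH w, (mem_realizations d G).1 h.hG w]
  have h4 : ∑ c ∈ (univ.erase u).erase v, (if adj H w c then 1 else 0) =
      ∑ c ∈ (univ.erase u).erase v, if adj G w c then 1 else 0 := by
    refine Finset.sum_congr rfl fun c hc => ?_
    have hc1 := Finset.mem_erase.1 hc
    have hc2 := Finset.mem_erase.1 hc1.2
    simp only [h.hoff w c hwu hwv hc2.1 hc1.1]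
  simp only [adj_comm H u w, adj_comm H v w, adj_comm G u w, adj_comm G v w]
  omega

theorem adj_uv (h : Fib d G H u v) : adj H u v ↔ adj G u v := by
  have h1 := deg_split3 H h.huv u
  have h2 := deg_split3 H h.huv v
  have h3 := deg_split3 G h.huv u
  have h4 := deg_split3 G h.huv v
  have h5 : deg H u = deg G u := by
    rw [(mem_realizations d H).1 h.hH u, (mem_realizations d G).1 h.hG u]
  have h6 : deg H v = deg G v := by
    rw [(mem_realizations d H).1 h.hH v, (mem_realizations d G).1 h.hG v]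
  have h7 : ∑ c ∈ (univ.erase u).erase v, (if adj H u c then 1 else 0) +
      ∑ c ∈ (univ.erase u).erase v, (if adj H v c then 1 else 0) =
      ∑ c ∈ (univ.erase u).erase v, (if adj G u c then 1 else 0) +
      ∑ c ∈ (univ.erase u).erase v, (if adj G v c then 1 else 0) := by
    rw [← Finset.sum_add_distrib, ← Finset.sum_add_distrib]
    refine Finset.sum_congr rfl fun c hc => ?_
    have hc1 := Finset.mem_erase.1 hc
    have hc2 := Finset.mem_erase.1 hc1.2
    exact h.count hc2.1 hc1.1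
  simp only [not_adj_self, if_false, adj_comm H v u, adj_comm G v u] at h1 h2 h3 h4
  by_cases a : adj H u v <;> by_cases b : adj G u v <;> simp only [a, b, if_true, if_false] at * <;>
    omega

theorem Zs_eq (h : Fib d G H u v) : Zs H u v = Zs G u v := by
  ext w
  rw [mem_Zs, mem_Zs]
  by_cases hwu : w = u
  · simp [hwu]
  by_cases hwv : w = v
  · simp [hwv]
  have := h.count hwu hwv
  by_cases a : adj H u w <;> by_cases b : adj H v w <;> by_cases c : adj G u w <;>
    by_cases e : adj G v w <;> simp [a, b, c, e, hwu, hwv] at this ⊢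

theorem adj_u_off (h : Fib d G H u v) {w : Fin n} (hw : w ∉ Zs G u v) :
    adj H u w ↔ adj G u w := by
  by_cases hwu : w = u
  · subst hwu; simp [not_adj_self]
  by_cases hwv : w = v
  · subst hwv; exact h.adj_uv
  have := h.count hwu hwv
  rw [mem_Zs] at hw
  by_cases a : adj H u w <;> by_cases b : adj H v w <;> by_cases c : adj G u w <;>
    by_cases e : adj G v w <;> simp [a, b, c, e, hwu, hwv] at this hw ⊢

theorem adj_v_off (h : Fib d G H u v) {w : Fin n} (hw : w ∉ Zs G u v) :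
    adj H v w ↔ adj G v w := by
  by_cases hwu : w = u
  · subst hwu; rw [adj_comm H, adj_comm G]; exact h.adj_uv
  by_cases hwv : w = v
  · subst hwv; simp [not_adj_self]
  have := h.count hwu hwv
  rw [mem_Zs] at hw
  by_cases a : adj H u w <;> by_cases b : adj H v w <;> by_cases c : adj G u w <;>
    by_cases e : adj G v w <;> simp [a, b, c, e, hwu, hwv] at this hw ⊢

theorem card_Ss (h : Fib d G H u v) : (Ss H u v).card = (Ss G u v).card := by
  have h5 : deg H u = deg G u := by
    rw [(mem_realizations d H).1 h.hH u, (mem_realizations d G).1 h.hG u]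
  rw [deg_eq_card_nb, deg_eq_card_nb, nb_u_split H u v, nb_u_split G u v,
    Finset.card_union_of_disjoint, Finset.card_union_of_disjoint] at h5
  · have : nb H u \ Zs H u v = nb G u \ Zs G u v := by
      rw [h.Zs_eq]
      ext w
      simp only [Finset.mem_sdiff, mem_nb]
      constructor
      · rintro ⟨a, b⟩; exact ⟨(h.adj_u_off b).1 a, b⟩
      · rintro ⟨a, b⟩; exact ⟨(h.adj_u_off b).2 a, b⟩
    rw [this] at h5
    omega
  · exact Finset.disjoint_of_subset_left (Ss_subset G u v) Finset.disjoint_sdiff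
  · exact Finset.disjoint_of_subset_left (Ss_subset H u v) Finset.disjoint_sdiff

theorem Ss_mem (h : Fib d G H u v) : Ss H u v ∈ (Zs G u v).powersetCard (Ss G u v).card := by
  rw [Finset.mem_powersetCard, ← h.Zs_eq]
  exact ⟨Ss_subset H u v, h.card_Ss⟩

theorem eq_psi (h : Fib d G H u v) : psi G u v (Ss H u v) = H := by
  apply ext_pair u v
  · intro w
    rw [adj_psi_u G h.huv, mem_Ss, h.Zs_eq]
    by_cases hw : w ∈ Zs G u v
    · tauto
    · have := h.adj_u_off hw
      tauto
  · intro w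
    rw [adj_psi_v G h.huv, mem_Ss, h.Zs_eq]
    by_cases hw : w ∈ Zs G u v
    · have hz : w ∈ Zs H u v := by rw [h.Zs_eq]; exact hw
      have := (mem_Zs.1 hz).2.2
      tauto
    · have := h.adj_v_off hw
      tauto
  · intro a b hau hav hbu hbv
    rw [adj_psi_off G u v _ hau hav hbu hbv]
    exact (h.hoff a b hau hav hbu hbv).symm

end Fib

/-- **PairFibre**: the `{u,v}`-block of `G` is the image of the Johnson model. -/
theorem blk_eq_image {d : Fin n → ℕ} {G : Gr n} (hG : G ∈ realizations d) {u v : Fin n}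
    (huv : u ≠ v) :
    blk d (tch {u, v}) G = ((Zs G u v).powersetCard (Ss G u v).card).image (psi G u v) := by
  ext H
  rw [Finset.mem_image]
  constructor
  · intro hH
    have h := fib_of_mem_blk huv hG hH
    exact ⟨Ss H u v, h.Ss_mem, h.eq_psi⟩
  · rintro ⟨S, hS, rfl⟩
    exact psi_mem_blk hG huv hS

theorem psi_injOn' (G : Gr n) {u v : Fin n} (huv : u ≠ v) (t : ℕ) :
    Set.InjOn (psi G u v) ((Zs G u v).powersetCard t : Finset (Finset (Fin n))) := by
  intro S hS S' hS' h
  exact psi_injOn G huv (Finset.mem_powersetCard.1 hS).1 (Finset.mem_powersetCard.1 hS').1 h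

/-- sums over the block = sums over the Johnson model. -/
theorem sum_blk {d : Fin n → ℕ} {G : Gr n} (hG : G ∈ realizations d) {u v : Fin n}
    (huv : u ≠ v) (F : Gr n → ℝ) :
    ∑ H ∈ blk d (tch {u, v}) G, F H =
      ∑ S ∈ (Zs G u v).powersetCard (Ss G u v).card, F (psi G u v S) := by
  rw [blk_eq_image hG huv, Finset.sum_image (psi_injOn' G huv _)]

theorem Ss_psi (G : Gr n) {u v : Fin n} (huv : u ≠ v) {S : Finset (Fin n)}
    : ∀ w, w ∈ Zs G u v → (adj (psi G u v S) u w ↔ w ∈ S) := by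
  intro w hw
  rw [adj_psi_u G huv]
  tauto

end Crest.Agent.R299.PFB
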