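import Crest.Agent.R299.T4Local

/-!
# R299 (S0453): toolbox for the `2 × 2` block `G ∩ Mx {u,v} {x,y}` in coordinates
-/

set_option autoImplicit false
open Finset
open Crest.SwitchChain

namespace Crest.Agent.R299.T4T

open Crest.Agent.R299

variable {n : ℕ}

/-- four pairwise distinct vertices `u v x y`. -/
structure D4 (u v x y : Fin n) : Prop where
  uv : u ≠ v
  xy : x ≠ y
  ux : u ≠ x
  uy : u ≠ y
  vx : v ≠ x
  vy : v ≠ y

/-- two disjoint pairs in coordinates. -/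
theorem exists_D4 (b b' : Finset (Fin n)) (hb : b.card = 2) (hb' : b'.card = 2)
    (hd : Disjoint b b') : ∃ u v x y, D4 u v x y ∧ b = {u, v} ∧ b' = {x, y} := by
  obtain ⟨u, v, huv, rfl⟩ := card_eq_two.1 hb
  obtain ⟨x, y, hxy, rfl⟩ := card_eq_two.1 hb'
  refine ⟨u, v, x, y, ⟨huv, hxy, ?_, ?_, ?_, ?_⟩, rfl, rfl⟩
  · rintro rfl; exact (disjoint_left.1 hd : ∀ ⦃a⦄, _ → _) (show u ∈ _ by simp) (by simp)
  · rintro rfl; exact (disjoint_left.1 hd : ∀ ⦃a⦄, _ → _) (show u ∈ _ by simp) (by simp)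
  · rintro rfl; exact (disjoint_left.1 hd : ∀ ⦃a⦄, _ → _) (show v ∈ _ by simp) (by simp)
  · rintro rfl; exact (disjoint_left.1 hd : ∀ ⦃a⦄, _ → _) (show v ∈ _ by simp) (by simp)

/-- indicator of an edge. -/
def ind (A : Gr n) (e : Edge n) : ℕ := if e ∈ A then 1 else 0

theorem ind_le_one (A : Gr n) (e : Edge n) : ind A e ≤ 1 := by
  unfold ind; split_ifs <;> omega

theorem ind_eq_one {A : Gr n} {e : Edge n} : ind A e = 1 ↔ e ∈ A := by
  unfold ind; split_ifs with h <;> simp [h]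

theorem ind_eq_zero {A : Gr n} {e : Edge n} : ind A e = 0 ↔ e ∉ A := by
  unfold ind; split_ifs with h <;> simp [h]

theorem mem_iff_of_ind_eq {A B : Gr n} {e : Edge n} (h : ind A e = ind B e) : e ∈ A ↔ e ∈ B := by
  unfold ind at h
  by_cases h1 : e ∈ A <;> by_cases h2 : e ∈ B <;> simp_all

variable {u v x y : Fin n}

theorem Mx_eq (h : D4 u v x y) :
    Mx {u, v} {x, y} = {mkE u x h.ux, mkE u y h.uy, mkE v x h.vx, mkE v y h.vy} := by
  obtain ⟨huv, hxy, hux, huy, hvx, hvy⟩ := h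
  ext e
  obtain ⟨a, c, hac, rfl⟩ := edge_exists e
  simp only [Mx, mem_inter, mkE_mem_tch, mem_insert, mem_singleton, mkE_eq_iff]
  constructor
  · rintro ⟨(rfl | rfl) | (rfl | rfl), (rfl | rfl) | (rfl | rfl)⟩ <;> simp_all
  · intro h
    rcases h with (⟨h1, h2⟩ | ⟨h1, h2⟩) | (⟨h1, h2⟩ | ⟨h1, h2⟩) | (⟨h1, h2⟩ | ⟨h1, h2⟩) |
      (⟨h1, h2⟩ | ⟨h1, h2⟩) <;> simp [h1, h2]

theorem sum_Mx (h : D4 u v x y) (φ : Edge n → ℕ) :
    ∑ e ∈ Mx {u, v} {x, y}, φ e =
      φ (mkE u x h.ux) + φ (mkE u y h.uy) + φ (mkE v x h.vx) + φ (mkE v y h.vy) := by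
  rw [Mx_eq h]
  obtain ⟨huv, hxy, hux, huy, hvx, hvy⟩ := h
  rw [sum_insert, sum_insert, sum_insert, sum_singleton]
  · ring
  · simp only [mem_singleton, mkE_eq_iff]; tauto
  · simp only [mem_insert, mem_singleton, mkE_eq_iff]; tauto
  · simp only [mem_insert, mem_singleton, mkE_eq_iff]; tauto

theorem card_inter_Mx (h : D4 u v x y) (A : Gr n) :
    (A ∩ Mx {u, v} {x, y}).card =
      ind A (mkE u x h.ux) + ind A (mkE u y h.uy) + ind A (mkE v x h.vx) + ind A (mkE v y h.vy) := by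
  rw [← sum_Mx h (ind A), inter_comm, ← filter_mem_eq_inter, card_filter]
  rfl

theorem deg_inter_Mx (h : D4 u v x y) (A : Gr n) (w : Fin n) :
    deg (A ∩ Mx {u, v} {x, y}) w =
      (if w = u ∨ w = x then ind A (mkE u x h.ux) else 0) +
      (if w = u ∨ w = y then ind A (mkE u y h.uy) else 0) +
      (if w = v ∨ w = x then ind A (mkE v x h.vx) else 0) +
      (if w = v ∨ w = y then ind A (mkE v y h.vy) else 0) := by
  have h1 : deg (A ∩ Mx {u, v} {x, y}) w =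
      ∑ e ∈ Mx {u, v} {x, y}, (if w ∈ e.1 then ind A e else 0) := by
    unfold deg
    rw [inter_comm, ← filter_mem_eq_inter, filter_filter, card_filter]
    refine sum_congr rfl fun e _ => ?_
    unfold ind
    by_cases h1 : e ∈ A <;> by_cases h2 : w ∈ e.1 <;> simp [h1, h2]
  rw [h1, sum_Mx h]
  simp only [mem_mkE]

theorem deg_u (h : D4 u v x y) (A : Gr n) :
    deg (A ∩ Mx {u, v} {x, y}) u = ind A (mkE u x h.ux) + ind A (mkE u y h.uy) := by
  rw [deg_inter_Mx h]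
  obtain ⟨huv, hxy, hux, huy, hvx, hvy⟩ := h
  simp [huv, hux, huy]

theorem deg_v (h : D4 u v x y) (A : Gr n) :
    deg (A ∩ Mx {u, v} {x, y}) v = ind A (mkE v x h.vx) + ind A (mkE v y h.vy) := by
  rw [deg_inter_Mx h]
  obtain ⟨huv, hxy, hux, huy, hvx, hvy⟩ := h
  simp [huv.symm, hvx, hvy]

theorem deg_x (h : D4 u v x y) (A : Gr n) :
    deg (A ∩ Mx {u, v} {x, y}) x = ind A (mkE u x h.ux) + ind A (mkE v x h.vx) := by
  rw [deg_inter_Mx h]
  obtain ⟨huv, hxy, hux, huy, hvx, hvy⟩ := h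
  simp [hxy, hux.symm, hvx.symm]

theorem deg_y (h : D4 u v x y) (A : Gr n) :
    deg (A ∩ Mx {u, v} {x, y}) y = ind A (mkE u y h.uy) + ind A (mkE v y h.vy) := by
  rw [deg_inter_Mx h]
  obtain ⟨huv, hxy, hux, huy, hvx, hvy⟩ := h
  simp [hxy.symm, huy.symm, hvy.symm]

theorem deg_other (h : D4 u v x y) (A : Gr n) {w : Fin n} (hu : w ≠ u) (hv : w ≠ v) (hx : w ≠ x)
    (hy : w ≠ y) : deg (A ∩ Mx {u, v} {x, y}) w = 0 := by
  rw [deg_inter_Mx h]
  simp [hu, hv, hx, hy]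

/-- two graphs with the same four indicators have the same `2 × 2` block. -/
theorem inter_Mx_eq (h : D4 u v x y) {A B : Gr n}
    (h1 : ind A (mkE u x h.ux) = ind B (mkE u x h.ux))
    (h2 : ind A (mkE u y h.uy) = ind B (mkE u y h.uy))
    (h3 : ind A (mkE v x h.vx) = ind B (mkE v x h.vx))
    (h4 : ind A (mkE v y h.vy) = ind B (mkE v y h.vy)) :
    A ∩ Mx {u, v} {x, y} = B ∩ Mx {u, v} {x, y} := by
  ext e
  simp only [mem_inter]
  refine and_congr_left fun he => ?_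
  rw [Mx_eq h] at he
  simp only [mem_insert, mem_singleton] at he
  rcases he with rfl | rfl | rfl | rfl
  · exact mem_iff_of_ind_eq h1
  · exact mem_iff_of_ind_eq h2
  · exact mem_iff_of_ind_eq h3
  · exact mem_iff_of_ind_eq h4

/-- for `x ∈ b'` the slots of `tch b` at `x` are the slots of `Mx b b'` at `x`. -/
theorem deg_inter_tch (b b' : Finset (Fin n)) (A : Gr n) {w : Fin n} (hw : w ∈ b') :
    deg (A ∩ tch b) w = deg (A ∩ Mx b b') w := by
  unfold deg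
  congr 1
  ext e
  simp only [mem_filter, mem_inter, Mx]
  constructor
  · rintro ⟨⟨h1, h2⟩, h3⟩
    refine ⟨⟨h1, h2, ?_⟩, h3⟩
    simp only [tch, mem_filter, mem_univ, true_and]
    exact ⟨w, hw, h3⟩
  · rintro ⟨⟨h1, h2, _⟩, h3⟩
    exact ⟨⟨h1, h2⟩, h3⟩

end Crest.Agent.R299.T4T
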