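import Crest.Agent.R299.PairFibre
import Crest.Agent.R299.T4Tools
import Crest.Agent.R299.Energy

/-!
# R299 (S0453): dictionary between `PairFibre.lean` (namespace `PF`) and the official names
`tch`, `blk`, `Mx`, `chiS` (T4Defs), `En.sg`, `En.M4` (Energy).
-/

set_option autoImplicit false
open Finset
open Crest.SwitchChain

namespace Crest.Agent.R299.PF

variable {n : ℕ}

theorem T2_eq_tch (u v : Fin n) : T2 u v = tch {u, v} := by
  ext e; simp [T2, tch]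

theorem fib_eq_blk (d : Fin n → ℕ) (u v : Fin n) (G : Gr n) :
    fib d u v G = blk d (tch {u, v}) G := by
  unfold fib blk; rw [T2_eq_tch]

theorem SM_eq_Mx (u v x y : Fin n) : SM u v x y = Mx {u, v} {x, y} := by
  ext e; simp [SM, Mx, tch]

theorem chiS_iff_chi {u v x y : Fin n} (huv : u ≠ v) (hxy : x ≠ y) (hux : u ≠ x) (huy : u ≠ y)
    (hvx : v ≠ x) (hvy : v ≠ y) (G : Gr n) : chiS {u, v} {x, y} G ↔ chi u v x y G := by
  have h : T4T.D4 u v x y := ⟨huv, hxy, hux, huy, hvx, hvy⟩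
  have e : chiS {u, v} {x, y} G ↔
      (deg (G ∩ Mx {u, v} {x, y}) u = 1 ∧ deg (G ∩ Mx {u, v} {x, y}) v = 1 ∧
        deg (G ∩ Mx {u, v} {x, y}) x = 1 ∧ deg (G ∩ Mx {u, v} {x, y}) y = 1) := by
    unfold chiS
    constructor
    · intro hh
      exact ⟨hh u (by simp), hh v (by simp), hh x (by simp), hh y (by simp)⟩
    · rintro ⟨h1, h2, h3, h4⟩ w hw
      simp only [mem_union, mem_insert, mem_singleton] at hw
      rcases hw with (rfl | rfl) | (rfl | rfl) <;> assumption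
  rw [e, T4T.deg_u h, T4T.deg_v h, T4T.deg_x h, T4T.deg_y h]
  unfold chi
  rw [adj_iff _ _ _ hux, adj_iff _ _ _ hvy, adj_iff _ _ _ huy, adj_iff _ _ _ hvx]
  unfold T4T.ind
  by_cases h1 : mkE u x hux ∈ G <;> by_cases h2 : mkE v y hvy ∈ G <;>
    by_cases h3 : mkE u y huy ∈ G <;> by_cases h4 : mkE v x hvx ∈ G <;> simp [h1, h2, h3, h4]

theorem sg_eq_sig {u v x y : Fin n} (huv : u ≠ v) (hxy : x ≠ y) (hux : u ≠ x) (huy : u ≠ y)
    (hvx : v ≠ x) (hvy : v ≠ y) (G : Gr n) : En.sg u v x y G = sig u v x y G := by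
  unfold En.sg
  by_cases c : En.E2 u x v y ⊆ G ∧ Disjoint (En.E2 u y v x) G
  · rw [if_pos c]
    have c1 := (En.E2_subset _ _ _ _ hux hvy G).1 c.1
    have c2 := (En.E2_disjoint _ _ _ _ huy hvx G).1 c.2
    rw [sig_eq_switchResult huv hxy hux huy hvx hvy
      ⟨⟨hux, c1.1⟩, ⟨hvy, c1.2⟩, fun h => c2.1 h.2, fun h => c2.2 h.2⟩,
      En.E2_eq _ _ _ _ hux hvy, En.E2_eq _ _ _ _ huy hvx]
  · rw [if_neg c]
    by_cases c' : En.E2 u y v x ⊆ G ∧ Disjoint (En.E2 u x v y) G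
    · have c1 := (En.E2_subset _ _ _ _ huy hvx G).1 c'.1
      have c2 := (En.E2_disjoint _ _ _ _ hux hvy G).1 c'.2
      rw [sig_eq_switchResult' huv hxy hux huy hvx hvy
        ⟨fun h => c2.1 h.2, fun h => c2.2 h.2, ⟨huy, c1.1⟩, ⟨hvx, c1.2⟩⟩,
        En.E2_eq _ _ _ _ hux hvy, En.E2_eq _ _ _ _ huy hvx]
    · unfold switchResult
      rw [if_neg c']
      symm
      apply sig_of_not_chi
      rintro (⟨h1, h2, h3, h4⟩ | ⟨h1, h2, h3, h4⟩)
      · exact c ⟨(En.E2_subset _ _ _ _ hux hvy G).2 ⟨h1.2, h2.2⟩,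
          (En.E2_disjoint _ _ _ _ huy hvx G).2 ⟨fun h => h3 ⟨huy, h⟩, fun h => h4 ⟨hvx, h⟩⟩⟩
      · exact c' ⟨(En.E2_subset _ _ _ _ huy hvx G).2 ⟨h3.2, h4.2⟩,
          (En.E2_disjoint _ _ _ _ hux hvy G).2 ⟨fun h => h1 ⟨hux, h⟩, fun h => h2 ⟨hvy, h⟩⟩⟩

/-- `Qf`-type energy of the four slots in terms of `sig`. -/
theorem ipd_DB_Mx {u v x y : Fin n} (huv : u ≠ v) (hxy : x ≠ y) (hux : u ≠ x) (huy : u ≠ y)
    (hvx : v ≠ x) (hvy : v ≠ y) (d : Fin n → ℕ) (f : Gr n → ℝ) :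
    ipd d (DB d (tch {u, v} ∩ tch {x, y}) f) (DB d (tch {u, v} ∩ tch {x, y}) f) =
      (1 / 4) * ∑ G ∈ realizations d, (f G - f (sig u v x y G)) ^ 2 := by
  have h : En.D4 u v x y := ⟨huv, hxy, hux, huy, hvx, hvy⟩
  rw [← En.M4_eq_tch h, En.ipd_DB_M4 h]
  congr 1
  refine sum_congr rfl fun G _ => ?_
  rw [sg_eq_sig huv hxy hux huy hvx hvy]

end Crest.Agent.R299.PF
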