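import Crest.Agent.R299.PairFibreB

/-!
# R299 (S0453): pair fibre, part C: the switch `u x v y` in the Johnson coordinates
-/

set_option autoImplicit false
open Finset
open Crest.SwitchChain

namespace Crest.Agent.R299.PFB

variable {n : ℕ}

/-- adjacency form of "the switch on the 4-cycle `u x v y` is available". -/
def chiA (G : Gr n) (u v x y : Fin n) : Prop :=
  (adj G u x ∧ adj G v y ∧ ¬ adj G u y ∧ ¬ adj G v x) ∨
    (¬ adj G u x ∧ ¬ adj G v y ∧ adj G u y ∧ adj G v x)

theorem adj_iff_of_not_mem_Zs {G : Gr n} {u v w : Fin n} (hwu : w ≠ u) (hwv : w ≠ v)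
    (hw : w ∉ Zs G u v) : adj G u w ↔ adj G v w := by
  rw [mem_Zs] at hw
  tauto

/-- (C1) -/
theorem chiA_psi (G : Gr n) {u v x y : Fin n} (huv : u ≠ v) (hxu : x ≠ u) (hxv : x ≠ v)
    (hyu : y ≠ u) (hyv : y ≠ v) (S : Finset (Fin n)) :
    chiA (psi G u v S) u v x y ↔ x ∈ Zs G u v ∧ y ∈ Zs G u v ∧ jchi (x, y) S := by
  unfold chiA jchi
  rw [adj_psi_u G huv, adj_psi_u G huv, adj_psi_v G huv, adj_psi_v G huv]
  by_cases hx : x ∈ Zs G u v
  · by_cases hy : y ∈ Zs G u v
    · simp only [hx, hy, true_and, not_true_eq_false, false_and, or_false]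
      tauto
    · have := adj_iff_of_not_mem_Zs hyu hyv hy
      simp only [hx, hy, true_and, not_true_eq_false, false_and, or_false, false_or,
        not_false_eq_true, and_false]
      tauto
  · have := adj_iff_of_not_mem_Zs hxu hxv hx
    simp only [hx, true_and, false_and, false_or, not_false_eq_true]
    tauto

/-- (C1) for an arbitrary graph -/
theorem chiA_iff (G : Gr n) {u v x y : Fin n} (huv : u ≠ v) (hxu : x ≠ u) (hxv : x ≠ v)
    (hyu : y ≠ u) (hyv : y ≠ v) :
    chiA G u v x y ↔ x ∈ Zs G u v ∧ y ∈ Zs G u v ∧ jchi (x, y) (Ss G u v) := by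
  have := chiA_psi G huv hxu hxv hyu hyv (Ss G u v)
  rwa [psi_Ss G huv] at this

theorem mem_jtau_iff {x y w : Fin n} (hxy : x ≠ y) (S : Finset (Fin n)) :
    w ∈ jtau (x, y) S ↔
      (if jchi (x, y) S ∧ (w = x ∨ w = y) then w ∉ S else w ∈ S) := by
  rw [mem_jtau]
  simp only
  unfold jchi
  simp only
  by_cases hwx : w = x
  · subst hwx
    rw [Equiv.swap_apply_left]
    by_cases a : w ∈ S <;> by_cases b : y ∈ S <;> simp [a, b]
  by_cases hwy : w = y
  · subst hwy
    rw [Equiv.swap_apply_right]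
    by_cases a : x ∈ S <;> by_cases b : w ∈ S <;> simp [a, b]
  rw [Equiv.swap_apply_of_ne_of_ne hwx hwy]
  simp [hwx, hwy]

/-- (C2), row `u` -/
theorem adj_psi_jtau_u (G : Gr n) {u v x y : Fin n} (huv : u ≠ v) (hxy : x ≠ y)
    (hx : x ∈ Zs G u v) (hy : y ∈ Zs G u v) (S : Finset (Fin n)) (w : Fin n) :
    adj (psi G u v (jtau (x, y) S)) u w ↔
      (if jchi (x, y) S ∧ (w = x ∨ w = y) then ¬ adj (psi G u v S) u w
        else adj (psi G u v S) u w) := by
  rw [adj_psi_u G huv, adj_psi_u G huv, mem_jtau_iff hxy]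
  by_cases hc : jchi (x, y) S ∧ (w = x ∨ w = y)
  · have hw : w ∈ Zs G u v := by
      rcases hc.2 with rfl | rfl
      · exact hx
      · exact hy
    simp only [hc, and_self, if_true, hw, true_and, not_true_eq_false, false_and, or_false]
  · simp only [hc, if_false]

/-- (C2), row `v` -/
theorem adj_psi_jtau_v (G : Gr n) {u v x y : Fin n} (huv : u ≠ v) (hxy : x ≠ y)
    (hx : x ∈ Zs G u v) (hy : y ∈ Zs G u v) (S : Finset (Fin n)) (w : Fin n) :
    adj (psi G u v (jtau (x, y) S)) v w ↔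
      (if jchi (x, y) S ∧ (w = x ∨ w = y) then ¬ adj (psi G u v S) v w
        else adj (psi G u v S) v w) := by
  rw [adj_psi_v G huv, adj_psi_v G huv, mem_jtau_iff hxy]
  by_cases hc : jchi (x, y) S ∧ (w = x ∨ w = y)
  · have hw : w ∈ Zs G u v := by
      rcases hc.2 with rfl | rfl
      · exact hx
      · exact hy
    simp only [hc, and_self, if_true, hw, true_and, not_true_eq_false, false_and, or_false]
  · simp only [hc, if_false]

end Crest.Agent.R299.PFB
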