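import Crest.Agent.R299.Adj
import Crest.Agent.R299.Block

/-!
# R299 (S0453): definitions for the T4-local lemma (two disjoint pair blocks)

`b, b'` are (disjoint) pairs of vertices, `Mx b b'` the four slots `b × b'`.
-/

set_option autoImplicit false
open Finset
open Crest.SwitchChain

namespace Crest.Agent.R299

variable {n : ℕ}

/-- the slots touching both `b` and `b'` (for disjoint `b, b'`: the slots `b × b'`). -/
def Mx (b b' : Finset (Fin n)) : Gr n := tch b ∩ tch b'

/-- the `2 × 2` block `G ∩ Mx b b'` is diagonal (all row and column sums are `1`), i.e. the switch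
on the 4-cycle with opposite pairs `b`, `b'` is available at `G`. -/
def chiS (b b' : Finset (Fin n)) (G : Gr n) : Prop := ∀ w ∈ b ∪ b', deg (G ∩ Mx b b') w = 1

instance (b b' : Finset (Fin n)) : DecidablePred (chiS b b') := fun G => by
  unfold chiS; infer_instance

/-- the `2 × 2` block has an odd number of edges. -/
def oddS (b b' : Finset (Fin n)) (G : Gr n) : Prop := Odd (G ∩ Mx b b').card

instance (b b' : Finset (Fin n)) : DecidablePred (oddS b b') := fun G => by
  unfold oddS; infer_instance

/-- the mean of `D_b f` over the part of the `b`-fibre of `G` where the switch is available. -/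
noncomputable def mbS (d : Fin n → ℕ) (b b' : Finset (Fin n)) (f : Gr n → ℝ) (G : Gr n) : ℝ :=
  (∑ H ∈ (blk d (tch b) G).filter (chiS b b'), DB d (tch b) f H) /
    (((blk d (tch b) G).filter (chiS b b')).card : ℝ)

/-- `X_{b;b'}(f) = ∑_{b-fibres} (∑_{χ} D_b f)² / #χ`, written as a sum over `G`. -/
noncomputable def XS (d : Fin n → ℕ) (b b' : Finset (Fin n)) (f : Gr n → ℝ) : ℝ :=
  ∑ G ∈ (realizations d).filter (chiS b b'), (mbS d b b' f G) ^ 2

end Crest.Agent.R299
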