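import Crest.Agent.R299.PairFibreC
import Crest.Agent.R299.Energy
import Crest.Agent.R299.T4Defs

/-!
# R299 (S0453): pair fibre, part D: `En.sg` and `chiS` in the Johnson coordinates
-/

set_option autoImplicit false
open Finset
open Crest.SwitchChain

namespace Crest.Agent.R299.PFB

variable {n : ℕ}

theorem chiA_iff_mem (G : Gr n) {u v x y : Fin n} (h : En.D4 u v x y) :
    chiA G u v x y ↔
      (mkE u x h.ux ∈ G ∧ mkE v y h.vy ∈ G ∧ mkE u y h.uy ∉ G ∧ mkE v x h.vx ∉ G) ∨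
      (mkE u x h.ux ∉ G ∧ mkE v y h.vy ∉ G ∧ mkE u y h.uy ∈ G ∧ mkE v x h.vx ∈ G) := by
  unfold chiA
  rw [adj_iff G u x h.ux, adj_iff G v y h.vy, adj_iff G u y h.uy, adj_iff G v x h.vx]

/-- the switch does nothing when it is not available. -/
theorem sg_of_not_chiA {G : Gr n} {u v x y : Fin n} (h : En.D4 u v x y)
    (hc : ¬ chiA G u v x y) : En.sg u v x y G = G := by
  rw [chiA_iff_mem G h] at hc
  have c1 : ¬ (En.E2 u x v y ⊆ G ∧ Disjoint (En.E2 u y v x) G) := by
    rw [En.E2_subset _ _ _ _ h.ux h.vy, En.E2_disjoint _ _ _ _ h.uy h.vx]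
    tauto
  have c2 : ¬ (En.E2 u y v x ⊆ G ∧ Disjoint (En.E2 u x v y) G) := by
    rw [En.E2_subset _ _ _ _ h.uy h.vx, En.E2_disjoint _ _ _ _ h.ux h.vy]
    tauto
  unfold En.sg switchResult
  rw [if_neg c1, if_neg c2]

/-- `psi (jtau S)` and `psi S` agree off the four slots. -/
theorem psi_jtau_sdiff (G : Gr n) {u v x y : Fin n} (h : En.D4 u v x y)
    (hx : x ∈ Zs G u v) (hy : y ∈ Zs G u v) (S : Finset (Fin n)) :
    psi G u v (jtau (x, y) S) \ En.M4 u v x y = psi G u v S \ En.M4 u v x y := by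
  have key : ∀ a b (hab : a ≠ b), mkE a b hab ∉ En.M4 u v x y →
      (adj (psi G u v (jtau (x, y) S)) a b ↔ adj (psi G u v S) a b) := by
    intro a b hab he
    rw [En.mem_M4 h] at he
    simp only [mkE_eq_iff, not_or] at he
    by_cases hau : a = u
    · subst hau
      rw [adj_psi_jtau_u G h.uv h.xy hx hy]
      have : ¬ (jchi (x, y) S ∧ (b = x ∨ b = y)) := by
        rintro ⟨-, rfl | rfl⟩
        · exact he.1.1 ⟨rfl, rfl⟩
        · exact he.2.2.1.1 ⟨rfl, rfl⟩
      rw [if_neg this]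
    by_cases hav : a = v
    · subst hav
      rw [adj_psi_jtau_v G h.uv h.xy hx hy]
      have : ¬ (jchi (x, y) S ∧ (b = x ∨ b = y)) := by
        rintro ⟨-, rfl | rfl⟩
        · exact he.2.2.2.1 ⟨rfl, rfl⟩
        · exact he.2.1.1 ⟨rfl, rfl⟩
      rw [if_neg this]
    by_cases hbu : b = u
    · subst hbu
      rw [adj_comm _ a b, adj_comm _ a b, adj_psi_jtau_u G h.uv h.xy hx hy]
      have : ¬ (jchi (x, y) S ∧ (a = x ∨ a = y)) := by
        rintro ⟨-, rfl | rfl⟩
        · exact he.1.2 ⟨rfl, rfl⟩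
        · exact he.2.2.1.2 ⟨rfl, rfl⟩
      rw [if_neg this]
    by_cases hbv : b = v
    · subst hbv
      rw [adj_comm _ a b, adj_comm _ a b, adj_psi_jtau_v G h.uv h.xy hx hy]
      have : ¬ (jchi (x, y) S ∧ (a = x ∨ a = y)) := by
        rintro ⟨-, rfl | rfl⟩
        · exact he.2.2.2.2 ⟨rfl, rfl⟩
        · exact he.2.1.2 ⟨rfl, rfl⟩
      rw [if_neg this]
    rw [adj_psi_off G u v _ hau hav hbu hbv, adj_psi_off G u v _ hau hav hbu hbv]
  ext e
  obtain ⟨a, b, hab, rfl⟩ := edge_exists e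
  rw [Finset.mem_sdiff, Finset.mem_sdiff]
  by_cases he : mkE a b hab ∈ En.M4 u v x y
  · simp [he]
  · have := key a b hab he
    rw [adj_iff _ _ _ hab, adj_iff _ _ _ hab] at this
    simp only [he, not_false_eq_true, and_true, this]

/-- **the switch in Johnson coordinates** -/
theorem sg_psi {d : Fin n → ℕ} {G : Gr n} (hG : G ∈ realizations d) {u v x y : Fin n}
    (h : En.D4 u v x y) (hx : x ∈ Zs G u v) (hy : y ∈ Zs G u v) {S : Finset (Fin n)}
    (hS : S ∈ (Zs G u v).powersetCard (Ss G u v).card) :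
    En.sg u v x y (psi G u v S) = psi G u v (jtau (x, y) S) := by
  by_cases hc : jchi (x, y) S
  · have hJ : jtau (x, y) S ∈ (Zs G u v).powersetCard (Ss G u v).card :=
      jtau_mem_powersetCard _ _ (x, y) hx hy S hS
    have hmem : psi G u v (jtau (x, y) S) ∈ blk d (En.M4 u v x y) (psi G u v S) :=
      mem_blk.2 ⟨psi_mem_realizations hG h.uv hJ, psi_jtau_sdiff G h hx hy S⟩
    rw [En.blk_M4 h d (psi_mem_realizations hG h.uv hS), Finset.mem_insert,
      Finset.mem_singleton] at hmem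
    rcases hmem with h1 | h1
    · exfalso
      have h2 := psi_injOn' G h.uv _ hJ hS h1
      unfold jchi at hc
      apply hc
      have h3 : x ∈ jtau (x, y) S ↔ y ∈ S := by
        rw [mem_jtau]; simp
      rw [h2] at h3
      exact h3
    · exact h1.symm
  · rw [jtau_of_not_jchi _ _ hc]
    apply sg_of_not_chiA h
    rw [chiA_psi G h.uv h.ux.symm h.vx.symm h.uy.symm h.vy.symm]
    tauto

/-- if `x` or `y` is not a free column, the switch acts trivially on the whole fibre. -/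
theorem sg_psi_of_not_mem (G : Gr n) {u v x y : Fin n} (h : En.D4 u v x y)
    (hxy : ¬ (x ∈ Zs G u v ∧ y ∈ Zs G u v)) (S : Finset (Fin n)) :
    En.sg u v x y (psi G u v S) = psi G u v S := by
  apply sg_of_not_chiA h
  rw [chiA_psi G h.uv h.ux.symm h.vx.symm h.uy.symm h.vy.symm]
  tauto

/-- `chiS` of `T4Defs` in adjacency form. -/
theorem chiS_iff_chiA (G : Gr n) {u v x y : Fin n} (h : En.D4 u v x y) :
    chiS {u, v} {x, y} G ↔ chiA G u v x y := by
  have hu := h.uv; have h2 := h.xy; have h3 := h.ux; have h4 := h.uy; have h5 := h.vx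
  have h6 := h.vy
  rw [chiA_iff_mem G h]
  unfold chiS Mx
  rw [← En.M4_eq_tch h]
  have z : En.ind False = 0 := rfl
  have b1 := En.ind_le (mkE u x h.ux ∈ G); have b2 := En.ind_le (mkE v y h.vy ∈ G)
  have b3 := En.ind_le (mkE u y h.uy ∈ G); have b4 := En.ind_le (mkE v x h.vx ∈ G)
  have ku := En.deg_inter_M4 h G u; have kv := En.deg_inter_M4 h G v
  have kx := En.deg_inter_M4 h G x; have ky := En.deg_inter_M4 h G y
  simp only [true_or, or_true, and_true, hu, hu.symm, h2, h2.symm, h3, h3.symm, h4, h4.symm,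
    h5, h5.symm, h6, h6.symm, or_self, and_false] at ku kv kx ky
  rw [z] at ku kv kx ky
  have main : (deg (G ∩ En.M4 u v x y) u = 1 ∧ deg (G ∩ En.M4 u v x y) v = 1 ∧
      deg (G ∩ En.M4 u v x y) x = 1 ∧ deg (G ∩ En.M4 u v x y) y = 1) ↔
      ((En.ind (mkE u x h.ux ∈ G) = 1 ∧ En.ind (mkE v y h.vy ∈ G) = 1 ∧
        En.ind (mkE u y h.uy ∈ G) = 0 ∧ En.ind (mkE v x h.vx ∈ G) = 0) ∨
       (En.ind (mkE u x h.ux ∈ G) = 0 ∧ En.ind (mkE v y h.vy ∈ G) = 0 ∧
        En.ind (mkE u y h.uy ∈ G) = 1 ∧ En.ind (mkE v x h.vx ∈ G) = 1)) := by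
    omega
  simp only [En.ind_one, En.ind_zero] at main
  rw [← main]
  constructor
  · intro hall
    exact ⟨hall u (by simp), hall v (by simp), hall x (by simp), hall y (by simp)⟩
  · rintro ⟨a1, a2, a3, a4⟩ w hw
    simp only [Finset.mem_union, Finset.mem_insert, Finset.mem_singleton] at hw
    rcases hw with (rfl | rfl) | (rfl | rfl) <;> assumption

/-- `chiS` on the fibre, in Johnson coordinates (helper8's package). -/
theorem chiS_psi (G : Gr n) {u v x y : Fin n} (h : En.D4 u v x y) (S : Finset (Fin n)) :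
    chiS {u, v} {x, y} (psi G u v S) ↔ x ∈ Zs G u v ∧ y ∈ Zs G u v ∧ jchi (x, y) S := by
  rw [chiS_iff_chiA _ h, chiA_psi G h.uv h.ux.symm h.vx.symm h.uy.symm h.vy.symm]

end Crest.Agent.R299.PFB
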