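import Crest.Agent.R299.PairFibreD
import Crest.Agent.R299.EnergySum
import Crest.Agent.R299.JohnsonJ1
import Crest.Agent.R299.JohnsonJ2

/-!
# R299 (S0453): (I3) and (I4): transfer of the Johnson estimates (J2), (J1) to the pair fibres
-/

set_option autoImplicit false
open Finset
open Crest.SwitchChain

namespace Crest.Agent.R299.H3

open Crest.Agent.R299.PFB

variable {n : ℕ}

/-- work fibrewise. -/
theorem sum_le_of_cls {α κ : Type*} [DecidableEq κ] (Ω : Finset α) (k : α → κ) (a b : α → ℝ)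
    (h : ∀ G ∈ Ω, ∑ H ∈ cls Ω k G, a H ≤ ∑ H ∈ cls Ω k G, b H) :
    ∑ G ∈ Ω, a G ≤ ∑ G ∈ Ω, b G := by
  classical
  have key : ∀ c : α → ℝ, ∑ G ∈ Ω, c G = ∑ G ∈ Ω, Av Ω k c G := by
    intro c
    have h1 := Av_selfadj Ω k c (fun _ => 1)
    have h2 : ip Ω c (Av Ω k fun _ => 1) = ip Ω c (fun _ => 1) :=
      ip_congr Ω (fun _ _ => rfl) fun x hx => Av_const Ω k 1 hx
    rw [h2] at h1
    simp only [ip, mul_one] at h1
    exact h1.symm
  rw [key a, key b]
  refine Finset.sum_le_sum fun G hG => ?_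
  unfold Av
  exact div_le_div_of_nonneg_right (h G hG) (Nat.cast_nonneg _)

theorem d4_of_mem {u v : Fin n} (huv : u ≠ v) {e : Fin n × Fin n}
    (he : e ∈ (univ \ ({u, v} : Finset (Fin n))).offDiag) : En.D4 u v e.1 e.2 := by
  simp only [mem_offDiag, mem_sdiff, mem_univ, true_and, mem_insert, mem_singleton, not_or] at he
  obtain ⟨⟨h1, h2⟩, ⟨h3, h4⟩, h5⟩ := he
  exact ⟨huv, h5, fun h => h1 h.symm, fun h => h3 h.symm, fun h => h2 h.symm, fun h => h4 h.symm⟩

theorem Zs_offDiag_subset (G : Gr n) (u v : Fin n) :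
    (Zs G u v).offDiag ⊆ (univ \ ({u, v} : Finset (Fin n))).offDiag := by
  apply Finset.offDiag_mono
  intro w hw
  obtain ⟨h1, h2, -⟩ := mem_Zs.1 hw
  simp [h1, h2]

section fibre

variable (d : Fin n → ℕ) (f : Gr n → ℝ) {u v : Fin n} (huv : u ≠ v) {G0 : Gr n}
  (hG0 : G0 ∈ realizations d)

/-- `D_b f` in Johnson coordinates. -/
noncomputable def gg (d : Fin n → ℕ) (f : Gr n → ℝ) (G0 : Gr n) (u v : Fin n) (S : Finset (Fin n)) : ℝ :=
  DB d (tch {u, v}) f (psi G0 u v S)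

include huv hG0 in
theorem gg_eq {S : Finset (Fin n)} (hS : S ∈ (Zs G0 u v).powersetCard (Ss G0 u v).card) :
    gg d f G0 u v S = f (psi G0 u v S) - EB d (tch {u, v}) f G0 := by
  unfold gg DB
  rw [EB_eq_of_mem f (psi_mem_blk hG0 huv hS)]

include huv hG0 in
theorem sum_gg : ∑ S ∈ (Zs G0 u v).powersetCard (Ss G0 u v).card, gg d f G0 u v S = 0 := by
  unfold gg
  rw [← sum_blk hG0 huv (DB d (tch {u, v}) f)]
  have h1 := sum_cls_eq (realizations d) (fun H : Gr n => H \ tch {u, v}) (DB d (tch {u, v}) f) hG0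
  have h2 : Av (realizations d) (fun H : Gr n => H \ tch {u, v}) (DB d (tch {u, v}) f) G0 = 0 :=
    Av_D (realizations d) (fun H : Gr n => H \ tch {u, v}) f hG0
  rw [h2, mul_zero] at h1
  exact h1

include huv hG0 in
/-- the switch energy of one fibre in Johnson coordinates. -/
theorem energy_eq {e : Fin n × Fin n} (he : e ∈ (Zs G0 u v).offDiag) :
    ∑ S ∈ (Zs G0 u v).powersetCard (Ss G0 u v).card,
        (gg d f G0 u v S - gg d f G0 u v (jtau e S)) ^ 2 =
      ∑ H ∈ blk d (tch {u, v}) G0, (f H - f (En.sg u v e.1 e.2 H)) ^ 2 := by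
  have h4 := d4_of_mem huv (Zs_offDiag_subset G0 u v he)
  rw [mem_offDiag] at he
  rw [sum_blk hG0 huv (fun H => (f H - f (En.sg u v e.1 e.2 H)) ^ 2)]
  refine Finset.sum_congr rfl fun S hS => ?_
  have hJ : jtau e S ∈ (Zs G0 u v).powersetCard (Ss G0 u v).card :=
    jtau_mem_powersetCard _ _ e he.1 he.2.1 S hS
  rw [gg_eq d f huv hG0 hS, gg_eq d f huv hG0 hJ, sg_psi hG0 h4 he.1 he.2.1 hS]
  ring

include huv hG0 in
theorem energy_le :
    ∑ e ∈ (Zs G0 u v).offDiag, ∑ S ∈ (Zs G0 u v).powersetCard (Ss G0 u v).card,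
        (gg d f G0 u v S - gg d f G0 u v (jtau e S)) ^ 2 ≤
      ∑ e ∈ (univ \ ({u, v} : Finset (Fin n))).offDiag,
        ∑ H ∈ blk d (tch {u, v}) G0, (f H - f (En.sg u v e.1 e.2 H)) ^ 2 := by
  rw [Finset.sum_congr rfl fun e he => energy_eq d f huv hG0 he]
  exact Finset.sum_le_sum_of_subset_of_nonneg (Zs_offDiag_subset G0 u v)
    fun e _ _ => Finset.sum_nonneg fun H _ => sq_nonneg _

include huv hG0 in
/-- (I4) on one fibre. -/
theorem I4_fibre :
    ∑ H ∈ blk d (tch {u, v}) G0, DB d (tch {u, v}) f H * DB d (tch {u, v}) f H ≤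
      (1 / 8) * ∑ e ∈ (univ \ ({u, v} : Finset (Fin n))).offDiag,
        ∑ H ∈ blk d (tch {u, v}) G0, (f H - f (En.sg u v e.1 e.2 H)) ^ 2 := by
  rw [sum_blk hG0 huv (fun H => DB d (tch {u, v}) f H * DB d (tch {u, v}) f H)]
  have h1 := johnson_J1 (Zs G0 u v) (Ss G0 u v).card (gg d f G0 u v)
  have h2 := energy_le d f huv hG0
  unfold VrOn at h1
  rw [sum_gg d f huv hG0] at h1
  set N : ℝ := (((Zs G0 u v).powersetCard (Ss G0 u v).card).card : ℝ) with hN
  have hNpos : 0 < N := by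
    have : 0 < ((Zs G0 u v).powersetCard (Ss G0 u v).card).card :=
      Finset.card_pos.2 ⟨Ss G0 u v, Finset.mem_powersetCard.2 ⟨Ss_subset G0 u v, rfl⟩⟩
    rw [hN]; exact_mod_cast this
  have h3 : ∑ S ∈ (Zs G0 u v).powersetCard (Ss G0 u v).card,
      DB d (tch {u, v}) f (psi G0 u v S) * DB d (tch {u, v}) f (psi G0 u v S) =
      ∑ S ∈ (Zs G0 u v).powersetCard (Ss G0 u v).card, gg d f G0 u v S ^ 2 :=
    Finset.sum_congr rfl fun S _ => by unfold gg; ring
  rw [h3]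
  set A := ∑ S ∈ (Zs G0 u v).powersetCard (Ss G0 u v).card, gg d f G0 u v S ^ 2 with hA
  set E := ∑ e ∈ (Zs G0 u v).offDiag, ∑ S ∈ (Zs G0 u v).powersetCard (Ss G0 u v).card,
        (gg d f G0 u v S - gg d f G0 u v (jtau e S)) ^ 2 with hE
  have h4 : N * A ≤ N * ((1 / 8) * E) := by nlinarith
  have h5 : A ≤ (1 / 8) * E := le_of_mul_le_mul_left h4 hNpos
  linarith

include huv hG0 in
/-- sums over the `χ`-part of the fibre in Johnson coordinates. -/
theorem sum_filter_chi {x y : Fin n} (h4 : En.D4 u v x y) (hx : x ∈ Zs G0 u v)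
    (hy : y ∈ Zs G0 u v) (F : Gr n → ℝ) :
    ∑ H ∈ (blk d (tch {u, v}) G0).filter (chiS {u, v} {x, y}), F H =
      ∑ S ∈ ((Zs G0 u v).powersetCard (Ss G0 u v).card).filter (jchi (x, y)),
        F (psi G0 u v S) := by
  rw [Finset.sum_filter, sum_blk hG0 huv (fun H => if chiS {u, v} {x, y} H then F H else 0),
    Finset.sum_filter]
  refine Finset.sum_congr rfl fun S _ => ?_
  have : chiS {u, v} {x, y} (psi G0 u v S) ↔ jchi (x, y) S := by
    rw [chiS_psi G0 h4 S]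
    exact ⟨fun h => h.2.2, fun h => ⟨hx, hy, h⟩⟩
  simp only [this]

include huv hG0 in
theorem card_filter_chi {x y : Fin n} (h4 : En.D4 u v x y) (hx : x ∈ Zs G0 u v)
    (hy : y ∈ Zs G0 u v) :
    (((blk d (tch {u, v}) G0).filter (chiS {u, v} {x, y})).card : ℝ) =
      ((((Zs G0 u v).powersetCard (Ss G0 u v).card).filter (jchi (x, y))).card : ℝ) := by
  have := sum_filter_chi d huv hG0 h4 hx hy (fun _ => (1 : ℝ))
  simpa using this

/-- the summand of `XS` as a function on all of `Ω`. -/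
noncomputable def aa (d : Fin n → ℕ) (f : Gr n → ℝ) (u v : Fin n) (e : Fin n × Fin n) (G : Gr n) : ℝ :=
  if chiS {u, v} {e.1, e.2} G then (mbS d {u, v} {e.1, e.2} f G) ^ 2 else 0

include huv hG0 in
theorem sum_aa_of_mem {e : Fin n × Fin n} (he : e ∈ (Zs G0 u v).offDiag) :
    ∑ H ∈ blk d (tch {u, v}) G0, aa d f u v e H =
      (∑ S ∈ ((Zs G0 u v).powersetCard (Ss G0 u v).card).filter (jchi e), gg d f G0 u v S) ^ 2 /
        ((((Zs G0 u v).powersetCard (Ss G0 u v).card).filter (jchi e)).card : ℝ) := by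
  have h4 := d4_of_mem huv (Zs_offDiag_subset G0 u v he)
  rw [mem_offDiag] at he
  obtain ⟨x, y⟩ := e
  simp only at h4 he
  unfold aa
  rw [← Finset.sum_filter]
  have hm : ∀ H ∈ (blk d (tch {u, v}) G0).filter (chiS {u, v} {x, y}),
      (mbS d {u, v} {x, y} f H) ^ 2 =
        ((∑ S ∈ ((Zs G0 u v).powersetCard (Ss G0 u v).card).filter (jchi (x, y)),
          gg d f G0 u v S) /
        ((((Zs G0 u v).powersetCard (Ss G0 u v).card).filter (jchi (x, y))).card : ℝ)) ^ 2 := by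
    intro H hH
    have hH' := (Finset.mem_filter.1 hH).1
    unfold mbS
    rw [blk_eq_of_mem hH', sum_filter_chi d huv hG0 h4 he.1 he.2.1,
      card_filter_chi d huv hG0 h4 he.1 he.2.1]
    rfl
  rw [Finset.sum_congr rfl hm, Finset.sum_const, nsmul_eq_mul,
    card_filter_chi d huv hG0 h4 he.1 he.2.1]
  set N : ℝ := ((((Zs G0 u v).powersetCard (Ss G0 u v).card).filter (jchi (x, y))).card : ℝ)
  rcases eq_or_ne N 0 with h | h
  · simp [h]
  · field_simp

include huv hG0 in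
theorem sum_aa_of_not_mem {e : Fin n × Fin n}
    (he : e ∈ (univ \ ({u, v} : Finset (Fin n))).offDiag) (he' : e ∉ (Zs G0 u v).offDiag) :
    ∑ H ∈ blk d (tch {u, v}) G0, aa d f u v e H = 0 := by
  have h4 := d4_of_mem huv he
  rw [sum_blk hG0 huv (aa d f u v e)]
  refine Finset.sum_eq_zero fun S _ => ?_
  unfold aa
  rw [if_neg]
  rw [chiS_psi G0 h4 S]
  rintro ⟨hx, hy, -⟩
  exact he' (mem_offDiag.2 ⟨hx, hy, h4.xy⟩)

include huv hG0 in
/-- (I3) on one fibre. -/
theorem I3_fibre :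
    ∑ e ∈ (univ \ ({u, v} : Finset (Fin n))).offDiag,
        ∑ H ∈ blk d (tch {u, v}) G0, aa d f u v e H ≤
      (1 / 4) * ∑ e ∈ (univ \ ({u, v} : Finset (Fin n))).offDiag,
        ∑ H ∈ blk d (tch {u, v}) G0, (f H - f (En.sg u v e.1 e.2 H)) ^ 2 := by
  rw [← Finset.sum_subset (Zs_offDiag_subset G0 u v)
    (fun e he he' => sum_aa_of_not_mem d f huv hG0 he he'),
    Finset.sum_congr rfl fun e he => sum_aa_of_mem d f huv hG0 he]
  have h1 := johnson_J2 (Zs G0 u v) (Ss G0 u v).card (gg d f G0 u v) (sum_gg d f huv hG0)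
  have h2 := energy_le d f huv hG0
  linarith

end fibre

/-- **(I4)** -/
theorem I4 (d : Fin n → ℕ) (b : Finset (Fin n)) (hb : b ∈ P2 (Fin n)) (f : Gr n → ℝ) :
    ipd d f (DB d (tch b) f) ≤
      ∑ b' ∈ (P2 (Fin n)).filter (fun b' => Disjoint b b'), Qf d b b' f := by
  obtain ⟨u, v, huv, rfl⟩ := Finset.card_eq_two.1 (mem_P2.1 hb)
  have h1 := ES.sum_offDiag_compl ({u, v} : Finset (Fin n)) (fun b' => Qf d {u, v} b' f)
  have h2 : ∑ e ∈ (univ \ ({u, v} : Finset (Fin n))).offDiag, Qf d {u, v} {e.1, e.2} f =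
      ∑ G ∈ realizations d, (1 / 4) * ∑ e ∈ (univ \ ({u, v} : Finset (Fin n))).offDiag,
        (f G - f (En.sg u v e.1 e.2 G)) ^ 2 := by
    rw [Finset.sum_congr rfl fun e he => ES.Qf_eq (d4_of_mem huv he) d f, ← Finset.mul_sum,
      ← Finset.mul_sum, Finset.sum_comm]
  have h3 : ∑ G ∈ realizations d, DB d (tch {u, v}) f G * DB d (tch {u, v}) f G ≤
      ∑ G ∈ realizations d, (1 / 8) * ∑ e ∈ (univ \ ({u, v} : Finset (Fin n))).offDiag,
        (f G - f (En.sg u v e.1 e.2 G)) ^ 2 := by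
    refine sum_le_of_cls (realizations d) (fun H : Gr n => H \ tch {u, v}) _ _ fun G0 hG0 => ?_
    have := I4_fibre d f huv hG0
    rw [← Finset.mul_sum, Finset.sum_comm]
    exact this
  rw [ipd_self_DB, ipd_def]
  have h4 : ∑ b' ∈ (P2 (Fin n)).filter (fun b' => Disjoint {u, v} b'), Qf d {u, v} b' f =
      ∑ b' ∈ ((univ : Finset (Fin n)).powersetCard 2).filter (fun b' => Disjoint {u, v} b'),
        Qf d {u, v} b' f := rfl
  rw [h4]
  rw [h2] at h1
  simp only [← Finset.mul_sum] at h1 h3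
  linarith

/-- **(I3)** -/
theorem I3 (d : Fin n → ℕ) (b : Finset (Fin n)) (hb : b ∈ P2 (Fin n)) (f : Gr n → ℝ) :
    ∑ b' ∈ (P2 (Fin n)).filter (fun b' => Disjoint b b'), XS d b b' f ≤
      ∑ b' ∈ (P2 (Fin n)).filter (fun b' => Disjoint b b'), Qf d b b' f := by
  obtain ⟨u, v, huv, rfl⟩ := Finset.card_eq_two.1 (mem_P2.1 hb)
  have h1 := ES.sum_offDiag_compl ({u, v} : Finset (Fin n)) (fun b' => Qf d {u, v} b' f)
  have h1' := ES.sum_offDiag_compl ({u, v} : Finset (Fin n)) (fun b' => XS d {u, v} b' f)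
  have h2 : ∑ e ∈ (univ \ ({u, v} : Finset (Fin n))).offDiag, Qf d {u, v} {e.1, e.2} f =
      ∑ G ∈ realizations d, (1 / 4) * ∑ e ∈ (univ \ ({u, v} : Finset (Fin n))).offDiag,
        (f G - f (En.sg u v e.1 e.2 G)) ^ 2 := by
    rw [Finset.sum_congr rfl fun e he => ES.Qf_eq (d4_of_mem huv he) d f, ← Finset.mul_sum,
      ← Finset.mul_sum, Finset.sum_comm]
  have h2' : ∑ e ∈ (univ \ ({u, v} : Finset (Fin n))).offDiag, XS d {u, v} {e.1, e.2} f =
      ∑ G ∈ realizations d, ∑ e ∈ (univ \ ({u, v} : Finset (Fin n))).offDiag, aa d f u v e G := by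
    rw [Finset.sum_comm]
    refine Finset.sum_congr rfl fun e _ => ?_
    unfold XS aa
    rw [Finset.sum_filter]
  have h3 : ∑ G ∈ realizations d, ∑ e ∈ (univ \ ({u, v} : Finset (Fin n))).offDiag, aa d f u v e G ≤
      ∑ G ∈ realizations d, (1 / 4) * ∑ e ∈ (univ \ ({u, v} : Finset (Fin n))).offDiag,
        (f G - f (En.sg u v e.1 e.2 G)) ^ 2 := by
    refine sum_le_of_cls (realizations d) (fun H : Gr n => H \ tch {u, v}) _ _ fun G0 hG0 => ?_
    have := I3_fibre d f huv hG0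
    rw [← Finset.mul_sum, Finset.sum_comm, Finset.sum_comm (s := cls _ _ _)]
    exact this
  have h4 : ∑ b' ∈ (P2 (Fin n)).filter (fun b' => Disjoint {u, v} b'), Qf d {u, v} b' f =
      ∑ b' ∈ ((univ : Finset (Fin n)).powersetCard 2).filter (fun b' => Disjoint {u, v} b'),
        Qf d {u, v} b' f := rfl
  have h4' : ∑ b' ∈ (P2 (Fin n)).filter (fun b' => Disjoint {u, v} b'), XS d {u, v} b' f =
      ∑ b' ∈ ((univ : Finset (Fin n)).powersetCard 2).filter (fun b' => Disjoint {u, v} b'),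
        XS d {u, v} b' f := rfl
  rw [h4, h4']
  rw [h2] at h1
  rw [h2'] at h1'
  linarith

end Crest.Agent.R299.H3
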