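import Crest.Agent.R299.PairFibreBridge
import Crest.Agent.R299.OffDiag
import Crest.Agent.R299.Core

/-!
# R299 (S0453): (I4) = the Johnson gap (J1) transported to the pair fibres
`ipd d f (DB d (tch b) f) ≤ ∑_{b' disjoint from b} Qf d b b' f`.
-/

set_option autoImplicit false
open Finset
open Crest.SwitchChain

namespace Crest.Agent.R299.PF

variable {n : ℕ}

/-- `ZZ ⊆ univ \ {u,v}`. -/
theorem ZZ_subset_compl (u v : Fin n) (G : Gr n) : ZZ u v G ⊆ univ \ {u, v} := by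
  intro w hw
  rw [mem_ZZ] at hw
  simp only [mem_sdiff, mem_univ, mem_insert, mem_singleton, true_and, not_or]
  exact ⟨hw.1, hw.2.1⟩

/-- the `Av` of the pair block on a fibre, in Johnson coordinates. -/
theorem Av_fib {d : Fin n → ℕ} {u v : Fin n} (huv : u ≠ v) {G0 H : Gr n}
    (hG0 : G0 ∈ realizations d) (hH : H ∈ fib d u v G0) (f : Gr n → ℝ) :
    Av (realizations d) (fun K : Gr n => K \ T2 u v) f H =
      (∑ S ∈ (ZZ u v G0).powersetCard (phi u v G0).card, f (psi d u v G0 S)) /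
        (((ZZ u v G0).powersetCard (phi u v G0).card).card : ℝ) := by
  rw [Av_eq_of_mem _ _ f hH]
  unfold Av
  have h1 : ∑ b ∈ cls (realizations d) (fun K : Gr n => K \ T2 u v) G0, f b =
      ∑ S ∈ (ZZ u v G0).powersetCard (phi u v G0).card, f (psi d u v G0 S) := sum_fib huv hG0 f
  have h2 : (cls (realizations d) (fun K : Gr n => K \ T2 u v) G0).card =
      ((ZZ u v G0).powersetCard (phi u v G0).card).card := card_fib huv hG0
  rw [h1, h2]

theorem card_J_pos {d : Fin n → ℕ} {u v : Fin n} (huv : u ≠ v) {G0 : Gr n}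
    (hG0 : G0 ∈ realizations d) :
    (0 : ℝ) < (((ZZ u v G0).powersetCard (phi u v G0).card).card : ℝ) := by
  rw [← card_fib huv hG0]
  exact card_cls_pos _ _ hG0

/-- the switch energy of a fibre dominates the Johnson energy. -/
theorem fib_energy_ge {d : Fin n → ℕ} {u v : Fin n} (huv : u ≠ v) {G0 : Gr n}
    (hG0 : G0 ∈ realizations d) (f : Gr n → ℝ) :
    ∑ e ∈ (ZZ u v G0).offDiag, ∑ S ∈ (ZZ u v G0).powersetCard (phi u v G0).card,
        (f (psi d u v G0 S) - f (psi d u v G0 (jtau e S))) ^ 2 ≤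
      ∑ H ∈ fib d u v G0, ∑ e ∈ (univ \ {u, v} : Finset (Fin n)).offDiag,
        (f H - f (sig u v e.1 e.2 H)) ^ 2 := by
  rw [sum_fib huv hG0 (fun H => ∑ e ∈ (univ \ {u, v} : Finset (Fin n)).offDiag,
    (f H - f (sig u v e.1 e.2 H)) ^ 2), sum_comm]
  refine sum_le_sum fun S hS => ?_
  have hsub : (ZZ u v G0).offDiag ⊆ (univ \ {u, v} : Finset (Fin n)).offDiag :=
    offDiag_mono (ZZ_subset_compl u v G0)
  refine le_trans (le_of_eq ?_) (sum_le_sum_of_subset_of_nonneg hsub fun _ _ _ => sq_nonneg _)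
  refine sum_congr rfl fun e he => ?_
  rw [mem_offDiag] at he
  rw [sig_psi huv he.2.2 hG0 he.1 he.2.1 hS]

/-- (J1) on one fibre. -/
theorem fib_J1 {d : Fin n → ℕ} {u v : Fin n} (huv : u ≠ v) {G0 : Gr n}
    (hG0 : G0 ∈ realizations d) (f : Gr n → ℝ) :
    ∑ H ∈ fib d u v G0, (f H - Av (realizations d) (fun K : Gr n => K \ T2 u v) f H) ^ 2 ≤
      ∑ H ∈ fib d u v G0, (1 / 8) * ∑ e ∈ (univ \ {u, v} : Finset (Fin n)).offDiag,
        (f H - f (sig u v e.1 e.2 H)) ^ 2 := by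
  set J := (ZZ u v G0).powersetCard (phi u v G0).card with hJ
  set g : Finset (Fin n) → ℝ := fun S => f (psi d u v G0 S) with hg
  have hN : (0 : ℝ) < (J.card : ℝ) := card_J_pos huv hG0
  set m : ℝ := (∑ S ∈ J, g S) / (J.card : ℝ) with hm
  have hL : ∑ H ∈ fib d u v G0,
      (f H - Av (realizations d) (fun K : Gr n => K \ T2 u v) f H) ^ 2 =
      ∑ S ∈ J, (g S - m) ^ 2 := by
    rw [sum_congr rfl (fun H hH => by rw [Av_fib huv hG0 hH f])]
    exact sum_fib huv hG0 (fun H => (f H - m) ^ 2)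
  have hV : ∑ S ∈ J, (g S - m) ^ 2 = VrOn J g / (J.card : ℝ) := by
    have e1 : ∑ S ∈ J, (g S - m) ^ 2 =
        ∑ S ∈ J, g S ^ 2 - 2 * m * ∑ S ∈ J, g S + (J.card : ℝ) * m ^ 2 := by
      rw [mul_sum, ← nsmul_eq_mul, ← sum_const, ← sum_sub_distrib, ← sum_add_distrib]
      exact sum_congr rfl fun S _ => by ring
    rw [e1, VrOn, hm]
    field_simp
    ring
  have hJ1 := johnson_J1 (ZZ u v G0) (phi u v G0).card g
  have hE := fib_energy_ge huv hG0 f
  rw [hL, hV, ← mul_sum, div_le_iff₀ hN]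
  calc VrOn J g ≤ ((J.card : ℝ) / 8) * ∑ e ∈ (ZZ u v G0).offDiag, ∑ S ∈ J,
        (g S - g (jtau e S)) ^ 2 := hJ1
    _ ≤ ((J.card : ℝ) / 8) * ∑ H ∈ fib d u v G0,
        ∑ e ∈ (univ \ {u, v} : Finset (Fin n)).offDiag, (f H - f (sig u v e.1 e.2 H)) ^ 2 :=
        mul_le_mul_of_nonneg_left hE (by positivity)
    _ = _ := by ring

/-- the right-hand side of (I3), (I4) in terms of `sig`. -/
theorem sum_Qf_eq (d : Fin n → ℕ) {u v : Fin n} (huv : u ≠ v) (f : Gr n → ℝ) :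
    ∑ b' ∈ (P2 (Fin n)).filter (fun b' => Disjoint {u, v} b'), Qf d {u, v} b' f =
      ∑ G ∈ realizations d, (1 / 8) * ∑ e ∈ (univ \ {u, v} : Finset (Fin n)).offDiag,
        (f G - f (sig u v e.1 e.2 G)) ^ 2 := by
  have h1 := ES.sum_offDiag_compl ({u, v} : Finset (Fin n)) (fun b' => Qf d {u, v} b' f)
  have h2 : ∑ e ∈ (univ \ {u, v} : Finset (Fin n)).offDiag, Qf d {u, v} {e.1, e.2} f =
      ∑ e ∈ (univ \ {u, v} : Finset (Fin n)).offDiag,
        (1 / 4) * ∑ G ∈ realizations d, (f G - f (sig u v e.1 e.2 G)) ^ 2 := by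
    refine sum_congr rfl fun e he => ?_
    simp only [mem_offDiag, mem_sdiff, mem_univ, mem_insert, mem_singleton, true_and,
      not_or] at he
    obtain ⟨⟨a1, a2⟩, ⟨a3, a4⟩, a5⟩ := he
    exact ipd_DB_Mx huv a5 (Ne.symm a1) (Ne.symm a3) (Ne.symm a2) (Ne.symm a4) d f
  rw [h2] at h1
  have h3 : ∑ b' ∈ (P2 (Fin n)).filter (fun b' => Disjoint {u, v} b'), Qf d {u, v} b' f =
      (1 / 2) * ∑ e ∈ (univ \ {u, v} : Finset (Fin n)).offDiag,
        (1 / 4) * ∑ G ∈ realizations d, (f G - f (sig u v e.1 e.2 G)) ^ 2 := by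
    rw [h1]
    unfold P2
    ring
  rw [h3, ← mul_sum, ← mul_sum, sum_comm]
  ring

/-- **(I4)** in the form required by `Core.poinc_of_pieces`. -/
theorem I4 (d : Fin n → ℕ) (b : Finset (Fin n)) (hb : b ∈ P2 (Fin n)) (f : Gr n → ℝ) :
    ipd d f (DB d (tch b) f) ≤
      ∑ b' ∈ (P2 (Fin n)).filter (fun b' => Disjoint b b'), Qf d b b' f := by
  obtain ⟨u, v, huv, rfl⟩ := card_eq_two.1 (mem_P2.1 hb)
  rw [sum_Qf_eq d huv f]
  have hL : ipd d f (DB d (tch {u, v}) f) = ∑ G ∈ realizations d,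
      (f G - Av (realizations d) (fun K : Gr n => K \ T2 u v) f G) ^ 2 := by
    rw [← T2_eq_tch]
    have := ip_self_D (realizations d) (fun K : Gr n => K \ T2 u v) f
    unfold ipd DB EB
    rw [this]
    unfold ip
    exact sum_congr rfl fun G _ => by ring
  rw [hL]
  exact sum_le_sum_of_cls (realizations d) (fun K : Gr n => K \ T2 u v) _ _
    (fun G0 hG0 => fib_J1 huv hG0 f)

end Crest.Agent.R299.PF
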