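import Crest.Agent.R299.Energy
import Crest.Agent.R299.PairFibreB
import Crest.Agent.R299.JohnsonJ1
import Crest.Agent.R299.OffDiag
import Crest.Agent.R299.Core

/-!
# R299 (S0453): (I4) the Johnson gap transported to the pair fibres
-/

set_option autoImplicit false
open Finset
open Crest.SwitchChain

namespace Crest.Agent.R299.PS

open Crest.Agent.R299.En Crest.Agent.R299.PFB

variable {n : ℕ}

theorem sg_c0 {u v x y : Fin n} (h : D4 u v x y) {G : Gr n}
    (c1 : ¬ (mkE u x h.ux ∈ G ∧ mkE v y h.vy ∈ G ∧ mkE u y h.uy ∉ G ∧ mkE v x h.vx ∉ G))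
    (c2 : ¬ (mkE u x h.ux ∉ G ∧ mkE v y h.vy ∉ G ∧ mkE u y h.uy ∈ G ∧ mkE v x h.vx ∈ G)) :
    sg u v x y G = G := by
  have hc1 : ¬ (E2 u x v y ⊆ G ∧ Disjoint (E2 u y v x) G) := by
    rw [E2_subset _ _ _ _ h.ux h.vy, E2_disjoint _ _ _ _ h.uy h.vx]; tauto
  have hc2 : ¬ (E2 u y v x ⊆ G ∧ Disjoint (E2 u x v y) G) := by
    rw [E2_subset _ _ _ _ h.uy h.vx, E2_disjoint _ _ _ _ h.ux h.vy]; tauto
  unfold sg switchResult
  rw [if_neg hc1, if_neg hc2]

theorem adj_sw (X A B : Gr n) (p q : Fin n) (hpq : p ≠ q) :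
    adj (X \ A ∪ B) p q ↔ (adj X p q ∧ mkE p q hpq ∉ A) ∨ mkE p q hpq ∈ B := by
  rw [adj_iff _ _ _ hpq, adj_iff _ _ _ hpq]
  simp only [mem_union, mem_sdiff]

theorem D4_swap {u v x y : Fin n} (h : D4 u v x y) : D4 u v y x :=
  ⟨h.uv, h.xy.symm, h.uy, h.ux, h.vy, h.vx⟩

/-- explicit form of the active switch on the pair fibre. -/
theorem sw_psi {u v x y : Fin n} (h : D4 u v x y) (G : Gr n) (hx : x ∈ Zs G u v)
    (hy : y ∈ Zs G u v) (S : Finset (Fin n)) (hxS : x ∈ S) (hyS : y ∉ S) :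
    psi G u v S \ {mkE u x h.ux, mkE v y h.vy} ∪ {mkE u y h.uy, mkE v x h.vx} =
      psi G u v (jtau (x, y) S) := by
  have hu := h.uv; have h2 := h.xy; have h3 := h.ux; have h4 := h.uy; have h5 := h.vx
  have h6 := h.vy
  apply ext_pair u v
  · intro w
    by_cases hw : u = w
    · subst hw; simp [not_adj_self]
    rw [adj_sw _ _ _ _ _ hw, adj_psi_u G hu, adj_psi_u G hu, mem_jtau]
    simp only [mem_insert, mem_singleton, mkE_eq_iff, true_and, hu, h3, h4, false_and, or_false]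
    rcases eq_or_ne w x with rfl | hwx
    · simp [hx, hyS, h2]
    rcases eq_or_ne w y with rfl | hwy
    · simp [hy, hxS]
    simp [Equiv.swap_apply_of_ne_of_ne hwx hwy, hwx, hwy]
  · intro w
    by_cases hw : v = w
    · subst hw; simp [not_adj_self]
    rw [adj_sw _ _ _ _ _ hw, adj_psi_v G hu, adj_psi_v G hu, mem_jtau]
    simp only [mem_insert, mem_singleton, mkE_eq_iff, true_and, hu.symm, h5, h6, false_and,
      or_false, false_or]
    rcases eq_or_ne w x with rfl | hwx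
    · simp [hx, hyS, h2]
    rcases eq_or_ne w y with rfl | hwy
    · simp [hy, hxS, h2.symm]
    simp [Equiv.swap_apply_of_ne_of_ne hwx hwy, hwx, hwy]
  · intro a b hau hav hbu hbv
    by_cases hab : a = b
    · subst hab; simp [not_adj_self]
    rw [adj_sw _ _ _ _ _ hab, adj_psi_off G u v _ hau hav hbu hbv,
      adj_psi_off G u v _ hau hav hbu hbv]
    simp [mkE_eq_iff, hau, hav, hbu, hbv]

/-- the switch acts on the pair fibre as the transposition `(x y)` of the Johnson model. -/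
theorem sg_psi {u v x y : Fin n} (h : D4 u v x y) (G : Gr n) (hx : x ∈ Zs G u v)
    (hy : y ∈ Zs G u v) (S : Finset (Fin n)) :
    sg u v x y (psi G u v S) = psi G u v (jtau (x, y) S) := by
  have hu := h.uv
  have ux : mkE u x h.ux ∈ psi G u v S ↔ x ∈ S := by
    rw [← adj_iff, adj_psi_u G hu]; tauto
  have uy : mkE u y h.uy ∈ psi G u v S ↔ y ∈ S := by
    rw [← adj_iff, adj_psi_u G hu]; tauto
  have vx : mkE v x h.vx ∈ psi G u v S ↔ x ∉ S := by
    rw [← adj_iff, adj_psi_v G hu]; tauto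
  have vy : mkE v y h.vy ∈ psi G u v S ↔ y ∉ S := by
    rw [← adj_iff, adj_psi_v G hu]; tauto
  by_cases hxS : x ∈ S <;> by_cases hyS : y ∈ S
  · rw [sg_c0 h (by tauto) (by tauto), jtau_of_not_jchi]
    unfold jchi; simp [hxS, hyS]
  · rw [sg_c1 h (by tauto) (by tauto) (by tauto) (by tauto)]
    exact sw_psi h G hx hy S hxS hyS
  · rw [sg_c2 h (by tauto) (by tauto) (by tauto) (by tauto), jtau_comm]
    exact sw_psi (D4_swap h) G hy hx S hyS hxS
  · rw [sg_c0 h (by tauto) (by tauto), jtau_of_not_jchi]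
    unfold jchi; simp [hxS, hyS]

/-- summing an average gives the sum. -/
theorem sum_Av {α κ : Type*} [DecidableEq κ] (Ω : Finset α) (k : α → κ) (a : α → ℝ) :
    ∑ x ∈ Ω, Av Ω k a x = ∑ x ∈ Ω, a x := by
  have h := Av_selfadj Ω k a (fun _ => 1)
  have h2 : ip Ω a (Av Ω k fun _ => 1) = ip Ω a (fun _ => 1) :=
    ip_congr Ω (fun _ _ => rfl) (fun x hx => Av_const Ω k 1 hx)
  rw [h2] at h
  simpa [ip] using h

/-- an inequality which holds on every class holds globally. -/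
theorem sum_le_of_fibrewise {α κ : Type*} [DecidableEq κ] (Ω : Finset α) (k : α → κ)
    (a b : α → ℝ) (h : ∀ x ∈ Ω, ∑ y ∈ cls Ω k x, a y ≤ ∑ y ∈ cls Ω k x, b y) :
    ∑ x ∈ Ω, a x ≤ ∑ x ∈ Ω, b x := by
  rw [← sum_Av Ω k a, ← sum_Av Ω k b]
  refine sum_le_sum fun x hx => ?_
  unfold Av
  exact div_le_div_of_nonneg_right (h x hx) (Nat.cast_nonneg _)

/-- variance identity. -/
theorem sum_sub_mean_sq {α : Type*} (J : Finset α) (hJ : J.Nonempty) (g : α → ℝ) :
    ∑ S ∈ J, (g S - (∑ T ∈ J, g T) / (J.card : ℝ)) ^ 2 = VrOn J g / (J.card : ℝ) := by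
  have hN : (0 : ℝ) < (J.card : ℝ) := by exact_mod_cast card_pos.2 hJ
  have h2 : ∀ m : ℝ, ∑ S ∈ J, (g S - m) ^ 2 =
      ∑ S ∈ J, g S ^ 2 - 2 * m * ∑ S ∈ J, g S + (J.card : ℝ) * m ^ 2 := by
    intro m
    have : ∀ S ∈ J, (g S - m) ^ 2 = g S ^ 2 - 2 * m * g S + m ^ 2 := fun S _ => by ring
    rw [sum_congr rfl this, sum_add_distrib, sum_sub_distrib, ← mul_sum, sum_const, nsmul_eq_mul]
  rw [h2, VrOn]
  generalize ∑ S ∈ J, g S ^ 2 = q
  generalize ∑ S ∈ J, g S = s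
  generalize (J.card : ℝ) = N at hN
  field_simp
  ring

theorem D4_of_mem {u v : Fin n} (huv : u ≠ v) {p : Fin n × Fin n}
    (hp : p ∈ ((univ : Finset (Fin n)) \ {u, v}).offDiag) : D4 u v p.1 p.2 := by
  rw [mem_offDiag] at hp
  obtain ⟨h1, h2, h3⟩ := hp
  simp only [mem_sdiff, mem_univ, true_and, mem_insert, mem_singleton, not_or] at h1 h2
  exact ⟨huv, h3, fun e => h1.1 e.symm, fun e => h2.1 e.symm, fun e => h1.2 e.symm,
    fun e => h2.2 e.symm⟩

/-- (J1) on one pair fibre. -/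
theorem fibre_J1 (d : Fin n → ℕ) {u v : Fin n} (huv : u ≠ v) {G : Gr n}
    (hG : G ∈ realizations d) (f : Gr n → ℝ) :
    ∑ H ∈ blk d (tch {u, v}) G, (DB d (tch {u, v}) f H) ^ 2 ≤
      ∑ H ∈ blk d (tch {u, v}) G, (1 / 8) * ∑ p ∈ ((univ : Finset (Fin n)) \ {u, v}).offDiag,
        (f H - f (sg u v p.1 p.2 H)) ^ 2 := by
  set Z := Zs G u v with hZ
  set J := Z.powersetCard (Ss G u v).card with hJ
  set g : Finset (Fin n) → ℝ := fun S => f (psi G u v S) with hg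
  have hsum : ∀ F : Gr n → ℝ, ∑ H ∈ blk d (tch {u, v}) G, F H = ∑ S ∈ J, F (psi G u v S) :=
    fun F => sum_blk hG huv F
  have hcard : ((blk d (tch {u, v}) G).card : ℝ) = (J.card : ℝ) := by
    have := hsum (fun _ => 1)
    simpa using this
  have hJne : J.Nonempty := by
    have : 0 < (blk d (tch {u, v}) G).card := card_pos.2 ⟨G, self_mem_blk _ hG⟩
    have h2 : (0 : ℝ) < (J.card : ℝ) := by rw [← hcard]; exact_mod_cast this
    exact card_pos.1 (by exact_mod_cast h2)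
  have hN : (0 : ℝ) < (J.card : ℝ) := by exact_mod_cast card_pos.2 hJne
  -- left side
  have hL : ∑ H ∈ blk d (tch {u, v}) G, (DB d (tch {u, v}) f H) ^ 2 = VrOn J g / (J.card : ℝ) := by
    rw [← sum_sub_mean_sq J hJne g]
    have h1 : ∀ H ∈ blk d (tch {u, v}) G, (DB d (tch {u, v}) f H) ^ 2 =
        (f H - (∑ T ∈ J, g T) / (J.card : ℝ)) ^ 2 := by
      intro H hH
      unfold DB
      rw [EB_eq_of_mem f hH, EB_def, hsum f, hcard]
    rw [sum_congr rfl h1, hsum]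
  -- right side
  have hR : ∑ e ∈ Z.offDiag, ∑ S ∈ J, (g S - g (jtau e S)) ^ 2 ≤
      ∑ p ∈ ((univ : Finset (Fin n)) \ {u, v}).offDiag, ∑ H ∈ blk d (tch {u, v}) G,
        (f H - f (sg u v p.1 p.2 H)) ^ 2 := by
    have hsub : Z.offDiag ⊆ ((univ : Finset (Fin n)) \ {u, v}).offDiag := by
      intro e he
      rw [mem_offDiag] at he ⊢
      obtain ⟨h1, h2, h3⟩ := he
      have a1 := mem_Zs.1 h1
      have a2 := mem_Zs.1 h2
      refine ⟨?_, ?_, h3⟩
      · simp [a1.1, a1.2.1]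
      · simp [a2.1, a2.2.1]
    refine le_trans (le_of_eq ?_) (sum_le_sum_of_subset_of_nonneg hsub
      fun _ _ _ => sum_nonneg fun _ _ => sq_nonneg _)
    refine sum_congr rfl fun e he => ?_
    rw [hsum]
    refine sum_congr rfl fun S _ => ?_
    have hD := D4_of_mem huv (hsub he)
    rw [mem_offDiag] at he
    rw [sg_psi hD G he.1 he.2.1 S]
  have hJ1 := johnson_J1 Z (Ss G u v).card g
  rw [hL, ← mul_sum, sum_comm]
  rw [div_le_iff₀ hN]
  calc VrOn J g ≤ ((J.card : ℝ) / 8) * ∑ e ∈ Z.offDiag, ∑ S ∈ J, (g S - g (jtau e S)) ^ 2 := hJ1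
    _ ≤ ((J.card : ℝ) / 8) * ∑ p ∈ ((univ : Finset (Fin n)) \ {u, v}).offDiag,
        ∑ H ∈ blk d (tch {u, v}) G, (f H - f (sg u v p.1 p.2 H)) ^ 2 :=
      mul_le_mul_of_nonneg_left hR (by positivity)
    _ = _ := by ring

/-- (I4) in tuple form. -/
theorem I4_tuple (d : Fin n → ℕ) {u v : Fin n} (huv : u ≠ v) (f : Gr n → ℝ) :
    ipd d f (DB d (tch {u, v}) f) ≤
      (1 / 8) * ∑ p ∈ ((univ : Finset (Fin n)) \ {u, v}).offDiag,
        ∑ G ∈ realizations d, (f G - f (sg u v p.1 p.2 G)) ^ 2 := by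
  have h1 : ipd d f (DB d (tch {u, v}) f) = ∑ G ∈ realizations d, (DB d (tch {u, v}) f G) ^ 2 := by
    have := ip_self_D (realizations d) (fun H : Gr n => H \ tch {u, v}) f
    unfold ipd
    refine this.trans ?_
    unfold ip
    exact sum_congr rfl fun G _ => by rw [sq]; rfl
  rw [h1, sum_comm, mul_sum]
  exact sum_le_of_fibrewise (realizations d) (fun H : Gr n => H \ tch {u, v}) _ _
    fun G hG => fibre_J1 d huv hG f

/-- **(I4)** in the form used by `poinc_of_pieces`. -/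
theorem I4 (d : Fin n → ℕ) : ∀ b ∈ P2 (Fin n), ∀ f : Gr n → ℝ,
    ipd d f (DB d (tch b) f) ≤
      ∑ b' ∈ (P2 (Fin n)).filter (fun b' => Disjoint b b'), Qf d b b' f := by
  intro b hb f
  obtain ⟨u, v, huv, rfl⟩ := card_eq_two.1 (mem_P2.1 hb)
  have h1 := ES.sum_offDiag_compl ({u, v} : Finset (Fin n)) (fun b' => Qf d {u, v} b' f)
  have h2 : ∀ p ∈ ((univ : Finset (Fin n)) \ {u, v}).offDiag,
      ∑ G ∈ realizations d, (f G - f (sg u v p.1 p.2 G)) ^ 2 = 4 * Qf d {u, v} {p.1, p.2} f := by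
    intro p hp
    have hD := D4_of_mem huv hp
    unfold Qf
    rw [← M4_eq_tch hD, ipd_DB_M4 hD]
    ring
  have h3 := I4_tuple d huv f
  rw [sum_congr rfl h2, ← mul_sum, h1] at h3
  have e : (P2 (Fin n)) = (univ : Finset (Fin n)).powersetCard 2 := rfl
  rw [e]
  linarith

end Crest.Agent.R299.PS
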