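import Crest.Agent.R299.Adj
import Crest.Agent.R299.Block

/-!
# R299 (S0453): graph facts (G1)-(G4) for the local lemma on two disjoint vertex pairs
`M = tch b ∩ tch b'` is the `2 × 2` block of slots `b × b'`.
-/

set_option autoImplicit false
open Finset
open Crest.SwitchChain

namespace Crest.Agent.R299
namespace T4G

variable {n : ℕ}

/-- indicator of a slot -/
def bt (A : Gr n) (e : Edge n) : ℕ := if e ∈ A then 1 else 0

theorem bt_le (A : Gr n) (e : Edge n) : bt A e ≤ 1 := by unfold bt; split_ifs <;> omega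

theorem bt_eq_iff (A B : Gr n) (e : Edge n) : bt A e = bt B e ↔ (e ∈ A ↔ e ∈ B) := by
  unfold bt; split_ifs <;> simp_all

/-- local degrees agree inside the block. -/
theorem deg_inter_eq (d : Fin n → ℕ) (L G H : Gr n) (hG : G ∈ realizations d)
    (hH : H ∈ realizations d) (h : H \ L = G \ L) (w : Fin n) :
    deg (H ∩ L) w = deg (G ∩ L) w := by
  have h1 := deg_split H L w
  have h2 := deg_split G L w
  rw [mem_realizations] at hG hH
  rw [hH w, h] at h1
  rw [hG w] at h2
  omega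

theorem aux (A : Gr n) (a b : Fin n) (h : a ≠ b) (w : Fin n) :
    (if (mkE a b h ∈ A ∧ w ∈ (mkE a b h).1) then 1 else 0) =
      if w = a ∨ w = b then bt A (mkE a b h) else 0 := by
  simp only [mem_mkE, bt]
  split_ifs <;> simp_all

section four
variable (u v x y : Fin n) (huv : u ≠ v) (hxy : x ≠ y) (hux : u ≠ x) (huy : u ≠ y)
  (hvx : v ≠ x) (hvy : v ≠ y)

include huv hxy in
theorem Mx_eq : tch ({u, v} : Finset (Fin n)) ∩ tch ({x, y} : Finset (Fin n)) =
    {mkE u x hux, mkE u y huy, mkE v x hvx, mkE v y hvy} := by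
  ext e
  obtain ⟨a, c, hac, rfl⟩ := edge_exists e
  simp only [mem_inter, mkE_mem_tch, mem_insert, mem_singleton, mkE_eq_iff]
  constructor
  · rintro ⟨(rfl | rfl) | (rfl | rfl), (rfl | rfl) | (rfl | rfl)⟩ <;> simp_all
  · rintro (h | h | h | h) <;> rcases h with ⟨rfl, rfl⟩ | ⟨rfl, rfl⟩ <;> simp

include huv hxy in
theorem deg_inter_M (A : Gr n) (w : Fin n) :
    deg (A ∩ (tch ({u, v} : Finset (Fin n)) ∩ tch ({x, y} : Finset (Fin n)))) w =
      (if w = u ∨ w = x then bt A (mkE u x hux) else 0) +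
      (if w = u ∨ w = y then bt A (mkE u y huy) else 0) +
      (if w = v ∨ w = x then bt A (mkE v x hvx) else 0) +
      (if w = v ∨ w = y then bt A (mkE v y hvy) else 0) := by
  rw [Mx_eq u v x y huv hxy hux huy hvx hvy]
  have h12 : mkE u x hux ≠ mkE u y huy := by rw [Ne, mkE_eq_iff]; tauto
  have h13 : mkE u x hux ≠ mkE v x hvx := by rw [Ne, mkE_eq_iff]; tauto
  have h14 : mkE u x hux ≠ mkE v y hvy := by rw [Ne, mkE_eq_iff]; tauto
  have h23 : mkE u y huy ≠ mkE v x hvx := by rw [Ne, mkE_eq_iff]; tauto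
  have h24 : mkE u y huy ≠ mkE v y hvy := by rw [Ne, mkE_eq_iff]; tauto
  have h34 : mkE v x hvx ≠ mkE v y hvy := by rw [Ne, mkE_eq_iff]; tauto
  unfold deg
  rw [Finset.inter_comm, ← Finset.filter_mem_eq_inter, Finset.filter_filter, Finset.card_filter,
    Finset.sum_insert (by simp [h12, h13, h14]), Finset.sum_insert (by simp [h23, h24]),
    Finset.sum_insert (by simp [h34]), Finset.sum_singleton]
  rw [aux, aux, aux, aux]
  ring

include huv hxy in
theorem card_inter_M (A : Gr n) :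
    (A ∩ (tch ({u, v} : Finset (Fin n)) ∩ tch ({x, y} : Finset (Fin n)))).card =
      bt A (mkE u x hux) + bt A (mkE u y huy) + bt A (mkE v x hvx) + bt A (mkE v y hvy) := by
  rw [Mx_eq u v x y huv hxy hux huy hvx hvy]
  have h12 : mkE u x hux ≠ mkE u y huy := by rw [Ne, mkE_eq_iff]; tauto
  have h13 : mkE u x hux ≠ mkE v x hvx := by rw [Ne, mkE_eq_iff]; tauto
  have h14 : mkE u x hux ≠ mkE v y hvy := by rw [Ne, mkE_eq_iff]; tauto
  have h23 : mkE u y huy ≠ mkE v x hvx := by rw [Ne, mkE_eq_iff]; tauto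
  have h24 : mkE u y huy ≠ mkE v y hvy := by rw [Ne, mkE_eq_iff]; tauto
  have h34 : mkE v x hvx ≠ mkE v y hvy := by rw [Ne, mkE_eq_iff]; tauto
  rw [Finset.inter_comm, ← Finset.filter_mem_eq_inter, Finset.card_filter,
    Finset.sum_insert (by simp [h12, h13, h14]), Finset.sum_insert (by simp [h23, h24]),
    Finset.sum_insert (by simp [h34]), Finset.sum_singleton]
  simp only [bt]
  ring

include huv hxy hux huy hvx hvy in
theorem degM_u (A : Gr n) :
    deg (A ∩ (tch ({u, v} : Finset (Fin n)) ∩ tch ({x, y} : Finset (Fin n)))) u =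
      bt A (mkE u x hux) + bt A (mkE u y huy) := by
  rw [deg_inter_M u v x y huv hxy hux huy hvx hvy]
  simp [huv, hux, huy]

include huv hxy hux huy hvx hvy in
theorem degM_v (A : Gr n) :
    deg (A ∩ (tch ({u, v} : Finset (Fin n)) ∩ tch ({x, y} : Finset (Fin n)))) v =
      bt A (mkE v x hvx) + bt A (mkE v y hvy) := by
  rw [deg_inter_M u v x y huv hxy hux huy hvx hvy]
  simp [huv.symm, hvx, hvy]

include huv hxy hux huy hvx hvy in
theorem degM_x (A : Gr n) :
    deg (A ∩ (tch ({u, v} : Finset (Fin n)) ∩ tch ({x, y} : Finset (Fin n)))) x =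
      bt A (mkE u x hux) + bt A (mkE v x hvx) := by
  rw [deg_inter_M u v x y huv hxy hux huy hvx hvy]
  simp [hxy, hux.symm, hvx.symm]

include huv hxy hux huy hvx hvy in
theorem degM_y (A : Gr n) :
    deg (A ∩ (tch ({u, v} : Finset (Fin n)) ∩ tch ({x, y} : Finset (Fin n)))) y =
      bt A (mkE u y huy) + bt A (mkE v y hvy) := by
  rw [deg_inter_M u v x y huv hxy hux huy hvx hvy]
  simp [hxy.symm, huy.symm, hvy.symm]

include huv hxy hux huy hvx hvy in
theorem degM_out (A : Gr n) (w : Fin n) (hu : w ≠ u) (hv : w ≠ v) (hx : w ≠ x) (hy : w ≠ y) :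
    deg (A ∩ (tch ({u, v} : Finset (Fin n)) ∩ tch ({x, y} : Finset (Fin n)))) w = 0 := by
  rw [deg_inter_M u v x y huv hxy hux huy hvx hvy]
  simp [hu, hv, hx, hy]

include huv hxy in
/-- two graphs with the same four bits agree on `M`. -/
theorem inter_M_eq (A B : Gr n) (h1 : bt A (mkE u x hux) = bt B (mkE u x hux))
    (h2 : bt A (mkE u y huy) = bt B (mkE u y huy)) (h3 : bt A (mkE v x hvx) = bt B (mkE v x hvx))
    (h4 : bt A (mkE v y hvy) = bt B (mkE v y hvy)) :
    A ∩ (tch ({u, v} : Finset (Fin n)) ∩ tch ({x, y} : Finset (Fin n))) =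
      B ∩ (tch ({u, v} : Finset (Fin n)) ∩ tch ({x, y} : Finset (Fin n))) := by
  rw [Mx_eq u v x y huv hxy hux huy hvx hvy]
  rw [bt_eq_iff] at h1 h2 h3 h4
  ext e
  simp only [mem_inter, mem_insert, mem_singleton]
  constructor
  · rintro ⟨hA, rfl | rfl | rfl | rfl⟩
    · exact ⟨h1.1 hA, by simp⟩
    · exact ⟨h2.1 hA, by simp⟩
    · exact ⟨h3.1 hA, by simp⟩
    · exact ⟨h4.1 hA, by simp⟩
  · rintro ⟨hA, rfl | rfl | rfl | rfl⟩
    · exact ⟨h1.2 hA, by simp⟩
    · exact ⟨h2.2 hA, by simp⟩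
    · exact ⟨h3.2 hA, by simp⟩
    · exact ⟨h4.2 hA, by simp⟩

end four

/-- for `x ∈ b'` the slots of `tch b` at `x` are the slots of `M` at `x`. -/
theorem deg_inter_tch_eq (b b' : Finset (Fin n)) (A : Gr n) (x : Fin n) (hx : x ∈ b') :
    deg (A ∩ tch b) x = deg (A ∩ (tch b ∩ tch b')) x := by
  unfold deg
  congr 1
  ext e
  simp only [mem_filter, mem_inter]
  constructor
  · rintro ⟨⟨h1, h2⟩, h3⟩
    refine ⟨⟨h1, h2, ?_⟩, h3⟩
    simp only [tch, mem_filter, mem_univ, true_and]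
    exact ⟨x, hx, h3⟩
  · rintro ⟨⟨h1, h2, -⟩, h3⟩
    exact ⟨⟨h1, h2⟩, h3⟩

/-- column sums of `M` are invariant under the `b`-block. -/
theorem col_eq (d : Fin n → ℕ) (b b' : Finset (Fin n)) (G H : Gr n) (hG : G ∈ realizations d)
    (hH : H ∈ realizations d) (h : H \ tch b = G \ tch b) (x : Fin n) (hx : x ∈ b') :
    deg (H ∩ (tch b ∩ tch b')) x = deg (G ∩ (tch b ∩ tch b')) x := by
  rw [← deg_inter_tch_eq b b' H x hx, ← deg_inter_tch_eq b b' G x hx]
  exact deg_inter_eq d (tch b) G H hG hH h x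

/-- agreeing off a slot set disjoint from `M` implies agreeing on `M`. -/
theorem inter_eq_of_sdiff_eq (L M G H : Gr n) (hd : Disjoint L M) (h : H \ L = G \ L) :
    H ∩ M = G ∩ M := by
  ext e
  simp only [mem_inter]
  constructor
  · rintro ⟨h1, h2⟩
    have : e ∈ H \ L := mem_sdiff.2 ⟨h1, fun h3 => (disjoint_left.1 hd h3) h2⟩
    rw [h] at this
    exact ⟨(mem_sdiff.1 this).1, h2⟩
  · rintro ⟨h1, h2⟩
    have : e ∈ G \ L := mem_sdiff.2 ⟨h1, fun h3 => (disjoint_left.1 hd h3) h2⟩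
    rw [← h] at this
    exact ⟨(mem_sdiff.1 this).1, h2⟩

/-- (G1) if no column sum of `M(G)` equals `1`, the `b`-block of `G` does not move `M`. -/
theorem G1 (d : Fin n → ℕ) (b b' : Finset (Fin n)) (hb : b.card = 2) (hb' : b'.card = 2)
    (hd : Disjoint b b') (G : Gr n) (hG : G ∈ realizations d)
    (h : ∀ x ∈ b', deg (G ∩ (tch b ∩ tch b')) x ≠ 1) :
    blk d (tch b) G = blk d (tch b \ (tch b ∩ tch b')) G := by
  obtain ⟨u, v, huv, rfl⟩ := Finset.card_eq_two.1 hb
  obtain ⟨x, y, hxy, rfl⟩ := Finset.card_eq_two.1 hb'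
  have hux : u ≠ x := by rintro rfl; simp at hd
  have huy : u ≠ y := by rintro rfl; simp at hd
  have hvx : v ≠ x := by rintro rfl; simp at hd
  have hvy : v ≠ y := by rintro rfl; simp at hd
  ext H
  rw [mem_blk, mem_blk]
  constructor
  · rintro ⟨hH, hHG⟩
    refine ⟨hH, ?_⟩
    have cx := col_eq d {u, v} {x, y} G H hG hH hHG x (by simp)
    have cy := col_eq d {u, v} {x, y} G H hG hH hHG y (by simp)
    have gx := h x (by simp)
    have gy := h y (by simp)
    rw [degM_x u v x y huv hxy hux huy hvx hvy] at cx gx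
    rw [degM_x u v x y huv hxy hux huy hvx hvy] at cx
    rw [degM_y u v x y huv hxy hux huy hvx hvy] at cy gy
    rw [degM_y u v x y huv hxy hux huy hvx hvy] at cy
    have l1 := bt_le G (mkE u x hux)
    have l2 := bt_le G (mkE u y huy)
    have l3 := bt_le G (mkE v x hvx)
    have l4 := bt_le G (mkE v y hvy)
    have m1 := bt_le H (mkE u x hux)
    have m2 := bt_le H (mkE u y huy)
    have m3 := bt_le H (mkE v x hvx)
    have m4 := bt_le H (mkE v y hvy)
    have hM := inter_M_eq u v x y huv hxy hux huy hvx hvy H G (by omega) (by omega) (by omega)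
      (by omega)
    ext e
    simp only [mem_sdiff, not_and, not_not]
    by_cases he : e ∈ tch ({u, v} : Finset (Fin n))
    · by_cases heM : e ∈ tch ({u, v} : Finset (Fin n)) ∩ tch ({x, y} : Finset (Fin n))
      · have e1 : e ∈ H ↔ e ∈ G := by
          constructor
          · intro hh
            have : e ∈ H ∩ (tch ({u, v} : Finset (Fin n)) ∩ tch ({x, y} : Finset (Fin n))) :=
              mem_inter.2 ⟨hh, heM⟩
            rw [hM] at this
            exact (mem_inter.1 this).1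
          · intro hh
            have : e ∈ G ∩ (tch ({u, v} : Finset (Fin n)) ∩ tch ({x, y} : Finset (Fin n))) :=
              mem_inter.2 ⟨hh, heM⟩
            rw [← hM] at this
            exact (mem_inter.1 this).1
        simp [e1, heM]
      · simp [he, heM]
    · have e1 : e ∈ H ↔ e ∈ G := by
        constructor
        · intro hh
          have : e ∈ H \ tch ({u, v} : Finset (Fin n)) := mem_sdiff.2 ⟨hh, he⟩
          rw [hHG] at this
          exact (mem_sdiff.1 this).1
        · intro hh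
          have : e ∈ G \ tch ({u, v} : Finset (Fin n)) := mem_sdiff.2 ⟨hh, he⟩
          rw [← hHG] at this
          exact (mem_sdiff.1 this).1
      simp [e1, he]
  · rintro ⟨hH, hHG⟩
    refine ⟨hH, ?_⟩
    have : ∀ A : Gr n, A \ tch ({u, v} : Finset (Fin n)) =
        (A \ (tch ({u, v} : Finset (Fin n)) \
          (tch ({u, v} : Finset (Fin n)) ∩ tch ({x, y} : Finset (Fin n))))) \
          tch ({u, v} : Finset (Fin n)) := by
      intro A
      ext e
      simp only [mem_sdiff, mem_inter]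
      tauto
    rw [this H, this G, hHG]

/-- (G1') the same for rows. -/
theorem G1' (d : Fin n → ℕ) (b b' : Finset (Fin n)) (hb : b.card = 2) (hb' : b'.card = 2)
    (hd : Disjoint b b') (G : Gr n) (hG : G ∈ realizations d)
    (h : ∀ u ∈ b, deg (G ∩ (tch b ∩ tch b')) u ≠ 1) :
    blk d (tch b') G = blk d (tch b' \ (tch b ∩ tch b')) G := by
  have := G1 d b' b hb' hb hd.symm G hG (by rwa [inter_comm (tch b') (tch b)])
  rwa [inter_comm (tch b') (tch b)] at this

/-- (G2) classification of the `2 × 2` blocks. -/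
theorem G2 (b b' : Finset (Fin n)) (hb : b.card = 2) (hb' : b'.card = 2)
    (hd : Disjoint b b') (G : Gr n) (hodd : ¬ Odd (G ∩ (tch b ∩ tch b')).card)
    (hchi : ¬ ∀ w ∈ b ∪ b', deg (G ∩ (tch b ∩ tch b')) w = 1) :
    (∀ x ∈ b', deg (G ∩ (tch b ∩ tch b')) x ≠ 1) ∨ (∀ u ∈ b, deg (G ∩ (tch b ∩ tch b')) u ≠ 1) := by
  obtain ⟨u, v, huv, rfl⟩ := Finset.card_eq_two.1 hb
  obtain ⟨x, y, hxy, rfl⟩ := Finset.card_eq_two.1 hb'
  have hux : u ≠ x := by rintro rfl; simp at hd
  have huy : u ≠ y := by rintro rfl; simp at hd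
  have hvx : v ≠ x := by rintro rfl; simp at hd
  have hvy : v ≠ y := by rintro rfl; simp at hd
  rw [card_inter_M u v x y huv hxy hux huy hvx hvy, Nat.odd_iff] at hodd
  simp only [mem_union, mem_insert, mem_singleton, forall_eq_or_imp, forall_eq, or_imp,
    forall_and] at hchi ⊢
  rw [degM_x u v x y huv hxy hux huy hvx hvy, degM_y u v x y huv hxy hux huy hvx hvy,
    degM_u u v x y huv hxy hux huy hvx hvy, degM_v u v x y huv hxy hux huy hvx hvy] at hchi ⊢
  have l1 := bt_le G (mkE u x hux)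
  have l2 := bt_le G (mkE u y huy)
  have l3 := bt_le G (mkE v x hvx)
  have l4 := bt_le G (mkE v y hvy)
  omega

/-- the number of edges in `M` is the sum of the column sums. -/
theorem card_eq_cols (b b' : Finset (Fin n)) (hb : b.card = 2) (hb' : b'.card = 2)
    (hd : Disjoint b b') (G : Gr n) :
    (G ∩ (tch b ∩ tch b')).card = ∑ x ∈ b', deg (G ∩ (tch b ∩ tch b')) x := by
  obtain ⟨u, v, huv, rfl⟩ := Finset.card_eq_two.1 hb
  obtain ⟨x, y, hxy, rfl⟩ := Finset.card_eq_two.1 hb'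
  have hux : u ≠ x := by rintro rfl; simp at hd
  have huy : u ≠ y := by rintro rfl; simp at hd
  have hvx : v ≠ x := by rintro rfl; simp at hd
  have hvy : v ≠ y := by rintro rfl; simp at hd
  rw [Finset.sum_pair hxy, card_inter_M u v x y huv hxy hux huy hvx hvy,
    degM_x u v x y huv hxy hux huy hvx hvy, degM_y u v x y huv hxy hux huy hvx hvy]
  ring

/-- (G3a) `|M|` is invariant under the `b`-block. -/
theorem G3_card (d : Fin n → ℕ) (b b' : Finset (Fin n)) (hb : b.card = 2) (hb' : b'.card = 2)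
    (hd : Disjoint b b') (G H : Gr n) (hG : G ∈ realizations d) (hH : H ∈ realizations d)
    (h : H \ tch b = G \ tch b) :
    (H ∩ (tch b ∩ tch b')).card = (G ∩ (tch b ∩ tch b')).card := by
  rw [card_eq_cols b b' hb hb' hd, card_eq_cols b b' hb hb' hd]
  exact Finset.sum_congr rfl fun x hx => col_eq d b b' G H hG hH h x hx

/-- (G3a') `|M|` is invariant under the `b'`-block. -/
theorem G3_card' (d : Fin n → ℕ) (b b' : Finset (Fin n)) (hb : b.card = 2) (hb' : b'.card = 2)
    (hd : Disjoint b b') (G H : Gr n) (hG : G ∈ realizations d) (hH : H ∈ realizations d)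
    (h : H \ tch b' = G \ tch b') :
    (H ∩ (tch b ∩ tch b')).card = (G ∩ (tch b ∩ tch b')).card := by
  have := G3_card d b' b hb' hb hd.symm G H hG hH h
  rwa [inter_comm (tch b') (tch b)] at this

/-- (G3b) the blocks `tch b \ M`, `tch b' \ M` do not move `M`. -/
theorem G3_inter (b b' : Finset (Fin n)) (G H : Gr n)
    (h : H \ (tch b \ (tch b ∩ tch b')) = G \ (tch b \ (tch b ∩ tch b'))) :
    H ∩ (tch b ∩ tch b') = G ∩ (tch b ∩ tch b') :=
  inter_eq_of_sdiff_eq _ _ G H sdiff_disjoint h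

theorem G3_inter' (b b' : Finset (Fin n)) (G H : Gr n)
    (h : H \ (tch b' \ (tch b ∩ tch b')) = G \ (tch b' \ (tch b ∩ tch b'))) :
    H ∩ (tch b ∩ tch b') = G ∩ (tch b ∩ tch b') :=
  inter_eq_of_sdiff_eq _ _ G H sdiff_disjoint h

/-- (G3c) the block `M` preserves all row and column sums of `M`. -/
theorem G3_deg (d : Fin n → ℕ) (b b' : Finset (Fin n)) (G H : Gr n) (hG : G ∈ realizations d)
    (hH : H ∈ realizations d) (h : H \ (tch b ∩ tch b') = G \ (tch b ∩ tch b')) (w : Fin n) :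
    deg (H ∩ (tch b ∩ tch b')) w = deg (G ∩ (tch b ∩ tch b')) w :=
  deg_inter_eq d _ G H hG hH h w

/-- outside `b ∪ b'` the block `M` has degree `0`. -/
theorem degM_zero (b b' : Finset (Fin n)) (hb : b.card = 2) (hb' : b'.card = 2)
    (hd : Disjoint b b') (A : Gr n) (w : Fin n) (hw : w ∉ b ∪ b') :
    deg (A ∩ (tch b ∩ tch b')) w = 0 := by
  obtain ⟨u, v, huv, rfl⟩ := Finset.card_eq_two.1 hb
  obtain ⟨x, y, hxy, rfl⟩ := Finset.card_eq_two.1 hb'
  have hux : u ≠ x := by rintro rfl; simp at hd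
  have huy : u ≠ y := by rintro rfl; simp at hd
  have hvx : v ≠ x := by rintro rfl; simp at hd
  have hvy : v ≠ y := by rintro rfl; simp at hd
  simp only [mem_union, mem_insert, mem_singleton, not_or] at hw
  exact degM_out u v x y huv hxy hux huy hvx hvy A w hw.1.1 hw.1.2 hw.2.1 hw.2.2

/-- (G4) two diagonal states: the `M`-part of `G` can be glued into `H`. -/
theorem G4 (d : Fin n → ℕ) (b b' : Finset (Fin n)) (hb : b.card = 2) (hb' : b'.card = 2)
    (hd : Disjoint b b') (G H : Gr n) (hH : H ∈ realizations d)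
    (hcG : ∀ w ∈ b ∪ b', deg (G ∩ (tch b ∩ tch b')) w = 1)
    (hcH : ∀ w ∈ b ∪ b', deg (H ∩ (tch b ∩ tch b')) w = 1) :
    (H \ (tch b ∩ tch b')) ∪ (G ∩ (tch b ∩ tch b')) ∈ realizations d := by
  rw [mem_realizations] at hH ⊢
  intro w
  have hdis : Disjoint (H \ (tch b ∩ tch b')) (G ∩ (tch b ∩ tch b')) :=
    disjoint_left.2 fun e h1 h2 => (mem_sdiff.1 h1).2 (mem_inter.1 h2).2
  rw [deg_union_disj _ _ hdis, ← hH w, deg_split H (tch b ∩ tch b') w]
  by_cases hw : w ∈ b ∪ b'
  · rw [hcG w hw, hcH w hw]; ring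
  · rw [degM_zero b b' hb hb' hd G w hw, degM_zero b b' hb hb' hd H w hw]; ring

end T4G
end Crest.Agent.R299
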