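import Crest.Agent.R299.Adj
import Crest.Agent.R299.Block

/-!
# R299 (S0453): T4, the odd sectors `|G ∩ M| ∈ {1,3}`

For disjoint vertex pairs `b, b'` and `M = tch b ∩ tch b'` (the four slots `b × b'`), on the
sub-universe `Ω' = {G ∈ Ω | |G ∩ M| odd}` the two keys `· \ tch b`, `· \ tch b'` have the unique
rectangle completion property (`hR`, `hS` of `Av_comm_of_rect`).
-/

set_option autoImplicit false
open Finset
open Crest.SwitchChain

namespace Crest.Agent.R299.T4Odd

variable {n : ℕ}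

/-- indicator -/
def ind (p : Prop) [Decidable p] : ℕ := if p then 1 else 0

theorem ind_le (p : Prop) [Decidable p] : ind p ≤ 1 := by
  unfold ind; split_ifs <;> omega

theorem ind_congr {p q : Prop} [Decidable p] [Decidable q] (h : p ↔ q) : ind p = ind q := by
  unfold ind; simp only [h]

theorem iff_of_ind_eq {p q : Prop} [Decidable p] [Decidable q] (h : ind p = ind q) : p ↔ q := by
  unfold ind at h
  by_cases hp : p <;> by_cases hq : q <;> simp_all

/-- number of neighbours of `w` inside a pair -/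
theorem card_nb_pair (G : Gr n) (w p q : Fin n) (hpq : p ≠ q) :
    ((nb G w).filter fun c => c ∈ ({p, q} : Finset (Fin n))).card =
      ind (adj G w p) + ind (adj G w q) := by
  have h : ((nb G w).filter fun c => c ∈ ({p, q} : Finset (Fin n))) =
      ({p, q} : Finset (Fin n)).filter fun c => adj G w c := by
    ext c
    simp only [mem_filter, mem_nb]
    tauto
  rw [h, Finset.card_filter, Finset.sum_pair hpq]
  rfl

/-- splitting the degree -/
theorem deg_split (G : Gr n) (U : Finset (Fin n)) (w : Fin n) :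
    deg G w = ((nb G w).filter fun c => c ∈ U).card + ((nb G w).filter fun c => c ∉ U).card := by
  rw [deg_eq_card_nb, Finset.card_filter_add_card_filter_not]

theorem nb_out_eq (G H : Gr n) (U : Finset (Fin n)) (h : G \ tch U = H \ tch U) (w : Fin n)
    (hw : w ∉ U) : ((nb G w).filter fun c => c ∉ U) = ((nb H w).filter fun c => c ∉ U) := by
  ext c
  simp only [mem_filter, mem_nb]
  constructor
  · rintro ⟨h1, h2⟩; exact ⟨((sdiff_tch_eq_iff G H U).1 h w c hw h2).1 h1, h2⟩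
  · rintro ⟨h1, h2⟩; exact ⟨((sdiff_tch_eq_iff G H U).1 h w c hw h2).2 h1, h2⟩

/-- margins: two realizations which agree off `tch U` have the same number of neighbours in `U`
at every vertex outside `U`. -/
theorem margin (d : Fin n → ℕ) (G H : Gr n) (hG : G ∈ realizations d) (hH : H ∈ realizations d)
    (U : Finset (Fin n)) (h : G \ tch U = H \ tch U) (w : Fin n) (hw : w ∉ U) :
    ((nb G w).filter fun c => c ∈ U).card = ((nb H w).filter fun c => c ∈ U).card := by
  have h1 := deg_split G U w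
  have h2 := deg_split H U w
  rw [(mem_realizations d G).1 hG w] at h1
  rw [(mem_realizations d H).1 hH w] at h2
  rw [nb_out_eq G H U h w hw] at h1
  omega

/-- converse: degree of a graph agreeing with a realization off `tch U`. -/
theorem deg_of_margin (d : Fin n → ℕ) (G H : Gr n) (hH : H ∈ realizations d)
    (U : Finset (Fin n)) (h : G \ tch U = H \ tch U) (w : Fin n) (hw : w ∉ U)
    (hm : ((nb G w).filter fun c => c ∈ U).card = ((nb H w).filter fun c => c ∈ U).card) :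
    deg G w = d w := by
  have h1 := deg_split G U w
  have h2 := deg_split H U w
  rw [(mem_realizations d H).1 hH w] at h2
  rw [nb_out_eq G H U h w hw] at h1
  omega

theorem Mx_eq (u v x y : Fin n) (hux : u ≠ x) (huy : u ≠ y) (hvx : v ≠ x)
    (hvy : v ≠ y) :
    tch ({u, v} : Finset (Fin n)) ∩ tch ({x, y} : Finset (Fin n)) =
      {mkE u x hux, mkE u y huy, mkE v x hvx, mkE v y hvy} := by
  ext e
  obtain ⟨p, q, hpq, rfl⟩ := edge_exists e
  simp only [mem_inter, mkE_mem_tch, mem_insert, mem_singleton, mkE_eq_iff]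
  constructor
  · rintro ⟨h1, h2⟩
    rcases h1 with (rfl | rfl) | (rfl | rfl) <;> rcases h2 with (h | h) | (h | h) <;>
      subst h <;> simp_all
  · intro h
    rcases h with (⟨rfl, rfl⟩ | ⟨rfl, rfl⟩) | (⟨rfl, rfl⟩ | ⟨rfl, rfl⟩) | (⟨rfl, rfl⟩ | ⟨rfl, rfl⟩) | (⟨rfl, rfl⟩ | ⟨rfl, rfl⟩) <;> simp

theorem card_inter_Mx (G : Gr n) (u v x y : Fin n) (huv : u ≠ v) (hxy : x ≠ y) (hux : u ≠ x)
    (huy : u ≠ y) (hvx : v ≠ x) (hvy : v ≠ y) :
    (G ∩ (tch ({u, v} : Finset (Fin n)) ∩ tch ({x, y} : Finset (Fin n)))).card =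
      ind (adj G u x) + ind (adj G u y) + ind (adj G v x) + ind (adj G v y) := by
  rw [Mx_eq u v x y hux huy hvx hvy, Finset.inter_comm, ← Finset.filter_mem_eq_inter,
    Finset.card_filter]
  have n12 : mkE u x hux ≠ mkE u y huy := by
    rw [Ne, mkE_eq_iff]; rintro (⟨-, h⟩ | ⟨h, -⟩)
    · exact hxy h
    · exact huy h
  have n13 : mkE u x hux ≠ mkE v x hvx := by
    rw [Ne, mkE_eq_iff]; rintro (⟨h, -⟩ | ⟨h, -⟩)
    · exact huv h
    · exact hux h
  have n14 : mkE u x hux ≠ mkE v y hvy := by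
    rw [Ne, mkE_eq_iff]; rintro (⟨h, -⟩ | ⟨h, -⟩)
    · exact huv h
    · exact huy h
  have n23 : mkE u y huy ≠ mkE v x hvx := by
    rw [Ne, mkE_eq_iff]; rintro (⟨h, -⟩ | ⟨h, -⟩)
    · exact huv h
    · exact hux h
  have n24 : mkE u y huy ≠ mkE v y hvy := by
    rw [Ne, mkE_eq_iff]; rintro (⟨h, -⟩ | ⟨h, -⟩)
    · exact huv h
    · exact huy h
  have n34 : mkE v x hvx ≠ mkE v y hvy := by
    rw [Ne, mkE_eq_iff]; rintro (⟨-, h⟩ | ⟨h, -⟩)
    · exact hxy h
    · exact hvy h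
  rw [Finset.sum_insert (by simp [n12, n13, n14]), Finset.sum_insert (by simp [n23, n24]),
    Finset.sum_insert (by simp [n34]), Finset.sum_singleton]
  unfold ind
  simp only [adj_iff G u x hux, adj_iff G u y huy, adj_iff G v x hvx, adj_iff G v y hvy]
  ring

/-- row margins: `H ~_{b'} G` -/
theorem row_margin (d : Fin n → ℕ) (G H : Gr n) (hG : G ∈ realizations d) (hH : H ∈ realizations d)
    (x y : Fin n) (hxy : x ≠ y) (h : G \ tch ({x, y} : Finset (Fin n)) = H \ tch {x, y})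
    (w : Fin n) (hwx : w ≠ x) (hwy : w ≠ y) :
    ind (adj G w x) + ind (adj G w y) = ind (adj H w x) + ind (adj H w y) := by
  have := margin d G H hG hH {x, y} h w (by simp [hwx, hwy])
  rwa [card_nb_pair G w x y hxy, card_nb_pair H w x y hxy] at this

theorem hS_aux (d : Fin n → ℕ) (u v x y : Fin n) (huv : u ≠ v) (hxy : x ≠ y) (hux : u ≠ x)
    (huy : u ≠ y) (hvx : v ≠ x) (hvy : v ≠ y) (e e' : Gr n)
    (he : e ∈ realizations d) (he' : e' ∈ realizations d)
    (ho : Odd (e ∩ (tch ({u, v} : Finset (Fin n)) ∩ tch ({x, y} : Finset (Fin n)))).card)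
    (h1 : e \ tch ({u, v} : Finset (Fin n)) = e' \ tch {u, v})
    (h2 : e \ tch ({x, y} : Finset (Fin n)) = e' \ tch {x, y}) : e = e' := by
  rw [card_inter_Mx e u v x y huv hxy hux huy hvx hvy] at ho
  obtain ⟨k, hk⟩ := ho
  have r1 := row_margin d e e' he he' x y hxy h2 u hux huy
  have r2 := row_margin d e e' he he' x y hxy h2 v hvx hvy
  have c1 := row_margin d e e' he he' u v huv h1 x hux.symm hvx.symm
  have c2 := row_margin d e e' he he' u v huv h1 y huy.symm hvy.symm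
  rw [ind_congr (adj_comm e x u), ind_congr (adj_comm e x v), ind_congr (adj_comm e' x u),
    ind_congr (adj_comm e' x v)] at c1
  rw [ind_congr (adj_comm e y u), ind_congr (adj_comm e y v), ind_congr (adj_comm e' y u),
    ind_congr (adj_comm e' y v)] at c2
  have b1 := ind_le (adj e u x); have b2 := ind_le (adj e u y)
  have b3 := ind_le (adj e v x); have b4 := ind_le (adj e v y)
  have b1' := ind_le (adj e' u x); have b2' := ind_le (adj e' u y)
  have b3' := ind_le (adj e' v x); have b4' := ind_le (adj e' v y)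
  have e1 : adj e u x ↔ adj e' u x := iff_of_ind_eq (by omega)
  have e2 : adj e u y ↔ adj e' u y := iff_of_ind_eq (by omega)
  have e3 : adj e v x ↔ adj e' v x := iff_of_ind_eq (by omega)
  have e4 : adj e v y ↔ adj e' v y := iff_of_ind_eq (by omega)
  apply gr_ext
  intro p q
  by_cases hb : p ∉ ({u, v} : Finset (Fin n)) ∧ q ∉ ({u, v} : Finset (Fin n))
  · exact (sdiff_tch_eq_iff e e' _).1 h1 p q hb.1 hb.2
  by_cases hb' : p ∉ ({x, y} : Finset (Fin n)) ∧ q ∉ ({x, y} : Finset (Fin n))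
  · exact (sdiff_tch_eq_iff e e' _).1 h2 p q hb'.1 hb'.2
  simp only [mem_insert, mem_singleton, not_and_or, not_not, not_or] at hb hb'
  rcases hb with (rfl | rfl) | (rfl | rfl) <;> rcases hb' with (h | h) | (h | h) <;>
    first
    | (exfalso; first | exact hux h | exact huy h | exact hvx h | exact hvy h
                      | exact hux h.symm | exact huy h.symm | exact hvx h.symm | exact hvy h.symm)
    | (subst h; first | exact e1 | exact e2 | exact e3 | exact e4
                      | (rw [adj_comm e, adj_comm e']; first | exact e1 | exact e2 | exact e3 | exact e4))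

theorem arith (ru rv kx ky m t1 t2 t3 t4 k : ℕ) (hm : m = ru + rv)
    (e1 : ru + rv = 2 * k + 1) (e2 : kx + ky = 2 * k + 1)
    (f1 : ru ≤ 2) (f2 : rv ≤ 2) (f3 : kx ≤ 2) (f4 : ky ≤ 2)
    (T1 : (m + 3 ≤ 2 * (ru + kx) ∧ t1 = 1) ∨ (¬ (m + 3 ≤ 2 * (ru + kx)) ∧ t1 = 0))
    (T2 : (m + 3 ≤ 2 * (ru + ky) ∧ t2 = 1) ∨ (¬ (m + 3 ≤ 2 * (ru + ky)) ∧ t2 = 0))
    (T3 : (m + 3 ≤ 2 * (rv + kx) ∧ t3 = 1) ∨ (¬ (m + 3 ≤ 2 * (rv + kx)) ∧ t3 = 0))
    (T4 : (m + 3 ≤ 2 * (rv + ky) ∧ t4 = 1) ∨ (¬ (m + 3 ≤ 2 * (rv + ky)) ∧ t4 = 0)) :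
    t1 + t2 = ru ∧ t3 + t4 = rv ∧ t1 + t3 = kx ∧ t2 + t4 = ky := by
  subst hm
  interval_cases ru <;> interval_cases rv <;> interval_cases kx <;> interval_cases ky <;> omega

theorem hR_aux (d : Fin n → ℕ) (u v x y : Fin n) (huv : u ≠ v) (hxy : x ≠ y) (hux : u ≠ x)
    (huy : u ≠ y) (hvx : v ≠ x) (hvy : v ≠ y) (A B C : Gr n)
    (hA : A ∈ realizations d) (hB : B ∈ realizations d) (hC : C ∈ realizations d)
    (ho : Odd (A ∩ (tch ({u, v} : Finset (Fin n)) ∩ tch ({x, y} : Finset (Fin n)))).card)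
    (h1 : B \ tch ({u, v} : Finset (Fin n)) = A \ tch {u, v})
    (h2 : C \ tch ({x, y} : Finset (Fin n)) = A \ tch {x, y}) :
    ∃ e ∈ realizations d,
      Odd (e ∩ (tch ({u, v} : Finset (Fin n)) ∩ tch ({x, y} : Finset (Fin n)))).card ∧
      e \ tch ({x, y} : Finset (Fin n)) = B \ tch {x, y} ∧
      e \ tch ({u, v} : Finset (Fin n)) = C \ tch {u, v} := by
  classical
  rw [card_inter_Mx A u v x y huv hxy hux huy hvx hvy] at ho
  obtain ⟨k, hk⟩ := ho
  -- margins
  have rC1 := row_margin d C A hC hA x y hxy h2 u hux huy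
  have rC2 := row_margin d C A hC hA x y hxy h2 v hvx hvy
  have cB1 := row_margin d B A hB hA u v huv h1 x hux.symm hvx.symm
  have cB2 := row_margin d B A hB hA u v huv h1 y huy.symm hvy.symm
  rw [ind_congr (adj_comm B x u), ind_congr (adj_comm B x v), ind_congr (adj_comm A x u),
    ind_congr (adj_comm A x v)] at cB1
  rw [ind_congr (adj_comm B y u), ind_congr (adj_comm B y v), ind_congr (adj_comm A y u),
    ind_congr (adj_comm A y v)] at cB2
  obtain ⟨ρ, hρ⟩ : ∃ ρ : Fin n → ℕ, ∀ p, ρ p = ind (adj B p x) + ind (adj B p y) :=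
    ⟨_, fun _ => rfl⟩
  obtain ⟨κ, hκ⟩ : ∃ κ : Fin n → ℕ, ∀ q, κ q = ind (adj C u q) + ind (adj C v q) :=
    ⟨_, fun _ => rfl⟩
  obtain ⟨m, hm⟩ : ∃ m : ℕ, m = ρ u + ρ v := ⟨_, rfl⟩
  let b : Finset (Fin n) := {u, v}
  let b' : Finset (Fin n) := {x, y}
  have hdis : ∀ p, p ∈ b → p ∉ b' := by
    intro p hp hp'
    simp only [b, b', mem_insert, mem_singleton] at hp hp'
    rcases hp with rfl | rfl <;> rcases hp' with h | h
    · exact hux h
    · exact huy h
    · exact hvx h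
    · exact hvy h
  let r : Fin n → Fin n → Prop := fun p q =>
    (p ∉ b' ∧ q ∉ b' ∧ adj B p q) ∨ ((p ∈ b' ∨ q ∈ b') ∧ p ∉ b ∧ q ∉ b ∧ adj C p q) ∨
      (p ∈ b ∧ q ∈ b' ∧ m + 3 ≤ 2 * (ρ p + κ q)) ∨ (q ∈ b ∧ p ∈ b' ∧ m + 3 ≤ 2 * (ρ q + κ p))
  have hs : ∀ p q, r p q → r q p := by
    intro p q h
    rcases h with ⟨a1, a2, a3⟩ | ⟨a1, a2, a3, a4⟩ | ⟨a1, a2, a3⟩ | ⟨a1, a2, a3⟩
    · exact Or.inl ⟨a2, a1, (adj_comm B p q).1 a3⟩
    · exact Or.inr (Or.inl ⟨a1.symm, a3, a2, (adj_comm C p q).1 a4⟩)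
    · exact Or.inr (Or.inr (Or.inr ⟨a1, a2, a3⟩))
    · exact Or.inr (Or.inr (Or.inl ⟨a1, a2, a3⟩))
  have hE : ∀ p q, adj (ofAdj r) p q ↔ p ≠ q ∧ r p q := adj_ofAdj r hs
  -- F1
  have F1 : ∀ p q, p ∉ b' → q ∉ b' → (adj (ofAdj r) p q ↔ adj B p q) := by
    intro p q hp hq
    rw [hE]
    constructor
    · rintro ⟨-, ⟨-, -, a3⟩ | ⟨a1, -⟩ | ⟨-, a2, -⟩ | ⟨-, a2, -⟩⟩
      · exact a3
      · rcases a1 with a1 | a1
        · exact absurd a1 hp
        · exact absurd a1 hq
      · exact absurd a2 hq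
      · exact absurd a2 hp
    · intro h
      exact ⟨adj_ne h, Or.inl ⟨hp, hq, h⟩⟩
  have F2 : ∀ p q, p ∉ b → q ∉ b → (adj (ofAdj r) p q ↔ adj C p q) := by
    intro p q hp hq
    rw [hE]
    have hBC : p ∉ b' → q ∉ b' → (adj B p q ↔ adj C p q) := fun hp' hq' =>
      ((sdiff_tch_eq_iff B A _).1 h1 p q hp hq).trans
        ((sdiff_tch_eq_iff C A _).1 h2 p q hp' hq').symm
    constructor
    · rintro ⟨-, ⟨a1, a2, a3⟩ | ⟨-, -, -, a4⟩ | ⟨a1, -⟩ | ⟨a1, -⟩⟩
      · exact (hBC a1 a2).1 a3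
      · exact a4
      · exact absurd a1 hp
      · exact absurd a1 hq
    · intro h
      refine ⟨adj_ne h, ?_⟩
      by_cases hh : p ∈ b' ∨ q ∈ b'
      · exact Or.inr (Or.inl ⟨hh, hp, hq, h⟩)
      · rw [not_or] at hh
        exact Or.inl ⟨hh.1, hh.2, (hBC hh.1 hh.2).2 h⟩
  have F3 : ∀ p q, p ∈ b → q ∈ b' → (adj (ofAdj r) p q ↔ m + 3 ≤ 2 * (ρ p + κ q)) := by
    intro p q hp hq
    rw [hE]
    constructor
    · rintro ⟨-, ⟨-, a2, -⟩ | ⟨-, a2, -⟩ | ⟨-, -, a3⟩ | ⟨a1, -⟩⟩
      · exact absurd hq a2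
      · exact absurd hp a2
      · exact a3
      · exact absurd hq (hdis q a1)
    · intro h
      refine ⟨?_, Or.inr (Or.inr (Or.inl ⟨hp, hq, h⟩))⟩
      rintro rfl
      exact hdis p hp hq
  have T : ∀ p q, p ∈ b → q ∈ b' →
      (m + 3 ≤ 2 * (ρ p + κ q) ∧ ind (adj (ofAdj r) p q) = 1) ∨
      (¬ (m + 3 ≤ 2 * (ρ p + κ q)) ∧ ind (adj (ofAdj r) p q) = 0) := by
    intro p q hp hq
    by_cases h : m + 3 ≤ 2 * (ρ p + κ q)
    · left; exact ⟨h, by unfold ind; rw [if_pos ((F3 p q hp hq).2 h)]⟩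
    · right; exact ⟨h, by unfold ind; rw [if_neg (fun h' => h ((F3 p q hp hq).1 h'))]⟩
  have ub : u ∈ b := by simp [b]
  have vb : v ∈ b := by simp [b]
  have xb : x ∈ b' := by simp [b']
  have yb : y ∈ b' := by simp [b']
  have i1 := ind_le (adj A u x); have i2 := ind_le (adj A u y)
  have i3 := ind_le (adj A v x); have i4 := ind_le (adj A v y)
  have j1 := ind_le (adj B u x); have j2 := ind_le (adj B u y)
  have j3 := ind_le (adj B v x); have j4 := ind_le (adj B v y)
  have l1 := ind_le (adj C u x); have l2 := ind_le (adj C u y)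
  have l3 := ind_le (adj C v x); have l4 := ind_le (adj C v y)
  have hρu := hρ u; have hρv := hρ v; have hκx := hκ x; have hκy := hκ y
  -- the four margins of the new block
  have M := arith (ρ u) (ρ v) (κ x) (κ y) m _ _ _ _ k hm (by omega) (by omega) (by omega) (by omega)
    (by omega) (by omega) (T u x ub xb) (T u y ub yb) (T v x vb xb) (T v y vb yb)
  rw [hρu, hρv, hκx, hκy] at M
  obtain ⟨M1, M2, M3, M4⟩ := M
  have K1 : ofAdj r \ tch b' = B \ tch b' := (sdiff_tch_eq_iff _ _ _).2 F1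
  have K2 : ofAdj r \ tch b = C \ tch b := (sdiff_tch_eq_iff _ _ _).2 F2
  refine ⟨ofAdj r, ?_, ?_, K1, K2⟩
  · rw [mem_realizations]
    intro w
    by_cases hw' : w ∈ b'
    · -- use `C`
      have hwb : w ∉ b := fun h => hdis w h hw'
      refine deg_of_margin d _ C hC b K2 w hwb ?_
      rw [card_nb_pair _ w u v huv, card_nb_pair _ w u v huv]
      simp only [b', mem_insert, mem_singleton] at hw'
      rcases hw' with rfl | rfl
      · rw [ind_congr (adj_comm _ w u), ind_congr (adj_comm _ w v), ind_congr (adj_comm C w u),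
          ind_congr (adj_comm C w v)]
        exact M3
      · rw [ind_congr (adj_comm _ w u), ind_congr (adj_comm _ w v), ind_congr (adj_comm C w u),
          ind_congr (adj_comm C w v)]
        exact M4
    · refine deg_of_margin d _ B hB b' K1 w hw' ?_
      rw [card_nb_pair _ w x y hxy, card_nb_pair _ w x y hxy]
      by_cases hwb : w ∈ b
      · simp only [b, mem_insert, mem_singleton] at hwb
        rcases hwb with rfl | rfl
        · exact M1
        · exact M2
      · have hxb : x ∉ b := fun h => hdis x h xb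
        have hyb : y ∉ b := fun h => hdis y h yb
        rw [ind_congr (F2 w x hwb hxb), ind_congr (F2 w y hwb hyb),
          ind_congr ((sdiff_tch_eq_iff B A _).1 h1 w x hwb hxb),
          ind_congr ((sdiff_tch_eq_iff B A _).1 h1 w y hwb hyb)]
        have hwx : w ≠ x := by rintro rfl; exact hw' xb
        have hwy : w ≠ y := by rintro rfl; exact hw' yb
        exact row_margin d C A hC hA x y hxy h2 w hwx hwy
  · rw [card_inter_Mx _ u v x y huv hxy hux huy hvx hvy]
    exact ⟨k, by omega⟩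

/-- the odd sub-universe -/
def Om' (d : Fin n → ℕ) (b b' : Finset (Fin n)) : Finset (Gr n) :=
  (realizations d).filter fun G => Odd (G ∩ (tch b ∩ tch b')).card

theorem mem_Om' (d : Fin n → ℕ) (b b' : Finset (Fin n)) (G : Gr n) :
    G ∈ Om' d b b' ↔ G ∈ realizations d ∧ Odd (G ∩ (tch b ∩ tch b')).card := by
  simp [Om']

/-- (G5), `hS` of `Av_comm_of_rect`. -/
theorem hS (d : Fin n → ℕ) (b b' : Finset (Fin n)) (hb : b.card = 2) (hb' : b'.card = 2)
    (hd : Disjoint b b') :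
    ∀ e ∈ (realizations d).filter (fun G => Odd (G ∩ (tch b ∩ tch b')).card),
    ∀ e' ∈ (realizations d).filter (fun G => Odd (G ∩ (tch b ∩ tch b')).card),
      e \ tch b = e' \ tch b → e \ tch b' = e' \ tch b' → e = e' := by
  obtain ⟨u, v, huv, rfl⟩ := Finset.card_eq_two.1 hb
  obtain ⟨x, y, hxy, rfl⟩ := Finset.card_eq_two.1 hb'
  have hux : u ≠ x := by rintro rfl; exact (Finset.disjoint_left.1 hd) (a := u) (by simp) (by simp)
  have huy : u ≠ y := by rintro rfl; exact (Finset.disjoint_left.1 hd) (a := u) (by simp) (by simp)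
  have hvx : v ≠ x := by rintro rfl; exact (Finset.disjoint_left.1 hd) (a := v) (by simp) (by simp)
  have hvy : v ≠ y := by rintro rfl; exact (Finset.disjoint_left.1 hd) (a := v) (by simp) (by simp)
  intro e he e' he' h1 h2
  rw [Finset.mem_filter] at he he'
  exact hS_aux d u v x y huv hxy hux huy hvx hvy e e' he.1 he'.1 he.2 h1 h2

/-- (G5), `hR` of `Av_comm_of_rect`. -/
theorem hR (d : Fin n → ℕ) (b b' : Finset (Fin n)) (hb : b.card = 2) (hb' : b'.card = 2)
    (hd : Disjoint b b') :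
    ∀ A ∈ (realizations d).filter (fun G => Odd (G ∩ (tch b ∩ tch b')).card),
    ∀ B ∈ (realizations d).filter (fun G => Odd (G ∩ (tch b ∩ tch b')).card),
    ∀ C ∈ (realizations d).filter (fun G => Odd (G ∩ (tch b ∩ tch b')).card),
      B \ tch b = A \ tch b → C \ tch b' = A \ tch b' →
      ∃ e ∈ (realizations d).filter (fun G => Odd (G ∩ (tch b ∩ tch b')).card),
        e \ tch b' = B \ tch b' ∧ e \ tch b = C \ tch b := by
  obtain ⟨u, v, huv, rfl⟩ := Finset.card_eq_two.1 hb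
  obtain ⟨x, y, hxy, rfl⟩ := Finset.card_eq_two.1 hb'
  have hux : u ≠ x := by rintro rfl; exact (Finset.disjoint_left.1 hd) (a := u) (by simp) (by simp)
  have huy : u ≠ y := by rintro rfl; exact (Finset.disjoint_left.1 hd) (a := u) (by simp) (by simp)
  have hvx : v ≠ x := by rintro rfl; exact (Finset.disjoint_left.1 hd) (a := v) (by simp) (by simp)
  have hvy : v ≠ y := by rintro rfl; exact (Finset.disjoint_left.1 hd) (a := v) (by simp) (by simp)
  intro A hA B hB C hC h1 h2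
  rw [Finset.mem_filter] at hA hB hC
  obtain ⟨e, he, ho, k1, k2⟩ := hR_aux d u v x y huv hxy hux huy hvx hvy A B C hA.1 hB.1 hC.1 hA.2 h1 h2
  exact ⟨e, Finset.mem_filter.2 ⟨he, ho⟩, k1, k2⟩

end Crest.Agent.R299.T4Odd
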