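import Crest.Agent.R299.T4Local
import Crest.Agent.R299.T4Graph
import Crest.Agent.R299.T4Odd

/-!
# R299 (S0453): the T4-local lemma (I2), assembled from `T4Local`, `T4Graph`, `T4Odd`.
-/

set_option autoImplicit false
open Finset
open Crest.SwitchChain

namespace Crest.Agent.R299.T4F

variable {n : ℕ}

theorem facts (d : Fin n → ℕ) (b b' : Finset (Fin n)) (hb : b.card = 2) (hb' : b'.card = 2)
    (hd : Disjoint b b') : T4L.Facts d b b' where
  colF := fun G hG h => T4G.G1 d b b' hb hb' hd G hG h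
  rowF := fun G hG h => T4G.G1' d b b' hb hb' hd G hG h
  clas := fun G _ ho hc => T4G.G2 b b' hb hb' hd G ho hc
  odd1 := fun G hG H hH h => by
    unfold oddS Mx
    rw [T4G.G3_card d b b' hb hb' hd H G hH hG h]
  odd2 := fun G hG H hH h => by
    unfold oddS Mx
    rw [T4G.G3_card' d b b' hb hb' hd H G hH hG h]
  glue := fun G _ H hH hcG hcH => T4G.G4 d b b' hb hb' hd G H hH hcG hcH
  rect := T4Odd.hR d b b' hb hb' hd
  sep := T4Odd.hS d b b' hb hb' hd

/-- (I2) the T4-local lemma. -/
theorem T4_local (d : Fin n → ℕ) (b b' : Finset (Fin n)) (hb : b.card = 2) (hb' : b'.card = 2)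
    (hd : Disjoint b b') (f : Gr n → ℝ) :
    ipd d (DB d (Mx b b') f) (DB d (Mx b b') f) - XS d b b' f / 2 - XS d b' b f / 2 ≤
      ipd d (DB d (tch b) f) (DB d (tch b') f) :=
  T4L.T4_local_of_facts d b b' (facts d b b' hb hb' hd) f

end Crest.Agent.R299.T4F
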