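import Crest.Agent.R299.Core
import Crest.Agent.R299.CoreConn
import Crest.Agent.R299.Bridge3I1
import Crest.Agent.R299.T4Final
import Crest.Agent.R299.Final

/-!
# R299 (S0453): plugging the landed pieces into `poinc_of_pieces`

What is left after (I1) [modulo the abstract 3-row lemma], (I2), (I6): the 3-row lemma and
(I3), (I4), (I5).
-/

set_option autoImplicit false
open Finset
open Crest.SwitchChain

namespace Crest.Agent.R299

variable {n : ℕ}

theorem Dir_nonneg' (d : Fin n → ℕ) (f : Gr n → ℝ) : 0 ≤ Dir d f := by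
  unfold Dir
  refine Finset.sum_nonneg fun G _ => ?_
  unfold locE
  positivity

/-- Everything that is left of S0453, in one statement. -/
theorem core_of_rest (h3 : B3I.ThreeRowStmt n)
    (I3 : ∀ d : Fin n → ℕ, ∀ b ∈ P2 (Fin n), ∀ f : Gr n → ℝ,
      ∑ b' ∈ (P2 (Fin n)).filter (fun b' => Disjoint b b'), XS d b b' f ≤
        ∑ b' ∈ (P2 (Fin n)).filter (fun b' => Disjoint b b'), Qf d b b' f)
    (I4 : ∀ d : Fin n → ℕ, ∀ b ∈ P2 (Fin n), ∀ f : Gr n → ℝ,
      ipd d f (DB d (tch b) f) ≤ ∑ b' ∈ (P2 (Fin n)).filter (fun b' => Disjoint b b'), Qf d b b' f)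
    (I5 : ∀ d : Fin n → ℕ, ∀ f : Gr n → ℝ,
      ∑ b ∈ P2 (Fin n), ∑ b' ∈ (P2 (Fin n)).filter (fun b' => Disjoint b b'), Qf d b b' f ≤
        (n : ℝ) ^ 2 * Dir d f) :
    Core n := by
  intro d
  refine poinc_of_pieces d (XS d) ((n : ℝ) ^ 2) ?_ ?_ (I3 d) (I4 d) (I5 d) (conn_of_blocks d)
  · intro T hT f
    exact B3I.bridge_finset d h3 T (mem_P3.1 hT) f
  · intro b hb b' hb' hd f
    exact T4F.T4_local d b b' (mem_P2.1 hb) (mem_P2.1 hb') hd f

end Crest.Agent.R299
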