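import Mathlib

/-!
# R299 (S0453): pure `Finset.powersetCard` lemmas for stage 2 of the 3-row lemma

* `sum_up_down`      : double counting between `powersetCard s` and `powersetCard (s+1)`.
* `subset_coupling`  : the coupling of a uniform `s`-subset of `Fr` with a uniform
                       `(s+1)`-subset of `Fr ∪ {a,b}`.
* `const_of_exchange`: a function on `powersetCard s Fr` invariant under exchanges is constant.
-/

set_option autoImplicit false
open Finset

namespace Crest.Agent.R299.SC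

variable {C : Type*} [DecidableEq C]

theorem sum_up_down (Fr : Finset C) (s : ℕ) (φ : Finset C → Finset C → ℝ) :
    ∑ T ∈ Fr.powersetCard s, ∑ g ∈ Fr \ T, φ T (insert g T) =
      ∑ T' ∈ Fr.powersetCard (s + 1), ∑ g ∈ T', φ (T'.erase g) T' := by
  rw [Finset.sum_sigma', Finset.sum_sigma']
  refine Finset.sum_bij' (fun p _ => ⟨insert p.2 p.1, p.2⟩) (fun p _ => ⟨p.1.erase p.2, p.2⟩)
    ?_ ?_ ?_ ?_ ?_
  · rintro ⟨T, g⟩ h
    simp only [mem_sigma, mem_powersetCard, mem_sdiff] at h ⊢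
    obtain ⟨⟨hT, hc⟩, hg, hgT⟩ := h
    refine ⟨⟨insert_subset hg hT, ?_⟩, mem_insert_self _ _⟩
    rw [card_insert_of_notMem hgT, hc]
  · rintro ⟨T', g⟩ h
    simp only [mem_sigma, mem_powersetCard, mem_sdiff] at h ⊢
    obtain ⟨⟨hT, hc⟩, hg⟩ := h
    refine ⟨⟨(erase_subset _ _).trans hT, ?_⟩, hT hg, notMem_erase _ _⟩
    rw [card_erase_of_mem hg, hc]; rfl
  · rintro ⟨T, g⟩ h
    simp only [mem_sigma, mem_powersetCard, mem_sdiff] at h
    obtain ⟨⟨hT, hc⟩, hg, hgT⟩ := h
    simp [erase_insert hgT]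
  · rintro ⟨T', g⟩ h
    simp only [mem_sigma, mem_powersetCard] at h
    obtain ⟨⟨hT, hc⟩, hg⟩ := h
    simp [insert_erase hg]
  · rintro ⟨T, g⟩ h
    simp only [mem_sigma, mem_powersetCard, mem_sdiff] at h
    obtain ⟨⟨hT, hc⟩, hg, hgT⟩ := h
    simp [erase_insert hgT]

theorem sum_pc_insert (S : Finset C) (x : C) (hx : x ∉ S) (k : ℕ) (φ : Finset C → ℝ) :
    ∑ T ∈ (insert x S).powersetCard (k + 1), φ T =
      ∑ T ∈ S.powersetCard (k + 1), φ T + ∑ T ∈ S.powersetCard k, φ (insert x T) := by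
  rw [powersetCard_succ_insert hx, sum_union, sum_image]
  · intro T hT T' hT' h
    have h1 : x ∉ T := fun h => hx ((mem_powersetCard.1 hT).1 h)
    have h2 : x ∉ T' := fun h => hx ((mem_powersetCard.1 hT').1 h)
    rw [← erase_insert h1, ← erase_insert h2, h]
  · rw [disjoint_left]
    intro T hT hT'
    obtain ⟨T0, _, rfl⟩ := mem_image.1 hT'
    exact hx ((mem_powersetCard.1 hT).1 (mem_insert_self _ _))

theorem core (p q N N' H K M : ℝ) (hp : 0 < p) (hN : 0 < N) (hcount : p * N' = q * N)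
    (hD : |p * K - q * H| ≤ q * N * M) : |K - N' * (H / N)| ≤ N' * M := by
  have e : p * (K - N' * (H / N)) = p * K - q * H := by
    have : p * N' * (H / N) = q * H := by rw [hcount]; field_simp
    linarith [this]
  have h1 : |p * (K - N' * (H / N))| ≤ p * (N' * M) := by
    rw [e]; calc _ ≤ q * N * M := hD
      _ = p * (N' * M) := by rw [← mul_assoc, hcount]
  rw [abs_mul, abs_of_pos hp] at h1
  exact le_of_mul_le_mul_left h1 hp

theorem updown_identity (Fr : Finset C) (s : ℕ) (h k : Finset C → ℝ) :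
    ∑ T ∈ Fr.powersetCard s, ∑ g ∈ Fr \ T, (k (insert g T) - h T) =
      ((s : ℝ) + 1) * ∑ T' ∈ Fr.powersetCard (s + 1), k T' -
        ((Fr.card : ℝ) - s) * ∑ T ∈ Fr.powersetCard s, h T := by
  simp_rw [sum_sub_distrib]
  rw [sum_up_down Fr s (fun _ T' => k T')]
  congr 1
  · rw [mul_sum]
    refine sum_congr rfl fun T' hT' => ?_
    rw [sum_const, (mem_powersetCard.1 hT').2, nsmul_eq_mul]
    push_cast; ring
  · rw [mul_sum]
    refine sum_congr rfl fun T hT => ?_
    obtain ⟨hT1, hT2⟩ := mem_powersetCard.1 hT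
    rw [sum_const, card_sdiff_of_subset hT1, hT2, nsmul_eq_mul,
      Nat.cast_sub (hT2 ▸ card_le_card hT1)]

theorem updown_count (Fr : Finset C) (s : ℕ) :
    ((s : ℝ) + 1) * ((Fr.powersetCard (s + 1)).card : ℝ) =
      ((Fr.card : ℝ) - s) * ((Fr.powersetCard s).card : ℝ) := by
  have := updown_identity Fr s (fun _ => 1) (fun _ => 1)
  simp only [sub_self, sum_const_zero, sum_const, nsmul_eq_mul, mul_one] at this
  linarith

theorem updown_bound (Fr : Finset C) (s : ℕ) (h k : Finset C → ℝ) (M : ℝ)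
    (hM : ∀ T ∈ Fr.powersetCard s, ∀ g ∈ Fr \ T, |k (insert g T) - h T| ≤ M) :
    |((s : ℝ) + 1) * ∑ T' ∈ Fr.powersetCard (s + 1), k T' -
        ((Fr.card : ℝ) - s) * ∑ T ∈ Fr.powersetCard s, h T| ≤
      ((Fr.card : ℝ) - s) * ((Fr.powersetCard s).card : ℝ) * M := by
  rw [← updown_identity]
  calc |∑ T ∈ Fr.powersetCard s, ∑ g ∈ Fr \ T, (k (insert g T) - h T)|
      ≤ ∑ T ∈ Fr.powersetCard s, ∑ g ∈ Fr \ T, |k (insert g T) - h T| :=
        (abs_sum_le_sum_abs _ _).trans (sum_le_sum fun T _ => abs_sum_le_sum_abs _ _)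
    _ ≤ ∑ T ∈ Fr.powersetCard s, ∑ g ∈ Fr \ T, M :=
        sum_le_sum fun T hT => sum_le_sum fun g hg => hM T hT g hg
    _ = ∑ T ∈ Fr.powersetCard s, ((Fr.card : ℝ) - s) * M := by
        refine sum_congr rfl fun T hT => ?_
        obtain ⟨hT1, hT2⟩ := mem_powersetCard.1 hT
        rw [sum_const, card_sdiff_of_subset hT1, hT2, nsmul_eq_mul,
          Nat.cast_sub (hT2 ▸ card_le_card hT1)]
    _ = _ := by rw [sum_const, nsmul_eq_mul]; ring

/-- going up: the sum of `k` over `(s+1)`-subsets against the average of `h` over `s`-subsets. -/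
theorem up_le (Fr : Finset C) (s : ℕ) (hs : s ≤ Fr.card) (h k : Finset C → ℝ) (M : ℝ)
    (hM : ∀ T ∈ Fr.powersetCard s, ∀ g ∈ Fr \ T, |k (insert g T) - h T| ≤ M) :
    |∑ T' ∈ Fr.powersetCard (s + 1), k T' - ((Fr.powersetCard (s + 1)).card : ℝ) *
        ((∑ T ∈ Fr.powersetCard s, h T) / ((Fr.powersetCard s).card : ℝ))| ≤
      ((Fr.powersetCard (s + 1)).card : ℝ) * M := by
  have hN : (0 : ℝ) < ((Fr.powersetCard s).card : ℝ) := by
    rw [card_powersetCard]; exact_mod_cast Nat.choose_pos hs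
  exact core ((s : ℝ) + 1) ((Fr.card : ℝ) - s) _ _ _ _ M (by positivity) hN
    (updown_count Fr s) (updown_bound Fr s h k M hM)

/-- going down: the sum of `k` over `s`-subsets against the average of `h` over `(s+1)`-subsets. -/
theorem down_le (Fr : Finset C) (s : ℕ) (hs : s + 1 ≤ Fr.card) (h k : Finset C → ℝ) (M : ℝ)
    (hM : ∀ T ∈ Fr.powersetCard (s + 1), ∀ g ∈ T, |k (T.erase g) - h T| ≤ M) :
    |∑ T' ∈ Fr.powersetCard s, k T' - ((Fr.powersetCard s).card : ℝ) *
        ((∑ T ∈ Fr.powersetCard (s + 1), h T) / ((Fr.powersetCard (s + 1)).card : ℝ))| ≤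
      ((Fr.powersetCard s).card : ℝ) * M := by
  have hN : (0 : ℝ) < ((Fr.powersetCard (s + 1)).card : ℝ) := by
    rw [card_powersetCard]; exact_mod_cast Nat.choose_pos hs
  have hp : (0 : ℝ) < (Fr.card : ℝ) - s := by
    have : ((s : ℝ) + 1) ≤ Fr.card := by exact_mod_cast hs
    linarith
  refine core ((Fr.card : ℝ) - s) ((s : ℝ) + 1) _ _ _ _ M hp hN (updown_count Fr s).symm ?_
  have hM' : ∀ T ∈ Fr.powersetCard s, ∀ g ∈ Fr \ T, |h (insert g T) - k T| ≤ M := by
    intro T hT g hg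
    obtain ⟨hT1, hT2⟩ := mem_powersetCard.1 hT
    obtain ⟨hg1, hg2⟩ := mem_sdiff.1 hg
    have := hM (insert g T) (mem_powersetCard.2 ⟨insert_subset hg1 hT1, by
      rw [card_insert_of_notMem hg2, hT2]⟩) g (mem_insert_self _ _)
    rw [erase_insert hg2] at this
    rwa [abs_sub_comm]
  have := updown_bound Fr s k h M hM'
  rw [abs_sub_comm, ← updown_count] at this
  exact this

theorem decomp_zero (Fr : Finset C) (a b : C) (ha : a ∉ Fr) (hb : b ∉ Fr) (hab : a ≠ b)
    (φ : Finset C → ℝ) :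
    ∑ T' ∈ (insert a (insert b Fr)).powersetCard (0 + 1), φ T' =
      ∑ T ∈ Fr.powersetCard (0 + 1), φ T + ∑ T ∈ Fr.powersetCard 0, φ (insert b T) +
        ∑ T ∈ Fr.powersetCard 0, φ (insert a T) := by
  have ha' : a ∉ insert b Fr := by simp [hab, ha]
  rw [sum_pc_insert _ a ha', sum_pc_insert _ b hb]
  simp

theorem decomp_succ (Fr : Finset C) (a b : C) (ha : a ∉ Fr) (hb : b ∉ Fr) (hab : a ≠ b) (k : ℕ)
    (φ : Finset C → ℝ) :
    ∑ T' ∈ (insert a (insert b Fr)).powersetCard (k + 1 + 1), φ T' =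
      ∑ T ∈ Fr.powersetCard (k + 1 + 1), φ T + ∑ T ∈ Fr.powersetCard (k + 1), φ (insert b T) +
        (∑ T ∈ Fr.powersetCard (k + 1), φ (insert a T) +
          ∑ T ∈ Fr.powersetCard k, φ (insert a (insert b T))) := by
  have ha' : a ∉ insert b Fr := by simp [hab, ha]
  rw [sum_pc_insert _ a ha', sum_pc_insert _ b hb,
    sum_pc_insert _ b hb k (fun T => φ (insert a T))]

omit [DecidableEq C] in
theorem same_le (Fr : Finset C) (s : ℕ) (hs : s ≤ Fr.card) (h k : Finset C → ℝ) (M : ℝ)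
    (hM : ∀ T ∈ Fr.powersetCard s, |k T - h T| ≤ M) :
    |∑ T ∈ Fr.powersetCard s, k T - ((Fr.powersetCard s).card : ℝ) *
        ((∑ T ∈ Fr.powersetCard s, h T) / ((Fr.powersetCard s).card : ℝ))| ≤
      ((Fr.powersetCard s).card : ℝ) * M := by
  have hN : (0 : ℝ) < ((Fr.powersetCard s).card : ℝ) := by
    rw [card_powersetCard]; exact_mod_cast Nat.choose_pos hs
  rw [mul_div_cancel₀ _ hN.ne', ← sum_sub_distrib]
  calc |∑ T ∈ Fr.powersetCard s, (k T - h T)| ≤ ∑ T ∈ Fr.powersetCard s, |k T - h T| :=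
        abs_sum_le_sum_abs _ _
    _ ≤ ∑ T ∈ Fr.powersetCard s, M := sum_le_sum hM
    _ = _ := by rw [sum_const, nsmul_eq_mul]

/-- **Subset coupling.** A uniform `(s+1)`-subset of `Fr ∪ {a,b}` can be coupled with a uniform
`s`-subset `T` of `Fr` so that it is one of `T+a`, `T+b`, `T-g+a+b`, `T+g`. -/
theorem subset_coupling (Fr : Finset C) (a b : C) (ha : a ∉ Fr) (hb : b ∉ Fr) (hab : a ≠ b)
    (s : ℕ) (hs : s ≤ Fr.card) (h h' : Finset C → ℝ) (M : ℝ)
    (h1 : ∀ T ∈ Fr.powersetCard s, |h' (insert a T) - h T| ≤ M)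
    (h2 : ∀ T ∈ Fr.powersetCard s, |h' (insert b T) - h T| ≤ M)
    (h3 : ∀ T ∈ Fr.powersetCard s, ∀ g ∈ T, |h' (insert a (insert b (T.erase g))) - h T| ≤ M)
    (h4 : ∀ T ∈ Fr.powersetCard s, ∀ g ∈ Fr \ T, |h' (insert g T) - h T| ≤ M) :
    |(∑ T' ∈ (insert a (insert b Fr)).powersetCard (s + 1), h' T') /
          (((insert a (insert b Fr)).powersetCard (s + 1)).card : ℝ) -
        (∑ T ∈ Fr.powersetCard s, h T) / ((Fr.powersetCard s).card : ℝ)| ≤ M := by
  set A : ℝ := (∑ T ∈ Fr.powersetCard s, h T) / ((Fr.powersetCard s).card : ℝ) with hA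
  have ha' : a ∉ insert b Fr := by simp [hab, ha]
  have hN' : (0 : ℝ) < (((insert a (insert b Fr)).powersetCard (s + 1)).card : ℝ) := by
    rw [card_powersetCard]
    have : s + 1 ≤ (insert a (insert b Fr)).card := by
      rw [card_insert_of_notMem ha', card_insert_of_notMem hb]; omega
    exact_mod_cast Nat.choose_pos this
  have e1 := same_le Fr s hs h (fun T => h' (insert a T)) M h1
  have e2 := same_le Fr s hs h (fun T => h' (insert b T)) M h2
  have e4 := up_le Fr s hs h h' M h4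
  rw [← hA] at e1 e2 e4
  have key : |∑ T' ∈ (insert a (insert b Fr)).powersetCard (s + 1), h' T' -
      (((insert a (insert b Fr)).powersetCard (s + 1)).card : ℝ) * A| ≤
      (((insert a (insert b Fr)).powersetCard (s + 1)).card : ℝ) * M := by
    have hcard : ∀ S : Finset (Finset C), (S.card : ℝ) = ∑ _T ∈ S, (1 : ℝ) := by
      intro S; simp
    rcases s with _ | k
    · have d1 := decomp_zero Fr a b ha hb hab h'
      have d2 := decomp_zero Fr a b ha hb hab (fun _ => 1)
      rw [hcard ((insert a (insert b Fr)).powersetCard (0 + 1)), d1, d2, ← hcard, ← hcard]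
      rw [abs_le] at e1 e2 e4 ⊢
      constructor <;> nlinarith [e1.1, e1.2, e2.1, e2.2, e4.1, e4.2]
    · have e3 := down_le Fr k hs h (fun T => h' (insert a (insert b T))) M h3
      rw [← hA] at e3
      have d1 := decomp_succ Fr a b ha hb hab k h'
      have d2 := decomp_succ Fr a b ha hb hab k (fun _ => 1)
      rw [hcard ((insert a (insert b Fr)).powersetCard (k + 1 + 1)), d1, d2, ← hcard, ← hcard,
        ← hcard]
      rw [abs_le] at e1 e2 e3 e4 ⊢
      constructor <;> nlinarith [e1.1, e1.2, e2.1, e2.2, e3.1, e3.2, e4.1, e4.2]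
  have e : (∑ T' ∈ (insert a (insert b Fr)).powersetCard (s + 1), h' T') /
          (((insert a (insert b Fr)).powersetCard (s + 1)).card : ℝ) - A =
      (∑ T' ∈ (insert a (insert b Fr)).powersetCard (s + 1), h' T' -
      (((insert a (insert b Fr)).powersetCard (s + 1)).card : ℝ) * A) /
        (((insert a (insert b Fr)).powersetCard (s + 1)).card : ℝ) := by
    field_simp
  rw [e, abs_div, abs_of_pos hN', div_le_iff₀ hN', mul_comm M]
  exact key

/-- A function on `powersetCard s Fr` invariant under all exchanges is constant. -/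
theorem const_of_exchange (Fr : Finset C) (s : ℕ) (h : Finset C → ℝ)
    (hex : ∀ T ∈ Fr.powersetCard s, ∀ g ∈ T, ∀ g' ∈ Fr \ T, h (insert g' (T.erase g)) = h T) :
    ∀ T ∈ Fr.powersetCard s, ∀ T' ∈ Fr.powersetCard s, h T = h T' := by
  have main : ∀ n : ℕ, ∀ T ∈ Fr.powersetCard s, ∀ T' ∈ Fr.powersetCard s,
      (T \ T').card = n → h T = h T' := by
    intro n
    induction n with
    | zero =>
      intro T hT T' hT' hc
      have hsub : T ⊆ T' := by
        rw [card_eq_zero, sdiff_eq_empty_iff_subset] at hc; exact hc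
      have : T = T' := eq_of_subset_of_card_le hsub
        (by rw [(mem_powersetCard.1 hT).2, (mem_powersetCard.1 hT').2])
      rw [this]
    | succ n ih =>
      intro T hT T' hT' hc
      obtain ⟨hT1, hT2⟩ := mem_powersetCard.1 hT
      obtain ⟨hT1', hT2'⟩ := mem_powersetCard.1 hT'
      have hne : (T \ T').Nonempty := by rw [← card_pos]; omega
      obtain ⟨g, hg⟩ := hne
      have hc' : (T' \ T).card = (T \ T').card := by
        have := card_sdiff_add_card_inter T T'
        have := card_sdiff_add_card_inter T' T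
        rw [inter_comm] at this
        omega
      have hne' : (T' \ T).Nonempty := by rw [← card_pos]; omega
      obtain ⟨g', hg'⟩ := hne'
      obtain ⟨hg1, hg2⟩ := mem_sdiff.1 hg
      obtain ⟨hg1', hg2'⟩ := mem_sdiff.1 hg'
      have hgg : g' ≠ g := fun h => hg2' (h ▸ hg1)
      have hmem : insert g' (T.erase g) ∈ Fr.powersetCard s := by
        rw [mem_powersetCard]
        refine ⟨insert_subset (hT1' hg1') ((erase_subset _ _).trans hT1), ?_⟩
        rw [card_insert_of_notMem (fun h => hg2' (mem_of_mem_erase h)), card_erase_of_mem hg1, hT2]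
        have : 0 < T.card := card_pos.2 ⟨g, hg1⟩
        omega
      rw [← hex T hT g hg1 g' (mem_sdiff.2 ⟨hT1' hg1', hg2'⟩)]
      apply ih _ hmem T' hT'
      have : insert g' (T.erase g) \ T' = (T \ T').erase g := by
        ext e
        simp only [mem_sdiff, mem_insert, mem_erase]
        constructor
        · rintro ⟨rfl | ⟨h1, h2⟩, h3⟩
          · exact absurd hg1' h3
          · exact ⟨h1, h2, h3⟩
        · rintro ⟨h1, h2, h3⟩
          exact ⟨Or.inr ⟨h1, h2⟩, h3⟩
      rw [this, card_erase_of_mem hg, hc]; rfl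
  intro T hT T' hT'
  exact main _ T hT T' hT' rfl

end Crest.Agent.R299.SC
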