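import Crest.Agent.R299.Avg

/-!
# R299 (S0453): the abstract part of the T4-local lemma (disjoint pair blocks)

Everything is stated for averaging operators `Av Ω k` on a finite set (see `Avg.lean`).
-/

set_option autoImplicit false
open Finset

namespace Crest.Agent.R299.T4A

open Crest.Agent.R299

variable {α : Type*} {κ₁ κ₂ κP : Type*} [DecidableEq κ₁] [DecidableEq κ₂] [DecidableEq κP]

/-- `f - Av f`. -/
noncomputable def Dv {κ : Type*} [DecidableEq κ] (Ω : Finset α) (k : α → κ) (f : α → ℝ) : α → ℝ :=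
  fun x => f x - Av Ω k f x

/-- two averaging operators commute on `Ω`. -/
def Comm {κ κ' : Type*} [DecidableEq κ] [DecidableEq κ'] (Ω : Finset α) (k : α → κ) (k' : α → κ') :
    Prop :=
  ∀ f : α → ℝ, ∀ a ∈ Ω, Av Ω k (Av Ω k' f) a = Av Ω k' (Av Ω k f) a

theorem Comm.symm {κ κ' : Type*} [DecidableEq κ] [DecidableEq κ'] {Ω : Finset α} {k : α → κ}
    {k' : α → κ'} (h : Comm Ω k k') : Comm Ω k' k := fun f a ha => (h f a ha).symm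

theorem comm_of_coarser {κ κ' : Type*} [DecidableEq κ] [DecidableEq κ'] {Ω : Finset α} {k : α → κ}
    {k' : α → κ'} (h : Coarser Ω k k') : Comm Ω k k' := fun f a ha => by
  rw [Av_fine_coarse h f ha, Av_coarse_fine h f ha]

theorem Av_zero_of {κ : Type*} [DecidableEq κ] (Ω : Finset α) (k : α → κ) {f : α → ℝ}
    (h : ∀ a ∈ Ω, f a = 0) (a : α) : Av Ω k f a = 0 := by
  rw [Av_congr Ω k (g := fun _ => 0) h a]
  simp [Av]

/-- **Peeling lemma.** -/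
theorem peel (Ω : Finset α) (k₁ : α → κ₁) (k₂ : α → κ₂) (kP : α → κP)
    (hc : Coarser Ω kP k₁) (hm : Comm Ω kP k₂) (g : α → ℝ) :
    ip Ω (Dv Ω k₁ g) (Dv Ω k₂ g) =
      ip Ω (Dv Ω k₂ (Dv Ω kP g)) (Dv Ω k₂ (Dv Ω kP g)) +
        ip Ω (Dv Ω k₁ (Av Ω kP g)) (Dv Ω k₂ (Av Ω kP g)) := by
  set p := Av Ω kP g with hp
  set q := Dv Ω kP g with hq
  have hPp : ∀ a ∈ Ω, Av Ω kP p a = p a := fun a ha => Av_idem Ω kP g ha
  have hPq : ∀ a ∈ Ω, Av Ω kP q a = 0 := fun a ha => Av_D Ω kP g ha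
  have h1 : ∀ a ∈ Ω, Dv Ω k₁ g a = Dv Ω k₁ p a + q a := by
    intro a ha
    simp only [Dv, hq, hp]
    rw [Av_coarse_fine hc g ha]
    ring
  have h2 : ∀ a ∈ Ω, Dv Ω k₂ g a = Dv Ω k₂ p a + Dv Ω k₂ q a := by
    intro a _
    have : Av Ω k₂ q a = Av Ω k₂ g a - Av Ω k₂ p a := Av_sub Ω k₂ g p a
    simp only [Dv] at this ⊢
    rw [this]
    simp only [hq, Dv]
    ring
  -- invariance
  have i1 : ∀ a ∈ Ω, Av Ω kP (Dv Ω k₁ p) a = Dv Ω k₁ p a := by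
    intro a ha
    have : Av Ω kP (Dv Ω k₁ p) a = Av Ω kP p a - Av Ω kP (Av Ω k₁ p) a := Av_sub Ω kP p _ a
    rw [this, hPp a ha, Av_fine_coarse hc p ha]
    rfl
  have i2 : ∀ a ∈ Ω, Av Ω kP (Dv Ω k₂ p) a = Dv Ω k₂ p a := by
    intro a ha
    have : Av Ω kP (Dv Ω k₂ p) a = Av Ω kP p a - Av Ω kP (Av Ω k₂ p) a := Av_sub Ω kP p _ a
    rw [this, hPp a ha, hm p a ha, Av_congr Ω k₂ hPp a]
    rfl
  have i3 : ∀ a ∈ Ω, Av Ω kP (Dv Ω k₂ q) a = 0 := by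
    intro a ha
    have : Av Ω kP (Dv Ω k₂ q) a = Av Ω kP q a - Av Ω kP (Av Ω k₂ q) a := Av_sub Ω kP q _ a
    rw [this, hPq a ha, hm q a ha, Av_zero_of Ω k₂ hPq a, sub_zero]
  have z1 : ip Ω (Dv Ω k₁ p) (Dv Ω k₂ q) = 0 := by
    rw [← ip_congr Ω i1 (fun _ _ => rfl), Av_selfadj, ip_congr Ω (fun _ _ => rfl) i3]
    simp [ip]
  have z2 : ip Ω q (Dv Ω k₂ p) = 0 := by
    rw [← ip_congr Ω (fun _ _ => rfl) i2]
    exact ip_sub_Av_Av Ω kP g _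
  have z3 : ip Ω q (Dv Ω k₂ q) = ip Ω (Dv Ω k₂ q) (Dv Ω k₂ q) := ip_self_D Ω k₂ q
  rw [ip_congr Ω h1 h2, ip_add_left, ip_add_right, ip_add_right, z1, z2, z3]
  ring


/-- Jensen on an invariant event. -/
theorem sum_filter_Av_sq_le' {κ : Type*} [DecidableEq κ] (Ω : Finset α) (k : α → κ) (p : α → Prop)
    [DecidablePred p] (hp : ∀ a ∈ Ω, ∀ b ∈ Ω, k a = k b → (p a ↔ p b)) (f : α → ℝ) :
    ∑ a ∈ Ω.filter p, (Av Ω k f a) ^ 2 ≤ ∑ a ∈ Ω.filter p, (f a) ^ 2 := by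
  set ind : α → ℝ := fun x => if p x then 1 else 0 with hind
  have h1 : ∀ a ∈ Ω, Av Ω k (fun x => ind x * f x) a = ind a * Av Ω k f a := by
    intro a ha
    refine Av_mul_of_const Ω k f ind fun b hb => ?_
    obtain ⟨hb1, hb2⟩ := (mem_cls Ω k).1 hb
    have := hp b hb1 a ha hb2
    simp only [hind, this]
  have h2 := ip_Av_le Ω k (fun x => ind x * f x)
  rw [ip_congr Ω h1 h1] at h2
  have e1 : ip Ω (fun a => ind a * Av Ω k f a) (fun a => ind a * Av Ω k f a) =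
      ∑ a ∈ Ω.filter p, (Av Ω k f a) ^ 2 := by
    rw [sum_filter]
    refine sum_congr rfl fun a _ => ?_
    by_cases h : p a <;> simp [hind, h, sq]
  have e2 : ip Ω (fun a => ind a * f a) (fun a => ind a * f a) = ∑ a ∈ Ω.filter p, (f a) ^ 2 := by
    rw [sum_filter]
    refine sum_congr rfl fun a _ => ?_
    by_cases h : p a <;> simp [hind, h, sq]
  rw [e1, e2] at h2
  exact h2

variable {κF κF' κN : Type*} [DecidableEq κF] [DecidableEq κF'] [DecidableEq κN]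

/-- **Abstract T4-local inequality.** -/
theorem main_abs (Ω : Finset α) (k₁ : α → κ₁) (k₂ : α → κ₂) (kF : α → κF) (kF' : α → κF')
    (kN : α → κN) (χ odd : α → Prop) [DecidablePred χ] [DecidablePred odd]
    (c1 : Coarser Ω kN k₁) (c2 : Coarser Ω kN k₂) (c3 : Coarser Ω kF k₁) (c4 : Coarser Ω kF' k₂)
    (m1 : Comm Ω kF k₂) (m2 : Comm Ω kF' k₁) (m3 : Comm Ω kF kF')
    (χF : ∀ a ∈ Ω, ∀ b ∈ Ω, kF a = kF b → (χ a ↔ χ b))
    (χF' : ∀ a ∈ Ω, ∀ b ∈ Ω, kF' a = kF' b → (χ a ↔ χ b))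
    (hcl : ∀ a ∈ Ω, ¬ odd a → ¬ χ a → cls Ω k₁ a = cls Ω kF a ∨ cls Ω k₂ a = cls Ω kF' a)
    (hodd : ∀ g : α → ℝ, 0 ≤ ∑ a ∈ Ω.filter odd, Dv Ω k₁ g a * Dv Ω k₂ g a)
    (f : α → ℝ) :
    ip Ω (Dv Ω kN f) (Dv Ω kN f)
      - (∑ a ∈ Ω.filter χ, (Av Ω kF (Av Ω kN (Dv Ω k₁ f)) a) ^ 2) / 2
      - (∑ a ∈ Ω.filter χ, (Av Ω kF' (Av Ω kN (Dv Ω k₂ f)) a) ^ 2) / 2
      ≤ ip Ω (Dv Ω k₁ f) (Dv Ω k₂ f) := by
  set g₁ := Av Ω kN f with hg₁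
  set g₂ := Av Ω kF g₁ with hg₂
  set g₃ := Av Ω kF' g₂ with hg₃
  set w₁ := Av Ω kF (Av Ω kN (Dv Ω k₁ f)) with hw₁
  set w₂ := Av Ω kF' (Av Ω kN (Dv Ω k₂ f)) with hw₂
  set φ := Dv Ω k₁ g₃ with hφ
  set ψ := Dv Ω k₂ g₃ with hψ
  -- peeling
  have s0 := peel Ω k₁ k₂ kN c1 (comm_of_coarser c2) f
  have s1 := peel Ω k₁ k₂ kF c3 m1 g₁
  have s2 := peel Ω k₂ k₁ kF' c4 m2 g₂
  have n1 := ip_self_nonneg Ω (Dv Ω k₂ (Dv Ω kF g₁))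
  have n2 := ip_self_nonneg Ω (Dv Ω k₁ (Dv Ω kF' g₂))
  have d0 : ∀ a ∈ Ω, Dv Ω k₂ (Dv Ω kN f) a = Dv Ω kN f a := by
    intro a ha
    have : Av Ω k₂ (Dv Ω kN f) a = Av Ω k₂ f a - Av Ω k₂ (Av Ω kN f) a := Av_sub Ω k₂ f _ a
    show Dv Ω kN f a - Av Ω k₂ (Dv Ω kN f) a = _
    rw [this, Av_coarse_fine c2 f ha]
    ring
  rw [ip_congr Ω d0 d0] at s0
  rw [ip_comm Ω (Dv Ω k₂ g₂), ip_comm Ω (Dv Ω k₂ (Av Ω kF' g₂))] at s2
  -- g₃ in the other order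
  have hg₃' : ∀ a ∈ Ω, g₃ a = Av Ω kF (Av Ω kF' g₁) a := fun a ha => (m3 g₁ a ha).symm
  have hFg₃ : ∀ a ∈ Ω, Av Ω kF g₃ a = g₃ a := by
    intro a ha
    rw [Av_congr Ω kF hg₃' a, Av_idem Ω kF _ ha, hg₃' a ha]
  have hF'g₃ : ∀ a ∈ Ω, Av Ω kF' g₃ a = g₃ a := fun a ha => Av_idem Ω kF' g₂ ha
  -- w₁, w₂
  have a1 : ∀ a ∈ Ω, Av Ω kN (Dv Ω k₁ f) a = g₁ a - Av Ω k₁ f a := by
    intro a ha
    have : Av Ω kN (Dv Ω k₁ f) a = Av Ω kN f a - Av Ω kN (Av Ω k₁ f) a := Av_sub Ω kN f _ a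
    rw [this, Av_fine_coarse c1 f ha]
  have a2 : ∀ a ∈ Ω, Av Ω kN (Dv Ω k₂ f) a = g₁ a - Av Ω k₂ f a := by
    intro a ha
    have : Av Ω kN (Dv Ω k₂ f) a = Av Ω kN f a - Av Ω kN (Av Ω k₂ f) a := Av_sub Ω kN f _ a
    rw [this, Av_fine_coarse c2 f ha]
  have b1 : ∀ a ∈ Ω, w₁ a = g₂ a - Av Ω k₁ f a := by
    intro a ha
    rw [hw₁, Av_congr Ω kF a1 a, Av_sub, Av_fine_coarse c3 f ha]
  have b2 : ∀ a ∈ Ω, w₂ a = Av Ω kF' g₁ a - Av Ω k₂ f a := by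
    intro a ha
    rw [hw₂, Av_congr Ω kF' a2 a, Av_sub, Av_fine_coarse c4 f ha]
  have e1 : ∀ a ∈ Ω, φ a = Av Ω kF' w₁ a := by
    intro a ha
    rw [Av_congr Ω kF' b1 a, Av_sub]
    show g₃ a - Av Ω k₁ g₃ a = _
    have : Av Ω k₁ g₃ a = Av Ω kF' (Av Ω k₁ f) a := by
      rw [hg₃, ← m2 g₂ a ha]
      refine Av_congr Ω kF' (fun b hb => ?_) a
      rw [hg₂, Av_coarse_fine c3 g₁ hb, hg₁, Av_coarse_fine c1 f hb]
    rw [this]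
  have e2 : ∀ a ∈ Ω, ψ a = Av Ω kF w₂ a := by
    intro a ha
    rw [Av_congr Ω kF b2 a, Av_sub, ← hg₃' a ha]
    show g₃ a - Av Ω k₂ g₃ a = _
    have : Av Ω k₂ g₃ a = Av Ω kF (Av Ω k₂ f) a := by
      rw [hg₃, Av_coarse_fine c4 g₂ ha, hg₂, ← m1 g₁ a ha]
      refine Av_congr Ω kF (fun b hb => ?_) a
      rw [hg₁, Av_coarse_fine c2 f hb]
    rw [this]
  -- forced cases
  have f1 : ∀ a ∈ Ω, cls Ω k₁ a = cls Ω kF a → φ a = 0 := by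
    intro a ha h
    show g₃ a - Av Ω k₁ g₃ a = 0
    have : Av Ω k₁ g₃ a = Av Ω kF g₃ a := by unfold Av; rw [h]
    rw [this, hFg₃ a ha, sub_self]
  have f2 : ∀ a ∈ Ω, cls Ω k₂ a = cls Ω kF' a → ψ a = 0 := by
    intro a ha h
    show g₃ a - Av Ω k₂ g₃ a = 0
    have : Av Ω k₂ g₃ a = Av Ω kF' g₃ a := by unfold Av; rw [h]
    rw [this, hF'g₃ a ha, sub_self]
  -- pointwise bound
  have key : ∀ a ∈ Ω, -((if χ a then φ a ^ 2 else 0) + (if χ a then ψ a ^ 2 else 0)) / 2 ≤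
      (if odd a then 0 else φ a * ψ a) := by
    intro a ha
    by_cases ho : odd a
    · rw [if_pos ho]
      by_cases hx : χ a
      · simp only [if_pos hx]; nlinarith [sq_nonneg (φ a), sq_nonneg (ψ a)]
      · simp [if_neg hx]
    · rw [if_neg ho]
      by_cases hx : χ a
      · simp only [if_pos hx]; nlinarith [sq_nonneg (φ a + ψ a)]
      · simp only [if_neg hx]
        rcases hcl a ha ho hx with h | h
        · rw [f1 a ha h]; simp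
        · rw [f2 a ha h]; simp
  have hsum := sum_le_sum key
  have hsplit : ip Ω φ ψ = ∑ a ∈ Ω.filter odd, φ a * ψ a + ∑ a ∈ Ω, (if odd a then 0 else φ a * ψ a) := by
    rw [sum_filter, ← sum_add_distrib]
    refine sum_congr rfl fun a _ => ?_
    by_cases ho : odd a <;> simp [ho]
  have hl : ∑ a ∈ Ω, -((if χ a then φ a ^ 2 else 0) + (if χ a then ψ a ^ 2 else 0)) / 2 =
      -(∑ a ∈ Ω.filter χ, φ a ^ 2) / 2 - (∑ a ∈ Ω.filter χ, ψ a ^ 2) / 2 := by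
    rw [sum_filter, sum_filter, ← sum_div, sum_neg_distrib, sum_add_distrib]
    ring
  have j1 : ∑ a ∈ Ω.filter χ, φ a ^ 2 ≤ ∑ a ∈ Ω.filter χ, w₁ a ^ 2 := by
    have := sum_filter_Av_sq_le' Ω kF' χ χF' w₁
    refine le_trans (le_of_eq ?_) this
    refine sum_congr rfl fun a ha => ?_
    rw [e1 a (mem_filter.1 ha).1]
  have j2 : ∑ a ∈ Ω.filter χ, ψ a ^ 2 ≤ ∑ a ∈ Ω.filter χ, w₂ a ^ 2 := by
    have := sum_filter_Av_sq_le' Ω kF χ χF w₂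
    refine le_trans (le_of_eq ?_) this
    refine sum_congr rfl fun a ha => ?_
    rw [e2 a (mem_filter.1 ha).1]
  have ho := hodd g₃
  rw [hl] at hsum
  have hfin : ip Ω φ ψ ≥ -(∑ a ∈ Ω.filter χ, w₁ a ^ 2) / 2 - (∑ a ∈ Ω.filter χ, w₂ a ^ 2) / 2 := by
    rw [hsplit]
    have : 0 ≤ ∑ a ∈ Ω.filter odd, φ a * ψ a := ho
    linarith
  linarith

/-- identification of `F N φ` on the event `χ` with the conditional mean on `χ` in the `k₁`-class. -/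
theorem FN_eq_mean (Ω : Finset α) (k₁ : α → κ₁) (kF : α → κF) (kN : α → κN)
    (χ : α → Prop) [DecidablePred χ]
    (c1 : Coarser Ω kN k₁) (c3 : Coarser Ω kF k₁) (m4 : Comm Ω kF kN)
    (χF : ∀ a ∈ Ω, ∀ b ∈ Ω, kF a = kF b → (χ a ↔ χ b))
    (χN : ∀ a ∈ Ω, ∀ b ∈ Ω, kN a = kN b → (χ a ↔ χ b))
    (H6 : ∀ a ∈ Ω, ∀ b ∈ Ω, χ a → χ b → k₁ b = k₁ a → ∃ c ∈ Ω, kN c = kN b ∧ kF c = kF a)
    (φ : α → ℝ) {a : α} (ha : a ∈ Ω) (hχ : χ a) :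
    Av Ω kF (Av Ω kN φ) a =
      (∑ b ∈ (cls Ω k₁ a).filter χ, φ b) / (((cls Ω k₁ a).filter χ).card : ℝ) := by
  set k₃ : α → κ₁ × Bool := fun x => (k₁ x, decide (χ x)) with hk₃
  have hcls : cls Ω k₃ a = (cls Ω k₁ a).filter χ := by
    ext b
    simp only [mem_cls, mem_filter, hk₃, Prod.mk.injEq, decide_eq_decide]
    constructor
    · rintro ⟨h1, h2, h3⟩; exact ⟨⟨h1, h2⟩, h3.2 hχ⟩
    · rintro ⟨⟨h1, h2⟩, h3⟩; exact ⟨h1, h2, ⟨fun _ => hχ, fun _ => h3⟩⟩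
  have cF : Coarser Ω kF k₃ := by
    intro x hx y hy h
    simp only [hk₃, Prod.mk.injEq, decide_eq_decide]
    exact ⟨c3 x hx y hy h, χF x hx y hy h⟩
  have cN : Coarser Ω kN k₃ := by
    intro x hx y hy h
    simp only [hk₃, Prod.mk.injEq, decide_eq_decide]
    exact ⟨c1 x hx y hy h, χN x hx y hy h⟩
  set w := Av Ω kF (Av Ω kN φ) with hw
  have h1 : Av Ω k₃ w a = Av Ω k₃ φ a := by
    rw [hw, Av_coarse_fine cF _ ha, Av_coarse_fine cN _ ha]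
  have h2 : Av Ω k₃ w a = w a := by
    refine Av_of_const_on_cls Ω k₃ w ha fun b hb => ?_
    rw [hcls, mem_filter, mem_cls] at hb
    obtain ⟨⟨hb1, hb2⟩, hb3⟩ := hb
    obtain ⟨c, hc, hcN, hcF⟩ := H6 a ha b hb1 hχ hb3 hb2
    have e1 : w b = w c := by
      rw [hw, m4 φ b hb1, m4 φ c hc]
      exact (Av_congr_key Ω kN _ hcN).symm
    rw [e1]
    exact Av_congr_key Ω kF _ hcF
  rw [← h2, h1]
  unfold Av
  rw [hcls]

end Crest.Agent.R299.T4A
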