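import Crest.Agent.R299.T4Tools

/-!
# R299 (S0453): the graph facts of the T4-local lemma (all fields of `T4L.Facts` except `rect`)
-/

set_option autoImplicit false
open Finset
open Crest.SwitchChain

namespace Crest.Agent.R299.T4F

open Crest.Agent.R299 Crest.Agent.R299.T4T Crest.Agent.R299.T4L

variable {n : ℕ} {u v x y : Fin n}

theorem D4.swap (h : D4 u v x y) : D4 x y u v :=
  ⟨h.xy, h.uv, h.ux.symm, h.vx.symm, h.uy.symm, h.vy.symm⟩

/-- column sums are preserved along a `b`-fibre. -/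
theorem col_eq (h : D4 u v x y) {d : Fin n → ℕ} {G H : Gr n} (hG : G ∈ realizations d)
    (hH : H ∈ realizations d) (e : G \ tch {u, v} = H \ tch {u, v}) :
    ind G (mkE u x h.ux) + ind G (mkE v x h.vx) = ind H (mkE u x h.ux) + ind H (mkE v x h.vx) ∧
    ind G (mkE u y h.uy) + ind G (mkE v y h.vy) = ind H (mkE u y h.uy) + ind H (mkE v y h.vy) := by
  constructor
  · rw [← deg_x h G, ← deg_x h H, ← deg_inter_tch {u, v} {x, y} G (by simp),
      ← deg_inter_tch {u, v} {x, y} H (by simp)]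
    exact deg_inter_eq hG hH e x
  · rw [← deg_y h G, ← deg_y h H, ← deg_inter_tch {u, v} {x, y} G (by simp),
      ← deg_inter_tch {u, v} {x, y} H (by simp)]
    exact deg_inter_eq hG hH e y

/-- row sums are preserved along a `b'`-fibre. -/
theorem row_eq (h : D4 u v x y) {d : Fin n → ℕ} {G H : Gr n} (hG : G ∈ realizations d)
    (hH : H ∈ realizations d) (e : G \ tch {x, y} = H \ tch {x, y}) :
    ind G (mkE u x h.ux) + ind G (mkE u y h.uy) = ind H (mkE u x h.ux) + ind H (mkE u y h.uy) ∧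
    ind G (mkE v x h.vx) + ind G (mkE v y h.vy) = ind H (mkE v x h.vx) + ind H (mkE v y h.vy) := by
  constructor
  · rw [← deg_u h G, ← deg_u h H, ← Mx_comm, ← deg_inter_tch {x, y} {u, v} G (by simp),
      ← deg_inter_tch {x, y} {u, v} H (by simp)]
    exact deg_inter_eq hG hH e u
  · rw [← deg_v h G, ← deg_v h H, ← Mx_comm, ← deg_inter_tch {x, y} {u, v} G (by simp),
      ← deg_inter_tch {x, y} {u, v} H (by simp)]
    exact deg_inter_eq hG hH e v

theorem colF (h : D4 u v x y) (d : Fin n → ℕ) (G : Gr n) (hG : G ∈ realizations d)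
    (hc : ∀ w ∈ ({x, y} : Finset (Fin n)), deg (G ∩ Mx {u, v} {x, y}) w ≠ 1) :
    blk d (tch {u, v}) G = blk d (tch {u, v} \ Mx {u, v} {x, y}) G := by
  ext H
  rw [mem_blk, mem_blk]
  refine and_congr_right fun hH => ?_
  constructor
  · intro e
    obtain ⟨c1, c2⟩ := col_eq h hH hG e
    have hx := hc x (by simp)
    have hy := hc y (by simp)
    rw [deg_x h] at hx
    rw [deg_y h] at hy
    have b1 := ind_le_one G (mkE u x h.ux); have b2 := ind_le_one G (mkE u y h.uy)
    have b3 := ind_le_one G (mkE v x h.vx); have b4 := ind_le_one G (mkE v y h.vy)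
    have b1' := ind_le_one H (mkE u x h.ux); have b2' := ind_le_one H (mkE u y h.uy)
    have b3' := ind_le_one H (mkE v x h.vx); have b4' := ind_le_one H (mkE v y h.vy)
    have hM : H ∩ Mx {u, v} {x, y} = G ∩ Mx {u, v} {x, y} :=
      inter_Mx_eq h (by omega) (by omega) (by omega) (by omega)
    ext s
    simp only [mem_sdiff, not_and, not_not]
    refine and_congr_left fun hs => ?_
    by_cases hs' : s ∈ tch {u, v}
    · have hsM := hs hs'
      have := congrArg (fun A => s ∈ A) hM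
      simpa [mem_inter, hsM] using this
    · exact mem_iff_of_sdiff_eq e hs'
  · intro e
    exact coarser_of_subset d (sdiff_subset : tch {u, v} \ Mx {u, v} {x, y} ⊆ tch {u, v}) H hH G hG e

theorem rowF (h : D4 u v x y) (d : Fin n → ℕ) (G : Gr n) (hG : G ∈ realizations d)
    (hc : ∀ w ∈ ({u, v} : Finset (Fin n)), deg (G ∩ Mx {u, v} {x, y}) w ≠ 1) :
    blk d (tch {x, y}) G = blk d (tch {x, y} \ Mx {u, v} {x, y}) G := by
  have := colF (D4.swap h) d G hG (by rw [Mx_comm]; exact hc)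
  rw [Mx_comm] at this
  exact this

theorem chiS_iff (h : D4 u v x y) (G : Gr n) :
    chiS {u, v} {x, y} G ↔
      ind G (mkE u x h.ux) + ind G (mkE u y h.uy) = 1 ∧
      ind G (mkE v x h.vx) + ind G (mkE v y h.vy) = 1 ∧
      ind G (mkE u x h.ux) + ind G (mkE v x h.vx) = 1 ∧
      ind G (mkE u y h.uy) + ind G (mkE v y h.vy) = 1 := by
  unfold chiS
  simp only [mem_union, mem_insert, mem_singleton]
  constructor
  · intro H
    have h1 := H u (by simp); have h2 := H v (by simp)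
    have h3 := H x (by simp); have h4 := H y (by simp)
    rw [deg_u h] at h1; rw [deg_v h] at h2; rw [deg_x h] at h3; rw [deg_y h] at h4
    exact ⟨h1, h2, h3, h4⟩
  · rintro ⟨h1, h2, h3, h4⟩ w ((rfl | rfl) | (rfl | rfl))
    · rw [deg_u h]; exact h1
    · rw [deg_v h]; exact h2
    · rw [deg_x h]; exact h3
    · rw [deg_y h]; exact h4

theorem oddS_iff (h : D4 u v x y) (G : Gr n) :
    oddS {u, v} {x, y} G ↔
      (ind G (mkE u x h.ux) + ind G (mkE u y h.uy) + ind G (mkE v x h.vx)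
        + ind G (mkE v y h.vy)) % 2 = 1 := by
  unfold oddS
  rw [card_inter_Mx h, Nat.odd_iff]

theorem clas (h : D4 u v x y) (G : Gr n) (ho : ¬ oddS {u, v} {x, y} G)
    (hx : ¬ chiS {u, v} {x, y} G) :
    (∀ w ∈ ({x, y} : Finset (Fin n)), deg (G ∩ Mx {u, v} {x, y}) w ≠ 1) ∨
    (∀ w ∈ ({u, v} : Finset (Fin n)), deg (G ∩ Mx {u, v} {x, y}) w ≠ 1) := by
  rw [oddS_iff h] at ho
  rw [chiS_iff h] at hx
  simp only [mem_insert, mem_singleton, forall_eq_or_imp, forall_eq]
  rw [deg_u h, deg_v h, deg_x h, deg_y h]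
  have b1 := ind_le_one G (mkE u x h.ux); have b2 := ind_le_one G (mkE u y h.uy)
  have b3 := ind_le_one G (mkE v x h.vx); have b4 := ind_le_one G (mkE v y h.vy)
  omega

theorem odd1 (h : D4 u v x y) (d : Fin n → ℕ) (G : Gr n) (hG : G ∈ realizations d) (H : Gr n)
    (hH : H ∈ realizations d) (e : G \ tch {u, v} = H \ tch {u, v}) :
    oddS {u, v} {x, y} G ↔ oddS {u, v} {x, y} H := by
  obtain ⟨c1, c2⟩ := col_eq h hG hH e
  rw [oddS_iff h, oddS_iff h]
  omega

theorem odd2 (h : D4 u v x y) (d : Fin n → ℕ) (G : Gr n) (hG : G ∈ realizations d) (H : Gr n)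
    (hH : H ∈ realizations d) (e : G \ tch {x, y} = H \ tch {x, y}) :
    oddS {u, v} {x, y} G ↔ oddS {u, v} {x, y} H := by
  obtain ⟨c1, c2⟩ := row_eq h hG hH e
  rw [oddS_iff h, oddS_iff h]
  omega

theorem glue (h : D4 u v x y) (d : Fin n → ℕ) (G : Gr n) (_hG : G ∈ realizations d) (H : Gr n)
    (hH : H ∈ realizations d) (h1 : chiS {u, v} {x, y} G) (h2 : chiS {u, v} {x, y} H) :
    (H \ Mx {u, v} {x, y}) ∪ (G ∩ Mx {u, v} {x, y}) ∈ realizations d := by
  simp only [realizations, mem_filter, mem_univ, true_and] at hH ⊢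
  intro w
  have hdisj : Disjoint (H \ Mx {u, v} {x, y}) (G ∩ Mx {u, v} {x, y}) := by
    rw [disjoint_left]
    intro s hs hs'
    exact (mem_sdiff.1 hs).2 (mem_inter.1 hs').2
  rw [deg_union_disj _ _ hdisj, ← hH w, deg_split H (Mx {u, v} {x, y}) w]
  have : deg (G ∩ Mx {u, v} {x, y}) w = deg (H ∩ Mx {u, v} {x, y}) w := by
    by_cases hw : w ∈ ({u, v} : Finset (Fin n)) ∪ {x, y}
    · rw [h1 w hw, h2 w hw]
    · simp only [mem_union, mem_insert, mem_singleton, not_or] at hw
      rw [deg_other h G hw.1.1 hw.1.2 hw.2.1 hw.2.2, deg_other h H hw.1.1 hw.1.2 hw.2.1 hw.2.2]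
  omega

theorem sep (h : D4 u v x y) (d : Fin n → ℕ) :
    Sep ((realizations d).filter (oddS {u, v} {x, y})) (fun H : Gr n => H \ tch {u, v})
      (fun H : Gr n => H \ tch {x, y}) := by
  intro G hG H hH e1 e2
  obtain ⟨hG1, hG2⟩ := mem_filter.1 hG
  obtain ⟨hH1, hH2⟩ := mem_filter.1 hH
  have e1' : G \ tch {u, v} = H \ tch {u, v} := e1
  have e2' : G \ tch {x, y} = H \ tch {x, y} := e2
  obtain ⟨c1, c2⟩ := col_eq h hG1 hH1 e1'
  obtain ⟨r1, r2⟩ := row_eq h hG1 hH1 e2'
  rw [oddS_iff h] at hG2 hH2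
  have b1 := ind_le_one G (mkE u x h.ux); have b2 := ind_le_one G (mkE u y h.uy)
  have b3 := ind_le_one G (mkE v x h.vx); have b4 := ind_le_one G (mkE v y h.vy)
  have b1' := ind_le_one H (mkE u x h.ux); have b2' := ind_le_one H (mkE u y h.uy)
  have b3' := ind_le_one H (mkE v x h.vx); have b4' := ind_le_one H (mkE v y h.vy)
  have k1 : ind G (mkE u x h.ux) = ind H (mkE u x h.ux) := by omega
  have hM : G ∩ Mx {u, v} {x, y} = H ∩ Mx {u, v} {x, y} :=
    inter_Mx_eq h k1 (by omega) (by omega) (by omega)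
  ext s
  by_cases hs : s ∈ tch {u, v}
  · by_cases hs' : s ∈ tch {x, y}
    · have hsM : s ∈ Mx {u, v} {x, y} := mem_inter.2 ⟨hs, hs'⟩
      have := congrArg (fun A => s ∈ A) hM
      simpa [mem_inter, hsM] using this
    · exact mem_iff_of_sdiff_eq e2' hs'
  · exact mem_iff_of_sdiff_eq e1' hs

end Crest.Agent.R299.T4F
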