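import Crest.Agent.R299.MxBlock
import Crest.Agent.R299.JohnsonJ2
import Crest.Agent.R299.PairFibreB
import Crest.Agent.R299.OffDiag
import Crest.Agent.R299.Core

/-!
# R299 (S0453): T4 global — the sum of the disjoint-pair cross terms is non-negative

Everything is parametric in the slot sets `Lam u v` (pair block), `SM u v x y` (the four slots
between `{u,v}` and `{x,y}`) and the event `chi u v x y` ("the 2x2 block is diagonal").
Inputs: the local lemma (`T4Loc`), the parametrisation of the pair fibres (`PairPar`) and the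
Johnson inequality (`J2`).
-/

set_option autoImplicit false
open Finset
open Crest.SwitchChain

namespace Crest.Agent.R299.TG

variable {n : ℕ}

/-- summation over a finite set, fibre by fibre. -/
theorem sum_le_sum_of_cls {α κ : Type*} [DecidableEq κ] (Ω : Finset α) (k : α → κ) (A B : α → ℝ)
    (h : ∀ a ∈ Ω, ∑ b ∈ cls Ω k a, A b ≤ ∑ b ∈ cls Ω k a, B b) :
    ∑ a ∈ Ω, A a ≤ ∑ a ∈ Ω, B a := by
  classical
  rw [← Finset.sum_fiberwise_of_maps_to (s := Ω) (t := Ω.image k) (g := k)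
        (fun x hx => Finset.mem_image_of_mem k hx) A,
      ← Finset.sum_fiberwise_of_maps_to (s := Ω) (t := Ω.image k) (g := k)
        (fun x hx => Finset.mem_image_of_mem k hx) B]
  apply Finset.sum_le_sum
  intro y hy
  obtain ⟨a, ha, rfl⟩ := Finset.mem_image.1 hy
  exact h a ha

/-- the ordered pairs `(x,y)`, `x ≠ y`, disjoint from `{u,v}`. -/
def Pxy (u v : Fin n) : Finset (Fin n × Fin n) :=
  univ.filter fun e => e.1 ≠ e.2 ∧ e.1 ≠ u ∧ e.1 ≠ v ∧ e.2 ≠ u ∧ e.2 ≠ v

theorem mem_Pxy {u v : Fin n} {e : Fin n × Fin n} :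
    e ∈ Pxy u v ↔ e.1 ≠ e.2 ∧ e.1 ≠ u ∧ e.1 ≠ v ∧ e.2 ≠ u ∧ e.2 ≠ v := by
  simp [Pxy]

section param
variable (d : Fin n → ℕ) (Lam : Fin n → Fin n → Gr n) (SM : Fin n → Fin n → Fin n → Fin n → Gr n)
  (chi : Fin n → Fin n → Fin n → Fin n → Gr n → Prop)
  [∀ u v x y, DecidablePred (chi u v x y)]

/-- mean of `D_b f` over the part of the `b`-fibre of `G` where the switch `u x v y` is available. -/
noncomputable def mbar (u v x y : Fin n) (f : Gr n → ℝ) (G : Gr n) : ℝ :=
  (∑ H ∈ (blk d (Lam u v) G).filter (chi u v x y), DB d (Lam u v) f H) /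
    (((blk d (Lam u v) G).filter (chi u v x y)).card : ℝ)

/-- the error term of the local lemma. -/
noncomputable def XX (u v x y : Fin n) (f : Gr n → ℝ) : ℝ :=
  ∑ G ∈ (realizations d).filter (chi u v x y), (mbar d Lam chi u v x y f G) ^ 2

/-- the statement of the local lemma. -/
def T4Loc : Prop :=
  ∀ u v x y : Fin n, u ≠ v → (x, y) ∈ Pxy u v → ∀ f : Gr n → ℝ,
    ipd d (DB d (SM u v x y) f) (DB d (SM u v x y) f)
        - (1 / 2) * XX d Lam chi u v x y f - (1 / 2) * XX d Lam chi x y u v f ≤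
      ipd d (DB d (Lam u v) f) (DB d (Lam x y) f)

/-- Johnson parametrisation of the `{u,v}`-fibre of `G0`. -/
def PairPar (u v : Fin n) (G0 : Gr n) : Prop :=
  ∃ (Z : Finset (Fin n)) (t : ℕ) (ψ : Finset (Fin n) → Gr n),
    blk d (Lam u v) G0 = (Z.powersetCard t).image ψ ∧
    (∀ S ∈ Z.powersetCard t, ∀ S' ∈ Z.powersetCard t, ψ S = ψ S' → S = S') ∧
    (∀ x ∈ Z, x ≠ u ∧ x ≠ v) ∧
    (∀ e ∈ Pxy u v, ∀ S ∈ Z.powersetCard t,
      (chi u v e.1 e.2 (ψ S) ↔ e.1 ∈ Z ∧ e.2 ∈ Z ∧ jchi e S)) ∧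
    (∀ e ∈ Z.offDiag, ∀ S ∈ Z.powersetCard t, jchi e S →
      blk d (SM u v e.1 e.2) (ψ S) = {ψ S, ψ (jtau e S)})

/-- the Johnson inequality (J2), as a hypothesis. -/
def J2Stmt : Prop :=
  ∀ (Z : Finset (Fin n)) (t : ℕ) (g : Finset (Fin n) → ℝ), ∑ S ∈ Z.powersetCard t, g S = 0 →
    ∑ e ∈ Z.offDiag, (∑ S ∈ (Z.powersetCard t).filter (jchi e), g S) ^ 2 /
        (((Z.powersetCard t).filter (jchi e)).card : ℝ) ≤
      (1 / 4) * ∑ e ∈ Z.offDiag, ∑ S ∈ Z.powersetCard t, (g S - g (jtau e S)) ^ 2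

variable {d Lam SM chi}

theorem jtau_ne_of_jchi {α : Type*} [DecidableEq α] (e : α × α) (S : Finset α) (h : jchi e S) :
    jtau e S ≠ S := by
  intro heq
  apply h
  have h1 : e.1 ∈ jtau e S ↔ e.2 ∈ S := by rw [mem_jtau, Equiv.swap_apply_left]
  rw [heq] at h1
  exact h1

theorem card_mul_div_sq (c s : ℝ) : c * (s / c) ^ 2 = s ^ 2 / c := by
  by_cases hc : c = 0
  · simp [hc]
  · field_simp

/-- the inequality on one `{u,v}`-fibre. -/
theorem fibre_ineq (hJ2 : J2Stmt (n := n)) (u v : Fin n) (f : Gr n → ℝ) (G0 : Gr n)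
    (hP : PairPar d Lam SM chi u v G0) :
    ∑ G ∈ blk d (Lam u v) G0, ∑ e ∈ Pxy u v,
        (if chi u v e.1 e.2 G then (mbar d Lam chi u v e.1 e.2 f G) ^ 2 else 0) ≤
      ∑ G ∈ blk d (Lam u v) G0, ∑ e ∈ Pxy u v, (DB d (SM u v e.1 e.2) f G) ^ 2 := by
  classical
  obtain ⟨Z, t, ψ, himg, hinj, hZ, hchi, hsm⟩ := hP
  set P := Z.powersetCard t with hPdef
  set g : Finset (Fin n) → ℝ := fun S => DB d (Lam u v) f (ψ S) with hg
  have hinj' : Set.InjOn ψ (P : Set (Finset (Fin n))) := fun a ha b hb hab => hinj a ha b hb hab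
  have hmemblk : ∀ S ∈ P, ψ S ∈ blk d (Lam u v) G0 := by
    intro S hS; rw [himg]; exact Finset.mem_image_of_mem ψ hS
  -- sums over the block in coordinates
  have hsum : ∀ F : Gr n → ℝ, ∑ G ∈ blk d (Lam u v) G0, F G = ∑ S ∈ P, F (ψ S) := by
    intro F; rw [himg, Finset.sum_image hinj]
  have hfilt : ∀ p : Gr n → Prop, ∀ [DecidablePred p], (blk d (Lam u v) G0).filter p =
      (P.filter fun S => p (ψ S)).image ψ := by
    intro p _; rw [himg, Finset.filter_image]
  have hsumf : ∀ (p : Gr n → Prop) [DecidablePred p] (F : Gr n → ℝ),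
      ∑ G ∈ (blk d (Lam u v) G0).filter p, F G = ∑ S ∈ P.filter (fun S => p (ψ S)), F (ψ S) := by
    intro p _ F
    rw [hfilt p, Finset.sum_image]
    intro a ha b hb hab
    exact hinj a (Finset.mem_filter.1 ha).1 b (Finset.mem_filter.1 hb).1 hab
  have hcardf : ∀ (p : Gr n → Prop) [DecidablePred p],
      ((blk d (Lam u v) G0).filter p).card = (P.filter (fun S => p (ψ S))).card := by
    intro p _
    rw [hfilt p, Finset.card_image_of_injOn]
    intro a ha b hb hab
    exact hinj a (Finset.mem_filter.1 (Finset.mem_coe.1 ha)).1 b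
      (Finset.mem_filter.1 (Finset.mem_coe.1 hb)).1 hab
  -- g has zero sum
  have hg0 : ∑ S ∈ P, g S = 0 := by
    rw [← hsum (fun G => DB d (Lam u v) f G)]
    by_cases hne : (blk d (Lam u v) G0).card = 0
    · rw [Finset.card_eq_zero] at hne; rw [hne]; simp
    · have hc : ((blk d (Lam u v) G0).card : ℝ) ≠ 0 := by exact_mod_cast hne
      have : ∀ G ∈ blk d (Lam u v) G0, DB d (Lam u v) f G = f G - EB d (Lam u v) f G0 := by
        intro G hG; unfold DB; rw [EB_eq_of_mem f hG]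
      rw [Finset.sum_congr rfl this, Finset.sum_sub_distrib, Finset.sum_const, nsmul_eq_mul, EB_def]
      field_simp
      ring
  rw [Finset.sum_comm, Finset.sum_comm (s := blk d (Lam u v) G0)]
  -- the left hand side, one `e` at a time
  have hleft : ∀ e ∈ Pxy u v, ∑ G ∈ blk d (Lam u v) G0,
      (if chi u v e.1 e.2 G then (mbar d Lam chi u v e.1 e.2 f G) ^ 2 else 0) =
      if e ∈ Z.offDiag then (∑ S ∈ P.filter (jchi e), g S) ^ 2 / ((P.filter (jchi e)).card : ℝ)
      else 0 := by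
    intro e he
    have hm : ∀ G ∈ blk d (Lam u v) G0, mbar d Lam chi u v e.1 e.2 f G =
        mbar d Lam chi u v e.1 e.2 f G0 := by
      intro G hG; unfold mbar; rw [blk_eq_of_mem hG]
    have h1 : ∑ G ∈ blk d (Lam u v) G0,
        (if chi u v e.1 e.2 G then (mbar d Lam chi u v e.1 e.2 f G) ^ 2 else 0) =
        ∑ G ∈ (blk d (Lam u v) G0).filter (chi u v e.1 e.2),
          (mbar d Lam chi u v e.1 e.2 f G0) ^ 2 := by
      rw [Finset.sum_filter]
      apply Finset.sum_congr rfl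
      intro G hG
      rw [hm G hG]
    rw [h1, Finset.sum_const, nsmul_eq_mul]
    unfold mbar
    rw [card_mul_div_sq, hsumf (chi u v e.1 e.2), hcardf (chi u v e.1 e.2)]
    have hfc : P.filter (fun S => chi u v e.1 e.2 (ψ S)) =
        P.filter (fun S => e.1 ∈ Z ∧ e.2 ∈ Z ∧ jchi e S) :=
      Finset.filter_congr fun S hS => hchi e he S hS
    rw [hfc]
    split_ifs with hoff
    · rw [Finset.mem_offDiag] at hoff
      have : P.filter (fun S => e.1 ∈ Z ∧ e.2 ∈ Z ∧ jchi e S) = P.filter (jchi e) :=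
        Finset.filter_congr fun S _ => by simp [hoff.1, hoff.2.1]
      rw [this]
    · have : P.filter (fun S => e.1 ∈ Z ∧ e.2 ∈ Z ∧ jchi e S) = ∅ := by
        rw [Finset.filter_eq_empty_iff]
        rintro S _ ⟨h1, h2, _⟩
        exact hoff (Finset.mem_offDiag.2 ⟨h1, h2, (mem_Pxy.1 he).1⟩)
      rw [this]; simp
  have hsub : Z.offDiag ⊆ Pxy u v := by
    intro e he
    rw [Finset.mem_offDiag] at he
    exact mem_Pxy.2 ⟨he.2.2, (hZ _ he.1).1, (hZ _ he.1).2, (hZ _ he.2.1).1, (hZ _ he.2.1).2⟩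
  rw [Finset.sum_congr rfl hleft, ← Finset.sum_filter]
  have hfe : (Pxy u v).filter (fun e => e ∈ Z.offDiag) = Z.offDiag := by
    ext e; simp only [Finset.mem_filter]; exact ⟨fun h => h.2, fun h => ⟨hsub h, h⟩⟩
  rw [hfe]
  refine le_trans (hJ2 Z t g hg0) ?_
  -- the right hand side
  have hright : ∀ e ∈ Z.offDiag, (1 / 4 : ℝ) * ∑ S ∈ P, (g S - g (jtau e S)) ^ 2 ≤
      ∑ G ∈ blk d (Lam u v) G0, (DB d (SM u v e.1 e.2) f G) ^ 2 := by
    intro e he
    rw [hsum (fun G => (DB d (SM u v e.1 e.2) f G) ^ 2), Finset.mul_sum]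
    apply Finset.sum_le_sum
    intro S hS
    by_cases hj : jchi e S
    · have he' := Finset.mem_offDiag.1 he
      have hτ : jtau e S ∈ P := jtau_mem_powersetCard Z t e he'.1 he'.2.1 S hS
      have hne : ψ S ≠ ψ (jtau e S) := fun h => jtau_ne_of_jchi e S hj (hinj _ hS _ hτ h).symm
      have h1 : DB d (SM u v e.1 e.2) f (ψ S) = (f (ψ S) - f (ψ (jtau e S))) / 2 := by
        unfold DB
        rw [EB_def, hsm e he S hS hj, Finset.sum_pair hne, Finset.card_pair hne]
        push_cast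
        ring
      have h2 : g S - g (jtau e S) = f (ψ S) - f (ψ (jtau e S)) := by
        simp only [hg, DB]
        rw [EB_eq_of_mem f (hmemblk S hS), EB_eq_of_mem f (hmemblk _ hτ)]
        ring
      rw [h1, h2]
      apply le_of_eq
      ring
    · rw [jtau_of_not_jchi e S hj]
      simp only [sub_self, ne_eq, OfNat.ofNat_ne_zero, not_false_eq_true, zero_pow, mul_zero]
      exact sq_nonneg _
  rw [Finset.mul_sum]
  refine le_trans (Finset.sum_le_sum hright) ?_
  exact Finset.sum_le_sum_of_subset_of_nonneg hsub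
    fun e _ _ => Finset.sum_nonneg fun G _ => sq_nonneg _

/-- the inequality for one pair `{u,v}`, summed over all fibres. -/
theorem pair_ineq (hJ2 : J2Stmt (n := n)) (u v : Fin n) (f : Gr n → ℝ)
    (hP : ∀ G0 ∈ realizations d, PairPar d Lam SM chi u v G0) :
    ∑ e ∈ Pxy u v, XX d Lam chi u v e.1 e.2 f ≤
      ∑ e ∈ Pxy u v, ipd d (DB d (SM u v e.1 e.2) f) (DB d (SM u v e.1 e.2) f) := by
  have h1 : ∑ e ∈ Pxy u v, XX d Lam chi u v e.1 e.2 f =
      ∑ G ∈ realizations d, ∑ e ∈ Pxy u v,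
        (if chi u v e.1 e.2 G then (mbar d Lam chi u v e.1 e.2 f G) ^ 2 else 0) := by
    rw [Finset.sum_comm]
    apply Finset.sum_congr rfl
    intro e _
    unfold XX
    rw [Finset.sum_filter]
  have h2 : ∑ e ∈ Pxy u v, ipd d (DB d (SM u v e.1 e.2) f) (DB d (SM u v e.1 e.2) f) =
      ∑ G ∈ realizations d, ∑ e ∈ Pxy u v, (DB d (SM u v e.1 e.2) f G) ^ 2 := by
    rw [Finset.sum_comm]
    apply Finset.sum_congr rfl
    intro e _
    rw [ipd_def]
    apply Finset.sum_congr rfl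
    intro G _
    ring
  rw [h1, h2]
  apply sum_le_sum_of_cls (realizations d) (fun H : Gr n => H \ Lam u v)
  intro G0 hG0
  exact fibre_ineq hJ2 u v f G0 (hP G0 hG0)

end param

/-! ### the instance: `Lam u v = tch {u,v}`, `SM u v x y = Mx {u,v} {x,y}`, `chi = chiS` -/

open PFB

theorem Pxy_eq (u v : Fin n) : Pxy u v = (univ \ ({u, v} : Finset (Fin n))).offDiag := by
  ext e
  rw [mem_Pxy, Finset.mem_offDiag]
  simp only [Finset.mem_sdiff, Finset.mem_univ, true_and, Finset.mem_insert, Finset.mem_singleton,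
    not_or]
  tauto

theorem chiS_psi (G : Gr n) {u v x y : Fin n} (huv : u ≠ v) (hxy : x ≠ y) (hxu : x ≠ u)
    (hxv : x ≠ v) (hyu : y ≠ u) (hyv : y ≠ v) (S : Finset (Fin n)) :
    chiS {u, v} {x, y} (psi G u v S) ↔ x ∈ Zs G u v ∧ y ∈ Zs G u v ∧ jchi (x, y) S := by
  rw [chiS_pair huv hxy hxu.symm hyu.symm hxv.symm hyv.symm, adj_psi_u G huv, adj_psi_u G huv,
    adj_psi_v G huv, adj_psi_v G huv]
  unfold jchi
  by_cases hx : x ∈ Zs G u v
  · by_cases hy : y ∈ Zs G u v
    · simp only [hx, hy, true_and, not_true_eq_false, false_and, or_false]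
      tauto
    · have hyy : adj G u y ↔ adj G v y := by
        by_contra h
        exact hy (mem_Zs.2 ⟨hyu, hyv, h⟩)
      simp only [hx, hy, true_and, not_true_eq_false, false_and, or_false, not_false_eq_true,
        false_or, and_false, iff_false]
      tauto
  · have hxx : adj G u x ↔ adj G v x := by
      by_contra h
      exact hx (mem_Zs.2 ⟨hxu, hxv, h⟩)
    simp only [hx, false_and, not_false_eq_true, true_and, false_or, iff_false]
    tauto

theorem sgS_psi (G : Gr n) {u v x y : Fin n} (huv : u ≠ v) (hxy : x ≠ y)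
    (hx : x ∈ Zs G u v) (hy : y ∈ Zs G u v) (S : Finset (Fin n)) (hj : jchi (x, y) S) :
    sgS {u, v} {x, y} (psi G u v S) = psi G u v (jtau (x, y) S) := by
  obtain ⟨hxu, hxv, -⟩ := mem_Zs.1 hx
  obtain ⟨hyu, hyv, -⟩ := mem_Zs.1 hy
  have hd := disj_pair hxu.symm hyu.symm hxv.symm hyv.symm
  have hc : chiS {u, v} {x, y} (psi G u v S) :=
    (chiS_psi G huv hxy hxu hxv hyu hyv S).2 ⟨hx, hy, hj⟩
  have hjx : x ∈ jtau (x, y) S ↔ y ∈ S := by rw [mem_jtau]; simp
  have hjy : y ∈ jtau (x, y) S ↔ x ∈ S := by rw [mem_jtau]; simp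
  have hjw : ∀ w, w ≠ x → w ≠ y → (w ∈ jtau (x, y) S ↔ w ∈ S) := by
    intro w h1 h2
    rw [mem_jtau]
    simp only
    rw [Equiv.swap_apply_of_ne_of_ne h1 h2]
  unfold jchi at hj
  simp only at hj
  apply ext_pair u v
  · intro w
    rw [adj_psi_u G huv]
    by_cases hwx : w = x
    · subst hwx
      rw [adj_sgS_flip hd hc (by simp) (by simp), adj_psi_u G huv, hjx]
      simp only [hx, true_and, not_true_eq_false, false_and, or_false]
      tauto
    by_cases hwy : w = y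
    · subst hwy
      rw [adj_sgS_flip hd hc (by simp) (by simp), adj_psi_u G huv, hjy]
      simp only [hy, true_and, not_true_eq_false, false_and, or_false]
      tauto
    · rw [adj_sgS hd, if_neg (by simp [hwx, hwy, hxu.symm, hyu.symm]), adj_psi_u G huv,
        hjw w hwx hwy]
  · intro w
    rw [adj_psi_v G huv]
    by_cases hwx : w = x
    · subst hwx
      rw [adj_sgS_flip hd hc (by simp) (by simp), adj_psi_v G huv, hjx]
      simp only [hx, true_and, not_true_eq_false, false_and, or_false]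
      tauto
    by_cases hwy : w = y
    · subst hwy
      rw [adj_sgS_flip hd hc (by simp) (by simp), adj_psi_v G huv, hjy]
      simp only [hy, true_and, not_true_eq_false, false_and, or_false]
      tauto
    · rw [adj_sgS hd, if_neg (by simp [hwx, hwy, hxv.symm, hyv.symm]), adj_psi_v G huv,
        hjw w hwx hwy]
  · intro a c ha1 ha2 hc1 hc2
    rw [adj_sgS hd, if_neg (by simp [ha1, ha2, hc1, hc2]), adj_psi_off G u v S ha1 ha2 hc1 hc2,
      adj_psi_off G u v _ ha1 ha2 hc1 hc2]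

theorem pairPar (d : Fin n → ℕ) {u v : Fin n} (huv : u ≠ v) {G0 : Gr n}
    (hG0 : G0 ∈ realizations d) :
    PairPar d (fun u v => tch {u, v}) (fun u v x y => Mx {u, v} {x, y})
      (fun u v x y => chiS {u, v} {x, y}) u v G0 := by
  refine ⟨Zs G0 u v, (Ss G0 u v).card, psi G0 u v, blk_eq_image hG0 huv, ?_, ?_, ?_, ?_⟩
  · intro S hS S' hS' h
    exact psi_injOn' G0 huv _ (Finset.mem_coe.2 hS) (Finset.mem_coe.2 hS') h
  · intro x hx
    exact ⟨(mem_Zs.1 hx).1, (mem_Zs.1 hx).2.1⟩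
  · intro e he S _
    obtain ⟨h1, h2, h3, h4, h5⟩ := mem_Pxy.1 he
    exact chiS_psi G0 huv h1 h2 h3 h4 h5 S
  · intro e he S hS hj
    obtain ⟨h1, h2, h3⟩ := Finset.mem_offDiag.1 he
    obtain ⟨hxu, hxv, -⟩ := mem_Zs.1 h1
    obtain ⟨hyu, hyv, -⟩ := mem_Zs.1 h2
    have hd := disj_pair hxu.symm hyu.symm hxv.symm hyv.symm
    show blk d (Mx {u, v} {e.1, e.2}) (psi G0 u v S) = _
    rw [blk_Mx (Finset.card_pair huv) (Finset.card_pair h3) hd (psi_mem_realizations hG0 huv hS),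
      sgS_psi G0 huv h3 h1 h2 S hj]

/-- **(I3)**: the J2 transfer. -/
theorem I3 (d : Fin n → ℕ) (b : Finset (Fin n)) (hb : b ∈ P2 (Fin n)) (f : Gr n → ℝ) :
    ∑ b' ∈ (P2 (Fin n)).filter (fun b' => Disjoint b b'), XS d b b' f ≤
      ∑ b' ∈ (P2 (Fin n)).filter (fun b' => Disjoint b b'), Qf d b b' f := by
  obtain ⟨u, v, huv, rfl⟩ := Finset.card_eq_two.1 (mem_P2.1 hb)
  have h := pair_ineq (d := d) (Lam := fun u v => tch {u, v})
    (SM := fun u v x y => Mx {u, v} {x, y}) (chi := fun u v x y => chiS {u, v} {x, y})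
    (fun Z t g hg => johnson_J2 Z t g hg) u v f (fun G0 hG0 => pairPar d huv hG0)
  rw [Pxy_eq] at h
  have h1 := ES.sum_offDiag_compl ({u, v} : Finset (Fin n)) (fun b' => XS d {u, v} b' f)
  have h2 := ES.sum_offDiag_compl ({u, v} : Finset (Fin n)) (fun b' => Qf d {u, v} b' f)
  have h3 : ∑ e ∈ (univ \ ({u, v} : Finset (Fin n))).offDiag, XS d {u, v} {e.1, e.2} f ≤
      ∑ e ∈ (univ \ ({u, v} : Finset (Fin n))).offDiag, Qf d {u, v} {e.1, e.2} f := h
  rw [h1, h2] at h3
  linarith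

end Crest.Agent.R299.TG
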