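import Crest.Agent.R299.T4Defs

/-!
# R299 (S0453): graph facts (G1), (G2) for the T4-local lemma
-/

set_option autoImplicit false
open Finset
open Crest.SwitchChain

namespace Crest.Agent.R299.T4GB

variable {n : ℕ}

/-- four distinct vertices `u v | x y` -/
structure Four (u v x y : Fin n) : Prop where
  huv : u ≠ v
  hxy : x ≠ y
  hux : u ≠ x
  huy : u ≠ y
  hvx : v ≠ x
  hvy : v ≠ y

theorem four_of (b b' : Finset (Fin n)) (hb : b.card = 2) (hb' : b'.card = 2)
    (hd : Disjoint b b') : ∃ u v x y, Four u v x y ∧ b = {u, v} ∧ b' = {x, y} := by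
  obtain ⟨u, v, huv, rfl⟩ := Finset.card_eq_two.1 hb
  obtain ⟨x, y, hxy, rfl⟩ := Finset.card_eq_two.1 hb'
  rw [Finset.disjoint_left] at hd
  refine ⟨u, v, x, y, ⟨huv, hxy, ?_, ?_, ?_, ?_⟩, rfl, rfl⟩
  · intro h; exact hd (a := u) (by simp) (by simp [h])
  · intro h; exact hd (a := u) (by simp) (by simp [h])
  · intro h; exact hd (a := v) (by simp) (by simp [h])
  · intro h; exact hd (a := v) (by simp) (by simp [h])

theorem Mx_eq {u v x y : Fin n} (h : Four u v x y) :
    Mx {u, v} {x, y} = {mkE u x h.hux, mkE u y h.huy, mkE v x h.hvx, mkE v y h.hvy} := by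
  obtain ⟨huv, hxy, hux, huy, hvx, hvy⟩ := h
  ext e
  obtain ⟨p, q, hpq, rfl⟩ := edge_exists e
  simp only [Mx, Finset.mem_inter, mkE_mem_tch, Finset.mem_insert, Finset.mem_singleton,
    mkE_eq_iff]
  simp only [Fin.ext_iff, ne_eq] at *
  omega

theorem sum_Mx {u v x y : Fin n} (h : Four u v x y) (F : Edge n → ℕ) :
    ∑ e ∈ Mx {u, v} {x, y}, F e =
      F (mkE u x h.hux) + F (mkE u y h.huy) + F (mkE v x h.hvx) + F (mkE v y h.hvy) := by
  rw [Mx_eq h]
  obtain ⟨huv, hxy, hux, huy, hvx, hvy⟩ := h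
  rw [Finset.sum_insert, Finset.sum_insert, Finset.sum_insert, Finset.sum_singleton]
  · ring
  · simp only [Finset.mem_singleton, mkE_eq_iff]
    simp only [Fin.ext_iff, ne_eq] at *
    omega
  · simp only [Finset.mem_insert, Finset.mem_singleton, mkE_eq_iff]
    simp only [Fin.ext_iff, ne_eq] at *
    omega
  · simp only [Finset.mem_insert, Finset.mem_singleton, mkE_eq_iff]
    simp only [Fin.ext_iff, ne_eq] at *
    omega

/-- indicator of adjacency -/
def ia (G : Gr n) (p q : Fin n) : ℕ := if adj G p q then 1 else 0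

theorem ia_le (G : Gr n) (p q : Fin n) : ia G p q ≤ 1 := by
  unfold ia; split_ifs <;> omega

theorem card_inter_Mx {u v x y : Fin n} (h : Four u v x y) (G : Gr n) :
    (G ∩ Mx {u, v} {x, y}).card = ia G u x + ia G u y + ia G v x + ia G v y := by
  rw [Finset.inter_comm, ← Finset.filter_mem_eq_inter, Finset.card_filter, sum_Mx h]
  simp only [ia, adj_iff G _ _ h.hux, adj_iff G _ _ h.huy, adj_iff G _ _ h.hvx,
    adj_iff G _ _ h.hvy]

theorem deg_inter_Mx {u v x y : Fin n} (h : Four u v x y) (G : Gr n) (w : Fin n) :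
    deg (G ∩ Mx {u, v} {x, y}) w =
      (if w = u ∨ w = x then ia G u x else 0) + (if w = u ∨ w = y then ia G u y else 0) +
      (if w = v ∨ w = x then ia G v x else 0) + (if w = v ∨ w = y then ia G v y else 0) := by
  unfold deg
  rw [Finset.inter_comm, ← Finset.filter_mem_eq_inter, Finset.filter_filter, Finset.card_filter,
    sum_Mx h]
  simp only [ia, adj_iff G _ _ h.hux, adj_iff G _ _ h.huy, adj_iff G _ _ h.hvx,
    adj_iff G _ _ h.hvy, mem_mkE]
  congr 1
  · congr 1
    · congr 1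
      · by_cases h1 : mkE u x h.hux ∈ G <;> by_cases h2 : w = u ∨ w = x <;> simp [h1, h2]
      · by_cases h1 : mkE u y h.huy ∈ G <;> by_cases h2 : w = u ∨ w = y <;> simp [h1, h2]
    · by_cases h1 : mkE v x h.hvx ∈ G <;> by_cases h2 : w = v ∨ w = x <;> simp [h1, h2]
  · by_cases h1 : mkE v y h.hvy ∈ G <;> by_cases h2 : w = v ∨ w = y <;> simp [h1, h2]

theorem deg_u {u v x y : Fin n} (h : Four u v x y) (G : Gr n) :
    deg (G ∩ Mx {u, v} {x, y}) u = ia G u x + ia G u y := by
  rw [deg_inter_Mx h]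
  simp [h.huv, h.hux, h.huy]

theorem deg_v {u v x y : Fin n} (h : Four u v x y) (G : Gr n) :
    deg (G ∩ Mx {u, v} {x, y}) v = ia G v x + ia G v y := by
  rw [deg_inter_Mx h]
  simp [h.huv.symm, h.hvx, h.hvy]

theorem deg_x {u v x y : Fin n} (h : Four u v x y) (G : Gr n) :
    deg (G ∩ Mx {u, v} {x, y}) x = ia G u x + ia G v x := by
  rw [deg_inter_Mx h]
  simp [h.hxy, h.hux.symm, h.hvx.symm]

theorem deg_y {u v x y : Fin n} (h : Four u v x y) (G : Gr n) :
    deg (G ∩ Mx {u, v} {x, y}) y = ia G u y + ia G v y := by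
  rw [deg_inter_Mx h]
  simp [h.hxy.symm, h.huy.symm, h.hvy.symm]

/-- (G2) classification -/
theorem G2 (b b' : Finset (Fin n)) (hb : b.card = 2) (hb' : b'.card = 2) (hd : Disjoint b b')
    (G : Gr n) (ho : ¬ oddS b b' G) (hc : ¬ chiS b b' G) :
    (∀ x ∈ b', deg (G ∩ Mx b b') x ≠ 1) ∨ (∀ u ∈ b, deg (G ∩ Mx b b') u ≠ 1) := by
  obtain ⟨u, v, x, y, h, rfl, rfl⟩ := four_of b b' hb hb' hd
  unfold oddS at ho
  unfold chiS at hc
  rw [card_inter_Mx h] at ho
  simp only [Finset.mem_union, Finset.mem_insert, Finset.mem_singleton,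
    forall_eq, or_imp, forall_and, deg_u h, deg_v h, deg_x h, deg_y h] at hc ⊢
  have h1 := ia_le G u x
  have h2 := ia_le G u y
  have h3 := ia_le G v x
  have h4 := ia_le G v y
  rw [Nat.odd_iff] at ho
  omega

/-- the column sums of the block are invariant on a `b`-fibre -/
theorem col_inv (b b' : Finset (Fin n)) (d : Fin n → ℕ) (G H : Gr n) (hG : G ∈ realizations d)
    (hH : H ∈ realizations d) (h : H \ tch b = G \ tch b) (x : Fin n) (hx : x ∈ b') :
    deg (H ∩ Mx b b') x = deg (G ∩ Mx b b') x := by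
  have key : ∀ E : Gr n, deg (E ∩ tch b) x = deg (E ∩ Mx b b') x := by
    intro E
    unfold deg
    apply congrArg
    ext e
    simp only [Finset.mem_filter, Finset.mem_inter, Mx]
    constructor
    · rintro ⟨⟨h1, h2⟩, h3⟩
      refine ⟨⟨h1, h2, ?_⟩, h3⟩
      simp only [tch, Finset.mem_filter, Finset.mem_univ, true_and]
      exact ⟨x, hx, h3⟩
    · rintro ⟨⟨h1, h2, -⟩, h3⟩
      exact ⟨⟨h1, h2⟩, h3⟩
  have a := Crest.Agent.R299.deg_split H (tch b) x
  have c := Crest.Agent.R299.deg_split G (tch b) x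
  rw [(mem_realizations d H).1 hH x, key, h] at a
  rw [(mem_realizations d G).1 hG x, key] at c
  omega

theorem sdiff_of_subset {Λ Λ' G H : Gr n} (hs : Λ' ⊆ Λ) (h : H \ Λ' = G \ Λ') :
    H \ Λ = G \ Λ := by
  ext e
  have := Finset.ext_iff.1 h e
  simp only [Finset.mem_sdiff] at this ⊢
  constructor
  · rintro ⟨h1, h2⟩; exact ⟨(this.1 ⟨h1, fun h' => h2 (hs h')⟩).1, h2⟩
  · rintro ⟨h1, h2⟩; exact ⟨(this.2 ⟨h1, fun h' => h2 (hs h')⟩).1, h2⟩

theorem ia_eq_iff (G H : Gr n) (p q : Fin n) : ia H p q = ia G p q ↔ (adj H p q ↔ adj G p q) := by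
  unfold ia
  by_cases h1 : adj H p q <;> by_cases h2 : adj G p q <;> simp [h1, h2]

/-- (G1) if no column sum of the block is `1`, the `b`-fibre does not move the block -/
theorem G1 (d : Fin n → ℕ) (b b' : Finset (Fin n)) (hb : b.card = 2) (hb' : b'.card = 2)
    (hd : Disjoint b b') (G : Gr n) (hG : G ∈ realizations d)
    (hc : ∀ x ∈ b', deg (G ∩ Mx b b') x ≠ 1) :
    blk d (tch b) G = blk d (tch b \ Mx b b') G := by
  ext H
  rw [mem_blk, mem_blk]
  constructor
  · rintro ⟨hH, h⟩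
    refine ⟨hH, ?_⟩
    have hcol := col_inv b b' d G H hG hH h
    obtain ⟨u, v, x, y, h4, rfl, rfl⟩ := four_of b b' hb hb' hd
    have cx := hcol x (by simp)
    have cy := hcol y (by simp)
    have nx := hc x (by simp)
    have ny := hc y (by simp)
    rw [deg_x h4, deg_x h4] at cx
    rw [deg_y h4, deg_y h4] at cy
    rw [deg_x h4] at nx
    rw [deg_y h4] at ny
    have l1 := ia_le G u x
    have l2 := ia_le G u y
    have l3 := ia_le G v x
    have l4 := ia_le G v y
    have m1 := ia_le H u x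
    have m2 := ia_le H u y
    have m3 := ia_le H v x
    have m4 := ia_le H v y
    have e1 : adj H u x ↔ adj G u x := (ia_eq_iff G H u x).1 (by omega)
    have e2 : adj H u y ↔ adj G u y := (ia_eq_iff G H u y).1 (by omega)
    have e3 : adj H v x ↔ adj G v x := (ia_eq_iff G H v x).1 (by omega)
    have e4 : adj H v y ↔ adj G v y := (ia_eq_iff G H v y).1 (by omega)
    ext e
    have hout := Finset.ext_iff.1 h e
    simp only [Finset.mem_sdiff, not_and, not_not] at hout ⊢
    by_cases heM : e ∈ Mx {u, v} {x, y}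
    · have hiff : e ∈ H ↔ e ∈ G := by
        have heM' := heM
        rw [Mx_eq h4] at heM'
        simp only [Finset.mem_insert, Finset.mem_singleton] at heM'
        rcases heM' with rfl | rfl | rfl | rfl
        · rw [← adj_iff, ← adj_iff]; exact e1
        · rw [← adj_iff, ← adj_iff]; exact e2
        · rw [← adj_iff, ← adj_iff]; exact e3
        · rw [← adj_iff, ← adj_iff]; exact e4
      constructor
      · rintro ⟨a1, -⟩; exact ⟨hiff.1 a1, fun _ => heM⟩
      · rintro ⟨a1, -⟩; exact ⟨hiff.2 a1, fun _ => heM⟩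
    · constructor
      · rintro ⟨a1, a2⟩
        have hn : e ∉ tch {u, v} := fun h' => heM (a2 h')
        exact ⟨(hout.1 ⟨a1, hn⟩).1, a2⟩
      · rintro ⟨a1, a2⟩
        have hn : e ∉ tch {u, v} := fun h' => heM (a2 h')
        exact ⟨(hout.2 ⟨a1, hn⟩).1, a2⟩
  · rintro ⟨hH, h⟩
    exact ⟨hH, sdiff_of_subset Finset.sdiff_subset h⟩

end Crest.Agent.R299.T4GB
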