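import Crest.Agent.R299.T4Defs
import Crest.Agent.R299.T4Abs

/-!
# R299 (S0453): the T4-local lemma from the graph facts
-/

set_option autoImplicit false
open Finset
open Crest.SwitchChain

namespace Crest.Agent.R299.T4L

open Crest.Agent.R299 Crest.Agent.R299.T4A

section abs
variable {α κ₁ κ₂ : Type*} [DecidableEq κ₁] [DecidableEq κ₂]

theorem cls_filter_eq {κ : Type*} [DecidableEq κ] (Ω : Finset α) (k : α → κ) (p : α → Prop)
    [DecidablePred p] (inv : ∀ a ∈ Ω, ∀ b ∈ Ω, k a = k b → (p a ↔ p b)) {a : α} (ha : a ∈ Ω)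
    (hp : p a) : cls (Ω.filter p) k a = cls Ω k a := by
  ext b
  simp only [mem_cls, mem_filter]
  constructor
  · rintro ⟨⟨h1, _⟩, h3⟩; exact ⟨h1, h3⟩
  · rintro ⟨h1, h3⟩; exact ⟨⟨h1, (inv b h1 a ha h3).2 hp⟩, h3⟩

/-- nonnegativity on an invariant sector where the two keys have the rectangle property. -/
theorem odd_nonneg (Ω : Finset α) (k₁ : α → κ₁) (k₂ : α → κ₂) (p : α → Prop) [DecidablePred p]
    (inv₁ : ∀ a ∈ Ω, ∀ b ∈ Ω, k₁ a = k₁ b → (p a ↔ p b))
    (inv₂ : ∀ a ∈ Ω, ∀ b ∈ Ω, k₂ a = k₂ b → (p a ↔ p b))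
    (hR : Rect (Ω.filter p) k₁ k₂) (hS : Sep (Ω.filter p) k₁ k₂) (g : α → ℝ) :
    0 ≤ ∑ a ∈ Ω.filter p, Dv Ω k₁ g a * Dv Ω k₂ g a := by
  have h := ip_D_D_nonneg_of_comm (Ω.filter p) k₁ k₂
    (fun f _ ha => Av_comm_of_rect hR hS f ha) g
  refine le_trans h (le_of_eq ?_)
  refine sum_congr rfl fun a ha => ?_
  obtain ⟨ha1, ha2⟩ := mem_filter.1 ha
  simp only [Dv, Av, cls_filter_eq Ω k₁ p inv₁ ha1 ha2, cls_filter_eq Ω k₂ p inv₂ ha1 ha2]

end abs

variable {n : ℕ}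

theorem Mx_comm (b b' : Finset (Fin n)) : Mx b' b = Mx b b' := inter_comm _ _

theorem chiS_comm (b b' : Finset (Fin n)) (G : Gr n) : chiS b' b G ↔ chiS b b' G := by
  unfold chiS; rw [Mx_comm, union_comm]

/-- the graph facts used by the T4-local lemma. -/
structure Facts (d : Fin n → ℕ) (b b' : Finset (Fin n)) : Prop where
  colF : ∀ G ∈ realizations d, (∀ x ∈ b', deg (G ∩ Mx b b') x ≠ 1) →
    blk d (tch b) G = blk d (tch b \ Mx b b') G
  rowF : ∀ G ∈ realizations d, (∀ u ∈ b, deg (G ∩ Mx b b') u ≠ 1) →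
    blk d (tch b') G = blk d (tch b' \ Mx b b') G
  clas : ∀ G ∈ realizations d, ¬ oddS b b' G → ¬ chiS b b' G →
    (∀ x ∈ b', deg (G ∩ Mx b b') x ≠ 1) ∨ (∀ u ∈ b, deg (G ∩ Mx b b') u ≠ 1)
  odd1 : ∀ G ∈ realizations d, ∀ H ∈ realizations d, G \ tch b = H \ tch b →
    (oddS b b' G ↔ oddS b b' H)
  odd2 : ∀ G ∈ realizations d, ∀ H ∈ realizations d, G \ tch b' = H \ tch b' →
    (oddS b b' G ↔ oddS b b' H)
  glue : ∀ G ∈ realizations d, ∀ H ∈ realizations d, chiS b b' G → chiS b b' H →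
    (H \ Mx b b') ∪ (G ∩ Mx b b') ∈ realizations d
  rect : Rect ((realizations d).filter (oddS b b')) (fun H : Gr n => H \ tch b)
    (fun H : Gr n => H \ tch b')
  sep : Sep ((realizations d).filter (oddS b b')) (fun H : Gr n => H \ tch b)
    (fun H : Gr n => H \ tch b')

theorem mem_iff_of_sdiff_eq {G H Λ : Gr n} (h : G \ Λ = H \ Λ) {e : Edge n} (he : e ∉ Λ) :
    e ∈ G ↔ e ∈ H := by
  have := congrArg (fun s => e ∈ s) h
  simpa [mem_sdiff, he] using this

theorem inter_eq_of_sdiff_eq {G H Λ M : Gr n} (h : G \ Λ = H \ Λ) (hd : Disjoint Λ M) :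
    G ∩ M = H ∩ M := by
  ext e
  simp only [mem_inter]
  constructor
  · rintro ⟨h1, h2⟩; exact ⟨(mem_iff_of_sdiff_eq h (disjoint_right.1 hd h2)).1 h1, h2⟩
  · rintro ⟨h1, h2⟩; exact ⟨(mem_iff_of_sdiff_eq h (disjoint_right.1 hd h2)).2 h1, h2⟩

theorem chiS_of_inter_eq {b b' : Finset (Fin n)} {G H : Gr n} (h : G ∩ Mx b b' = H ∩ Mx b b') :
    chiS b b' G ↔ chiS b b' H := by
  unfold chiS; rw [h]

/-- `deg (G ∩ Λ)` is determined by `G \ Λ` inside a degree class. -/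
theorem deg_inter_eq {d : Fin n → ℕ} {G H Λ : Gr n} (hG : G ∈ realizations d)
    (hH : H ∈ realizations d) (h : G \ Λ = H \ Λ) (v : Fin n) : deg (G ∩ Λ) v = deg (H ∩ Λ) v := by
  have e1 := deg_split G Λ v
  have e2 := deg_split H Λ v
  rw [h] at e1
  simp only [realizations, mem_filter, mem_univ, true_and] at hG hH
  have := hG v; have := hH v
  omega

theorem T4_local_of_facts (d : Fin n → ℕ) (b b' : Finset (Fin n)) (F : Facts d b b')
    (f : Gr n → ℝ) :
    ipd d (DB d (Mx b b') f) (DB d (Mx b b') f) - XS d b b' f / 2 - XS d b' b f / 2 ≤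
      ipd d (DB d (tch b) f) (DB d (tch b') f) := by
  set Ω := realizations d with hΩ
  set M := Mx b b' with hM
  have hMb : M ⊆ tch b := inter_subset_left
  have hMb' : M ⊆ tch b' := inter_subset_right
  have dF2 : Disjoint (tch b \ M) (tch b') := by
    rw [disjoint_left]; intro e he he'
    exact (mem_sdiff.1 he).2 (mem_inter.2 ⟨(mem_sdiff.1 he).1, he'⟩)
  have dF'1 : Disjoint (tch b' \ M) (tch b) := by
    rw [disjoint_left]; intro e he he'
    exact (mem_sdiff.1 he).2 (mem_inter.2 ⟨he', (mem_sdiff.1 he).1⟩)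
  have dFF' : Disjoint (tch b \ M) (tch b' \ M) := dF2.mono_right sdiff_subset
  have dFM : Disjoint (tch b \ M) M := sdiff_disjoint
  have dF'M : Disjoint (tch b' \ M) M := sdiff_disjoint
  have c1 := coarser_of_subset d hMb
  have c2 := coarser_of_subset d hMb'
  have c3 := coarser_of_subset d (sdiff_subset : tch b \ M ⊆ tch b)
  have c4 := coarser_of_subset d (sdiff_subset : tch b' \ M ⊆ tch b')
  have cm : ∀ {Λ Λ' : Gr n}, Disjoint Λ Λ' →
      Comm Ω (fun H : Gr n => H \ Λ) (fun H : Gr n => H \ Λ') :=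
    fun h g _ hG => EB_comm d h g hG
  have χF : ∀ G ∈ Ω, ∀ H ∈ Ω, G \ (tch b \ M) = H \ (tch b \ M) → (chiS b b' G ↔ chiS b b' H) :=
    fun G _ H _ h => chiS_of_inter_eq (inter_eq_of_sdiff_eq h dFM)
  have χF' : ∀ G ∈ Ω, ∀ H ∈ Ω, G \ (tch b' \ M) = H \ (tch b' \ M) →
      (chiS b b' G ↔ chiS b b' H) :=
    fun G _ H _ h => chiS_of_inter_eq (inter_eq_of_sdiff_eq h dF'M)
  have χN : ∀ G ∈ Ω, ∀ H ∈ Ω, G \ M = H \ M → (chiS b b' G ↔ chiS b b' H) := by
    intro G hG H hH h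
    unfold chiS
    constructor
    · intro h1 w hw; rw [← deg_inter_eq hG hH h w]; exact h1 w hw
    · intro h1 w hw; rw [deg_inter_eq hG hH h w]; exact h1 w hw
  have hcl : ∀ G ∈ Ω, ¬ oddS b b' G → ¬ chiS b b' G →
      cls Ω (fun H : Gr n => H \ tch b) G = cls Ω (fun H : Gr n => H \ (tch b \ M)) G ∨
      cls Ω (fun H : Gr n => H \ tch b') G = cls Ω (fun H : Gr n => H \ (tch b' \ M)) G := by
    intro G hG ho hx
    rcases F.clas G hG ho hx with h | h
    · exact Or.inl (F.colF G hG h)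
    · exact Or.inr (F.rowF G hG h)
  have hodd := odd_nonneg Ω (fun H : Gr n => H \ tch b) (fun H : Gr n => H \ tch b') (oddS b b')
    F.odd1 F.odd2 F.rect F.sep
  have main := main_abs Ω (fun H : Gr n => H \ tch b) (fun H : Gr n => H \ tch b')
    (fun H : Gr n => H \ (tch b \ M)) (fun H : Gr n => H \ (tch b' \ M)) (fun H : Gr n => H \ M)
    (chiS b b') (oddS b b') c1 c2 c3 c4 (cm dF2) (cm dF'1) (cm dFF') χF χF' hcl hodd f
  -- the gluing facts
  have H6 : ∀ G ∈ Ω, ∀ H ∈ Ω, chiS b b' G → chiS b b' H → H \ tch b = G \ tch b →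
      ∃ c ∈ Ω, c \ M = H \ M ∧ c \ (tch b \ M) = G \ (tch b \ M) := by
    intro G hG H hH h1 h2 h3
    refine ⟨(H \ M) ∪ (G ∩ M), F.glue G hG H hH h1 h2, ?_, ?_⟩
    · ext e; simp only [mem_sdiff, mem_union, mem_inter]; tauto
    · ext e
      simp only [mem_sdiff, mem_union, mem_inter, not_and, not_not]
      by_cases he : e ∈ M
      · simp [he]
      · by_cases he' : e ∈ tch b
        · simp [he, he']
        · have := mem_iff_of_sdiff_eq h3 he'
          simp [he, he', this]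
  have H6' : ∀ G ∈ Ω, ∀ H ∈ Ω, chiS b b' G → chiS b b' H → H \ tch b' = G \ tch b' →
      ∃ c ∈ Ω, c \ M = H \ M ∧ c \ (tch b' \ M) = G \ (tch b' \ M) := by
    intro G hG H hH h1 h2 h3
    refine ⟨(H \ M) ∪ (G ∩ M), F.glue G hG H hH h1 h2, ?_, ?_⟩
    · ext e; simp only [mem_sdiff, mem_union, mem_inter]; tauto
    · ext e
      simp only [mem_sdiff, mem_union, mem_inter, not_and, not_not]
      by_cases he : e ∈ M
      · simp [he]
      · by_cases he' : e ∈ tch b'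
        · simp [he, he']
        · have := mem_iff_of_sdiff_eq h3 he'
          simp [he, he', this]
  have x1 : ∑ a ∈ Ω.filter (chiS b b'), (Av Ω (fun H : Gr n => H \ (tch b \ M))
      (Av Ω (fun H : Gr n => H \ M) (Dv Ω (fun H : Gr n => H \ tch b) f)) a) ^ 2 = XS d b b' f := by
    unfold XS
    refine sum_congr rfl fun G hG => ?_
    obtain ⟨hG1, hG2⟩ := mem_filter.1 hG
    rw [FN_eq_mean Ω (fun H : Gr n => H \ tch b) (fun H : Gr n => H \ (tch b \ M))
      (fun H : Gr n => H \ M) (chiS b b') c1 c3 (cm dFM) χF χN H6 _ hG1 hG2]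
    rfl
  have x2 : ∑ a ∈ Ω.filter (chiS b b'), (Av Ω (fun H : Gr n => H \ (tch b' \ M))
      (Av Ω (fun H : Gr n => H \ M) (Dv Ω (fun H : Gr n => H \ tch b') f)) a) ^ 2 = XS d b' b f := by
    unfold XS
    have hfil : ∀ s : Finset (Gr n), s.filter (chiS b' b) = s.filter (chiS b b') := by
      intro s
      exact filter_congr fun G _ => chiS_comm b b' G
    rw [hfil]
    refine sum_congr rfl fun G hG => ?_
    obtain ⟨hG1, hG2⟩ := mem_filter.1 hG
    rw [FN_eq_mean Ω (fun H : Gr n => H \ tch b') (fun H : Gr n => H \ (tch b' \ M))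
      (fun H : Gr n => H \ M) (chiS b b') c2 c4 (cm dF'M) χF' χN H6' _ hG1 hG2]
    unfold mbS
    rw [hfil]
    rfl
  rw [x1, x2] at main
  exact main

end Crest.Agent.R299.T4L
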