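import Crest.Agent.R299.T4Defs

/-!
# R299 (S0453): the odd sector of the T4-local lemma, separation part (hS)

Two realizations which agree off `tch b` and off `tch b'` and whose `2 × 2` block `G ∩ Mx b b'`
has an odd number of edges are equal.
-/

set_option autoImplicit false
open Finset
open Crest.SwitchChain

namespace Crest.Agent.R299.T4OddS

open Crest.Agent.R299

variable {n : ℕ}

/-- four vertices `u v | x y`, all the needed inequalities. -/
structure Q4 (u v x y : Fin n) : Prop where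
  huv : u ≠ v
  hxy : x ≠ y
  hux : u ≠ x
  huy : u ≠ y
  hvx : v ≠ x
  hvy : v ≠ y

/-- the four slots as an explicit set. -/
theorem Mx_pair {u v x y : Fin n} (h : Q4 u v x y) :
    Mx {u, v} {x, y} = {mkE u x h.hux, mkE u y h.huy, mkE v x h.hvx, mkE v y h.hvy} := by
  obtain ⟨huv, hxy, hux, huy, hvx, hvy⟩ := h
  ext e
  obtain ⟨a, c, hac, rfl⟩ := edge_exists e
  simp only [Mx, mem_inter, mkE_mem_tch, mem_insert, mem_singleton, mkE_eq_iff]
  constructor
  · rintro ⟨(rfl | rfl) | (rfl | rfl), (rfl | rfl) | (rfl | rfl)⟩ <;> simp_all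
  · intro h
    rcases h with h | h | h | h <;> rcases h with ⟨rfl, rfl⟩ | ⟨rfl, rfl⟩ <;> simp

/-- indicator of a slot. -/
def ind (G : Gr n) (s : Edge n) : ℕ := if s ∈ G then 1 else 0

theorem ind_le_one (G : Gr n) (s : Edge n) : ind G s ≤ 1 := by
  unfold ind; split_ifs <;> omega

theorem ind_eq_iff {G H : Gr n} {s : Edge n} : ind G s = ind H s ↔ (s ∈ G ↔ s ∈ H) := by
  unfold ind
  by_cases h1 : s ∈ G <;> by_cases h2 : s ∈ H <;> simp [h1, h2]

theorem deg_inter_eq_sum (G S : Gr n) (w : Fin n) :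
    deg (G ∩ S) w = ∑ s ∈ S, if w ∈ s.1 then ind G s else 0 := by
  unfold deg ind
  rw [card_filter, sum_inter_eq]
  refine sum_congr rfl fun s _ => ?_
  by_cases h1 : s ∈ G <;> by_cases h2 : w ∈ s.1 <;> simp [h1, h2]
where
  sum_inter_eq {G S : Gr n} {F : Edge n → ℕ} :
      ∑ s ∈ G ∩ S, F s = ∑ s ∈ S, if s ∈ G then F s else 0 := by
    rw [inter_comm, ← sum_filter]
    congr 1

theorem card_inter_eq_sum (G S : Gr n) : (G ∩ S).card = ∑ s ∈ S, ind G s := by
  unfold ind
  rw [← card_filter]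
  congr 1
  ext s
  simp [mem_inter, mem_filter, and_comm]

section four
variable {u v x y : Fin n} (h : Q4 u v x y) (G : Gr n)

theorem sum_Mx (F : Edge n → ℕ) :
    ∑ s ∈ Mx {u, v} {x, y}, F s =
      F (mkE u x h.hux) + F (mkE u y h.huy) + F (mkE v x h.hvx) + F (mkE v y h.hvy) := by
  rw [Mx_pair h]
  obtain ⟨huv, hxy, hux, huy, hvx, hvy⟩ := h
  rw [sum_insert, sum_insert, sum_insert, sum_singleton]
  · ring
  · simp [mkE_eq_iff, hxy, hvx, hvy]
  · simp only [mem_insert, mem_singleton, mkE_eq_iff, not_or, not_and]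
    refine ⟨⟨fun h => absurd h huv, fun h => absurd h hux⟩, ⟨fun h => absurd h huv, fun h => absurd h huy⟩⟩
  · simp only [mem_insert, mem_singleton, mkE_eq_iff, not_or, not_and]
    refine ⟨⟨fun _ h => absurd h hxy, fun h => absurd h huy⟩, ⟨fun h => absurd h huv, fun h => absurd h hux⟩,
      ⟨fun h => absurd h huv, fun h => absurd h huy⟩⟩

theorem card_Mx : (G ∩ Mx {u, v} {x, y}).card =
    ind G (mkE u x h.hux) + ind G (mkE u y h.huy) + ind G (mkE v x h.hvx) + ind G (mkE v y h.hvy) := by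
  rw [card_inter_eq_sum, sum_Mx h]

theorem deg_Mx_u : deg (G ∩ Mx {u, v} {x, y}) u = ind G (mkE u x h.hux) + ind G (mkE u y h.huy) := by
  rw [deg_inter_eq_sum, sum_Mx h]
  simp [h.huv, h.hux, h.huy]

theorem deg_Mx_v : deg (G ∩ Mx {u, v} {x, y}) v = ind G (mkE v x h.hvx) + ind G (mkE v y h.hvy) := by
  rw [deg_inter_eq_sum, sum_Mx h]
  simp [h.huv.symm, h.hvx, h.hvy]

theorem deg_Mx_x : deg (G ∩ Mx {u, v} {x, y}) x = ind G (mkE u x h.hux) + ind G (mkE v x h.hvx) := by
  rw [deg_inter_eq_sum, sum_Mx h]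
  simp [h.hxy, h.hux.symm, h.hvx.symm]

theorem deg_Mx_y : deg (G ∩ Mx {u, v} {x, y}) y = ind G (mkE u y h.huy) + ind G (mkE v y h.hvy) := by
  rw [deg_inter_eq_sum, sum_Mx h]
  simp [h.hxy.symm, h.huy.symm, h.hvy.symm]

end four

/-- realizations which agree off `Λ` have the same degrees inside `Λ`. -/
theorem deg_inter_eq_of_sdiff_eq {d : Fin n → ℕ} {G H Λ : Gr n} (hG : G ∈ realizations d)
    (hH : H ∈ realizations d) (h : H \ Λ = G \ Λ) (w : Fin n) : deg (H ∩ Λ) w = deg (G ∩ Λ) w := by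
  simp only [realizations, mem_filter, mem_univ, true_and] at hG hH
  have e1 := deg_split G Λ w
  have e2 := deg_split H Λ w
  rw [h] at e2
  have := hG w; have := hH w
  omega

theorem sdiff_Mx_eq {b b' : Finset (Fin n)} {G H : Gr n} (h1 : H \ tch b = G \ tch b)
    (h2 : H \ tch b' = G \ tch b') : H \ Mx b b' = G \ Mx b b' := by
  ext s
  have e1 := congrArg (fun t => s ∈ t) h1
  have e2 := congrArg (fun t => s ∈ t) h2
  simp only [mem_sdiff, eq_iff_iff] at e1 e2
  simp only [Mx, mem_sdiff, mem_inter]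
  tauto

theorem exists_Q4 {b b' : Finset (Fin n)} (hb : b.card = 2) (hb' : b'.card = 2)
    (hd : Disjoint b b') : ∃ u v x y, Q4 u v x y ∧ b = {u, v} ∧ b' = {x, y} := by
  obtain ⟨u, v, huv, rfl⟩ := card_eq_two.1 hb
  obtain ⟨x, y, hxy, rfl⟩ := card_eq_two.1 hb'
  have hu : u ∈ ({u, v} : Finset (Fin n)) := by simp
  have hv : v ∈ ({u, v} : Finset (Fin n)) := by simp
  have hx : x ∈ ({x, y} : Finset (Fin n)) := by simp
  have hy : y ∈ ({x, y} : Finset (Fin n)) := by simp
  refine ⟨u, v, x, y, ⟨huv, hxy, ?_, ?_, ?_, ?_⟩, rfl, rfl⟩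
  · rintro rfl; exact (disjoint_left.1 hd) hu hx
  · rintro rfl; exact (disjoint_left.1 hd) hu hy
  · rintro rfl; exact (disjoint_left.1 hd) hv hx
  · rintro rfl; exact (disjoint_left.1 hd) hv hy

/-- **(G5), hS**: separation in the odd sector. -/
theorem hS (d : Fin n → ℕ) (b b' : Finset (Fin n)) (hb : b.card = 2) (hb' : b'.card = 2)
    (hd : Disjoint b b') :
    Sep ((realizations d).filter (oddS b b')) (fun H : Gr n => H \ tch b)
      (fun H : Gr n => H \ tch b') := by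
  obtain ⟨u, v, x, y, h, rfl, rfl⟩ := exists_Q4 hb hb' hd
  intro e he e' he' h1 h2
  obtain ⟨heΩ, hodd⟩ := mem_filter.1 he
  obtain ⟨heΩ', _⟩ := mem_filter.1 he'
  have hoff : e \ Mx {u, v} {x, y} = e' \ Mx {u, v} {x, y} := sdiff_Mx_eq h1 h2
  have hdeg := deg_inter_eq_of_sdiff_eq heΩ' heΩ hoff
  have du := hdeg u; have dv := hdeg v; have dx := hdeg x; have dy := hdeg y
  rw [deg_Mx_u h, deg_Mx_u h] at du
  rw [deg_Mx_v h, deg_Mx_v h] at dv
  rw [deg_Mx_x h, deg_Mx_x h] at dx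
  rw [deg_Mx_y h, deg_Mx_y h] at dy
  have hodd' : Odd (e ∩ Mx {u, v} {x, y}).card := hodd
  rw [card_Mx h] at hodd'
  obtain ⟨m, hm⟩ := hodd'
  have b1 := ind_le_one e (mkE u x h.hux); have b2 := ind_le_one e (mkE u y h.huy)
  have b3 := ind_le_one e (mkE v x h.hvx); have b4 := ind_le_one e (mkE v y h.hvy)
  have c1 := ind_le_one e' (mkE u x h.hux); have c2 := ind_le_one e' (mkE u y h.huy)
  have c3 := ind_le_one e' (mkE v x h.hvx); have c4 := ind_le_one e' (mkE v y h.hvy)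
  have e1 : ind e (mkE u x h.hux) = ind e' (mkE u x h.hux) := by omega
  have e2 : ind e (mkE u y h.huy) = ind e' (mkE u y h.huy) := by omega
  have e3 : ind e (mkE v x h.hvx) = ind e' (mkE v x h.hvx) := by omega
  have e4 : ind e (mkE v y h.hvy) = ind e' (mkE v y h.hvy) := by omega
  ext s
  by_cases hs : s ∈ Mx {u, v} {x, y}
  · rw [Mx_pair h] at hs
    simp only [mem_insert, mem_singleton] at hs
    rcases hs with rfl | rfl | rfl | rfl
    · exact ind_eq_iff.1 e1
    · exact ind_eq_iff.1 e2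
    · exact ind_eq_iff.1 e3
    · exact ind_eq_iff.1 e4
  · have := congrArg (fun t => s ∈ t) hoff
    simpa [mem_sdiff, hs] using this

end Crest.Agent.R299.T4OddS
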