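import Crest.Agent.R299.ThreeRowBasic

/-!
# R299 (S0453): end game of the 3-row lemma

A function on `X ρ r` which is invariant under all trades is fixed by the three averaging
operators `P_u`.
-/

set_option autoImplicit false
set_option linter.unusedSectionVars false
open Finset

namespace Crest.Agent.R299.TR

variable {ι : Type*} [Fintype ι] [DecidableEq ι]

namespace End

/-- if two rows have the same sum and differ somewhere, there is a column with `(true,false)`. -/
theorem exists_tf (v w : ι → Bool) (hs : ∑ c, (v c).toNat = ∑ c, (w c).toNat) (hne : v ≠ w) :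
    ∃ g, v g = true ∧ w g = false := by
  by_contra hcon
  push Not at hcon
  have hle : ∀ c ∈ (univ : Finset ι), (v c).toNat ≤ (w c).toNat := by
    intro c _
    have := hcon c
    revert this
    cases v c <;> cases w c <;> simp
  have := (Finset.sum_eq_sum_iff_of_le hle).1 hs
  apply hne
  funext c
  have h1 := this c (mem_univ c)
  revert h1
  cases v c <;> cases w c <;> simp

theorem aux {ρ : ι → ℕ} {r : Fin 3 → ℕ} (F : Mat ι → ℝ)
    (hinv : ∀ p q a b, p ≠ q → ∀ x ∈ X ρ r, sw p q a b x ∈ X ρ r → F (sw p q a b x) = F x)
    (u j l : Fin 3) (huj : u ≠ j) (hul : u ≠ l) (hjl : j ≠ l) (x : Mat ι) (hx : x ∈ X ρ r) :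
    ∀ N : ℕ, ∀ y ∈ X ρ r, y u = x u → (univ.filter fun c => y j c ≠ x j c).card = N →
      F y = F x := by
  intro N
  induction N using Nat.strong_induction_on with
  | _ N ih =>
    intro y hy hyu hN
    have hxX := mem_X.1 hx
    have hyX := mem_X.1 hy
    -- column relation
    have hcol : ∀ c, (y j c).toNat + (y l c).toNat = (x j c).toNat + (x l c).toNat := by
      intro c
      have h1 := hyX.1 c
      have h2 := hxX.1 c
      rw [colSum3 _ c huj hul hjl] at h1 h2
      have h3 : y u c = x u c := congrFun hyu c
      rw [h3] at h1
      omega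
    by_cases hrow : y j = x j
    · -- then `y = x`
      have : y = x := by
        funext w c
        rcases three_cases u j l huj hul hjl w with rfl | rfl | rfl
        · exact congrFun hyu c
        · exact congrFun hrow c
        · have h1 := hcol c
          rw [congrFun hrow c] at h1
          revert h1
          cases y w c <;> cases x w c <;> simp
      rw [this]
    · have hsum : ∑ c, (y j c).toNat = ∑ c, (x j c).toNat := by
        rw [← rowSum_eq_sum, ← rowSum_eq_sum, hyX.2, hxX.2]
      obtain ⟨g, hg1, hg2⟩ := exists_tf (y j) (x j) hsum hrow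
      obtain ⟨h, hh1, hh2⟩ := exists_tf (x j) (y j) hsum.symm (Ne.symm hrow)
      have hlg : y l g = false := by
        have h1 := hcol g
        rw [hg1, hg2] at h1
        revert h1
        cases y l g <;> cases x l g <;> simp
      have hlh : y l h = true := by
        have h1 := hcol h
        rw [hh1, hh2] at h1
        revert h1
        cases y l h <;> cases x l h <;> simp
      have hgh : g ≠ h := by
        rintro rfl
        rw [hg1] at hh2
        exact absurd hh2 (by simp)
      have hy' : sw j l g h y ∈ X ρ r :=
        mem_X_sw hjl hy (by rw [hg1, hlg]; simp) (by rw [hh2, hlh]; simp)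
      have hyu' : sw j l g h y u = x u := by
        rw [← hyu]
        funext c
        rw [sw_apply, if_neg (by rintro (e | e); exacts [huj e, hul e])]
      have hsub : (univ.filter fun c => sw j l g h y j c ≠ x j c) ⊂
          (univ.filter fun c => y j c ≠ x j c) := by
        rw [Finset.ssubset_iff_of_subset]
        · refine ⟨g, ?_, ?_⟩
          · simp [hg1, hg2]
          · simp [sw_apply, hh2, hg2]
        · intro c hc
          simp only [mem_filter, mem_univ, true_and, sw_apply, true_or, if_true] at hc ⊢
          by_cases h1 : c = g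
          · subst h1; simp [hg1, hg2]
          · by_cases h2 : c = h
            · subst h2; simp [hh1, hh2]
            · rwa [Equiv.swap_apply_of_ne_of_ne h1 h2] at hc
      have hlt := Finset.card_lt_card hsub
      rw [hN] at hlt
      rw [← hinv j l g h hjl y hy hy']
      exact ih _ hlt _ hy' hyu' rfl

end End

/-- **End game**: a trade-invariant function is fixed by all `P_u`. -/
theorem P_fix_of_trade_inv {ρ : ι → ℕ} {r : Fin 3 → ℕ} (F : Mat ι → ℝ)
    (hinv : ∀ p q a b, p ≠ q → ∀ x ∈ X ρ r, sw p q a b x ∈ X ρ r → F (sw p q a b x) = F x) :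
    ∀ u, ∀ x ∈ X ρ r, P ρ r u F x = F x := by
  intro u x hx
  obtain ⟨j, l, huj, hul, hjl⟩ := exists_others u
  unfold P
  apply Av_of_const_on_cls _ _ _ hx
  intro y hy
  obtain ⟨hy1, hy2⟩ := (mem_cls _ _).1 hy
  exact End.aux F hinv u j l huj hul hjl x hx _ y hy1 hy2 rfl

end Crest.Agent.R299.TR
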