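import Crest.Agent.R299.ThreeRowDefs

/-!
# R299 (S0453): the abstract 3-row model, basic lemmas and Stage 1
-/

set_option autoImplicit false
set_option linter.unusedSectionVars false
open Finset

namespace Crest.Agent.R299.TR

variable {ι : Type*} [Fintype ι] [DecidableEq ι]

theorem three_cases : ∀ i j l : Fin 3, i ≠ j → i ≠ l → j ≠ l → ∀ u, u = i ∨ u = j ∨ u = l := by
  decide

theorem exists_others : ∀ i : Fin 3, ∃ j l : Fin 3, i ≠ j ∧ i ≠ l ∧ j ≠ l := by decide

theorem exists_third : ∀ i j : Fin 3, i ≠ j → ∃ l : Fin 3, i ≠ l ∧ j ≠ l := by decide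

theorem univ3 : ∀ i j l : Fin 3, i ≠ j → i ≠ l → j ≠ l → (univ : Finset (Fin 3)) = {i, j, l} := by
  decide

theorem sum3 {M : Type*} [AddCommMonoid M] (f : Fin 3 → M) {i j l : Fin 3} (hij : i ≠ j)
    (hil : i ≠ l) (hjl : j ≠ l) : ∑ u, f u = f i + f j + f l := by
  rw [univ3 i j l hij hil hjl, sum_insert (by simp [hij, hil]), sum_insert (by simp [hjl]),
    sum_singleton, add_assoc]

theorem colSum_eq_sum (x : Mat ι) (c : ι) : colSum x c = ∑ u, (x u c).toNat := by
  unfold colSum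
  rw [card_filter]
  refine sum_congr rfl fun u _ => ?_
  cases x u c <;> simp

theorem rowSum_eq_sum (x : Mat ι) (u : Fin 3) : rowSum x u = ∑ c, (x u c).toNat := by
  unfold rowSum
  rw [card_filter]
  refine sum_congr rfl fun c _ => ?_
  cases x u c <;> simp

theorem colSum3 (x : Mat ι) (c : ι) {i j l : Fin 3} (hij : i ≠ j) (hil : i ≠ l) (hjl : j ≠ l) :
    colSum x c = (x i c).toNat + (x j c).toNat + (x l c).toNat := by
  rw [colSum_eq_sum, sum3 _ hij hil hjl]

theorem rowSum_comp_swap (x : Mat ι) (u : Fin 3) (a b : ι) (y : Mat ι)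
    (h : ∀ c, y u c = x u (Equiv.swap a b c)) : rowSum y u = rowSum x u := by
  rw [rowSum_eq_sum, rowSum_eq_sum, ← Equiv.sum_comp (Equiv.swap a b) fun c => (x u c).toNat]
  exact sum_congr rfl fun c _ => by rw [h c]

@[simp] theorem cs_apply (a b : ι) (x : Mat ι) (u : Fin 3) (c : ι) :
    cs a b x u c = x u (Equiv.swap a b c) := rfl

theorem sw_apply (p q : Fin 3) (a b : ι) (x : Mat ι) (u : Fin 3) (c : ι) :
    sw p q a b x u c = if u = p ∨ u = q then x u (Equiv.swap a b c) else x u c := rfl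

theorem cs_cs (a b : ι) (x : Mat ι) : cs a b (cs a b x) = x := by
  funext u c; simp

theorem sw_sw (p q : Fin 3) (a b : ι) (x : Mat ι) : sw p q a b (sw p q a b x) = x := by
  funext u c
  by_cases h : u = p ∨ u = q <;> simp [sw_apply, h]

theorem rowSum_cs (a b : ι) (x : Mat ι) (u : Fin 3) : rowSum (cs a b x) u = rowSum x u :=
  rowSum_comp_swap x u a b _ fun _ => rfl

theorem rowSum_sw (p q : Fin 3) (a b : ι) (x : Mat ι) (u : Fin 3) :
    rowSum (sw p q a b x) u = rowSum x u := by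
  by_cases h : u = p ∨ u = q
  · exact rowSum_comp_swap x u a b _ fun c => by simp [sw_apply, h]
  · have : sw p q a b x u = x u := by funext c; simp [sw_apply, h]
    simp [rowSum, this]

theorem colSum_cs (a b : ι) (x : Mat ι) (c : ι) :
    colSum (cs a b x) c = colSum x (Equiv.swap a b c) := rfl

theorem mem_X_cs {ρ : ι → ℕ} {r : Fin 3 → ℕ} {a b : ι} (hab : ρ a = ρ b) {x : Mat ι}
    (hx : x ∈ X ρ r) : cs a b x ∈ X ρ r := by
  rw [mem_X] at hx ⊢
  refine ⟨fun c => ?_, fun u => by rw [rowSum_cs, hx.2]⟩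
  rw [colSum_cs, hx.1]
  by_cases hca : c = a
  · subst hca; simp [hab]
  · by_cases hcb : c = b
    · subst hcb; simp [hab]
    · rw [Equiv.swap_apply_of_ne_of_ne hca hcb]

/-- a trade of the rows `p`, `q` over two columns in which the rows differ stays in the class. -/
theorem mem_X_sw {ρ : ι → ℕ} {r : Fin 3 → ℕ} {p q : Fin 3} (hpq : p ≠ q) {a b : ι} {x : Mat ι}
    (hx : x ∈ X ρ r) (ha : x p a ≠ x q a) (hb : x p b ≠ x q b) : sw p q a b x ∈ X ρ r := by
  obtain ⟨l, hpl, hql⟩ := exists_third p q hpq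
  rw [mem_X] at hx ⊢
  refine ⟨fun c => ?_, fun u => by rw [rowSum_sw, hx.2]⟩
  rw [← hx.1 c, colSum3 _ c hpq hpl hql, colSum3 x c hpq hpl hql]
  have hl : ¬ (l = p ∨ l = q) := by
    rintro (h | h)
    · exact hpl h.symm
    · exact hql h.symm
  simp only [sw_apply, true_or, or_true, if_true, hl, if_false]
  by_cases hca : c = a
  · subst hca
    simp only [Equiv.swap_apply_left]
    revert ha hb
    cases x p c <;> cases x q c <;> cases x p b <;> cases x q b <;> simp
  · by_cases hcb : c = b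
    · subst hcb
      simp only [Equiv.swap_apply_right]
      revert ha hb
      cases x p a <;> cases x q a <;> cases x p c <;> cases x q c <;> simp
    · rw [Equiv.swap_apply_of_ne_of_ne hca hcb]

/-- transport of an average under an involution compatible with the key. -/
theorem Av_comp_invol {α κ : Type*} [DecidableEq κ] (Ω : Finset α) (k : α → κ) (σ : α → α)
    (hσ : ∀ x ∈ Ω, σ x ∈ Ω) (hinv : ∀ x, σ (σ x) = x)
    (hk : ∀ x y, k x = k y → k (σ x) = k (σ y)) (f : α → ℝ) (x : α) :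
    Av Ω k (fun y => f (σ y)) x = Av Ω k f (σ x) := by
  unfold Av
  have h1 : ∑ y ∈ cls Ω k x, f (σ y) = ∑ z ∈ cls Ω k (σ x), f z := by
    refine sum_nbij' σ σ ?_ ?_ ?_ ?_ ?_
    · intro y hy
      obtain ⟨hy1, hy2⟩ := (mem_cls Ω k).1 hy
      exact (mem_cls Ω k).2 ⟨hσ y hy1, hk _ _ hy2⟩
    · intro z hz
      obtain ⟨hz1, hz2⟩ := (mem_cls Ω k).1 hz
      refine (mem_cls Ω k).2 ⟨hσ z hz1, ?_⟩
      have := hk _ _ hz2
      rwa [hinv] at this
    · intro y _; exact hinv y
    · intro z _; exact hinv z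
    · intro y _; rfl
  have h2 : (cls Ω k x).card = (cls Ω k (σ x)).card := by
    refine card_nbij' σ σ ?_ ?_ ?_ ?_
    · intro y hy
      obtain ⟨hy1, hy2⟩ := (mem_cls Ω k).1 (mem_coe.1 hy)
      exact mem_coe.2 ((mem_cls Ω k).2 ⟨hσ y hy1, hk _ _ hy2⟩)
    · intro z hz
      obtain ⟨hz1, hz2⟩ := (mem_cls Ω k).1 (mem_coe.1 hz)
      refine mem_coe.2 ((mem_cls Ω k).2 ⟨hσ z hz1, ?_⟩)
      have := hk _ _ hz2
      rwa [hinv] at this
    · intro y _; exact hinv y
    · intro z _; exact hinv z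
  rw [h1, h2]

theorem P_comp_cs {ρ : ι → ℕ} {r : Fin 3 → ℕ} {a b : ι} (hab : ρ a = ρ b) (u : Fin 3)
    (f : Mat ι → ℝ) (x : Mat ι) :
    P ρ r u (fun y => f (cs a b y)) x = P ρ r u f (cs a b x) := by
  unfold P
  refine Av_comp_invol (X ρ r) (fun y => y u) (cs a b) (fun x hx => mem_X_cs hab hx)
    (cs_cs a b) ?_ f x
  intro x y hxy
  funext c
  simp only [cs_apply]
  exact congrFun hxy _

end Crest.Agent.R299.TR
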