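import Crest.Agent.R299.ThreeRowFibre
import Crest.Agent.R299.ThreeRowBasic
import Crest.Agent.R299.SubsetCoupling

/-!
# R299 (S0453): the fibre coupling (FC) of the 3-row lemma
-/

set_option autoImplicit false
set_option linter.unusedSectionVars false
open Finset

namespace Crest.Agent.R299.TR
namespace FC5

variable {ι : Type*} [Fintype ι] [DecidableEq ι]

/-- the configuration of the main case. -/
structure Cfg (x : Mat ι) (p j l : Fin 3) (a b : ι) : Prop where
  pj : p ≠ j
  pl : p ≠ l
  jl : j ≠ l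
  pa : x p a = true
  ja : x j a = false
  la : x l a = false
  pb : x p b = false
  jb : x j b = true
  lb : x l b = true

variable {x : Mat ι} {p j l : Fin 3} {a b : ι}

theorem Cfg.ab (h : Cfg x p j l a b) : a ≠ b := by
  rintro rfl
  have := h.pa
  rw [h.pb] at this
  simp at this

theorem Cfg.a_notMem (h : Cfg x p j l a b) : a ∉ Fr x j l := by
  rw [mem_Fr, h.ja, h.la]; simp

theorem Cfg.b_notMem (h : Cfg x p j l a b) : b ∉ Fr x j l := by
  rw [mem_Fr, h.jb, h.lb]; simp

theorem Cfg.Fr1 (h : Cfg x p j l a b) :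
    Fr (sw p j a b x) j l = insert a (insert b (Fr x j l)) := by
  ext c
  have hl : ¬ (l = p ∨ l = j) := by
    rintro (e | e)
    · exact h.pl e.symm
    · exact h.jl e.symm
  rw [mem_Fr, mem_insert, mem_insert, mem_Fr]
  simp only [sw_apply, or_true, if_true, hl, if_false]
  by_cases hca : c = a
  · subst hca
    simp [h.jb, h.la]
  · by_cases hcb : c = b
    · subst hcb
      simp [h.ja, h.lb]
    · rw [Equiv.swap_apply_of_ne_of_ne hca hcb]
      simp [hca, hcb]

theorem Cfg.Tj1 (h : Cfg x p j l a b) :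
    Tj (sw p j a b x) j l = insert a (Tj x j l) := by
  ext c
  have hl : ¬ (l = p ∨ l = j) := by
    rintro (e | e)
    · exact h.pl e.symm
    · exact h.jl e.symm
  rw [mem_Tj, mem_insert, mem_Tj]
  simp only [sw_apply, or_true, if_true, hl, if_false]
  by_cases hca : c = a
  · subst hca
    simp [h.jb, h.la]
  · by_cases hcb : c = b
    · subst hcb
      simp [h.ja, h.lb, hca]
    · rw [Equiv.swap_apply_of_ne_of_ne hca hcb]
      simp [hca]

theorem Cfg.card_Tj1 (h : Cfg x p j l a b) :
    (Tj (sw p j a b x) j l).card = (Tj x j l).card + 1 := by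
  rw [h.Tj1, card_insert_of_notMem]
  intro ha
  exact h.a_notMem (Tj_subset_Fr x j l ha)

theorem Cfg.mk1_p (h : Cfg x p j l a b) (T' : Finset ι) (c : ι) :
    TR.mk (sw p j a b x) j l T' p c = x p (Equiv.swap a b c) := by
  rw [mk_row _ h.pj h.pl]
  simp [sw_apply]

theorem Cfg.mk1_j (h : Cfg x p j l a b) (T' : Finset ι) (c : ι) :
    TR.mk (sw p j a b x) j l T' j c =
      if c = a ∨ c = b ∨ c ∈ Fr x j l then decide (c ∈ T') else x j c := by
  rw [mk_j, h.Fr1]
  simp only [mem_insert]
  split_ifs with hc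
  · rfl
  · simp only [not_or] at hc
    simp [sw_apply, Equiv.swap_apply_of_ne_of_ne hc.1 hc.2.1]

theorem Cfg.mk1_l (h : Cfg x p j l a b) (T' : Finset ι) (c : ι) :
    TR.mk (sw p j a b x) j l T' l c =
      if c = a ∨ c = b ∨ c ∈ Fr x j l then decide (c ∉ T') else x l c := by
  have hl : ¬ (l = p ∨ l = j) := by
    rintro (e | e)
    · exact h.pl e.symm
    · exact h.jl e.symm
  rw [mk_l _ h.jl, h.Fr1]
  simp only [mem_insert]
  split_ifs with hc
  · rfl
  · simp [sw_apply, hl]

/-- identity 1 -/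
theorem Cfg.id_a (h : Cfg x p j l a b) {T : Finset ι} (hT : T ⊆ Fr x j l) :
    TR.mk (sw p j a b x) j l (insert a T) = sw p j a b (TR.mk x j l T) := by
  have haT : a ∉ T := fun e => h.a_notMem (hT e)
  have hbT : b ∉ T := fun e => h.b_notMem (hT e)
  have hl : ¬ (l = p ∨ l = j) := by
    rintro (e | e)
    · exact h.pl e.symm
    · exact h.jl e.symm
  have hab := h.ab
  funext u c
  rcases three_cases p j l h.pj h.pl h.jl u with rfl | rfl | rfl
  · rw [h.mk1_p]
    simp [sw_apply, mk_row x h.pj h.pl]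
  · rw [h.mk1_j]
    simp only [sw_apply, or_true, if_true, mk_j]
    by_cases hca : c = a
    · subst hca
      simp [h.b_notMem, h.jb]
    · by_cases hcb : c = b
      · subst hcb
        simp [h.a_notMem, h.ja, hbT, hab.symm]
      · rw [Equiv.swap_apply_of_ne_of_ne hca hcb]
        simp [hca, hcb]
  · rw [h.mk1_l]
    simp only [sw_apply, hl, if_false, mk_l x h.jl]
    by_cases hca : c = a
    · subst hca
      simp [h.a_notMem, h.la]
    · by_cases hcb : c = b
      · subst hcb
        simp [h.b_notMem, h.lb, hbT, hab.symm]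
      · simp [hca, hcb]

/-- identity 2 -/
theorem Cfg.id_b (h : Cfg x p j l a b) {T : Finset ι} (hT : T ⊆ Fr x j l) :
    TR.mk (sw p j a b x) j l (insert b T) = sw p l a b (TR.mk x j l T) := by
  have haT : a ∉ T := fun e => h.a_notMem (hT e)
  have hbT : b ∉ T := fun e => h.b_notMem (hT e)
  have hj : ¬ (j = p ∨ j = l) := by
    rintro (e | e)
    · exact h.pj e.symm
    · exact h.jl e
  have hab := h.ab
  funext u c
  rcases three_cases p j l h.pj h.pl h.jl u with rfl | rfl | rfl
  · rw [h.mk1_p]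
    simp [sw_apply, mk_row x h.pj h.pl]
  · rw [h.mk1_j]
    simp only [sw_apply, hj, if_false, mk_j]
    by_cases hca : c = a
    · subst hca
      simp [h.a_notMem, h.ja, haT, hab]
    · by_cases hcb : c = b
      · subst hcb
        simp [h.b_notMem, h.jb]
      · simp [hca, hcb]
  · rw [h.mk1_l]
    simp only [sw_apply, or_true, if_true, mk_l x h.jl]
    by_cases hca : c = a
    · subst hca
      simp [h.b_notMem, h.lb, haT, hab]
    · by_cases hcb : c = b
      · subst hcb
        simp [h.a_notMem, h.la]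
      · rw [Equiv.swap_apply_of_ne_of_ne hca hcb]
        simp [hca, hcb]

/-- swapping two free columns with the same entry in row `p`. -/
theorem mk_cs (w : Mat ι) {p j l : Fin 3} (hpj : p ≠ j) (hpl : p ≠ l) (hjl : j ≠ l) {e g : ι}
    (he : e ∈ Fr w j l) (hg : g ∈ Fr w j l) (hp : w p e = w p g) {S S' : Finset ι}
    (hS : ∀ c, c ∈ S' ↔ Equiv.swap e g c ∈ S) :
    TR.mk w j l S' = cs e g (TR.mk w j l S) := by
  have hFr : ∀ c, Equiv.swap e g c ∈ Fr w j l ↔ c ∈ Fr w j l := by
    intro c
    by_cases hce : c = e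
    · subst hce; simp [he, hg]
    · by_cases hcg : c = g
      · subst hcg; simp [he, hg]
      · rw [Equiv.swap_apply_of_ne_of_ne hce hcg]
  have hout : ∀ c, c ∉ Fr w j l → Equiv.swap e g c = c := by
    intro c hc
    refine Equiv.swap_apply_of_ne_of_ne ?_ ?_
    · rintro rfl; exact hc he
    · rintro rfl; exact hc hg
  funext u c
  rw [cs_apply]
  rcases three_cases p j l hpj hpl hjl u with rfl | rfl | rfl
  · rw [mk_row w hpj hpl, mk_row w hpj hpl]
    by_cases hce : c = e
    · subst hce; simp [hp]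
    · by_cases hcg : c = g
      · subst hcg; simp [hp]
      · rw [Equiv.swap_apply_of_ne_of_ne hce hcg]
  · rw [mk_j, mk_j]
    by_cases hc : c ∈ Fr w u l
    · rw [if_pos hc, if_pos ((hFr c).2 hc)]
      simp only [hS c]
    · rw [if_neg hc, if_neg (fun h' => hc ((hFr c).1 h')), hout c hc]
  · rw [mk_l w hjl, mk_l w hjl]
    by_cases hc : c ∈ Fr w j u
    · rw [if_pos hc, if_pos ((hFr c).2 hc)]
      simp only [hS c]
    · rw [if_neg hc, if_neg (fun h' => hc ((hFr c).1 h')), hout c hc]

theorem Cfg.rho_a (h : Cfg x p j l a b) {ρ : ι → ℕ} {r : Fin 3 → ℕ} (hx : x ∈ X ρ r) :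
    ρ a = 1 := by
  rw [← (mem_X.1 hx).1 a, colSum3 x a h.pj h.pl h.jl, h.pa, h.ja, h.la]; rfl

theorem Cfg.rho_b (h : Cfg x p j l a b) {ρ : ι → ℕ} {r : Fin 3 → ℕ} (hx : x ∈ X ρ r) :
    ρ b = 2 := by
  rw [← (mem_X.1 hx).1 b, colSum3 x b h.pj h.pl h.jl, h.pb, h.jb, h.lb]; rfl

theorem Cfg.rho_free (h : Cfg x p j l a b) {ρ : ι → ℕ} {r : Fin 3 → ℕ} (hx : x ∈ X ρ r) {g : ι}
    (hg : g ∈ Fr x j l) : ρ g = (x p g).toNat + 1 := by
  rw [← (mem_X.1 hx).1 g, colSum3 x g h.pj h.pl h.jl]
  have := mem_Fr.1 hg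
  revert this
  cases x j g <;> cases x l g <;> simp

/-- the configuration is inherited by all matrices of the fibre. -/
theorem Cfg.fib (h : Cfg x p j l a b) (T : Finset ι) : Cfg (TR.mk x j l T) p j l a b where
  pj := h.pj
  pl := h.pl
  jl := h.jl
  pa := by rw [mk_row x h.pj h.pl, h.pa]
  ja := by rw [mk_j, if_neg h.a_notMem, h.ja]
  la := by rw [mk_l x h.jl, if_neg h.a_notMem, h.la]
  pb := by rw [mk_row x h.pj h.pl, h.pb]
  jb := by rw [mk_j, if_neg h.b_notMem, h.jb]
  lb := by rw [mk_l x h.jl, if_neg h.b_notMem, h.lb]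

theorem Cfg.sw_j_mem (h : Cfg x p j l a b) {ρ : ι → ℕ} {r : Fin 3 → ℕ} (hx : x ∈ X ρ r) :
    sw p j a b x ∈ X ρ r :=
  mem_X_sw h.pj hx (by rw [h.pa, h.ja]; simp) (by rw [h.pb, h.jb]; simp)

theorem Cfg.sw_l_mem (h : Cfg x p j l a b) {ρ : ι → ℕ} {r : Fin 3 → ℕ} (hx : x ∈ X ρ r) :
    sw p l a b x ∈ X ρ r :=
  mem_X_sw h.pl hx (by rw [h.pa, h.la]; simp) (by rw [h.pb, h.lb]; simp)

/-- **main case of (FC)**. -/
theorem main {ρ : ι → ℕ} {r : Fin 3 → ℕ} (F : Mat ι → ℝ) (L : ℝ)
    (hσ : ∀ a b, ρ a = ρ b → ∀ x ∈ X ρ r, F (cs a b x) = F x)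
    (hL : ∀ p q a b, p ≠ q → ∀ x ∈ X ρ r, sw p q a b x ∈ X ρ r → |F (sw p q a b x) - F x| ≤ L)
    (h : Cfg x p j l a b) (hx : x ∈ X ρ r) :
    |P ρ r p F (sw p j a b x) - P ρ r p F x| ≤ L := by
  have hx1 : sw p j a b x ∈ X ρ r := h.sw_j_mem hx
  have hab := h.ab
  have x1a : sw p j a b x p a = false := by simp [sw_apply, h.pb]
  have x1b : sw p j a b x p b = true := by simp [sw_apply, h.pa]
  have x1g : ∀ g ∈ Fr x j l, sw p j a b x p g = x p g := by
    intro g hg
    have hga : g ≠ a := by rintro rfl; exact h.a_notMem hg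
    have hgb : g ≠ b := by rintro rfl; exact h.b_notMem hg
    simp [sw_apply, Equiv.swap_apply_of_ne_of_ne hga hgb]
  have Fa : a ∈ Fr (sw p j a b x) j l := by rw [h.Fr1]; simp
  have Fb : b ∈ Fr (sw p j a b x) j l := by rw [h.Fr1]; simp
  have Fg : ∀ g ∈ Fr x j l, g ∈ Fr (sw p j a b x) j l := by
    intro g hg; rw [h.Fr1]; simp [hg]
  rw [P_eq hx1 h.pj h.pl h.jl, P_eq hx h.pj h.pl h.jl, h.Fr1, h.card_Tj1]
  refine SC.subset_coupling (Fr x j l) a b h.a_notMem h.b_notMem h.ab _
    (card_le_card (Tj_subset_Fr x j l))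
    (fun T => F (TR.mk x j l T)) (fun T' => F (TR.mk (sw p j a b x) j l T')) L ?_ ?_ ?_ ?_
  · intro T hT
    have hT1 := (mem_powersetCard.1 hT).1
    have hy := mk_mem_X hx h.jl hT
    rw [h.id_a hT1]
    exact hL p j a b h.pj _ hy ((h.fib T).sw_j_mem hy)
  · intro T hT
    have hT1 := (mem_powersetCard.1 hT).1
    have hy := mk_mem_X hx h.jl hT
    rw [h.id_b hT1]
    exact hL p l a b h.pl _ hy ((h.fib T).sw_l_mem hy)
  · intro T hT g hg
    have hT1 := (mem_powersetCard.1 hT).1
    have hy := mk_mem_X hx h.jl hT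
    have hgF := hT1 hg
    have haT : a ∉ T := fun e => h.a_notMem (hT1 e)
    have hbT : b ∉ T := fun e => h.b_notMem (hT1 e)
    have hga : g ≠ a := by rintro rfl; exact h.a_notMem hgF
    have hgb : g ≠ b := by rintro rfl; exact h.b_notMem hgF
    cases hpg : x p g
    · have e : TR.mk (sw p j a b x) j l (insert a (insert b (T.erase g))) =
          cs a g (TR.mk (sw p j a b x) j l (insert b T)) := by
        refine mk_cs _ h.pj h.pl h.jl Fa (Fg g hgF) (by rw [x1a, x1g g hgF, hpg]) ?_
        intro c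
        by_cases hca : c = a
        · subst hca; simp [hg]
        · by_cases hcg : c = g
          · subst hcg; simp [hga, hgb, haT, hab]
          · rw [Equiv.swap_apply_of_ne_of_ne hca hcg]
            simp [hca, hcg]
      rw [e, h.id_b hT1, hσ a g (by rw [h.rho_a hx, h.rho_free hx hgF, hpg]; rfl) _
        ((h.fib T).sw_l_mem hy)]
      exact hL p l a b h.pl _ hy ((h.fib T).sw_l_mem hy)
    · have e : TR.mk (sw p j a b x) j l (insert a (insert b (T.erase g))) =
          cs b g (TR.mk (sw p j a b x) j l (insert a T)) := by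
        refine mk_cs _ h.pj h.pl h.jl Fb (Fg g hgF) (by rw [x1b, x1g g hgF, hpg]) ?_
        intro c
        by_cases hcb : c = b
        · subst hcb; simp [hg]
        · by_cases hcg : c = g
          · subst hcg; simp [hga, hgb, hbT, hab.symm]
          · rw [Equiv.swap_apply_of_ne_of_ne hcb hcg]
            simp [hcb, hcg]
      rw [e, h.id_a hT1, hσ b g (by rw [h.rho_b hx, h.rho_free hx hgF, hpg]; rfl) _
        ((h.fib T).sw_j_mem hy)]
      exact hL p j a b h.pj _ hy ((h.fib T).sw_j_mem hy)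
  · intro T hT g hg
    have hT1 := (mem_powersetCard.1 hT).1
    have hy := mk_mem_X hx h.jl hT
    obtain ⟨hgF, hgT⟩ := mem_sdiff.1 hg
    have haT : a ∉ T := fun e => h.a_notMem (hT1 e)
    have hbT : b ∉ T := fun e => h.b_notMem (hT1 e)
    have hga : g ≠ a := by rintro rfl; exact h.a_notMem hgF
    have hgb : g ≠ b := by rintro rfl; exact h.b_notMem hgF
    cases hpg : x p g
    · have e : TR.mk (sw p j a b x) j l (insert g T) =
          cs a g (TR.mk (sw p j a b x) j l (insert a T)) := by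
        refine mk_cs _ h.pj h.pl h.jl Fa (Fg g hgF) (by rw [x1a, x1g g hgF, hpg]) ?_
        intro c
        by_cases hca : c = a
        · subst hca; simp [hgT, haT, hga, hga.symm]
        · by_cases hcg : c = g
          · subst hcg; simp
          · rw [Equiv.swap_apply_of_ne_of_ne hca hcg]
            simp [hca, hcg]
      rw [e, h.id_a hT1, hσ a g (by rw [h.rho_a hx, h.rho_free hx hgF, hpg]; rfl) _
        ((h.fib T).sw_j_mem hy)]
      exact hL p j a b h.pj _ hy ((h.fib T).sw_j_mem hy)
    · have e : TR.mk (sw p j a b x) j l (insert g T) =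
          cs b g (TR.mk (sw p j a b x) j l (insert b T)) := by
        refine mk_cs _ h.pj h.pl h.jl Fb (Fg g hgF) (by rw [x1b, x1g g hgF, hpg]) ?_
        intro c
        by_cases hcb : c = b
        · subst hcb; simp [hgT, hbT, hgb, hgb.symm]
        · by_cases hcg : c = g
          · subst hcg; simp
          · rw [Equiv.swap_apply_of_ne_of_ne hcb hcg]
            simp [hcb, hcg]
      rw [e, h.id_b hT1, hσ b g (by rw [h.rho_b hx, h.rho_free hx hgF, hpg]; rfl) _
        ((h.fib T).sw_l_mem hy)]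
      exact hL p l a b h.pl _ hy ((h.fib T).sw_l_mem hy)

theorem sw_swap (p q : Fin 3) (a b : ι) (x : Mat ι) : sw p q b a x = sw p q a b x := by
  funext u c
  simp only [sw_apply, Equiv.swap_comm b a]

/-- (FC) when row `p` has `1` in column `a` and `0` in column `b`. -/
theorem aux {ρ : ι → ℕ} {r : Fin 3 → ℕ} (F : Mat ι → ℝ) (L : ℝ)
    (hσ : ∀ a b, ρ a = ρ b → ∀ x ∈ X ρ r, F (cs a b x) = F x)
    (hL : ∀ p q a b, p ≠ q → ∀ x ∈ X ρ r, sw p q a b x ∈ X ρ r → |F (sw p q a b x) - F x| ≤ L)
    (p q : Fin 3) (hpq : p ≠ q) (a b : ι) (x : Mat ι) (hx : x ∈ X ρ r)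
    (hx' : sw p q a b x ∈ X ρ r) (hpa : x p a = true) (hpb : x p b = false) :
    |P ρ r p F (sw p q a b x) - P ρ r p F x| ≤ L := by
  have hL0 : 0 ≤ L := le_trans (abs_nonneg _) (hL p q a b hpq x hx hx')
  obtain ⟨l, hpl, hql⟩ := exists_third p q hpq
  have hl : ¬ (l = p ∨ l = q) := by
    rintro (e | e)
    · exact hpl e.symm
    · exact hql e.symm
  have c1 := (mem_X.1 hx).1 a
  have c2 := (mem_X.1 hx').1 a
  have c3 := (mem_X.1 hx).1 b
  rw [colSum3 _ a hpq hpl hql] at c1 c2
  rw [colSum3 _ b hpq hpl hql] at c3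
  simp only [sw_apply, true_or, or_true, if_true, hl, if_false, Equiv.swap_apply_left] at c2
  rw [hpa] at c1
  rw [hpb] at c2 c3
  have hqa : x q a = false := by
    revert c1 c2
    cases x q a <;> cases x q b <;> simp <;> omega
  have hqb : x q b = true := by
    revert c1 c2
    cases x q a <;> cases x q b <;> simp <;> omega
  rw [hqa] at c1
  rw [hqb] at c3
  by_cases hlab : x l a = x l b
  · -- the trade is a column swap
    have hρ : ρ a = ρ b := by
      rw [← c1, ← c3, hlab]; simp
    have e : sw p q a b x = cs a b x := by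
      funext u c
      rw [sw_apply, cs_apply]
      by_cases hu : u = p ∨ u = q
      · rw [if_pos hu]
      · rw [if_neg hu]
        have hul : u = l := by
          rcases three_cases p q l hpq hpl hql u with e | e | e
          · exact absurd (Or.inl e) hu
          · exact absurd (Or.inr e) hu
          · exact e
        subst hul
        by_cases hca : c = a
        · subst hca; simp [hlab]
        · by_cases hcb : c = b
          · subst hcb; simp [hlab]
          · rw [Equiv.swap_apply_of_ne_of_ne hca hcb]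
    rw [e, ← P_comp_cs hρ]
    have : P ρ r p (fun y => F (cs a b y)) x = P ρ r p F x :=
      Av_congr (X ρ r) (fun y => y p) (fun y hy => hσ a b hρ y hy) x
    rw [this, sub_self, abs_zero]
    exact hL0
  · cases hla : x l a
    · have hlb : x l b = true := by
        rw [hla] at hlab
        revert hlab
        cases x l b <;> simp
      exact main F L hσ hL ⟨hpq, hpl, hql, hpa, hqa, hla, hpb, hqb, hlb⟩ hx
    · have hlb : x l b = false := by
        rw [hla] at hlab
        revert hlab
        cases x l b <;> simp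
      have hc : Cfg (sw p q a b x) p q l b a :=
        ⟨hpq, hpl, hql, by simp [sw_apply, hpa], by simp [sw_apply, hqa],
          by simp [sw_apply, hl, hlb], by simp [sw_apply, hpb], by simp [sw_apply, hqb],
          by simp [sw_apply, hl, hla]⟩
      have := main F L hσ hL hc hx'
      rw [sw_swap, sw_sw, abs_sub_comm] at this
      exact this

end FC5

variable {ι : Type*} [Fintype ι] [DecidableEq ι]

/-- **(FC)** the fibre coupling: `P_p` does not increase the trade-Lipschitz constant along a trade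
which involves the row `p`. -/
theorem FC5.FC {ρ : ι → ℕ} {r : Fin 3 → ℕ} (F : Mat ι → ℝ) (L : ℝ)
    (hσ : ∀ a b, ρ a = ρ b → ∀ x ∈ X ρ r, F (cs a b x) = F x)
    (hL : ∀ p q a b, p ≠ q → ∀ x ∈ X ρ r, sw p q a b x ∈ X ρ r → |F (sw p q a b x) - F x| ≤ L)
    (p q : Fin 3) (hpq : p ≠ q) (a b : ι) (x : Mat ι) (hx : x ∈ X ρ r)
    (hx' : sw p q a b x ∈ X ρ r) : |P ρ r p F (sw p q a b x) - P ρ r p F x| ≤ L := by
  have hL0 : 0 ≤ L := le_trans (abs_nonneg _) (hL p q a b hpq x hx hx')
  cases hpa : x p a <;> cases hpb : x p b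
  · have e : sw p q a b x p = x p := by
      funext c
      simp only [sw_apply, true_or, if_true]
      by_cases hca : c = a
      · subst hca; simp [hpa, hpb]
      · by_cases hcb : c = b
        · subst hcb; simp [hpa, hpb]
        · rw [Equiv.swap_apply_of_ne_of_ne hca hcb]
    rw [P_congr_row ρ r p F e, sub_self, abs_zero]
    exact hL0
  · rw [← FC5.sw_swap] at hx' ⊢
    exact FC5.aux F L hσ hL p q hpq b a x hx hx' hpb hpa
  · exact FC5.aux F L hσ hL p q hpq a b x hx hx' hpa hpb
  · have e : sw p q a b x p = x p := by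
      funext c
      simp only [sw_apply, true_or, if_true]
      by_cases hca : c = a
      · subst hca; simp [hpa, hpb]
      · by_cases hcb : c = b
        · subst hcb; simp [hpa, hpb]
        · rw [Equiv.swap_apply_of_ne_of_ne hca hcb]
    rw [P_congr_row ρ r p F e, sub_self, abs_zero]
    exact hL0

end Crest.Agent.R299.TR
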