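import Crest.Agent.R299.ThreeRowQ
import Crest.Agent.R299.ThreeRowEnd
import Crest.Agent.R299.ThreeRowFC5

/-!
# R299 (S0453): the abstract 3-row lemma

For 0/1 matrices with three rows and fixed row and column sums, `P_0 + P_1 + P_2` has no
eigenvalue in `(2, 3)`; equivalently `K = ∑_u (1 - P_u)` satisfies `K² ≥ K`.
-/

set_option autoImplicit false
set_option linter.unusedSectionVars false
open Finset

namespace Crest.Agent.R299.TR

variable {ι : Type*} [Fintype ι] [DecidableEq ι]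

/-- (E): an eigenfunction of `P_0 + P_1 + P_2` with eigenvalue `> 2` is fixed by every `P_u`. -/
theorem eigen_fix (ρ : ι → ℕ) (r : Fin 3 → ℕ) (μ : ℝ) (hμ : 2 < μ) (F : Mat ι → ℝ)
    (hF : ∀ x ∈ X ρ r, ∑ u, P ρ r u F x = μ * F x) : ∀ u, ∀ x ∈ X ρ r, P ρ r u F x = F x := by
  have hσ : ∀ a b, ρ a = ρ b → ∀ x ∈ X ρ r, F (cs a b x) = F x :=
    fun a b hab => stage1 ρ r μ hμ F hF hab
  have hFC : FCstmt ρ r F := by
    intro L hL p q hpq a b x hx hx'
    exact FC5.FC F L hσ hL p q hpq a b x hx hx'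
  exact P_fix_of_trade_inv F (stage2_of_FC ρ r μ hμ F hF hFC)

/-- (Q): `⟨f, K f⟩ ≤ ‖K f‖²`. -/
theorem three_row (ρ : ι → ℕ) (r : Fin 3 → ℕ) (f : Mat ι → ℝ) :
    ip (X ρ r) f (K ρ r f) ≤ ip (X ρ r) (K ρ r f) (K ρ r f) := by
  have := Q_of_eigen ρ r (fun μ F hμ hF => eigen_fix ρ r μ hμ F hF) f
  unfold ip
  calc _ ≤ ∑ x ∈ X ρ r, K ρ r f x ^ 2 := this
    _ = _ := sum_congr rfl fun x _ => by ring

end Crest.Agent.R299.TR
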