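import Crest.Agent.R299.Avg
import Crest.Agent.R299.Spectral

/-!
# R299 (S0453): model-free parts of the 3-row lemma

`Ω : Finset α`, three keys `k u : α → κ` (`u : Fin 3`), `Av Ω (k u)` the three conditional
expectations.
* `stage1_abs`  : an eigenfunction with eigenvalue `> 2` is invariant under every involution of `Ω`
                  which respects the three keys and fixes one key at every point (L² argument).
* `Q_of_E`      : "eigenvalue `> 2` ⇒ fixed by the three averages" implies the quadratic inequality.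
* `lip_close`   : sup-norm closing argument.
* `avg_close_of_biregular` : averages over two finite sets related by a biregular relation.
-/

set_option autoImplicit false
open Finset

namespace Crest.Agent.R299.TRA

variable {α κ : Type*} [DecidableEq κ]

/-- `Av` is equivariant under an involution of `Ω` which respects the key. -/
theorem Av_comp_invol (Ω : Finset α) (k : α → κ) (σ : α → α)
    (hσ : ∀ x ∈ Ω, σ x ∈ Ω) (hinv : ∀ x ∈ Ω, σ (σ x) = x)
    (heq : ∀ x ∈ Ω, ∀ y ∈ Ω, k y = k x → k (σ y) = k (σ x))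
    (F : α → ℝ) {x : α} (hx : x ∈ Ω) :
    Av Ω k (fun y => F (σ y)) x = Av Ω k F (σ x) := by
  have h1 : ∀ y ∈ cls Ω k x, σ y ∈ cls Ω k (σ x) := by
    intro y hy
    obtain ⟨hy1, hy2⟩ := (mem_cls Ω k).1 hy
    exact (mem_cls Ω k).2 ⟨hσ y hy1, heq x hx y hy1 hy2⟩
  have h2 : ∀ y ∈ cls Ω k (σ x), σ y ∈ cls Ω k x := by
    intro y hy
    obtain ⟨hy1, hy2⟩ := (mem_cls Ω k).1 hy
    refine (mem_cls Ω k).2 ⟨hσ y hy1, ?_⟩
    have := heq (σ x) (hσ x hx) y hy1 hy2
    rwa [hinv x hx] at this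
  have h3 : ∀ y ∈ cls Ω k x, σ (σ y) = y := fun y hy => hinv y (cls_subset Ω k x hy)
  have h4 : ∀ y ∈ cls Ω k (σ x), σ (σ y) = y := fun y hy => hinv y (cls_subset Ω k _ hy)
  have hcard : (cls Ω k x).card = (cls Ω k (σ x)).card :=
    card_bij' (fun y _ => σ y) (fun y _ => σ y) h1 h2 h3 h4
  have hsum : ∑ y ∈ cls Ω k x, F (σ y) = ∑ y ∈ cls Ω k (σ x), F y :=
    sum_bij' (fun y _ => σ y) (fun y _ => σ y) h1 h2 h3 h4 (fun _ _ => rfl)
  unfold Av
  rw [hsum, hcard]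

/-- **Stage 1 (abstract).** -/
theorem stage1_abs (Ω : Finset α) (k : Fin 3 → α → κ) (σ : α → α)
    (hσ : ∀ x ∈ Ω, σ x ∈ Ω) (hinv : ∀ x ∈ Ω, σ (σ x) = x)
    (heq : ∀ u, ∀ x ∈ Ω, ∀ y ∈ Ω, k u y = k u x → k u (σ y) = k u (σ x))
    (hfix : ∀ x ∈ Ω, ∃ u, k u (σ x) = k u x)
    (F : α → ℝ) (μ : ℝ) (hμ : 2 < μ)
    (hE : ∀ x ∈ Ω, ∑ u, Av Ω (k u) F x = μ * F x) :
    ∀ x ∈ Ω, F (σ x) = F x := by
  set G : α → ℝ := fun x => F x - F (σ x) with hG
  set φ : Fin 3 → α → ℝ := fun u => Av Ω (k u) G with hφ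
  have hφ_eq : ∀ u, ∀ x ∈ Ω, φ u x = Av Ω (k u) F x - Av Ω (k u) F (σ x) := by
    intro u x hx
    simp only [hφ, hG]
    rw [Av_sub, Av_comp_invol Ω (k u) σ hσ hinv (heq u) F hx]
  have hEG : ∀ x ∈ Ω, ∑ u, φ u x = μ * G x := by
    intro x hx
    rw [sum_congr rfl (fun u _ => hφ_eq u x hx), sum_sub_distrib, hE x hx, hE _ (hσ x hx)]
    simp only [hG]; ring
  have hpt : ∀ x ∈ Ω, (μ * G x) ^ 2 ≤ 2 * ∑ u, (φ u x) ^ 2 := by
    intro x hx
    obtain ⟨u, hu⟩ := hfix x hx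
    have h0 : φ u x = 0 := by
      rw [hφ_eq u x hx, Av_congr_key Ω (k u) F hu, sub_self]
    rw [← hEG x hx]
    simp only [Fin.sum_univ_three]
    fin_cases u
    · simp only [Fin.zero_eta] at h0
      rw [h0]; nlinarith [sq_nonneg (φ 1 x - φ 2 x)]
    · simp only [Fin.mk_one] at h0
      rw [h0]; nlinarith [sq_nonneg (φ 0 x - φ 2 x)]
    · have h0' : φ 2 x = 0 := h0
      rw [h0']; nlinarith [sq_nonneg (φ 0 x - φ 1 x)]
  -- sum over Ω
  have hsum : μ ^ 2 * ip Ω G G ≤ 2 * (μ * ip Ω G G) := by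
    have h1 : μ ^ 2 * ip Ω G G = ∑ x ∈ Ω, (μ * G x) ^ 2 := by
      simp only [ip, mul_sum]
      exact sum_congr rfl fun x _ => by ring
    have h2 : ∑ x ∈ Ω, (2 * ∑ u, (φ u x) ^ 2) = 2 * (μ * ip Ω G G) := by
      rw [← mul_sum, sum_comm]
      congr 1
      have h3 : ∀ u, ∑ x ∈ Ω, (φ u x) ^ 2 = ip Ω G (φ u) := by
        intro u
        have := ip_Av_Av Ω (k u) G G
        simp only [hφ]
        rw [← this]
        simp only [ip]
        exact sum_congr rfl fun x _ => by ring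
      rw [sum_congr rfl (fun u _ => h3 u), ← ip_sum_right]
      simp only [ip]
      rw [mul_sum]
      exact sum_congr rfl fun x hx => by rw [hEG x hx]; ring
    rw [h1, ← h2]
    exact sum_le_sum hpt
  have hnn := ip_self_nonneg Ω G
  have hz : ip Ω G G = 0 := by
    by_contra hne
    have hpos : 0 < ip Ω G G := lt_of_le_of_ne hnn (Ne.symm hne)
    nlinarith [mul_pos (by linarith : (0:ℝ) < μ) (mul_pos (by linarith : (0:ℝ) < μ - 2) hpos)]
  intro x hx
  have := ip_self_eq_zero Ω hz x hx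
  simp only [hG] at this
  linarith

section QE
variable [DecidableEq α]

omit [DecidableEq α] in
/-- the operator `f ↦ ∑_u (f - Av_u f)` is linear, local and symmetric on `Ω`. -/
theorem opOn_S (Ω : Finset α) (k : Fin 3 → α → κ) :
    OpOn Ω (fun f x => ∑ u, (f x - Av Ω (k u) f x)) where
  add f g a _ := by
    have : ∀ u, Av Ω (k u) (f + g) a = Av Ω (k u) f a + Av Ω (k u) g a :=
      fun u => Av_add Ω (k u) f g a
    simp only [this, Pi.add_apply, ← sum_add_distrib]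
    exact sum_congr rfl fun u _ => by ring
  smul c f a _ := by
    have : ∀ u, Av Ω (k u) (c • f) a = c * Av Ω (k u) f a :=
      fun u => Av_smul Ω (k u) c f a
    simp only [this, Pi.smul_apply, smul_eq_mul, mul_sum]
    exact sum_congr rfl fun u _ => by ring
  loc f g h a ha := by
    refine sum_congr rfl fun u _ => ?_
    rw [h a ha, Av_congr Ω (k u) h a]
  symm f g := by
    have h1 : ∀ f g : α → ℝ, ∑ a ∈ Ω, f a * ∑ u, (g a - Av Ω (k u) g a) =
        ∑ u : Fin 3, (ip Ω f g - ip Ω f (Av Ω (k u) g)) := by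
      intro f g
      simp only [ip, mul_sum]
      rw [sum_comm]
      refine sum_congr rfl fun u _ => ?_
      rw [← sum_sub_distrib]
      exact sum_congr rfl fun a _ => by ring
    have h2 : ∑ a ∈ Ω, (∑ u, (f a - Av Ω (k u) f a)) * g a =
        ∑ a ∈ Ω, g a * ∑ u, (f a - Av Ω (k u) f a) :=
      sum_congr rfl fun a _ => by ring
    rw [h2, h1, h1]
    refine sum_congr rfl fun u _ => ?_
    rw [ip_comm Ω f g, ← Av_selfadj, ip_comm Ω (Av Ω (k u) f) g]

/-- **From the eigenvalue statement to the quadratic inequality.** -/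
theorem Q_of_E (Ω : Finset α) (k : Fin 3 → α → κ)
    (hE : ∀ (μ : ℝ) (F : α → ℝ), 2 < μ → (∀ x ∈ Ω, ∑ u, Av Ω (k u) F x = μ * F x) →
      ∀ u, ∀ x ∈ Ω, Av Ω (k u) F x = F x) (f : α → ℝ) :
    ∑ x ∈ Ω, f x * ∑ u, (f x - Av Ω (k u) f x) ≤ ∑ x ∈ Ω, (∑ u, (f x - Av Ω (k u) f x)) ^ 2 := by
  refine sq_ge_on Ω (fun f x => ∑ u, (f x - Av Ω (k u) f x)) (opOn_S Ω k) ?_ f
  intro c v hv hSv
  by_cases h0 : c ≤ 0
  · nlinarith [sq_nonneg c]
  by_cases h1 : 1 ≤ c
  · nlinarith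
  push Not at h0 h1
  exfalso
  obtain ⟨a, ha, hva⟩ := hv
  have hEv : ∀ x ∈ Ω, ∑ u, Av Ω (k u) v x = (3 - c) * v x := by
    intro x hx
    have := hSv x hx
    simp only [sum_sub_distrib, sum_const, card_univ, Fintype.card_fin, nsmul_eq_mul] at this
    push_cast at this
    linarith
  have hfix := hE (3 - c) v (by linarith) hEv
  have := hSv a ha
  simp only [hfix _ a ha, sub_self, sum_const_zero] at this
  have : c * v a = 0 := this.symm
  rcases mul_eq_zero.1 this with h | h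
  · linarith
  · exact hva h

end QE

/-- **Sup-norm closing.** -/
theorem lip_close (Ω : Finset α) (k : Fin 3 → α → κ) (R : α → α → Prop)
    (F : α → ℝ) (μ : ℝ) (hμ : 2 < μ)
    (hE : ∀ x ∈ Ω, ∑ u, Av Ω (k u) F x = μ * F x)
    (hstep : ∀ M : ℝ, (∀ x ∈ Ω, ∀ y ∈ Ω, R x y → |F x - F y| ≤ M) →
      ∀ x ∈ Ω, ∀ y ∈ Ω, R x y →
        |∑ u, Av Ω (k u) F x - ∑ u, Av Ω (k u) F y| ≤ 2 * M) :
    ∀ x ∈ Ω, ∀ y ∈ Ω, R x y → F x = F y := by
  classical
  set P : Finset (α × α) := (Ω ×ˢ Ω).filter fun p => R p.1 p.2 with hP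
  intro x y' hx hy hR
  have hne : P.Nonempty := ⟨(x, hx), by simp [hP, y', hy, hR]⟩
  obtain ⟨p, hp, hmax⟩ := exists_max_image P (fun p => |F p.1 - F p.2|) hne
  set M := |F p.1 - F p.2| with hM
  have hall : ∀ a ∈ Ω, ∀ b ∈ Ω, R a b → |F a - F b| ≤ M := by
    intro a ha b hb hab
    exact hmax (a, b) (by simp [hP, ha, hb, hab])
  have hp' : p.1 ∈ Ω ∧ p.2 ∈ Ω ∧ R p.1 p.2 := by
    have := hp
    simp only [hP, mem_filter, mem_product] at this
    exact ⟨this.1.1, this.1.2, this.2⟩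
  have h2 := hstep M hall p.1 hp'.1 p.2 hp'.2.1 hp'.2.2
  rw [hE _ hp'.1, hE _ hp'.2.1, ← mul_sub, abs_mul, abs_of_pos (by linarith : (0:ℝ) < μ)] at h2
  have hM0 : 0 ≤ M := abs_nonneg _
  have hMz : M = 0 := by nlinarith
  have := hall x y' hx hy hR
  rw [hMz] at this
  have := abs_nonpos_iff.1 this
  linarith

/-- **Biregular averaging.** -/
theorem avg_close_of_biregular {β γ : Type*} (A : Finset β) (B : Finset γ)
    (R : β → γ → Prop) [∀ a b, Decidable (R a b)] (p q : ℕ) (hp : 0 < p) (hq : 0 < q)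
    (hA : ∀ a ∈ A, (B.filter (R a)).card = p) (hB : ∀ b ∈ B, (A.filter fun a => R a b).card = q)
    (hne : A.Nonempty)
    (f : β → ℝ) (g : γ → ℝ) (M : ℝ) (hM : ∀ a ∈ A, ∀ b ∈ B, R a b → |f a - g b| ≤ M) :
    |(∑ a ∈ A, f a) / (A.card : ℝ) - (∑ b ∈ B, g b) / (B.card : ℝ)| ≤ M := by
  have hcount : p * A.card = q * B.card := by
    have h := sum_card_bipartiteAbove_eq_sum_card_bipartiteBelow (s := A) (t := B) R
    simp only [bipartiteAbove, bipartiteBelow] at h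
    rw [sum_congr rfl hA, sum_congr rfl hB] at h
    simpa [mul_comm] using h
  have hAc : 0 < A.card := card_pos.2 hne
  have hBc : 0 < B.card := by
    rcases Nat.eq_zero_or_pos B.card with h | h
    · rw [h, mul_zero] at hcount
      have := Nat.mul_pos hp hAc
      omega
    · exact h
  have hS1 : ∑ a ∈ A, ∑ b ∈ B.filter (R a), f a = p * ∑ a ∈ A, f a := by
    rw [mul_sum]
    refine sum_congr rfl fun a ha => ?_
    rw [sum_const, hA a ha, nsmul_eq_mul]
  have hS2 : ∑ a ∈ A, ∑ b ∈ B.filter (R a), g b = q * ∑ b ∈ B, g b := by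
    simp only [sum_filter]
    rw [sum_comm, mul_sum]
    refine sum_congr rfl fun b hb => ?_
    rw [← sum_filter, sum_const, hB b hb, nsmul_eq_mul]
  have hbound : |(p:ℝ) * ∑ a ∈ A, f a - q * ∑ b ∈ B, g b| ≤ (p * A.card : ℝ) * M := by
    rw [← hS1, ← hS2, ← sum_sub_distrib]
    simp only [← sum_sub_distrib]
    calc |∑ a ∈ A, ∑ b ∈ B.filter (R a), (f a - g b)|
        ≤ ∑ a ∈ A, |∑ b ∈ B.filter (R a), (f a - g b)| := abs_sum_le_sum_abs _ _
      _ ≤ ∑ a ∈ A, ∑ b ∈ B.filter (R a), |f a - g b| :=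
          sum_le_sum fun a _ => abs_sum_le_sum_abs _ _
      _ ≤ ∑ a ∈ A, ∑ _b ∈ B.filter (R a), M :=
          sum_le_sum fun a ha => sum_le_sum fun b hb =>
            hM a ha b (mem_filter.1 hb).1 (mem_filter.1 hb).2
      _ = (p * A.card : ℝ) * M := by
          rw [sum_congr rfl (fun a ha => by rw [sum_const, hA a ha, nsmul_eq_mul])]
          rw [sum_const, nsmul_eq_mul]; ring
  have hcR : (p:ℝ) * A.card = q * B.card := by exact_mod_cast hcount
  have hpR : (0:ℝ) < p := by exact_mod_cast hp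
  have hqR : (0:ℝ) < q := by exact_mod_cast hq
  have hAR : (0:ℝ) < A.card := by exact_mod_cast hAc
  have hBR : (0:ℝ) < B.card := by exact_mod_cast hBc
  have hid : (∑ a ∈ A, f a) / (A.card : ℝ) - (∑ b ∈ B, g b) / (B.card : ℝ) =
      ((p:ℝ) * ∑ a ∈ A, f a - q * ∑ b ∈ B, g b) / (p * A.card) := by
    have e1 : (∑ b ∈ B, g b) / (B.card : ℝ) = (q * ∑ b ∈ B, g b) / (p * A.card) := by
      rw [hcR]; field_simp
    rw [e1]; field_simp
  rw [hid, abs_div, abs_of_pos (mul_pos hpR hAR), div_le_iff₀ (mul_pos hpR hAR)]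
  linarith

end Crest.Agent.R299.TRA
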