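import Crest.Agent.R299.ThreeRowDefs
import Crest.Agent.R299.SubsetCoupling

/-!
# R299 (S0453): 3-row model, fibre parametrisation and the coupling lemma `FC`
-/

set_option autoImplicit false
set_option linter.unusedSectionVars false
open Finset

namespace Crest.Agent.R299.TR.Fc

variable {ι : Type*} [Fintype ι] [DecidableEq ι]

theorem univ3 {p q l : Fin 3} (hpq : p ≠ q) (hpl : p ≠ l) (hql : q ≠ l) :
    (univ : Finset (Fin 3)) = {p, q, l} := by
  revert p q l; decide

theorem cases3 {p q l : Fin 3} (hpq : p ≠ q) (hpl : p ≠ l) (hql : q ≠ l) (u : Fin 3) :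
    u = p ∨ u = q ∨ u = l := by
  revert p q l u; decide

theorem exists_third {p q : Fin 3} (hpq : p ≠ q) : ∃ l : Fin 3, p ≠ l ∧ q ≠ l := by
  revert p q; decide

omit [Fintype ι] [DecidableEq ι] in
theorem colSum_eq {p q l : Fin 3} (hpq : p ≠ q) (hpl : p ≠ l) (hql : q ≠ l) (x : Mat ι) (c : ι) :
    colSum x c = (x p c).toNat + (x q c).toNat + (x l c).toNat := by
  unfold colSum
  rw [card_filter, univ3 hpq hpl hql, sum_insert (by simp [hpq, hpl]), sum_insert (by simp [hql]),
    sum_singleton]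
  cases x p c <;> cases x q c <;> cases x l c <;> simp

omit [DecidableEq ι] in
theorem rowSum_eq_sum (x : Mat ι) (u : Fin 3) : rowSum x u = ∑ c, (x u c).toNat := by
  unfold rowSum
  rw [card_filter]
  refine sum_congr rfl fun c _ => ?_
  cases x u c <;> simp

/-- the free columns for the pair of rows `q`, `l`. -/
def free (q l : Fin 3) (x : Mat ι) : Finset ι := univ.filter fun c => x q c ≠ x l c

/-- the number of free columns where row `q` has the `1`. -/
def upc (q l : Fin 3) (x : Mat ι) : ℕ := (univ.filter fun c => x q c = true ∧ x l c = false).card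

/-- keep row `p`, keep the non-free columns, and give the free columns in `T` to row `q`,
the others to the third row. -/
def mk (p q : Fin 3) (x : Mat ι) (Fr T : Finset ι) : Mat ι :=
  fun u c => if u = p then x p c else if c ∈ Fr then (if u = q then decide (c ∈ T) else !decide (c ∈ T))
    else x u c

omit [Fintype ι] in
theorem mk_p (p q : Fin 3) (x : Mat ι) (Fr T : Finset ι) : mk p q x Fr T p = x p := by
  funext c; simp [mk]

omit [Fintype ι] in
theorem mk_q {p q : Fin 3} (hpq : p ≠ q) (x : Mat ι) (Fr T : Finset ι) (c : ι) :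
    mk p q x Fr T q c = if c ∈ Fr then decide (c ∈ T) else x q c := by
  simp [mk, hpq.symm]

omit [Fintype ι] in
theorem mk_l {p q l : Fin 3} (hpl : p ≠ l) (hql : q ≠ l) (x : Mat ι) (Fr T : Finset ι) (c : ι) :
    mk p q x Fr T l c = if c ∈ Fr then !decide (c ∈ T) else x l c := by
  simp [mk, hpl.symm, hql.symm]

theorem mem_free {q l : Fin 3} {x : Mat ι} {c : ι} : c ∈ free q l x ↔ x q c ≠ x l c := by
  simp [free]

/-- columnwise: the two resampled rows have the same sum. -/
theorem mk_col {p q l : Fin 3} (hpq : p ≠ q) (hpl : p ≠ l) (hql : q ≠ l) (x : Mat ι)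
    (T : Finset ι) (c : ι) :
    (mk p q x (free q l x) T q c).toNat + (mk p q x (free q l x) T l c).toNat =
      (x q c).toNat + (x l c).toNat := by
  rw [mk_q hpq, mk_l hpl hql]
  by_cases hc : c ∈ free q l x
  · rw [if_pos hc, if_pos hc]
    rw [mem_free] at hc
    by_cases hT : c ∈ T <;> revert hc <;> cases x q c <;> cases x l c <;> simp [hT]
  · rw [if_neg hc, if_neg hc]

theorem sum_split (Fr : Finset ι) (φ : ι → ℕ) :
    ∑ c, φ c = ∑ c ∈ Fr, φ c + ∑ c ∈ univ \ Fr, φ c := by
  rw [← sum_sdiff (subset_univ Fr), add_comm]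

theorem upc_eq (q l : Fin 3) (x : Mat ι) : upc q l x = ∑ c ∈ free q l x, (x q c).toNat := by
  unfold upc free
  rw [card_filter, sum_filter]
  refine sum_congr rfl fun c _ => ?_
  cases x q c <;> cases x l c <;> simp

theorem upc_le (q l : Fin 3) (x : Mat ι) : upc q l x ≤ (free q l x).card := by
  unfold upc free
  apply card_le_card
  intro c
  simp only [mem_filter, mem_univ, true_and]
  rintro ⟨h1, h2⟩
  simp [h1, h2]

theorem mk_mem {ρ : ι → ℕ} {r : Fin 3 → ℕ} {p q l : Fin 3} (hpq : p ≠ q) (hpl : p ≠ l) (hql : q ≠ l)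
    {x : Mat ι} (hx : x ∈ X ρ r) {T : Finset ι}
    (hT : T ∈ (free q l x).powersetCard (upc q l x)) : mk p q x (free q l x) T ∈ X ρ r := by
  obtain ⟨hT1, hT2⟩ := mem_powersetCard.1 hT
  obtain ⟨hc, hr⟩ := mem_X.1 hx
  have hq : rowSum (mk p q x (free q l x) T) q = rowSum x q := by
    rw [rowSum_eq_sum, rowSum_eq_sum, sum_split (free q l x), sum_split (free q l x) (fun c => (x q c).toNat)]
    congr 1
    · rw [← upc_eq, ← hT2, card_eq_sum_ones, ← sum_sdiff hT1]
      have h0 : ∑ c ∈ free q l x \ T, (mk p q x (free q l x) T q c).toNat = 0 := by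
        apply sum_eq_zero
        intro c hc
        obtain ⟨h1, h2⟩ := mem_sdiff.1 hc
        rw [mk_q hpq, if_pos h1]; simp [h2]
      rw [h0, zero_add]
      refine sum_congr rfl fun c hc => ?_
      rw [mk_q hpq, if_pos (hT1 hc)]; simp [hc]
    · refine sum_congr rfl fun c hc => ?_
      rw [mk_q hpq, if_neg (mem_sdiff.1 hc).2]
  have hql' : rowSum (mk p q x (free q l x) T) q + rowSum (mk p q x (free q l x) T) l =
      rowSum x q + rowSum x l := by
    simp only [rowSum_eq_sum, ← sum_add_distrib]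
    exact sum_congr rfl fun c _ => mk_col hpq hpl hql x T c
  rw [mem_X]
  constructor
  · intro c
    rw [← hc c, colSum_eq hpq hpl hql, colSum_eq hpq hpl hql x, mk_p, add_assoc, add_assoc,
      mk_col hpq hpl hql]
  · intro u
    rw [← hr u]
    rcases cases3 hpq hpl hql u with rfl | rfl | rfl
    · unfold rowSum; rw [mk_p]
    · exact hq
    · omega

theorem mk_injOn {p q : Fin 3} (hpq : p ≠ q) (x : Mat ι) (Fr : Finset ι) (s : ℕ) :
    Set.InjOn (mk p q x Fr) (Fr.powersetCard s : Set (Finset ι)) := by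
  intro T hT T' hT' h
  have hT1 := (mem_powersetCard.1 (mem_coe.1 hT)).1
  have hT1' := (mem_powersetCard.1 (mem_coe.1 hT')).1
  ext c
  have hc := congrFun (congrFun h q) c
  rw [mk_q hpq, mk_q hpq] at hc
  by_cases hcF : c ∈ Fr
  · rw [if_pos hcF, if_pos hcF] at hc
    simpa using hc
  · exact ⟨fun h => absurd (hT1 h) hcF, fun h => absurd (hT1' h) hcF⟩

theorem exists_mk {ρ : ι → ℕ} {r : Fin 3 → ℕ} {p q l : Fin 3} (hpq : p ≠ q) (hpl : p ≠ l) (hql : q ≠ l)
    {x y : Mat ι} (hx : x ∈ X ρ r) (hy : y ∈ X ρ r) (hyp : y p = x p) :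
    ∃ T ∈ (free q l x).powersetCard (upc q l x), mk p q x (free q l x) T = y := by
  obtain ⟨hc, hr⟩ := mem_X.1 hx
  obtain ⟨hc', hr'⟩ := mem_X.1 hy
  have hcol : ∀ c, (y q c).toNat + (y l c).toNat = (x q c).toNat + (x l c).toNat := by
    intro c
    have h1 := hc c
    have h2 := hc' c
    rw [colSum_eq hpq hpl hql] at h1 h2
    rw [hyp] at h2
    omega
  have hoff : ∀ c, c ∉ free q l x → y q c = x q c ∧ y l c = x l c := by
    intro c hcF
    rw [mem_free, not_not] at hcF
    have := hcol c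
    revert this hcF
    cases y q c <;> cases y l c <;> cases x q c <;> cases x l c <;> simp
  have hon : ∀ c, c ∈ free q l x → y l c = !y q c := by
    intro c hcF
    rw [mem_free] at hcF
    have := hcol c
    revert this hcF
    cases y q c <;> cases y l c <;> cases x q c <;> cases x l c <;> simp
  refine ⟨(free q l x).filter fun c => y q c = true, ?_, ?_⟩
  · rw [mem_powersetCard]
    refine ⟨filter_subset _ _, ?_⟩
    have h1 : rowSum y q = rowSum x q := by rw [hr, hr']
    rw [rowSum_eq_sum, rowSum_eq_sum, sum_split (free q l x),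
      sum_split (free q l x) (fun c => (x q c).toNat), ← upc_eq] at h1
    have h2 : ∑ c ∈ univ \ free q l x, (y q c).toNat = ∑ c ∈ univ \ free q l x, (x q c).toNat :=
      sum_congr rfl fun c hc => by rw [(hoff c (mem_sdiff.1 hc).2).1]
    have h3 : ((free q l x).filter fun c => y q c = true).card = ∑ c ∈ free q l x, (y q c).toNat := by
      rw [card_filter]
      refine sum_congr rfl fun c _ => ?_
      cases y q c <;> simp
    omega
  · funext u c
    rcases cases3 hpq hpl hql u with rfl | rfl | rfl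
    · rw [mk_p, hyp]
    · rw [mk_q hpq]
      by_cases hcF : c ∈ free u l x
      · rw [if_pos hcF]
        cases h : y u c <;> simp [hcF, h]
      · rw [if_neg hcF, (hoff c hcF).1]
    · rw [mk_l hpl hql]
      by_cases hcF : c ∈ free q u x
      · rw [if_pos hcF, hon c hcF]
        cases h : y q c <;> simp [hcF, h]
      · rw [if_neg hcF, (hoff c hcF).2]

theorem cls_eq_image {ρ : ι → ℕ} {r : Fin 3 → ℕ} {p q l : Fin 3} (hpq : p ≠ q) (hpl : p ≠ l)
    (hql : q ≠ l) {x : Mat ι} (hx : x ∈ X ρ r) :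
    cls (X ρ r) (fun y => y p) x =
      ((free q l x).powersetCard (upc q l x)).image (mk p q x (free q l x)) := by
  ext y
  rw [mem_cls, mem_image]
  constructor
  · rintro ⟨hy, hyp⟩
    exact exists_mk hpq hpl hql hx hy hyp
  · rintro ⟨T, hT, rfl⟩
    exact ⟨mk_mem hpq hpl hql hx hT, mk_p _ _ _ _ _⟩

theorem P_eq_avg {ρ : ι → ℕ} {r : Fin 3 → ℕ} {p q l : Fin 3} (hpq : p ≠ q) (hpl : p ≠ l)
    (hql : q ≠ l) {x : Mat ι} (hx : x ∈ X ρ r) (F : Mat ι → ℝ) :
    P ρ r p F x = (∑ T ∈ (free q l x).powersetCard (upc q l x), F (mk p q x (free q l x) T)) /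
      (((free q l x).powersetCard (upc q l x)).card : ℝ) := by
  unfold P Av
  rw [cls_eq_image hpq hpl hql hx, sum_image (mk_injOn hpq x _ _),
    card_image_of_injOn (mk_injOn hpq x _ _)]

theorem mk_exchange {p q l : Fin 3} (hpq : p ≠ q) (hpl : p ≠ l) (hql : q ≠ l) (x : Mat ι)
    (Fr T : Finset ι) {g g' : ι} (hg : g ∈ Fr) (hg' : g' ∈ Fr) (hgT : g ∈ T) (hgT' : g' ∉ T) :
    mk p q x Fr (insert g' (T.erase g)) = sw q l g g' (mk p q x Fr T) := by
  have hne : g ≠ g' := fun h => hgT' (h ▸ hgT)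
  funext u c
  rcases cases3 hpq hpl hql u with rfl | rfl | rfl
  · simp [sw, mk, hpq, hpl]
  · simp only [sw, true_or, if_true, mk_q hpq]
    by_cases h1 : c = g
    · subst h1; simp [hg, hg', hgT', hne]
    · by_cases h2 : c = g'
      · subst h2; simp [hg, hg', hgT]
      · rw [Equiv.swap_apply_of_ne_of_ne h1 h2]; simp [h1, h2]
  · simp only [sw, or_true, if_true, mk_l hpl hql]
    by_cases h1 : c = g
    · subst h1; simp [hg, hg', hgT', hne]
    · by_cases h2 : c = g'
      · subst h2; simp [hg, hg', hgT]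
      · rw [Equiv.swap_apply_of_ne_of_ne h1 h2]; simp [h1, h2]

/-- **END of stage 2**: a function invariant under all valid trades is fixed by every `P u`. -/
theorem P_fix_of_trade_inv {ρ : ι → ℕ} {r : Fin 3 → ℕ} (F : Mat ι → ℝ)
    (hinv : ∀ p q a b, p ≠ q → ∀ x ∈ X ρ r, sw p q a b x ∈ X ρ r → F (sw p q a b x) = F x) :
    ∀ u, ∀ x ∈ X ρ r, P ρ r u F x = F x := by
  intro p x hx
  obtain ⟨q, hpq⟩ : ∃ q : Fin 3, p ≠ q := by revert p; decide
  obtain ⟨l, hpl, hql⟩ := exists_third hpq
  have hconst := SC.const_of_exchange (free q l x) (upc q l x) (fun T => F (mk p q x (free q l x) T))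
    (by
      intro T hT g hg g' hg'
      obtain ⟨hT1, hT2⟩ := mem_powersetCard.1 hT
      obtain ⟨hg1', hg2'⟩ := mem_sdiff.1 hg'
      have hmem : insert g' (T.erase g) ∈ (free q l x).powersetCard (upc q l x) := by
        rw [mem_powersetCard]
        refine ⟨insert_subset hg1' ((erase_subset _ _).trans hT1), ?_⟩
        rw [card_insert_of_notMem (fun h => hg2' (mem_of_mem_erase h)), card_erase_of_mem hg, hT2]
        have : 0 < T.card := card_pos.2 ⟨g, hg⟩
        omega
      have e := mk_exchange hpq hpl hql x (free q l x) T (hT1 hg) hg1' hg hg2'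
      show F (mk p q x (free q l x) (insert g' (T.erase g))) = F (mk p q x (free q l x) T)
      rw [e]
      apply hinv q l g g' hql _ (mk_mem hpq hpl hql hx hT)
      rw [← e]
      exact mk_mem hpq hpl hql hx hmem)
  unfold P
  apply Av_of_const_on_cls _ _ _ hx
  intro y hy
  rw [cls_eq_image hpq hpl hql hx] at hy
  have hxx : x ∈ cls (X ρ r) (fun y => y p) x := self_mem_cls _ _ hx
  rw [cls_eq_image hpq hpl hql hx] at hxx
  obtain ⟨T, hT, rfl⟩ := mem_image.1 hy
  obtain ⟨T', hT', hx'⟩ := mem_image.1 hxx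
  rw [hconst T hT T' hT', hx']

section prime
variable {p q l : Fin 3} (hpq : p ≠ q) (hpl : p ≠ l) (hql : q ≠ l) (x : Mat ι) (a b : ι)
  (Fr : Finset ι)

include hpq in
theorem mk'_p (T' : Finset ι) (c : ι) :
    mk p q (sw p q a b x) (insert a (insert b Fr)) T' p c = x p (Equiv.swap a b c) := by
  simp [mk, sw]

include hpq in
theorem mk'_q (T' : Finset ι) (c : ι) :
    mk p q (sw p q a b x) (insert a (insert b Fr)) T' q c =
      if c ∈ insert a (insert b Fr) then decide (c ∈ T') else x q c := by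
  rw [mk_q hpq]
  by_cases h : c ∈ insert a (insert b Fr)
  · rw [if_pos h, if_pos h]
  · rw [if_neg h, if_neg h]
    simp only [mem_insert, not_or] at h
    simp [sw, Equiv.swap_apply_of_ne_of_ne h.1 h.2.1]

include hpl hql in
theorem mk'_l (T' : Finset ι) (c : ι) :
    mk p q (sw p q a b x) (insert a (insert b Fr)) T' l c =
      if c ∈ insert a (insert b Fr) then !decide (c ∈ T') else x l c := by
  rw [mk_l hpl hql]
  simp [sw, hpl.symm, hql.symm]

end prime

section rel
variable {p q l : Fin 3} (hpq : p ≠ q) (hpl : p ≠ l) (hql : q ≠ l) {x : Mat ι} {a b : ι}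
  {Fr T : Finset ι} (hxpa : x p a = true) (hxpb : x p b = false) (hxqa : x q a = false)
  (hxla : x l a = false) (hxqb : x q b = true) (hxlb : x l b = true)
  (ha : a ∉ Fr) (hb : b ∉ Fr) (hab : a ≠ b) (hT : T ⊆ Fr)

include hpq hpl hql hxqa hxla hxqb hxlb ha hb hab hT in
theorem rel1 : mk p q (sw p q a b x) (insert a (insert b Fr)) (insert a T) =
    sw p q a b (mk p q x Fr T) := by
  have haT : a ∉ T := fun h => ha (hT h)
  have hbT : b ∉ T := fun h => hb (hT h)
  funext u c
  rcases cases3 hpq hpl hql u with rfl | rfl | rfl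
  · rw [mk'_p hpq]; simp [sw, mk]
  · rw [mk'_q hpq]
    simp only [sw, or_true, if_true]
    rw [mk_q hpq]
    by_cases h1 : c = a
    · subst h1; simp [hb, hxqb]
    · by_cases h2 : c = b
      · subst h2; simp [ha, hxqa, hbT, hab.symm]
      · rw [Equiv.swap_apply_of_ne_of_ne h1 h2]; simp [h1, h2]
  · rw [mk'_l hpl hql]
    simp only [sw, hpl.symm, hql.symm, or_self, if_false]
    rw [mk_l hpl hql]
    by_cases h1 : c = a
    · subst h1; simp [ha, hxla]
    · by_cases h2 : c = b
      · subst h2; simp [hb, hxlb, hbT, hab.symm]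
      · simp [h1, h2]

include hpq hpl hql hxqa hxla hxqb hxlb ha hb hab hT in
theorem rel2 : mk p q (sw p q a b x) (insert a (insert b Fr)) (insert b T) =
    sw p l a b (mk p q x Fr T) := by
  have haT : a ∉ T := fun h => ha (hT h)
  have hbT : b ∉ T := fun h => hb (hT h)
  funext u c
  rcases cases3 hpq hpl hql u with rfl | rfl | rfl
  · rw [mk'_p hpq]; simp [sw, mk]
  · rw [mk'_q hpq]
    simp only [sw, hpq.symm, hql, or_self, if_false]
    rw [mk_q hpq]
    by_cases h1 : c = a
    · subst h1; simp [ha, hxqa, haT, hab]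
    · by_cases h2 : c = b
      · subst h2; simp [hb, hxqb]
      · simp [h1, h2]
  · rw [mk'_l hpl hql]
    simp only [sw, or_true, if_true]
    rw [mk_l hpl hql]
    by_cases h1 : c = a
    · subst h1; simp [hb, hxlb, haT, hab]
    · by_cases h2 : c = b
      · subst h2; simp [ha, hxla]
      · rw [Equiv.swap_apply_of_ne_of_ne h1 h2]; simp [h1, h2]

end rel

omit [Fintype ι] in
theorem mem_image_swap (T : Finset ι) (e g c : ι) :
    c ∈ T.image (Equiv.swap e g) ↔ Equiv.swap e g c ∈ T := by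
  rw [mem_image]
  constructor
  · rintro ⟨c', hc', rfl⟩; simpa using hc'
  · intro h; exact ⟨_, h, by simp⟩

omit [Fintype ι] in
theorem cs_mk {p q l : Fin 3} (hpq : p ≠ q) (hpl : p ≠ l) (hql : q ≠ l) (x : Mat ι)
    (Fr T : Finset ι) {e g : ι} (he : e ∈ Fr) (hg : g ∈ Fr) (hp : x p e = x p g) :
    cs e g (mk p q x Fr T) = mk p q x Fr (T.image (Equiv.swap e g)) := by
  have hFr : ∀ c, Equiv.swap e g c ∈ Fr ↔ c ∈ Fr := by
    intro c
    by_cases h1 : c = e
    · subst h1; simp [he, hg]
    · by_cases h2 : c = g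
      · subst h2; simp [he, hg]
      · rw [Equiv.swap_apply_of_ne_of_ne h1 h2]
  have hoff : ∀ c, c ∉ Fr → Equiv.swap e g c = c := by
    intro c hc
    exact Equiv.swap_apply_of_ne_of_ne (fun h => hc (h ▸ he)) (fun h => hc (h ▸ hg))
  funext u c
  show mk p q x Fr T u (Equiv.swap e g c) = _
  rcases cases3 hpq hpl hql u with rfl | rfl | rfl
  · rw [mk_p, mk_p]
    by_cases h1 : c = e
    · subst h1; simp [hp]
    · by_cases h2 : c = g
      · subst h2; simp [hp]
      · rw [Equiv.swap_apply_of_ne_of_ne h1 h2]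
  · rw [mk_q hpq, mk_q hpq]
    by_cases hc : c ∈ Fr
    · rw [if_pos hc, if_pos ((hFr c).2 hc)]
      simp only [mem_image_swap]
    · rw [if_neg hc, if_neg (fun h => hc ((hFr c).1 h)), hoff c hc]
  · rw [mk_l hpl hql, mk_l hpl hql]
    by_cases hc : c ∈ Fr
    · rw [if_pos hc, if_pos ((hFr c).2 hc)]
      simp only [mem_image_swap]
    · rw [if_neg hc, if_neg (fun h => hc ((hFr c).1 h)), hoff c hc]

section sets
variable {a b g : ι} {T : Finset ι} (hab : a ≠ b) (hga : g ≠ a) (hgb : g ≠ b) (haT : a ∉ T)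
  (hbT : b ∉ T)

omit [Fintype ι] in
include hab hga hgb haT in
theorem set3a (hg : g ∈ T) :
    (insert b T).image (Equiv.swap a g) = insert a (insert b (T.erase g)) := by
  ext c
  rw [mem_image_swap]
  by_cases h1 : c = a
  · subst h1; simp [hg]
  · by_cases h2 : c = g
    · subst h2; simp [hab, haT, hga, hgb]
    · rw [Equiv.swap_apply_of_ne_of_ne h1 h2]; simp [h1, h2]

omit [Fintype ι] in
include hab hga hgb hbT in
theorem set3b (hg : g ∈ T) :
    (insert a T).image (Equiv.swap b g) = insert a (insert b (T.erase g)) := by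
  ext c
  rw [mem_image_swap]
  by_cases h1 : c = b
  · subst h1; simp [hg]
  · by_cases h2 : c = g
    · subst h2; simp [hab.symm, hbT, hga, hgb]
    · rw [Equiv.swap_apply_of_ne_of_ne h1 h2]; simp [h1, h2]

omit [Fintype ι] in
include hga haT in
theorem set4a (hg : g ∉ T) : (insert a T).image (Equiv.swap a g) = insert g T := by
  ext c
  rw [mem_image_swap]
  by_cases h1 : c = a
  · subst h1; simp [hg, haT, hga, hga.symm]
  · by_cases h2 : c = g
    · subst h2; simp
    · rw [Equiv.swap_apply_of_ne_of_ne h1 h2]; simp [h1, h2]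

omit [Fintype ι] in
include hgb hbT in
theorem set4b (hg : g ∉ T) : (insert b T).image (Equiv.swap b g) = insert g T := by
  ext c
  rw [mem_image_swap]
  by_cases h1 : c = b
  · subst h1; simp [hg, hbT, hgb, hgb.symm]
  · by_cases h2 : c = g
    · subst h2; simp
    · rw [Equiv.swap_apply_of_ne_of_ne h1 h2]; simp [h1, h2]

end sets

section fc0
variable {p q l : Fin 3} (hpq : p ≠ q) (hpl : p ≠ l) (hql : q ≠ l) {x : Mat ι} {a b : ι}
  (hxpa : x p a = true) (hxpb : x p b = false) (hxqa : x q a = false)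
  (hxla : x l a = false) (hxqb : x q b = true) (hxlb : x l b = true)

include hpl hql in
theorem sw_l (c : ι) : sw p q a b x l c = x l c := by
  simp [sw, hpl.symm, hql.symm]

omit [Fintype ι] in
theorem sw_q (p q : Fin 3) (x : Mat ι) (a b c : ι) : sw p q a b x q c = x q (Equiv.swap a b c) := by
  simp [sw]

omit [Fintype ι] in
theorem sw_p (p q : Fin 3) (x : Mat ι) (a b c : ι) : sw p q a b x p c = x p (Equiv.swap a b c) := by
  simp [sw]

include hpl hql hxqa hxla hxqb hxlb in
theorem free' : free q l (sw p q a b x) = insert a (insert b (free q l x)) := by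
  ext c
  rw [mem_free, sw_q, sw_l hpl hql, mem_insert, mem_insert, mem_free]
  by_cases h1 : c = a
  · subst h1; simp [hxqb, hxla]
  · by_cases h2 : c = b
    · subst h2; simp [hxqa, hxlb]
    · rw [Equiv.swap_apply_of_ne_of_ne h1 h2]; simp [h1, h2]

include hpl hql hxqa hxla hxqb hxlb in
theorem upc' : upc q l (sw p q a b x) = upc q l x + 1 := by
  unfold upc
  have : (univ.filter fun c => sw p q a b x q c = true ∧ sw p q a b x l c = false) =
      insert a (univ.filter fun c => x q c = true ∧ x l c = false) := by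
    ext c
    simp only [mem_filter, mem_univ, true_and, mem_insert]
    rw [sw_q, sw_l hpl hql]
    by_cases h1 : c = a
    · subst h1; simp [hxqb, hxla]
    · by_cases h2 : c = b
      · subst h2; simp [hxqa, hxlb, h1]
      · rw [Equiv.swap_apply_of_ne_of_ne h1 h2]; simp [h1]
  rw [this, card_insert_of_notMem]
  simp [hxqa]

include hpq hpl hql hxpa hxpb hxqa hxla hxqb hxlb in
/-- the base case of `FC`: column `a` is carried by row `p` only, column `b` by rows `q`, `l`. -/
theorem FC0 {ρ : ι → ℕ} {r : Fin 3 → ℕ} (F : Mat ι → ℝ) (L : ℝ)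
    (hσ : ∀ a b, ρ a = ρ b → ∀ x ∈ X ρ r, F (cs a b x) = F x)
    (hL : ∀ p q a b, p ≠ q → ∀ x ∈ X ρ r, sw p q a b x ∈ X ρ r → |F (sw p q a b x) - F x| ≤ L)
    (hx : x ∈ X ρ r) (hx' : sw p q a b x ∈ X ρ r) :
    |P ρ r p F (sw p q a b x) - P ρ r p F x| ≤ L := by
  have hab : a ≠ b := by rintro rfl; rw [hxpa] at hxpb; exact absurd hxpb (by simp)
  have ha : a ∉ free q l x := by rw [mem_free, hxqa, hxla]; simp
  have hb : b ∉ free q l x := by rw [mem_free, hxqb, hxlb]; simp
  have hfree := free' (p := p) hpl hql hxqa hxla hxqb hxlb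
  have hupc := upc' (p := p) hpl hql hxqa hxla hxqb hxlb
  have hmem : ∀ T ∈ (free q l x).powersetCard (upc q l x), mk p q x (free q l x) T ∈ X ρ r :=
    fun T hT => mk_mem hpq hpl hql hx hT
  have hmem' : ∀ T' ∈ (insert a (insert b (free q l x))).powersetCard (upc q l x + 1),
      mk p q (sw p q a b x) (insert a (insert b (free q l x))) T' ∈ X ρ r := by
    intro T' hT'
    have := mk_mem (T := T') hpq hpl hql hx' (by rw [hfree, hupc]; exact hT')
    rwa [hfree] at this
  have hinsa : ∀ T ∈ (free q l x).powersetCard (upc q l x),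
      insert a T ∈ (insert a (insert b (free q l x))).powersetCard (upc q l x + 1) := by
    intro T hT
    obtain ⟨hT1, hT2⟩ := mem_powersetCard.1 hT
    rw [mem_powersetCard]
    refine ⟨insert_subset_insert _ (hT1.trans (subset_insert _ _)), ?_⟩
    rw [card_insert_of_notMem (fun h => ha (hT1 h)), hT2]
  have hinsb : ∀ T ∈ (free q l x).powersetCard (upc q l x),
      insert b T ∈ (insert a (insert b (free q l x))).powersetCard (upc q l x + 1) := by
    intro T hT
    obtain ⟨hT1, hT2⟩ := mem_powersetCard.1 hT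
    rw [mem_powersetCard]
    refine ⟨(insert_subset_insert _ hT1).trans (subset_insert _ _), ?_⟩
    rw [card_insert_of_notMem (fun h => hb (hT1 h)), hT2]
  have h1 : ∀ T ∈ (free q l x).powersetCard (upc q l x),
      |F (mk p q (sw p q a b x) (insert a (insert b (free q l x))) (insert a T)) -
        F (mk p q x (free q l x) T)| ≤ L := by
    intro T hT
    have e := rel1 hpq hpl hql hxqa hxla hxqb hxlb ha hb hab (mem_powersetCard.1 hT).1
    have hm := hmem' _ (hinsa T hT)
    rw [e] at hm ⊢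
    exact hL p q a b hpq _ (hmem T hT) hm
  have h2 : ∀ T ∈ (free q l x).powersetCard (upc q l x),
      |F (mk p q (sw p q a b x) (insert a (insert b (free q l x))) (insert b T)) -
        F (mk p q x (free q l x) T)| ≤ L := by
    intro T hT
    have e := rel2 hpq hpl hql hxqa hxla hxqb hxlb ha hb hab (mem_powersetCard.1 hT).1
    have hm := hmem' _ (hinsb T hT)
    rw [e] at hm ⊢
    exact hL p l a b hpl _ (hmem T hT) hm
  obtain ⟨hc, -⟩ := mem_X.1 hx
  have hρa : ρ a = 1 := by rw [← hc a, colSum_eq hpq hpl hql, hxpa, hxqa, hxla]; rfl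
  have hρb : ρ b = 2 := by rw [← hc b, colSum_eq hpq hpl hql, hxpb, hxqb, hxlb]; rfl
  have hρg : ∀ g ∈ free q l x, ρ g = (x p g).toNat + 1 := by
    intro g hg
    rw [mem_free] at hg
    rw [← hc g, colSum_eq hpq hpl hql]
    revert hg
    cases x q g <;> cases x l g <;> simp
  have hpa' : sw p q a b x p a = false := by rw [sw_p]; simp [hxpb]
  have hpb' : sw p q a b x p b = true := by rw [sw_p]; simp [hxpa]
  have hpg' : ∀ g ∈ free q l x, sw p q a b x p g = x p g := by
    intro g hg
    have h1 : g ≠ a := fun h => ha (h ▸ hg)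
    have h2 : g ≠ b := fun h => hb (h ▸ hg)
    rw [sw_p, Equiv.swap_apply_of_ne_of_ne h1 h2]
  have haF : a ∈ insert a (insert b (free q l x)) := mem_insert_self _ _
  have hbF : b ∈ insert a (insert b (free q l x)) := mem_insert_of_mem (mem_insert_self _ _)
  have hgF : ∀ g ∈ free q l x, g ∈ insert a (insert b (free q l x)) :=
    fun g hg => mem_insert_of_mem (mem_insert_of_mem hg)
  rw [P_eq_avg hpq hpl hql hx, P_eq_avg hpq hpl hql hx', hfree, hupc]
  refine SC.subset_coupling (free q l x) a b ha hb hab (upc q l x) (upc_le q l x)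
    (fun T => F (mk p q x (free q l x) T))
    (fun T' => F (mk p q (sw p q a b x) (insert a (insert b (free q l x))) T')) L h1 h2 ?_ ?_
  · intro T hT g hg
    obtain ⟨hT1, hT2⟩ := mem_powersetCard.1 hT
    have hgFr := hT1 hg
    have hga : g ≠ a := fun h => ha (h ▸ hgFr)
    have hgb : g ≠ b := fun h => hb (h ▸ hgFr)
    have haT : a ∉ T := fun h => ha (hT1 h)
    have hbT : b ∉ T := fun h => hb (hT1 h)
    show |F (mk p q (sw p q a b x) (insert a (insert b (free q l x)))
      (insert a (insert b (T.erase g)))) - F (mk p q x (free q l x) T)| ≤ L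
    cases hpg : x p g
    · have e := cs_mk hpq hpl hql (sw p q a b x) (insert a (insert b (free q l x))) (insert b T)
        haF (hgF g hgFr) (by rw [hpa', hpg' g hgFr, hpg])
      rw [set3a hab hga hgb haT hg] at e
      rw [← e, hσ a g (by rw [hρa, hρg g hgFr, hpg]; rfl) _ (hmem' _ (hinsb T hT))]
      exact h2 T hT
    · have e := cs_mk hpq hpl hql (sw p q a b x) (insert a (insert b (free q l x))) (insert a T)
        hbF (hgF g hgFr) (by rw [hpb', hpg' g hgFr, hpg])
      rw [set3b hab hga hgb hbT hg] at e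
      rw [← e, hσ b g (by rw [hρb, hρg g hgFr, hpg]; rfl) _ (hmem' _ (hinsa T hT))]
      exact h1 T hT
  · intro T hT g hg
    obtain ⟨hT1, hT2⟩ := mem_powersetCard.1 hT
    obtain ⟨hgFr, hgT⟩ := mem_sdiff.1 hg
    have hga : g ≠ a := fun h => ha (h ▸ hgFr)
    have hgb : g ≠ b := fun h => hb (h ▸ hgFr)
    have haT : a ∉ T := fun h => ha (hT1 h)
    have hbT : b ∉ T := fun h => hb (hT1 h)
    show |F (mk p q (sw p q a b x) (insert a (insert b (free q l x))) (insert g T)) -
      F (mk p q x (free q l x) T)| ≤ L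
    cases hpg : x p g
    · have e := cs_mk hpq hpl hql (sw p q a b x) (insert a (insert b (free q l x))) (insert a T)
        haF (hgF g hgFr) (by rw [hpa', hpg' g hgFr, hpg])
      rw [set4a hga haT hgT] at e
      rw [← e, hσ a g (by rw [hρa, hρg g hgFr, hpg]; rfl) _ (hmem' _ (hinsa T hT))]
      exact h1 T hT
    · have e := cs_mk hpq hpl hql (sw p q a b x) (insert a (insert b (free q l x))) (insert b T)
        hbF (hgF g hgFr) (by rw [hpb', hpg' g hgFr, hpg])
      rw [set4b hgb hbT hgT] at e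
      rw [← e, hσ b g (by rw [hρb, hρg g hgFr, hpg]; rfl) _ (hmem' _ (hinsb T hT))]
      exact h2 T hT

end fc0

omit [Fintype ι] in
theorem cs_cs (a b : ι) (x : Mat ι) : cs a b (cs a b x) = x := by
  funext u c; simp [cs]

omit [Fintype ι] in
theorem sw_sw (p q : Fin 3) (a b : ι) (x : Mat ι) : sw p q a b (sw p q a b x) = x := by
  funext u c
  by_cases h : u = p ∨ u = q <;> simp [sw, h]

omit [Fintype ι] in
theorem sw_comm_col (p q : Fin 3) (a b : ι) (x : Mat ι) : sw p q a b x = sw p q b a x := by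
  funext u c; simp [sw, Equiv.swap_comm]

theorem cs_mem {ρ : ι → ℕ} {r : Fin 3 → ℕ} {a b : ι} (hρ : ρ a = ρ b) {x : Mat ι}
    (hx : x ∈ X ρ r) : cs a b x ∈ X ρ r := by
  obtain ⟨hc, hr⟩ := mem_X.1 hx
  rw [mem_X]
  constructor
  · intro c
    have : colSum (cs a b x) c = colSum x (Equiv.swap a b c) := rfl
    rw [this, hc]
    by_cases h1 : c = a
    · subst h1; simp [hρ]
    · by_cases h2 : c = b
      · subst h2; simp [hρ]
      · rw [Equiv.swap_apply_of_ne_of_ne h1 h2]
  · intro u
    rw [← hr u, rowSum_eq_sum, rowSum_eq_sum]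
    exact Equiv.sum_comp (Equiv.swap a b) (fun c => (x u c).toNat)

theorem P_cs {ρ : ι → ℕ} {r : Fin 3 → ℕ} {a b : ι} (hρ : ρ a = ρ b) (u : Fin 3) (F : Mat ι → ℝ)
    (x : Mat ι) : P ρ r u F (cs a b x) = P ρ r u (fun y => F (cs a b y)) x := by
  have hinj : Function.Injective (cs a b : Mat ι → Mat ι) :=
    Function.LeftInverse.injective (cs_cs a b)
  have hcls : cls (X ρ r) (fun y => y u) (cs a b x) = (cls (X ρ r) (fun y => y u) x).image (cs a b) := by
    ext y
    rw [mem_cls, mem_image]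
    constructor
    · rintro ⟨hy, hyu⟩
      refine ⟨cs a b y, ?_, cs_cs a b y⟩
      rw [mem_cls]
      refine ⟨cs_mem hρ hy, ?_⟩
      funext c
      have := congrFun hyu (Equiv.swap a b c)
      simpa [cs] using this
    · rintro ⟨z, hz, rfl⟩
      rw [mem_cls] at hz
      refine ⟨cs_mem hρ hz.1, ?_⟩
      funext c
      exact congrFun hz.2 (Equiv.swap a b c)
  unfold P Av
  rw [hcls, sum_image (fun _ _ _ _ h => hinj h), card_image_of_injective _ hinj]

theorem FC_aux {ρ : ι → ℕ} {r : Fin 3 → ℕ} (F : Mat ι → ℝ) (L : ℝ)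
    (hσ : ∀ a b, ρ a = ρ b → ∀ x ∈ X ρ r, F (cs a b x) = F x)
    (hL : ∀ p q a b, p ≠ q → ∀ x ∈ X ρ r, sw p q a b x ∈ X ρ r → |F (sw p q a b x) - F x| ≤ L)
    (p q : Fin 3) (hpq : p ≠ q) (a b : ι) (x : Mat ι) (hx : x ∈ X ρ r)
    (hx' : sw p q a b x ∈ X ρ r) (hxpa : x p a = true) (hxpb : x p b = false) :
    |P ρ r p F (sw p q a b x) - P ρ r p F x| ≤ L := by
  obtain ⟨l, hpl, hql⟩ := exists_third hpq
  have hL0 : 0 ≤ L := (abs_nonneg _).trans (hL p q a b hpq x hx hx')
  obtain ⟨hc, -⟩ := mem_X.1 hx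
  obtain ⟨hc', -⟩ := mem_X.1 hx'
  have h1 := hc a
  have h2 := hc' a
  rw [colSum_eq hpq hpl hql] at h1 h2
  rw [sw_p, sw_q, sw_l hpl hql] at h2
  simp only [Equiv.swap_apply_left] at h2
  rw [hxpa] at h1
  rw [hxpb] at h2
  have hq : x q a = false ∧ x q b = true := by
    have : (x q b).toNat = 1 + (x q a).toNat := by
      simp only [Bool.toNat_true, Bool.toNat_false] at h1 h2; omega
    revert this
    cases x q a <;> cases x q b <;> simp
  obtain ⟨hxqa, hxqb⟩ := hq
  cases hxla : x l a <;> cases hxlb : x l b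
  · -- type I
    have hρ : ρ a = ρ b := by
      rw [← hc a, ← hc b, colSum_eq hpq hpl hql, colSum_eq hpq hpl hql, hxpa, hxpb, hxqa, hxqb,
        hxla, hxlb]
      rfl
    have e : sw p q a b x = cs a b x := by
      funext u c
      rcases cases3 hpq hpl hql u with rfl | rfl | rfl
      · simp [sw, cs]
      · simp [sw, cs]
      · rw [sw_l hpl hql]
        show x u c = x u (Equiv.swap a b c)
        by_cases h1 : c = a
        · subst h1; simp [hxla, hxlb]
        · by_cases h2 : c = b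
          · subst h2; simp [hxla, hxlb]
          · rw [Equiv.swap_apply_of_ne_of_ne h1 h2]
    rw [e, P_cs hρ]
    have : P ρ r p (fun y => F (cs a b y)) x = P ρ r p F x :=
      Av_congr _ _ (fun y hy => hσ a b hρ y hy) x
    rw [this, sub_self, abs_zero]; exact hL0
  · exact FC0 hpq hpl hql hxpa hxpb hxqa hxla hxqb hxlb F L hσ hL hx hx'
  · have := FC0 (x := sw p q a b x) (a := b) (b := a) hpq hpl hql
      (by rw [sw_p]; simp [hxpa]) (by rw [sw_p]; simp [hxpb]) (by rw [sw_q]; simp [hxqa])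
      (by rw [sw_l hpl hql, hxlb]) (by rw [sw_q]; simp [hxqb]) (by rw [sw_l hpl hql, hxla])
      F L hσ hL hx' (by rw [sw_comm_col p q b a, sw_sw]; exact hx)
    rw [sw_comm_col p q b a, sw_sw, abs_sub_comm] at this
    exact this
  · -- type I
    have hρ : ρ a = ρ b := by
      rw [← hc a, ← hc b, colSum_eq hpq hpl hql, colSum_eq hpq hpl hql, hxpa, hxpb, hxqa, hxqb,
        hxla, hxlb]
      rfl
    have e : sw p q a b x = cs a b x := by
      funext u c
      rcases cases3 hpq hpl hql u with rfl | rfl | rfl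
      · simp [sw, cs]
      · simp [sw, cs]
      · rw [sw_l hpl hql]
        show x u c = x u (Equiv.swap a b c)
        by_cases h1 : c = a
        · subst h1; simp [hxla, hxlb]
        · by_cases h2 : c = b
          · subst h2; simp [hxla, hxlb]
          · rw [Equiv.swap_apply_of_ne_of_ne h1 h2]
    rw [e, P_cs hρ]
    have : P ρ r p (fun y => F (cs a b y)) x = P ρ r p F x :=
      Av_congr _ _ (fun y hy => hσ a b hρ y hy) x
    rw [this, sub_self, abs_zero]; exact hL0

/-- **FC**: the conditional expectation given a traded row moves by at most `L`. -/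
theorem FC {ρ : ι → ℕ} {r : Fin 3 → ℕ} (F : Mat ι → ℝ) (L : ℝ)
    (hσ : ∀ a b, ρ a = ρ b → ∀ x ∈ X ρ r, F (cs a b x) = F x)
    (hL : ∀ p q a b, p ≠ q → ∀ x ∈ X ρ r, sw p q a b x ∈ X ρ r → |F (sw p q a b x) - F x| ≤ L)
    (p q : Fin 3) (hpq : p ≠ q) (a b : ι) (x : Mat ι) (hx : x ∈ X ρ r)
    (hx' : sw p q a b x ∈ X ρ r) :
    |P ρ r p F (sw p q a b x) - P ρ r p F x| ≤ L := by
  have hL0 : 0 ≤ L := (abs_nonneg _).trans (hL p q a b hpq x hx hx')
  cases hxpa : x p a <;> cases hxpb : x p b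
  · have : sw p q a b x p = x p := by
      funext c
      rw [sw_p]
      by_cases h1 : c = a
      · subst h1; simp [hxpa, hxpb]
      · by_cases h2 : c = b
        · subst h2; simp [hxpa, hxpb]
        · rw [Equiv.swap_apply_of_ne_of_ne h1 h2]
    have e : P ρ r p F (sw p q a b x) = P ρ r p F x := Av_congr_key _ _ F this
    rw [e, sub_self, abs_zero]; exact hL0
  · rw [sw_comm_col] at hx' ⊢
    exact FC_aux F L hσ hL p q hpq b a x hx hx' hxpb hxpa
  · exact FC_aux F L hσ hL p q hpq a b x hx hx' hxpa hxpb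
  · have : sw p q a b x p = x p := by
      funext c
      rw [sw_p]
      by_cases h1 : c = a
      · subst h1; simp [hxpa, hxpb]
      · by_cases h2 : c = b
        · subst h2; simp [hxpa, hxpb]
        · rw [Equiv.swap_apply_of_ne_of_ne h1 h2]
    have e : P ρ r p F (sw p q a b x) = P ρ r p F x := Av_congr_key _ _ F this
    rw [e, sub_self, abs_zero]; exact hL0

omit [Fintype ι] in
theorem sw_comm_row (p q : Fin 3) (a b : ι) (x : Mat ι) : sw p q a b x = sw q p a b x := by
  funext u c; simp [sw, or_comm]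

/-- **Stage 2**: an eigenfunction of `∑ P_u` with eigenvalue `> 2` which is invariant under the
swaps of equal-sum columns is invariant under all valid trades. -/
theorem stage2 {ρ : ι → ℕ} {r : Fin 3 → ℕ} (μ : ℝ) (hμ : 2 < μ) (F : Mat ι → ℝ)
    (hF : ∀ x ∈ X ρ r, ∑ u, P ρ r u F x = μ * F x)
    (hσ : ∀ a b, ρ a = ρ b → ∀ x ∈ X ρ r, F (cs a b x) = F x) :
    ∀ p q a b, p ≠ q → ∀ x ∈ X ρ r, sw p q a b x ∈ X ρ r → F (sw p q a b x) = F x := by
  classical
  set 𝒯 : Finset (Fin 3 × Fin 3 × ι × ι × Mat ι) :=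
    univ.filter fun t => t.1 ≠ t.2.1 ∧ t.2.2.2.2 ∈ X ρ r ∧
      sw t.1 t.2.1 t.2.2.1 t.2.2.2.1 t.2.2.2.2 ∈ X ρ r with h𝒯
  set val : Fin 3 × Fin 3 × ι × ι × Mat ι → ℝ :=
    fun t => |F (sw t.1 t.2.1 t.2.2.1 t.2.2.2.1 t.2.2.2.2) - F t.2.2.2.2| with hval
  intro p0 q0 a0 b0 hpq0 x0 hx0 hx0'
  have hne : 𝒯.Nonempty := ⟨(p0, q0, a0, b0, x0), by simp [h𝒯, hpq0, hx0, hx0']⟩
  obtain ⟨⟨p, q, a, b, x⟩, ht, hmax⟩ := exists_max_image 𝒯 val hne
  simp only [h𝒯, mem_filter, mem_univ, true_and] at ht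
  obtain ⟨hpq, hx, hx'⟩ := ht
  set L : ℝ := val (p, q, a, b, x) with hLdef
  have hL : ∀ p q a b, p ≠ q → ∀ x ∈ X ρ r, sw p q a b x ∈ X ρ r →
      |F (sw p q a b x) - F x| ≤ L := by
    intro p' q' a' b' hpq' x' hx1 hx2
    exact hmax (p', q', a', b', x') (by simp [h𝒯, hpq', hx1, hx2])
  obtain ⟨l, hpl, hql⟩ := exists_third hpq
  have e1 := hF x hx
  have e2 := hF _ hx'
  rw [univ3 hpq hpl hql, sum_insert (by simp [hpq, hpl]), sum_insert (by simp [hql]),
    sum_singleton] at e1 e2
  have hl : P ρ r l F (sw p q a b x) = P ρ r l F x :=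
    Av_congr_key _ _ F (by funext c; exact sw_l hpl hql c)
  have hp := FC F L hσ hL p q hpq a b x hx hx'
  have hq := FC F L hσ hL q p hpq.symm a b x hx (by rw [sw_comm_row q p]; exact hx')
  rw [sw_comm_row q p] at hq
  have hLval : L = |F (sw p q a b x) - F x| := rfl
  have hkey : μ * L ≤ 2 * L := by
    have : μ * (F (sw p q a b x) - F x) =
        (P ρ r p F (sw p q a b x) - P ρ r p F x) + (P ρ r q F (sw p q a b x) - P ρ r q F x) := by
      rw [mul_sub, ← e1, ← e2, hl]; ring
    calc μ * L = |μ * (F (sw p q a b x) - F x)| := by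
          rw [abs_mul, abs_of_pos (by linarith : (0 : ℝ) < μ), hLval]
      _ ≤ |P ρ r p F (sw p q a b x) - P ρ r p F x| + |P ρ r q F (sw p q a b x) - P ρ r q F x| := by
          rw [this]; exact abs_add_le _ _
      _ ≤ 2 * L := by linarith
  have hL0 : 0 ≤ L := abs_nonneg _
  have hLz : L = 0 := by nlinarith
  have := hL p0 q0 a0 b0 hpq0 x0 hx0 hx0'
  rw [hLz] at this
  have := abs_nonpos_iff.1 this
  linarith

/-- Stage 2 + END: given the column-swap invariance (stage 1), every `P u` fixes `F`. -/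
theorem eigen_fix_of_cs {ρ : ι → ℕ} {r : Fin 3 → ℕ} (μ : ℝ) (hμ : 2 < μ) (F : Mat ι → ℝ)
    (hF : ∀ x ∈ X ρ r, ∑ u, P ρ r u F x = μ * F x)
    (hσ : ∀ a b, ρ a = ρ b → ∀ x ∈ X ρ r, F (cs a b x) = F x) :
    ∀ u, ∀ x ∈ X ρ r, P ρ r u F x = F x :=
  P_fix_of_trade_inv F (stage2 μ hμ F hF hσ)

end Crest.Agent.R299.TR.Fc
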