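import Crest.Agent.R299.ThreeRowStage1

/-!
# R299 (S0453): 3-row lemma, top of Stage 2 (maximum principle over trades)
-/

set_option autoImplicit false
set_option linter.unusedSectionVars false
open Finset

namespace Crest.Agent.R299.TR

variable {ι : Type*} [Fintype ι] [DecidableEq ι]

/-- the conclusion of the fibre comparison lemma `TR.FC` for a given `F`. -/
def FCstmt (ρ : ι → ℕ) (r : Fin 3 → ℕ) (F : Mat ι → ℝ) : Prop :=
  ∀ L : ℝ,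
    (∀ p q a b, p ≠ q → ∀ x ∈ X ρ r, sw p q a b x ∈ X ρ r → |F (sw p q a b x) - F x| ≤ L) →
    ∀ p q, p ≠ q → ∀ a b x, x ∈ X ρ r → sw p q a b x ∈ X ρ r →
      |P ρ r p F (sw p q a b x) - P ρ r p F x| ≤ L

theorem sw_comm_rows (p q : Fin 3) (a b : ι) (x : Mat ι) : sw p q a b x = sw q p a b x := by
  funext u c
  simp only [sw_apply, or_comm]

theorem sw_row_other {p q l : Fin 3} (hpl : p ≠ l) (hql : q ≠ l) (a b : ι) (x : Mat ι) :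
    sw p q a b x l = x l := by
  funext c
  have : ¬ (l = p ∨ l = q) := by
    rintro (h | h)
    · exact hpl h.symm
    · exact hql h.symm
  simp [sw_apply, this]

theorem stage2_of_FC (ρ : ι → ℕ) (r : Fin 3 → ℕ) (μ : ℝ) (hμ : 2 < μ) (F : Mat ι → ℝ)
    (hF : ∀ x ∈ X ρ r, ∑ u, P ρ r u F x = μ * F x) (hFC : FCstmt ρ r F) :
    ∀ p q a b, p ≠ q → ∀ x ∈ X ρ r, sw p q a b x ∈ X ρ r → F (sw p q a b x) = F x := by
  classical
  set S : Finset (Fin 3 × Fin 3 × ι × ι × Mat ι) :=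
    univ.filter fun t => t.1 ≠ t.2.1 ∧ t.2.2.2.2 ∈ X ρ r ∧
      sw t.1 t.2.1 t.2.2.1 t.2.2.2.1 t.2.2.2.2 ∈ X ρ r with hS
  set val : Fin 3 × Fin 3 × ι × ι × Mat ι → ℝ :=
    fun t => |F (sw t.1 t.2.1 t.2.2.1 t.2.2.2.1 t.2.2.2.2) - F t.2.2.2.2| with hval
  intro p q a b hpq x hx hx'
  have hmem : (p, q, a, b, x) ∈ S := by
    simp only [hS, mem_filter, mem_univ, true_and]
    exact ⟨hpq, hx, hx'⟩
  obtain ⟨t₀, ht₀, hmax⟩ := exists_max_image S val ⟨_, hmem⟩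
  obtain ⟨p₀, q₀, a₀, b₀, x₀⟩ := t₀
  simp only [hS, mem_filter, mem_univ, true_and] at ht₀
  obtain ⟨hpq₀, hx₀, hx₀'⟩ := ht₀
  set L : ℝ := val (p₀, q₀, a₀, b₀, x₀) with hLdef
  have hL : ∀ p q a b, p ≠ q → ∀ x ∈ X ρ r, sw p q a b x ∈ X ρ r →
      |F (sw p q a b x) - F x| ≤ L := by
    intro p q a b hpq x hx hx'
    have : (p, q, a, b, x) ∈ S := by
      simp only [hS, mem_filter, mem_univ, true_and]
      exact ⟨hpq, hx, hx'⟩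
    exact hmax _ this
  have hL0 : 0 ≤ L := abs_nonneg _
  obtain ⟨l, hpl, hql⟩ := exists_third p₀ q₀ hpq₀
  have e1 := hFC L hL p₀ q₀ hpq₀ a₀ b₀ x₀ hx₀ hx₀'
  have e2 := hFC L hL q₀ p₀ hpq₀.symm a₀ b₀ x₀ hx₀ (by rw [← sw_comm_rows]; exact hx₀')
  rw [← sw_comm_rows] at e2
  have e3 : P ρ r l F (sw p₀ q₀ a₀ b₀ x₀) = P ρ r l F x₀ := by
    unfold P
    exact Av_congr_key _ _ _ (sw_row_other hpl hql a₀ b₀ x₀)
  have h1 := hF _ hx₀'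
  have h2 := hF _ hx₀
  rw [sum3 _ hpq₀ hpl hql] at h1 h2
  have h3 : μ * (F (sw p₀ q₀ a₀ b₀ x₀) - F x₀) =
      (P ρ r p₀ F (sw p₀ q₀ a₀ b₀ x₀) - P ρ r p₀ F x₀) +
        (P ρ r q₀ F (sw p₀ q₀ a₀ b₀ x₀) - P ρ r q₀ F x₀) := by
    rw [mul_sub, ← h1, ← h2, e3]; ring
  have h4 : μ * L ≤ 2 * L := by
    have : μ * L = |μ * (F (sw p₀ q₀ a₀ b₀ x₀) - F x₀)| := by
      rw [abs_mul, abs_of_pos (by linarith : (0:ℝ) < μ)]
    rw [this, h3]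
    calc _ ≤ |P ρ r p₀ F (sw p₀ q₀ a₀ b₀ x₀) - P ρ r p₀ F x₀| +
          |P ρ r q₀ F (sw p₀ q₀ a₀ b₀ x₀) - P ρ r q₀ F x₀| := abs_add_le _ _
      _ ≤ 2 * L := by linarith
  have h5 : L = 0 := by nlinarith
  have := hL p q a b hpq x hx hx'
  rw [h5] at this
  have := abs_nonpos_iff.1 this
  linarith

end Crest.Agent.R299.TR
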