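import Crest.Agent.R299.ThreeRowMain
import Crest.Agent.R299.ThreeRowStage2

/-!
# R299 (S0453): the fibre comparison lemma `FC` (stage 2 of the 3-row lemma), all cases
-/

set_option autoImplicit false
set_option linter.unusedSectionVars false
set_option linter.unusedVariables false
set_option linter.unusedSimpArgs false
open Finset

namespace Crest.Agent.R299.TR

namespace Ids

variable {ι : Type*} [Fintype ι] [DecidableEq ι]

theorem sw_comm_cols (p q : Fin 3) (a b : ι) (x : Mat ι) : sw p q a b x = sw p q b a x := by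
  funext u c
  simp only [sw_apply, Equiv.swap_comm]

/-- the case `x p a = true`, `x p b = false`. -/
theorem FC_tf {ρ : ι → ℕ} {r : Fin 3 → ℕ} (F : Mat ι → ℝ) (L : ℝ)
    (hσ : ∀ a b, ρ a = ρ b → ∀ x ∈ X ρ r, F (cs a b x) = F x)
    (hL : ∀ p q a b, p ≠ q → ∀ x ∈ X ρ r, sw p q a b x ∈ X ρ r → |F (sw p q a b x) - F x| ≤ L)
    (p q : Fin 3) (hpq : p ≠ q) (a b : ι) (x : Mat ι) (hx : x ∈ X ρ r)
    (hx' : sw p q a b x ∈ X ρ r) (hpa : x p a = true) (hpb : x p b = false) :
    |P ρ r p F (sw p q a b x) - P ρ r p F x| ≤ L := by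
  have hL0 : 0 ≤ L := le_trans (abs_nonneg _) (hL p q a b hpq x hx hx')
  obtain ⟨l, hpl, hql⟩ := exists_third p q hpq
  have hl : ¬ (l = p ∨ l = q) := by
    rintro (e | e)
    · exact hpl e.symm
    · exact hql e.symm
  -- column `a`
  have hca : (x q b).toNat = 1 + (x q a).toNat := by
    have h1 := (mem_X.1 hx).1 a
    have h2 := (mem_X.1 hx').1 a
    rw [colSum3 _ a hpq hpl hql] at h1 h2
    simp only [sw_apply, true_or, or_true, if_true, hl, if_false, Equiv.swap_apply_left] at h2
    rw [hpa] at h1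
    rw [hpb] at h2
    simp only [Bool.toNat_true, Bool.toNat_false] at h1 h2
    omega
  have hqb : x q b = true := by
    revert hca; cases x q b <;> cases x q a <;> simp
  have hqa : x q a = false := by
    revert hca; cases x q b <;> cases x q a <;> simp
  cases hla : x l a <;> cases hlb : x l b
  · -- equal entries in row `l` : a column swap
    have hρ : ρ a = ρ b := by
      rw [← (mem_X.1 hx).1 a, ← (mem_X.1 hx).1 b, colSum3 x a hpq hpl hql, colSum3 x b hpq hpl hql,
        hpa, hpb, hqa, hqb, hla, hlb]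
      rfl
    have hcs : sw p q a b x = cs a b x := by
      funext u c
      rcases three_cases p q l hpq hpl hql u with rfl | rfl | rfl
      · simp [sw_apply]
      · simp [sw_apply]
      · simp only [sw_apply, hl, if_false, cs_apply]
        by_cases h1 : c = a
        · subst h1; simp [hla, hlb]
        · by_cases h2 : c = b
          · subst h2; simp [hla, hlb]
          · rw [Equiv.swap_apply_of_ne_of_ne h1 h2]
    rw [hcs, ← P_comp_cs hρ p F x]
    have : P ρ r p (fun y => F (cs a b y)) x = P ρ r p F x :=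
      Av_congr _ _ (fun y hy => hσ a b hρ y hy) x
    rw [this, sub_self, abs_zero]
    exact hL0
  · exact main F L hσ hL ⟨hpq, hpl, hql, hpa, hpb, hqa, hla, hqb, hlb⟩ hx
  · -- the reversed case
    have hH : Hyp (sw p q a b x) p q l b a := by
      refine ⟨hpq, hpl, hql, ?_, ?_, ?_, ?_, ?_, ?_⟩ <;>
        simp [sw_apply, hl, hpa, hpb, hqa, hqb, hla, hlb]
    have := main F L hσ hL hH hx'
    rw [sw_comm_cols p q b a, sw_sw] at this
    rw [abs_sub_comm]
    exact this
  · have hρ : ρ a = ρ b := by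
      rw [← (mem_X.1 hx).1 a, ← (mem_X.1 hx).1 b, colSum3 x a hpq hpl hql, colSum3 x b hpq hpl hql,
        hpa, hpb, hqa, hqb, hla, hlb]
      rfl
    have hcs : sw p q a b x = cs a b x := by
      funext u c
      rcases three_cases p q l hpq hpl hql u with rfl | rfl | rfl
      · simp [sw_apply]
      · simp [sw_apply]
      · simp only [sw_apply, hl, if_false, cs_apply]
        by_cases h1 : c = a
        · subst h1; simp [hla, hlb]
        · by_cases h2 : c = b
          · subst h2; simp [hla, hlb]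
          · rw [Equiv.swap_apply_of_ne_of_ne h1 h2]
    rw [hcs, ← P_comp_cs hρ p F x]
    have : P ρ r p (fun y => F (cs a b y)) x = P ρ r p F x :=
      Av_congr _ _ (fun y hy => hσ a b hρ y hy) x
    rw [this, sub_self, abs_zero]
    exact hL0

/-- **`FC`**, all cases. -/
theorem FC {ρ : ι → ℕ} {r : Fin 3 → ℕ} (F : Mat ι → ℝ) (L : ℝ)
    (hσ : ∀ a b, ρ a = ρ b → ∀ x ∈ X ρ r, F (cs a b x) = F x)
    (hL : ∀ p q a b, p ≠ q → ∀ x ∈ X ρ r, sw p q a b x ∈ X ρ r → |F (sw p q a b x) - F x| ≤ L)
    (p q : Fin 3) (hpq : p ≠ q) (a b : ι) (x : Mat ι) (hx : x ∈ X ρ r)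
    (hx' : sw p q a b x ∈ X ρ r) :
    |P ρ r p F (sw p q a b x) - P ρ r p F x| ≤ L := by
  have hL0 : 0 ≤ L := le_trans (abs_nonneg _) (hL p q a b hpq x hx hx')
  cases hpa : x p a <;> cases hpb : x p b
  · have hrow : sw p q a b x p = x p := by
      funext c
      simp only [sw_apply, true_or, if_true]
      by_cases h1 : c = a
      · subst h1; simp [hpa, hpb]
      · by_cases h2 : c = b
        · subst h2; simp [hpa, hpb]
        · rw [Equiv.swap_apply_of_ne_of_ne h1 h2]
    have : P ρ r p F (sw p q a b x) = P ρ r p F x := Av_congr_key _ _ _ hrow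
    rw [this, sub_self, abs_zero]; exact hL0
  · rw [sw_comm_cols p q a b]
    rw [sw_comm_cols p q a b] at hx'
    exact FC_tf F L hσ hL p q hpq b a x hx hx' hpb hpa
  · exact FC_tf F L hσ hL p q hpq a b x hx hx' hpa hpb
  · have hrow : sw p q a b x p = x p := by
      funext c
      simp only [sw_apply, true_or, if_true]
      by_cases h1 : c = a
      · subst h1; simp [hpa, hpb]
      · by_cases h2 : c = b
        · subst h2; simp [hpa, hpb]
        · rw [Equiv.swap_apply_of_ne_of_ne h1 h2]
    have : P ρ r p F (sw p q a b x) = P ρ r p F x := Av_congr_key _ _ _ hrow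
    rw [this, sub_self, abs_zero]; exact hL0

/-- `FCstmt` (helper5's interface in `ThreeRowStage2.lean`) for column-swap invariant `F`. -/
theorem FCstmt_of_cs {ρ : ι → ℕ} {r : Fin 3 → ℕ} (F : Mat ι → ℝ)
    (hσ : ∀ a b, ρ a = ρ b → ∀ x ∈ X ρ r, F (cs a b x) = F x) : FCstmt ρ r F := by
  intro L hL p q hpq a b x hx hx'
  exact FC F L hσ hL p q hpq a b x hx hx'

end Ids

end Crest.Agent.R299.TR
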