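import Crest.Agent.R299.ThreeRowIds21
import Crest.Agent.R299.SubsetCoupling
import Crest.Agent.R299.ThreeRowStage2

/-!
# R299 (S0453): 3-row lemma, the fibre comparison lemma `FC`
-/

set_option autoImplicit false
set_option linter.unusedSectionVars false
set_option linter.unusedSimpArgs false
open Finset

namespace Crest.Agent.R299.TR.Ids21

variable {ι : Type*} [Fintype ι] [DecidableEq ι]
variable {x : Mat ι} {p j l : Fin 3} {a b : ι}

/-- the re-split matrices are again in the main-case configuration. -/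
theorem MC.mk_MC (m : MC x p j l a b) (T : Finset ι) : MC (TR.mk x j l T) p j l a b where
  hj := m.hj
  hl := m.hl
  h := m.h
  pa := by rw [mk_row x m.hj m.hl, m.pa]
  pb := by rw [mk_row x m.hj m.hl, m.pb]
  ja := by rw [mk_j, if_neg m.a_notMem, m.ja]
  la := by rw [mk_l x m.h, if_neg m.a_notMem, m.la]
  jb := by rw [mk_j, if_neg m.b_notMem, m.jb]
  lb := by rw [mk_l x m.h, if_neg m.b_notMem, m.lb]

theorem MC.sw_j_mem {ρ : ι → ℕ} {r : Fin 3 → ℕ} (m : MC x p j l a b) (hx : x ∈ X ρ r) :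
    sw p j a b x ∈ X ρ r :=
  mem_X_sw m.hj hx (by rw [m.pa, m.ja]; simp) (by rw [m.pb, m.jb]; simp)

theorem MC.sw_l_mem {ρ : ι → ℕ} {r : Fin 3 → ℕ} (m : MC x p j l a b) (hx : x ∈ X ρ r) :
    sw p l a b x ∈ X ρ r :=
  mem_X_sw m.hl hx (by rw [m.pa, m.la]; simp) (by rw [m.pb, m.lb]; simp)

theorem MC.rho_a {ρ : ι → ℕ} {r : Fin 3 → ℕ} (m : MC x p j l a b) (hx : x ∈ X ρ r) : ρ a = 1 := by
  rw [← (mem_X.1 hx).1 a, colSum3 x a m.hj m.hl m.h, m.pa, m.ja, m.la]; rfl

theorem MC.rho_b {ρ : ι → ℕ} {r : Fin 3 → ℕ} (m : MC x p j l a b) (hx : x ∈ X ρ r) : ρ b = 2 := by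
  rw [← (mem_X.1 hx).1 b, colSum3 x b m.hj m.hl m.h, m.pb, m.jb, m.lb]; rfl

theorem MC.rho_g {ρ : ι → ℕ} {r : Fin 3 → ℕ} (m : MC x p j l a b) (hx : x ∈ X ρ r) {g : ι}
    (hg : g ∈ Fr x j l) : ρ g = (x p g).toNat + 1 := by
  rw [← (mem_X.1 hx).1 g, colSum3 x g m.hj m.hl m.h]
  have := mem_Fr.1 hg
  revert this
  cases x j g <;> cases x l g <;> simp

/-- **main case** of the fibre comparison. -/
theorem main_case {ρ : ι → ℕ} {r : Fin 3 → ℕ} (F : Mat ι → ℝ) (L : ℝ)
    (hσ : ∀ a b, ρ a = ρ b → ∀ x ∈ X ρ r, F (cs a b x) = F x)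
    (hL : ∀ p q a b, p ≠ q → ∀ x ∈ X ρ r, sw p q a b x ∈ X ρ r → |F (sw p q a b x) - F x| ≤ L)
    (hx : x ∈ X ρ r) (m : MC x p j l a b) :
    |P ρ r p F (sw p j a b x) - P ρ r p F x| ≤ L := by
  have hx1 := m.sw_j_mem hx
  rw [P_eq hx1 m.hj m.hl m.h, P_eq hx m.hj m.hl m.h, m.Fr1, m.card_Tj1]
  have hy : ∀ T ∈ (Fr x j l).powersetCard (Tj x j l).card, TR.mk x j l T ∈ X ρ r :=
    fun T hT => mk_mem_X hx m.h hT
  have bj : ∀ T ∈ (Fr x j l).powersetCard (Tj x j l).card,
      |F (sw p j a b (TR.mk x j l T)) - F (TR.mk x j l T)| ≤ L := fun T hT =>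
    hL p j a b m.hj _ (hy T hT) ((m.mk_MC T).sw_j_mem (hy T hT))
  have bl : ∀ T ∈ (Fr x j l).powersetCard (Tj x j l).card,
      |F (sw p l a b (TR.mk x j l T)) - F (TR.mk x j l T)| ≤ L := fun T hT =>
    hL p l a b m.hl _ (hy T hT) ((m.mk_MC T).sw_l_mem (hy T hT))
  refine SC.subset_coupling (Fr x j l) a b m.a_notMem m.b_notMem m.ne (Tj x j l).card
    (card_le_card (Tj_subset_Fr x j l)) (fun T => F (TR.mk x j l T))
    (fun T' => F (TR.mk (sw p j a b x) j l T')) L ?_ ?_ ?_ ?_
  · intro T hT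
    have hTs := (mem_powersetCard.1 hT).1
    rw [m.id_a hTs]
    exact bj T hT
  · intro T hT
    have hTs := (mem_powersetCard.1 hT).1
    rw [m.id_b hTs]
    exact bl T hT
  · intro T hT g hg
    have hTs := (mem_powersetCard.1 hT).1
    have hgF := hTs hg
    have hρ := m.rho_g hx hgF
    cases hpg : x p g
    · rw [m.id_ab1 hTs hgF hg hpg,
        hσ a g (by rw [m.rho_a hx, hρ, hpg]; rfl) _ ((m.mk_MC T).sw_l_mem (hy T hT))]
      exact bl T hT
    · rw [m.id_ab2 hTs hgF hg hpg,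
        hσ b g (by rw [m.rho_b hx, hρ, hpg]; rfl) _ ((m.mk_MC T).sw_j_mem (hy T hT))]
      exact bj T hT
  · intro T hT g hg
    have hTs := (mem_powersetCard.1 hT).1
    have hgF := (mem_sdiff.1 hg).1
    have hgT := (mem_sdiff.1 hg).2
    have hρ := m.rho_g hx hgF
    cases hpg : x p g
    · rw [m.id_g1 hTs hgF hgT hpg,
        hσ a g (by rw [m.rho_a hx, hρ, hpg]; rfl) _ ((m.mk_MC T).sw_j_mem (hy T hT))]
      exact bj T hT
    · rw [m.id_g2 hTs hgF hgT hpg,
        hσ b g (by rw [m.rho_b hx, hρ, hpg]; rfl) _ ((m.mk_MC T).sw_l_mem (hy T hT))]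
      exact bl T hT


theorem sw_swap_cols (p q : Fin 3) (a b : ι) (x : Mat ι) : sw p q a b x = sw p q b a x := by
  funext u c
  simp only [sw_apply, Equiv.swap_comm]

/-- `FC` when `x p a = true`, `x p b = false`. -/
theorem FC_aux {ρ : ι → ℕ} {r : Fin 3 → ℕ} (F : Mat ι → ℝ) (L : ℝ)
    (hσ : ∀ a b, ρ a = ρ b → ∀ x ∈ X ρ r, F (cs a b x) = F x)
    (hL : ∀ p q a b, p ≠ q → ∀ x ∈ X ρ r, sw p q a b x ∈ X ρ r → |F (sw p q a b x) - F x| ≤ L)
    {p q : Fin 3} (hpq : p ≠ q) {a b : ι} {x : Mat ι} (hx : x ∈ X ρ r)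
    (hx' : sw p q a b x ∈ X ρ r) (pa : x p a = true) (pb : x p b = false) :
    |P ρ r p F (sw p q a b x) - P ρ r p F x| ≤ L := by
  have hL0 : 0 ≤ L := (abs_nonneg _).trans (hL p q a b hpq x hx hx')
  obtain ⟨l, hpl, hql⟩ := exists_third p q hpq
  have hlp : ¬ (l = p ∨ l = q) := by
    rintro (h | h)
    · exact hpl h.symm
    · exact hql h.symm
  have hne : a ≠ b := by
    rintro rfl
    rw [pb] at pa
    exact Bool.noConfusion pa
  have c1 := (mem_X.1 hx).1 a
  have c2 := (mem_X.1 hx').1 a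
  have c3 := (mem_X.1 hx).1 b
  rw [colSum3 _ a hpq hpl hql] at c1 c2
  rw [colSum3 _ b hpq hpl hql] at c3
  simp only [sw_apply, true_or, or_true, if_true, hlp, if_false, Equiv.swap_apply_left] at c2
  rw [pa] at c1
  rw [pb] at c2 c3
  have qa : x q a = false := by
    revert c1 c2
    cases x q a <;> cases x q b <;> simp <;> omega
  have qb : x q b = true := by
    revert c1 c2
    cases x q a <;> cases x q b <;> simp <;> omega
  rw [qa] at c1
  rw [qb] at c3
  cases la : x l a <;> cases lb : x l b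
  · -- equal third entries: a column swap
    have hab : ρ a = ρ b := by
      rw [← c1, ← c3, la, lb]; rfl
    have hcs : sw p q a b x = cs a b x := by
      funext u c
      rcases three_cases p q l hpq hpl hql u with rfl | rfl | rfl
      · simp [sw_apply]
      · simp [sw_apply]
      · simp only [sw_apply, hlp, if_false, cs_apply]
        rcases eq_or_ne c a with rfl | hca
        · simp [la, lb]
        · rcases eq_or_ne c b with rfl | hcb
          · simp [la, lb]
          · rw [Equiv.swap_apply_of_ne_of_ne hca hcb]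
    rw [hcs, ← P_comp_cs hab]
    have : P ρ r p (fun y => F (cs a b y)) x = P ρ r p F x :=
      Av_congr (X ρ r) (fun y => y p) (fun y hy => hσ a b hab y hy) x
    rw [this, sub_self, abs_zero]
    exact hL0
  · exact main_case F L hσ hL hx ⟨hpq, hpl, hql, pa, pb, qa, la, qb, lb⟩
  · have m : MC (sw p q a b x) p q l b a :=
      ⟨hpq, hpl, hql, by simp [sw_apply, pa], by simp [sw_apply, pb], by simp [sw_apply, qa],
        by simp [sw_apply, hlp, lb], by simp [sw_apply, qb], by simp [sw_apply, hlp, la]⟩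
    have := main_case F L hσ hL hx' m
    rw [sw_swap_cols p q b a, sw_sw, abs_sub_comm] at this
    exact this
  · have hab : ρ a = ρ b := by
      rw [← c1, ← c3, la, lb]; rfl
    have hcs : sw p q a b x = cs a b x := by
      funext u c
      rcases three_cases p q l hpq hpl hql u with rfl | rfl | rfl
      · simp [sw_apply]
      · simp [sw_apply]
      · simp only [sw_apply, hlp, if_false, cs_apply]
        rcases eq_or_ne c a with rfl | hca
        · simp [la, lb]
        · rcases eq_or_ne c b with rfl | hcb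
          · simp [la, lb]
          · rw [Equiv.swap_apply_of_ne_of_ne hca hcb]
    rw [hcs, ← P_comp_cs hab]
    have : P ρ r p (fun y => F (cs a b y)) x = P ρ r p F x :=
      Av_congr (X ρ r) (fun y => y p) (fun y hy => hσ a b hab y hy) x
    rw [this, sub_self, abs_zero]
    exact hL0

/-- **Fibre comparison lemma.** -/
theorem FC {ρ : ι → ℕ} {r : Fin 3 → ℕ} (F : Mat ι → ℝ)
    (hσ : ∀ a b, ρ a = ρ b → ∀ x ∈ X ρ r, F (cs a b x) = F x) : FCstmt ρ r F := by
  intro L hL p q hpq a b x hx hx'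
  have hL0 : 0 ≤ L := (abs_nonneg _).trans (hL p q a b hpq x hx hx')
  cases pa : x p a <;> cases pb : x p b
  · have : sw p q a b x p = x p := by
      funext c
      simp only [sw_apply, true_or, if_true]
      rcases eq_or_ne c a with rfl | hca
      · simp [pa, pb]
      · rcases eq_or_ne c b with rfl | hcb
        · simp [pa, pb]
        · rw [Equiv.swap_apply_of_ne_of_ne hca hcb]
    rw [P_congr_row ρ r p F this, sub_self, abs_zero]
    exact hL0
  · rw [sw_swap_cols] at hx' ⊢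
    exact FC_aux F L hσ hL hpq hx hx' pb pa
  · exact FC_aux F L hσ hL hpq hx hx' pa pb
  · have : sw p q a b x p = x p := by
      funext c
      simp only [sw_apply, true_or, if_true]
      rcases eq_or_ne c a with rfl | hca
      · simp [pa, pb]
      · rcases eq_or_ne c b with rfl | hcb
        · simp [pa, pb]
        · rw [Equiv.swap_apply_of_ne_of_ne hca hcb]
    rw [P_congr_row ρ r p F this, sub_self, abs_zero]
    exact hL0

end Crest.Agent.R299.TR.Ids21
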