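import Crest.Agent.R299.ThreeRowDefs

/-!
# R299 (S0453): parametrisation of the `P_p`-fibres of the 3-row model by `powersetCard`
-/

set_option autoImplicit false
open Finset

namespace Crest.Agent.R299.TR

variable {ι : Type*} [Fintype ι] [DecidableEq ι]

/-- free columns of the two rows `j`, `l`. -/
def Fr (x : Mat ι) (j l : Fin 3) : Finset ι := univ.filter fun c => x j c ≠ x l c

/-- the free columns where row `j` holds the `1`. -/
def Tj (x : Mat ι) (j l : Fin 3) : Finset ι := univ.filter fun c => x j c = true ∧ x l c = false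

/-- re-split the free columns of the rows `j`, `l`: row `j` gets `T`. -/
def mk (x : Mat ι) (j l : Fin 3) (T : Finset ι) : Mat ι := fun u c =>
  if c ∈ Fr x j l then (if u = j then decide (c ∈ T) else if u = l then decide (c ∉ T) else x u c)
  else x u c

theorem mem_Fr {x : Mat ι} {j l : Fin 3} {c : ι} : c ∈ Fr x j l ↔ x j c ≠ x l c := by
  simp [Fr]

theorem mem_Tj {x : Mat ι} {j l : Fin 3} {c : ι} : c ∈ Tj x j l ↔ x j c = true ∧ x l c = false := by
  simp [Tj]

theorem Tj_subset_Fr (x : Mat ι) (j l : Fin 3) : Tj x j l ⊆ Fr x j l := by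
  intro c hc
  rw [mem_Tj] at hc
  rw [mem_Fr, hc.1, hc.2]
  simp

theorem mk_row (x : Mat ι) {p j l : Fin 3} (hj : p ≠ j) (hl : p ≠ l) (T : Finset ι) :
    mk x j l T p = x p := by
  funext c
  simp [mk, hj, hl]

theorem mk_j (x : Mat ι) (j l : Fin 3) (T : Finset ι) (c : ι) :
    mk x j l T j c = if c ∈ Fr x j l then decide (c ∈ T) else x j c := by
  simp [mk]

theorem mk_l (x : Mat ι) {j l : Fin 3} (h : j ≠ l) (T : Finset ι) (c : ι) :
    mk x j l T l c = if c ∈ Fr x j l then decide (c ∉ T) else x l c := by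
  simp [mk, h.symm]

theorem mk_Tj (x : Mat ι) {j l : Fin 3} (h : j ≠ l) : mk x j l (Tj x j l) = x := by
  funext u c
  by_cases hc : c ∈ Fr x j l
  · have hc' := mem_Fr.1 hc
    by_cases hu : u = j
    · subst hu
      rw [mk_j, if_pos hc]
      cases h1 : x u c <;> cases h2 : x l c <;> simp_all [mem_Tj]
    · by_cases hu' : u = l
      · subst hu'
        rw [mk_l x h, if_pos hc]
        cases h1 : x j c <;> cases h2 : x u c <;> simp_all [mem_Tj]
      · simp [mk, hu, hu']
  · simp [mk, hc]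

/-! ### column and row sums -/

theorem fb_univ_eq_three {p j l : Fin 3} (hj : p ≠ j) (hl : p ≠ l) (h : j ≠ l) :
    (univ : Finset (Fin 3)) = {p, j, l} := by
  revert p j l; decide

theorem fb_eq_or_of_three {p j l : Fin 3} (hj : p ≠ j) (hl : p ≠ l) (h : j ≠ l) (u : Fin 3) :
    u = p ∨ u = j ∨ u = l := by
  revert p j l u; decide

theorem fb_exists_third (j l : Fin 3) : ∃ p : Fin 3, p ≠ j ∧ p ≠ l := by
  revert j l; decide

omit [Fintype ι] [DecidableEq ι] in
theorem fb_colSum_eq (x : Mat ι) {p j l : Fin 3} (hj : p ≠ j) (hl : p ≠ l) (h : j ≠ l) (c : ι) :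
    colSum x c = (x p c).toNat + (x j c).toNat + (x l c).toNat := by
  unfold colSum
  rw [card_filter, fb_univ_eq_three hj hl h, sum_insert (by simp [hj, hl]), sum_insert (by simp [h]),
    sum_singleton]
  cases x p c <;> cases x j c <;> cases x l c <;> simp

omit [DecidableEq ι] in
theorem fb_rowSum_eq_sum (x : Mat ι) (u : Fin 3) : rowSum x u = ∑ c, (x u c).toNat := by
  unfold rowSum
  rw [card_filter]
  refine sum_congr rfl fun c _ => ?_
  cases x u c <;> simp

/-- row sum of `j` split along the free columns. -/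
theorem rowSum_j (x : Mat ι) (j l : Fin 3) :
    rowSum x j = (Tj x j l).card + (univ.filter fun c => x j c = true ∧ x l c = true).card := by
  unfold rowSum Tj
  rw [← card_union_of_disjoint]
  · congr 1
    ext c
    simp only [mem_filter, mem_univ, true_and, mem_union]
    cases x j c <;> cases x l c <;> simp
  · rw [disjoint_filter]
    intro c _ h1 h2
    rw [h1.2] at h2
    simp at h2

theorem card_Fr (x : Mat ι) (j l : Fin 3) : (Fr x j l).card = (Tj x j l).card + (Tj x l j).card := by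
  unfold Fr Tj
  rw [← card_union_of_disjoint]
  · congr 1
    ext c
    simp only [mem_filter, mem_univ, true_and, mem_union]
    cases x j c <;> cases x l c <;> simp
  · rw [disjoint_filter]
    intro c _ h1 h2
    rw [h1.1] at h2
    simp at h2

theorem Fr_mk (x : Mat ι) {j l : Fin 3} (h : j ≠ l) (T : Finset ι) :
    Fr (mk x j l T) j l = Fr x j l := by
  ext c
  rw [mem_Fr, mk_j, mk_l x h]
  by_cases hc : c ∈ Fr x j l
  · simp [hc]
  · simp only [hc, if_false]
    exact mem_Fr.symm.trans (by simp [hc])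

theorem Tj_mk (x : Mat ι) {j l : Fin 3} (h : j ≠ l) {T : Finset ι} (hT : T ⊆ Fr x j l) :
    Tj (mk x j l T) j l = T := by
  ext c
  rw [mem_Tj, mk_j, mk_l x h]
  by_cases hc : c ∈ Fr x j l
  · simp [hc]
  · have h1 : c ∉ T := fun h' => hc (hT h')
    have h2 : x j c = x l c := by
      by_contra h'
      exact hc (mem_Fr.2 h')
    simp only [hc, if_false, h1, iff_false]
    rw [h2]
    cases x l c <;> simp

theorem mk_injOn (x : Mat ι) {j l : Fin 3} (h : j ≠ l) :
    Set.InjOn (mk x j l) ↑((Fr x j l).powerset) := by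
  intro T hT T' hT' he
  rw [mem_coe, mem_powerset] at hT hT'
  rw [← Tj_mk x h hT, ← Tj_mk x h hT', he]

theorem both_mk (x : Mat ι) {j l : Fin 3} (h : j ≠ l) (T : Finset ι) (c : ι) :
    (mk x j l T j c = true ∧ mk x j l T l c = true) ↔ (x j c = true ∧ x l c = true) := by
  rw [mk_j, mk_l x h]
  by_cases hc : c ∈ Fr x j l
  · have := mem_Fr.1 hc
    simp only [hc, if_true]
    by_cases hT : c ∈ T <;> cases h1 : x j c <;> cases h2 : x l c <;> simp_all
  · simp [hc]

theorem mk_mem_X {ρ : ι → ℕ} {r : Fin 3 → ℕ} {x : Mat ι} (hx : x ∈ X ρ r) {j l : Fin 3} (h : j ≠ l)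
    {T : Finset ι} (hT : T ∈ (Fr x j l).powersetCard (Tj x j l).card) : mk x j l T ∈ X ρ r := by
  rw [mem_powersetCard] at hT
  rw [mem_X] at hx ⊢
  obtain ⟨p, hj, hl⟩ : ∃ p : Fin 3, p ≠ j ∧ p ≠ l := fb_exists_third j l
  constructor
  · intro c
    rw [← hx.1 c, fb_colSum_eq _ hj hl h, fb_colSum_eq x hj hl h, mk_row x hj hl, mk_j, mk_l x h]
    by_cases hc : c ∈ Fr x j l
    · have := mem_Fr.1 hc
      simp only [hc, if_true]
      by_cases hT' : c ∈ T <;> cases h1 : x j c <;> cases h2 : x l c <;> simp_all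
    · simp [hc]
  · intro u
    rw [← hx.2 u]
    rcases fb_eq_or_of_three hj hl h u with rfl | rfl | rfl
    · rw [rowSum, rowSum, mk_row x hj hl]
    · rw [rowSum_j _ u l, rowSum_j x u l, Tj_mk x h hT.1, hT.2]
      congr 2
      ext c
      simp only [mem_filter, mem_univ, true_and]
      exact both_mk x h T c
    · rw [rowSum_j _ u j, rowSum_j x u j]
      have e1 : (Tj (mk x j u T) u j).card = (Tj x u j).card := by
        have a1 := card_Fr (mk x j u T) j u
        have a2 := card_Fr x j u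
        rw [Fr_mk x h, Tj_mk x h hT.1, hT.2] at a1
        omega
      rw [e1]
      congr 2
      ext c
      simp only [mem_filter, mem_univ, true_and]
      have := both_mk x h T c
      tauto

/-! ### the fibre of `P_p` -/

theorem pair_sum_eq {ρ : ι → ℕ} {r : Fin 3 → ℕ} {x y : Mat ι} (hx : x ∈ X ρ r) (hy : y ∈ X ρ r)
    {p j l : Fin 3} (hj : p ≠ j) (hl : p ≠ l) (h : j ≠ l) (hp : y p = x p) (c : ι) :
    (y j c).toNat + (y l c).toNat = (x j c).toNat + (x l c).toNat := by
  have h1 := (mem_X.1 hx).1 c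
  have h2 := (mem_X.1 hy).1 c
  rw [fb_colSum_eq _ hj hl h] at h1 h2
  rw [hp] at h2
  omega

theorem eq_mk_of_row {ρ : ι → ℕ} {r : Fin 3 → ℕ} {x y : Mat ι} (hx : x ∈ X ρ r) (hy : y ∈ X ρ r)
    {p j l : Fin 3} (hj : p ≠ j) (hl : p ≠ l) (h : j ≠ l) (hp : y p = x p) :
    Tj y j l ∈ (Fr x j l).powersetCard (Tj x j l).card ∧ mk x j l (Tj y j l) = y := by
  have key := pair_sum_eq hx hy hj hl h hp
  have hFr : Fr y j l = Fr x j l := by
    ext c
    rw [mem_Fr, mem_Fr]
    have := key c
    cases h1 : x j c <;> cases h2 : x l c <;> cases h3 : y j c <;> cases h4 : y l c <;> simp_all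
  refine ⟨?_, ?_⟩
  · rw [mem_powersetCard]
    refine ⟨hFr ▸ Tj_subset_Fr y j l, ?_⟩
    have a1 := rowSum_j x j l
    have a2 := rowSum_j y j l
    rw [(mem_X.1 hx).2 j] at a1
    rw [(mem_X.1 hy).2 j] at a2
    have a3 : (univ.filter fun c => y j c = true ∧ y l c = true)
        = (univ.filter fun c => x j c = true ∧ x l c = true) := by
      ext c
      simp only [mem_filter, mem_univ, true_and]
      have := key c
      cases h1 : x j c <;> cases h2 : x l c <;> cases h3 : y j c <;> cases h4 : y l c <;> simp_all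
    rw [a3] at a2
    omega
  · funext u c
    have hk := key c
    rcases fb_eq_or_of_three hj hl h u with rfl | rfl | rfl
    · rw [mk_row x hj hl, hp]
    · rw [mk_j]
      by_cases hc : c ∈ Fr x u l
      · have hc' := mem_Fr.1 (hFr ▸ hc : c ∈ Fr y u l)
        rw [if_pos hc]
        cases h3 : y u c <;> cases h4 : y l c <;> simp_all [mem_Tj]
      · rw [if_neg hc]
        have hc' : x u c = x l c := by
          by_contra h'
          exact hc (mem_Fr.2 h')
        cases h1 : x u c <;> cases h2 : x l c <;> cases h3 : y u c <;> cases h4 : y l c <;> simp_all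
    · rw [mk_l x h]
      by_cases hc : c ∈ Fr x j u
      · have hc' := mem_Fr.1 (hFr ▸ hc : c ∈ Fr y j u)
        rw [if_pos hc]
        cases h3 : y j c <;> cases h4 : y u c <;> simp_all [mem_Tj]
      · rw [if_neg hc]
        have hc' : x j c = x u c := by
          by_contra h'
          exact hc (mem_Fr.2 h')
        cases h1 : x j c <;> cases h2 : x u c <;> cases h3 : y j c <;> cases h4 : y u c <;> simp_all

theorem cls_eq_image {ρ : ι → ℕ} {r : Fin 3 → ℕ} {x : Mat ι} (hx : x ∈ X ρ r)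
    {p j l : Fin 3} (hj : p ≠ j) (hl : p ≠ l) (h : j ≠ l) :
    cls (X ρ r) (fun y => y p) x = ((Fr x j l).powersetCard (Tj x j l).card).image (mk x j l) := by
  ext y
  rw [mem_cls, mem_image]
  constructor
  · rintro ⟨hy, hp⟩
    obtain ⟨h1, h2⟩ := eq_mk_of_row hx hy hj hl h hp
    exact ⟨_, h1, h2⟩
  · rintro ⟨T, hT, rfl⟩
    exact ⟨mk_mem_X hx h hT, mk_row x hj hl T⟩

theorem sum_cls_eq_sum {ρ : ι → ℕ} {r : Fin 3 → ℕ} {x : Mat ι} (hx : x ∈ X ρ r)
    {p j l : Fin 3} (hj : p ≠ j) (hl : p ≠ l) (h : j ≠ l) (F : Mat ι → ℝ) :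
    ∑ y ∈ cls (X ρ r) (fun y => y p) x, F y
      = ∑ T ∈ (Fr x j l).powersetCard (Tj x j l).card, F (mk x j l T) := by
  rw [cls_eq_image hx hj hl h, sum_image]
  intro T hT T' hT' he
  exact mk_injOn x h (by simpa using (mem_powersetCard.1 hT).1)
    (by simpa using (mem_powersetCard.1 hT').1) he

theorem card_cls_eq {ρ : ι → ℕ} {r : Fin 3 → ℕ} {x : Mat ι} (hx : x ∈ X ρ r)
    {p j l : Fin 3} (hj : p ≠ j) (hl : p ≠ l) (h : j ≠ l) :
    (cls (X ρ r) (fun y => y p) x).card = ((Fr x j l).powersetCard (Tj x j l).card).card := by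
  rw [cls_eq_image hx hj hl h, card_image_of_injOn]
  intro T hT T' hT' he
  exact mk_injOn x h (by simpa using (mem_powersetCard.1 hT).1)
    (by simpa using (mem_powersetCard.1 hT').1) he

/-- **fibre parametrisation** of `P_p`. -/
theorem P_eq {ρ : ι → ℕ} {r : Fin 3 → ℕ} {x : Mat ι} (hx : x ∈ X ρ r)
    {p j l : Fin 3} (hj : p ≠ j) (hl : p ≠ l) (h : j ≠ l) (F : Mat ι → ℝ) :
    P ρ r p F x = (∑ T ∈ (Fr x j l).powersetCard (Tj x j l).card, F (mk x j l T)) /
      (((Fr x j l).powersetCard (Tj x j l).card).card : ℝ) := by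
  unfold P Av
  rw [sum_cls_eq_sum hx hj hl h, card_cls_eq hx hj hl h]

theorem P_congr_row (ρ : ι → ℕ) (r : Fin 3 → ℕ) (p : Fin 3) (F : Mat ι → ℝ) {x x' : Mat ι}
    (h : x' p = x p) : P ρ r p F x' = P ρ r p F x :=
  Av_congr_key (X ρ r) (fun y => y p) F h

end Crest.Agent.R299.TR
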