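import Crest.Agent.R299.ThreeRowBasic
import Crest.Agent.R299.ThreeRowFibre

/-!
# R299 (S0453): the matrix identities behind the coupling of stage 2 of the 3-row lemma
-/

set_option autoImplicit false
set_option linter.unusedSectionVars false
set_option linter.unusedVariables false
set_option linter.unusedSimpArgs false
open Finset

namespace Crest.Agent.R299.TR

namespace Ids

variable {ι : Type*} [Fintype ι] [DecidableEq ι]

/-- the standing hypotheses: rows `p, j, l` distinct, column `a = (1,0,0)`, column `b = (0,1,1)`. -/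
structure Hyp (x : Mat ι) (p j l : Fin 3) (a b : ι) : Prop where
  hpj : p ≠ j
  hpl : p ≠ l
  hjl : j ≠ l
  hpa : x p a = true
  hpb : x p b = false
  hja : x j a = false
  hla : x l a = false
  hjb : x j b = true
  hlb : x l b = true

variable {x : Mat ι} {p j l : Fin 3} {a b : ι}

theorem Hyp.hab (h : Hyp x p j l a b) : a ≠ b := by
  rintro rfl
  have := h.hpa
  rw [h.hpb] at this
  simp at this

theorem Hyp.a_notMem (h : Hyp x p j l a b) : a ∉ Fr x j l := by
  rw [mem_Fr, h.hja, h.hla]; simp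

theorem Hyp.b_notMem (h : Hyp x p j l a b) : b ∉ Fr x j l := by
  rw [mem_Fr, h.hjb, h.hlb]; simp

theorem Hyp.mem_Fr_sw (h : Hyp x p j l a b) (c : ι) :
    c ∈ Fr (sw p j a b x) j l ↔ c = a ∨ c = b ∨ c ∈ Fr x j l := by
  have hl : ¬ (l = p ∨ l = j) := by
    rintro (e | e)
    · exact h.hpl e.symm
    · exact h.hjl e.symm
  rw [mem_Fr, mem_Fr, sw_apply, sw_apply, if_pos (Or.inr rfl), if_neg hl]
  by_cases h1 : c = a
  · subst h1; simp [h.hjb, h.hla]
  · by_cases h2 : c = b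
    · subst h2; simp [h.hja, h.hlb]
    · rw [Equiv.swap_apply_of_ne_of_ne h1 h2]; simp [h1, h2]

theorem Hyp.Fr_sw (h : Hyp x p j l a b) :
    Fr (sw p j a b x) j l = insert a (insert b (Fr x j l)) := by
  ext c; rw [h.mem_Fr_sw]; simp

theorem Hyp.Tj_sw (h : Hyp x p j l a b) :
    Tj (sw p j a b x) j l = insert a (Tj x j l) := by
  have hl : ¬ (l = p ∨ l = j) := by
    rintro (e | e)
    · exact h.hpl e.symm
    · exact h.hjl e.symm
  ext c
  rw [mem_Tj, mem_insert, mem_Tj, sw_apply, sw_apply, if_pos (Or.inr rfl), if_neg hl]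
  by_cases h1 : c = a
  · subst h1; simp [h.hjb, h.hla]
  · by_cases h2 : c = b
    · subst h2; simp [h.hja, h.hlb, h1]
    · rw [Equiv.swap_apply_of_ne_of_ne h1 h2]; simp [h1]


theorem id1 (h : Hyp x p j l a b) {T : Finset ι} (hT : T ⊆ Fr x j l) :
    mk (sw p j a b x) j l (insert a T) = sw p j a b (mk x j l T) := by
  funext u c
  have ha := h.a_notMem
  have hb := h.b_notMem
  have haT : a ∉ T := fun e => ha (hT e)
  have hbT : b ∉ T := fun e => hb (hT e)
  have hab := h.hab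
  have hpj := h.hpj
  have hpl := h.hpl
  have hjl := h.hjl
  rcases three_cases p j l h.hpj h.hpl h.hjl u with rfl | rfl | rfl
  all_goals
    by_cases h1 : c = a
    · subst h1
      simp [mk, sw_apply, h.mem_Fr_sw, ha, hb, haT, hbT, hab, hab.symm, hpj, hpl, hjl, hpj.symm,
        hpl.symm, hjl.symm, h.hpa, h.hpb, h.hja, h.hla, h.hjb, h.hlb]
    · by_cases h2 : c = b
      · subst h2
        simp [mk, sw_apply, h.mem_Fr_sw, ha, hb, haT, hbT, hab, hab.symm, hpj, hpl, hjl, hpj.symm,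
          hpl.symm, hjl.symm, h.hpa, h.hpb, h.hja, h.hla, h.hjb, h.hlb]
      · simp [mk, sw_apply, h.mem_Fr_sw, ha, hb, haT, hbT, hab, hab.symm, hpj, hpl, hjl, hpj.symm,
          hpl.symm, hjl.symm, h.hpa, h.hpb, h.hja, h.hla, h.hjb, h.hlb, h1, h2,
          Equiv.swap_apply_of_ne_of_ne h1 h2]


theorem id2 (h : Hyp x p j l a b) {T : Finset ι} (hT : T ⊆ Fr x j l) :
    mk (sw p j a b x) j l (insert b T) = sw p l a b (mk x j l T) := by
  funext u c
  have ha := h.a_notMem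
  have hb := h.b_notMem
  have haT : a ∉ T := fun e => ha (hT e)
  have hbT : b ∉ T := fun e => hb (hT e)
  have hab := h.hab
  have hpj := h.hpj
  have hpl := h.hpl
  have hjl := h.hjl
  rcases three_cases p j l h.hpj h.hpl h.hjl u with rfl | rfl | rfl
  all_goals
    by_cases h1 : c = a
    · subst h1
      simp [mk, sw_apply, cs_apply, h.mem_Fr_sw, ha, hb, haT, hbT, hab, hab.symm, hpj, hpl, hjl, hpj.symm,
        hpl.symm, hjl.symm, h.hpa, h.hpb, h.hja, h.hla, h.hjb, h.hlb]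
    · by_cases h2 : c = b
      · subst h2
        simp [mk, sw_apply, cs_apply, h.mem_Fr_sw, ha, hb, haT, hbT, hab, hab.symm, hpj, hpl, hjl, hpj.symm,
        hpl.symm, hjl.symm, h.hpa, h.hpb, h.hja, h.hla, h.hjb, h.hlb]
      · simp [mk, sw_apply, cs_apply, h.mem_Fr_sw, ha, hb, haT, hbT, hab, hab.symm, hpj, hpl, hjl, hpj.symm,
        hpl.symm, hjl.symm, h.hpa, h.hpb, h.hja, h.hla, h.hjb, h.hlb, h1, h2,
          Equiv.swap_apply_of_ne_of_ne h1 h2]

theorem id3a (h : Hyp x p j l a b) {T : Finset ι} (hT : T ⊆ Fr x j l) {g : ι} (hgF : g ∈ Fr x j l)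
    (hg : g ∈ T) (hpg : x p g = false) :
    mk (sw p j a b x) j l (insert a (insert b (T.erase g))) = cs a g (sw p l a b (mk x j l T)) := by
  funext u c
  have ha := h.a_notMem
  have hb := h.b_notMem
  have haT : a ∉ T := fun e => ha (hT e)
  have hbT : b ∉ T := fun e => hb (hT e)
  have hab := h.hab
  have hpj := h.hpj
  have hpl := h.hpl
  have hjl := h.hjl
  have hga : g ≠ a := by rintro rfl; exact ha hgF
  have hgb : g ≠ b := by rintro rfl; exact hb hgF
  have e1 : Equiv.swap a g b = b := Equiv.swap_apply_of_ne_of_ne hab.symm hgb.symm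
  have e2 : Equiv.swap a b g = g := Equiv.swap_apply_of_ne_of_ne hga hgb
  have e3 : Equiv.swap b g a = a := Equiv.swap_apply_of_ne_of_ne hab hga.symm
  rcases three_cases p j l h.hpj h.hpl h.hjl u with rfl | rfl | rfl
  all_goals
    by_cases h1 : c = a
    · subst h1
      simp [mk, sw_apply, cs_apply, h.mem_Fr_sw, ha, hb, haT, hbT, hab, hab.symm, hpj, hpl, hjl, hpj.symm,
        hpl.symm, hjl.symm, h.hpa, h.hpb, h.hja, h.hla, h.hjb, h.hlb, hga, hgb, hga.symm, hgb.symm, e1, e2, e3, hgF, hg, hpg]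
    · by_cases h2 : c = b
      · subst h2
        simp [mk, sw_apply, cs_apply, h.mem_Fr_sw, ha, hb, haT, hbT, hab, hab.symm, hpj, hpl, hjl, hpj.symm,
        hpl.symm, hjl.symm, h.hpa, h.hpb, h.hja, h.hla, h.hjb, h.hlb, hga, hgb, hga.symm, hgb.symm, e1, e2, e3, hgF, hg, hpg]
      · by_cases h3 : c = g
        · subst h3
          simp [mk, sw_apply, cs_apply, h.mem_Fr_sw, ha, hb, haT, hbT, hab, hab.symm, hpj, hpl, hjl, hpj.symm,
        hpl.symm, hjl.symm, h.hpa, h.hpb, h.hja, h.hla, h.hjb, h.hlb, hga, hgb, hga.symm, hgb.symm, e1, e2, e3, hgF, hg, hpg]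
        · simp [mk, sw_apply, cs_apply, h.mem_Fr_sw, ha, hb, haT, hbT, hab, hab.symm, hpj, hpl, hjl, hpj.symm,
        hpl.symm, hjl.symm, h.hpa, h.hpb, h.hja, h.hla, h.hjb, h.hlb, hga, hgb, hga.symm, hgb.symm, e1, e2, e3, hgF, hg, hpg, h1, h2, h3,
            Equiv.swap_apply_of_ne_of_ne h1 h2, Equiv.swap_apply_of_ne_of_ne h1 h3,
            Equiv.swap_apply_of_ne_of_ne h2 h3]

theorem id3b (h : Hyp x p j l a b) {T : Finset ι} (hT : T ⊆ Fr x j l) {g : ι} (hgF : g ∈ Fr x j l)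
    (hg : g ∈ T) (hpg : x p g = true) :
    mk (sw p j a b x) j l (insert a (insert b (T.erase g))) = cs b g (sw p j a b (mk x j l T)) := by
  funext u c
  have ha := h.a_notMem
  have hb := h.b_notMem
  have haT : a ∉ T := fun e => ha (hT e)
  have hbT : b ∉ T := fun e => hb (hT e)
  have hab := h.hab
  have hpj := h.hpj
  have hpl := h.hpl
  have hjl := h.hjl
  have hga : g ≠ a := by rintro rfl; exact ha hgF
  have hgb : g ≠ b := by rintro rfl; exact hb hgF
  have e1 : Equiv.swap a g b = b := Equiv.swap_apply_of_ne_of_ne hab.symm hgb.symm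
  have e2 : Equiv.swap a b g = g := Equiv.swap_apply_of_ne_of_ne hga hgb
  have e3 : Equiv.swap b g a = a := Equiv.swap_apply_of_ne_of_ne hab hga.symm
  rcases three_cases p j l h.hpj h.hpl h.hjl u with rfl | rfl | rfl
  all_goals
    by_cases h1 : c = a
    · subst h1
      simp [mk, sw_apply, cs_apply, h.mem_Fr_sw, ha, hb, haT, hbT, hab, hab.symm, hpj, hpl, hjl, hpj.symm,
        hpl.symm, hjl.symm, h.hpa, h.hpb, h.hja, h.hla, h.hjb, h.hlb, hga, hgb, hga.symm, hgb.symm, e1, e2, e3, hgF, hg, hpg]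
    · by_cases h2 : c = b
      · subst h2
        simp [mk, sw_apply, cs_apply, h.mem_Fr_sw, ha, hb, haT, hbT, hab, hab.symm, hpj, hpl, hjl, hpj.symm,
        hpl.symm, hjl.symm, h.hpa, h.hpb, h.hja, h.hla, h.hjb, h.hlb, hga, hgb, hga.symm, hgb.symm, e1, e2, e3, hgF, hg, hpg]
      · by_cases h3 : c = g
        · subst h3
          simp [mk, sw_apply, cs_apply, h.mem_Fr_sw, ha, hb, haT, hbT, hab, hab.symm, hpj, hpl, hjl, hpj.symm,
        hpl.symm, hjl.symm, h.hpa, h.hpb, h.hja, h.hla, h.hjb, h.hlb, hga, hgb, hga.symm, hgb.symm, e1, e2, e3, hgF, hg, hpg]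
        · simp [mk, sw_apply, cs_apply, h.mem_Fr_sw, ha, hb, haT, hbT, hab, hab.symm, hpj, hpl, hjl, hpj.symm,
        hpl.symm, hjl.symm, h.hpa, h.hpb, h.hja, h.hla, h.hjb, h.hlb, hga, hgb, hga.symm, hgb.symm, e1, e2, e3, hgF, hg, hpg, h1, h2, h3,
            Equiv.swap_apply_of_ne_of_ne h1 h2, Equiv.swap_apply_of_ne_of_ne h1 h3,
            Equiv.swap_apply_of_ne_of_ne h2 h3]

theorem id4a (h : Hyp x p j l a b) {T : Finset ι} (hT : T ⊆ Fr x j l) {g : ι} (hgF : g ∈ Fr x j l)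
    (hg : g ∉ T) (hpg : x p g = false) :
    mk (sw p j a b x) j l (insert g T) = cs a g (sw p j a b (mk x j l T)) := by
  funext u c
  have ha := h.a_notMem
  have hb := h.b_notMem
  have haT : a ∉ T := fun e => ha (hT e)
  have hbT : b ∉ T := fun e => hb (hT e)
  have hab := h.hab
  have hpj := h.hpj
  have hpl := h.hpl
  have hjl := h.hjl
  have hga : g ≠ a := by rintro rfl; exact ha hgF
  have hgb : g ≠ b := by rintro rfl; exact hb hgF
  have e1 : Equiv.swap a g b = b := Equiv.swap_apply_of_ne_of_ne hab.symm hgb.symm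
  have e2 : Equiv.swap a b g = g := Equiv.swap_apply_of_ne_of_ne hga hgb
  have e3 : Equiv.swap b g a = a := Equiv.swap_apply_of_ne_of_ne hab hga.symm
  rcases three_cases p j l h.hpj h.hpl h.hjl u with rfl | rfl | rfl
  all_goals
    by_cases h1 : c = a
    · subst h1
      simp [mk, sw_apply, cs_apply, h.mem_Fr_sw, ha, hb, haT, hbT, hab, hab.symm, hpj, hpl, hjl, hpj.symm,
        hpl.symm, hjl.symm, h.hpa, h.hpb, h.hja, h.hla, h.hjb, h.hlb, hga, hgb, hga.symm, hgb.symm, e1, e2, e3, hgF, hg, hpg]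
    · by_cases h2 : c = b
      · subst h2
        simp [mk, sw_apply, cs_apply, h.mem_Fr_sw, ha, hb, haT, hbT, hab, hab.symm, hpj, hpl, hjl, hpj.symm,
        hpl.symm, hjl.symm, h.hpa, h.hpb, h.hja, h.hla, h.hjb, h.hlb, hga, hgb, hga.symm, hgb.symm, e1, e2, e3, hgF, hg, hpg]
      · by_cases h3 : c = g
        · subst h3
          simp [mk, sw_apply, cs_apply, h.mem_Fr_sw, ha, hb, haT, hbT, hab, hab.symm, hpj, hpl, hjl, hpj.symm,
        hpl.symm, hjl.symm, h.hpa, h.hpb, h.hja, h.hla, h.hjb, h.hlb, hga, hgb, hga.symm, hgb.symm, e1, e2, e3, hgF, hg, hpg]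
        · simp [mk, sw_apply, cs_apply, h.mem_Fr_sw, ha, hb, haT, hbT, hab, hab.symm, hpj, hpl, hjl, hpj.symm,
        hpl.symm, hjl.symm, h.hpa, h.hpb, h.hja, h.hla, h.hjb, h.hlb, hga, hgb, hga.symm, hgb.symm, e1, e2, e3, hgF, hg, hpg, h1, h2, h3,
            Equiv.swap_apply_of_ne_of_ne h1 h2, Equiv.swap_apply_of_ne_of_ne h1 h3,
            Equiv.swap_apply_of_ne_of_ne h2 h3]

theorem id4b (h : Hyp x p j l a b) {T : Finset ι} (hT : T ⊆ Fr x j l) {g : ι} (hgF : g ∈ Fr x j l)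
    (hg : g ∉ T) (hpg : x p g = true) :
    mk (sw p j a b x) j l (insert g T) = cs b g (sw p l a b (mk x j l T)) := by
  funext u c
  have ha := h.a_notMem
  have hb := h.b_notMem
  have haT : a ∉ T := fun e => ha (hT e)
  have hbT : b ∉ T := fun e => hb (hT e)
  have hab := h.hab
  have hpj := h.hpj
  have hpl := h.hpl
  have hjl := h.hjl
  have hga : g ≠ a := by rintro rfl; exact ha hgF
  have hgb : g ≠ b := by rintro rfl; exact hb hgF
  have e1 : Equiv.swap a g b = b := Equiv.swap_apply_of_ne_of_ne hab.symm hgb.symm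
  have e2 : Equiv.swap a b g = g := Equiv.swap_apply_of_ne_of_ne hga hgb
  have e3 : Equiv.swap b g a = a := Equiv.swap_apply_of_ne_of_ne hab hga.symm
  rcases three_cases p j l h.hpj h.hpl h.hjl u with rfl | rfl | rfl
  all_goals
    by_cases h1 : c = a
    · subst h1
      simp [mk, sw_apply, cs_apply, h.mem_Fr_sw, ha, hb, haT, hbT, hab, hab.symm, hpj, hpl, hjl, hpj.symm,
        hpl.symm, hjl.symm, h.hpa, h.hpb, h.hja, h.hla, h.hjb, h.hlb, hga, hgb, hga.symm, hgb.symm, e1, e2, e3, hgF, hg, hpg]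
    · by_cases h2 : c = b
      · subst h2
        simp [mk, sw_apply, cs_apply, h.mem_Fr_sw, ha, hb, haT, hbT, hab, hab.symm, hpj, hpl, hjl, hpj.symm,
        hpl.symm, hjl.symm, h.hpa, h.hpb, h.hja, h.hla, h.hjb, h.hlb, hga, hgb, hga.symm, hgb.symm, e1, e2, e3, hgF, hg, hpg]
      · by_cases h3 : c = g
        · subst h3
          simp [mk, sw_apply, cs_apply, h.mem_Fr_sw, ha, hb, haT, hbT, hab, hab.symm, hpj, hpl, hjl, hpj.symm,
        hpl.symm, hjl.symm, h.hpa, h.hpb, h.hja, h.hla, h.hjb, h.hlb, hga, hgb, hga.symm, hgb.symm, e1, e2, e3, hgF, hg, hpg]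
        · simp [mk, sw_apply, cs_apply, h.mem_Fr_sw, ha, hb, haT, hbT, hab, hab.symm, hpj, hpl, hjl, hpj.symm,
        hpl.symm, hjl.symm, h.hpa, h.hpb, h.hja, h.hla, h.hjb, h.hlb, hga, hgb, hga.symm, hgb.symm, e1, e2, e3, hgF, hg, hpg, h1, h2, h3,
            Equiv.swap_apply_of_ne_of_ne h1 h2, Equiv.swap_apply_of_ne_of_ne h1 h3,
            Equiv.swap_apply_of_ne_of_ne h2 h3]

end Ids

end Crest.Agent.R299.TR
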