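import Crest.Agent.R299.ThreeRowFibre
import Crest.Agent.R299.ThreeRowBasic

/-!
# R299 (S0453): 3-row lemma, matrix identities for the fibre comparison (main case)
-/

set_option autoImplicit false
set_option linter.unusedSectionVars false
set_option linter.unusedSimpArgs false
open Finset

namespace Crest.Agent.R299.TR.Ids21

variable {ι : Type*} [Fintype ι] [DecidableEq ι]

/-- the configuration of the main case: column `a` is `(1,0,0)`, column `b` is `(0,1,1)` in the
rows `(p,j,l)`. -/
structure MC (x : Mat ι) (p j l : Fin 3) (a b : ι) : Prop where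
  hj : p ≠ j
  hl : p ≠ l
  h : j ≠ l
  pa : x p a = true
  pb : x p b = false
  ja : x j a = false
  la : x l a = false
  jb : x j b = true
  lb : x l b = true

variable {x : Mat ι} {p j l : Fin 3} {a b : ι}

theorem MC.ne (m : MC x p j l a b) : a ≠ b := by
  rintro rfl
  have := m.pa
  rw [m.pb] at this
  exact Bool.noConfusion this

theorem MC.a_notMem (m : MC x p j l a b) : a ∉ Fr x j l := by
  rw [mem_Fr, m.ja, m.la]; simp

theorem MC.b_notMem (m : MC x p j l a b) : b ∉ Fr x j l := by
  rw [mem_Fr, m.jb, m.lb]; simp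

theorem MC.mem_Fr1 (m : MC x p j l a b) (c : ι) :
    c ∈ Fr (sw p j a b x) j l ↔ c = a ∨ c = b ∨ c ∈ Fr x j l := by
  have hne := m.ne
  have hlp : ¬ (l = p ∨ l = j) := by
    rintro (h | h)
    · exact m.hl h.symm
    · exact m.h h.symm
  rw [mem_Fr, mem_Fr]
  simp only [sw_apply, or_true, if_true, hlp, if_false]
  by_cases hca : c = a
  · subst hca
    simp [m.jb, m.la]
  · by_cases hcb : c = b
    · subst hcb
      simp [m.ja, m.lb]
    · rw [Equiv.swap_apply_of_ne_of_ne hca hcb]
      simp [hca, hcb]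

theorem MC.Fr1 (m : MC x p j l a b) :
    Fr (sw p j a b x) j l = insert a (insert b (Fr x j l)) := by
  ext c
  rw [m.mem_Fr1]
  simp

theorem MC.Tj1 (m : MC x p j l a b) :
    Tj (sw p j a b x) j l = insert a (Tj x j l) := by
  have hne := m.ne
  have hlp : ¬ (l = p ∨ l = j) := by
    rintro (h | h)
    · exact m.hl h.symm
    · exact m.h h.symm
  ext c
  rw [mem_insert, mem_Tj, mem_Tj]
  simp only [sw_apply, or_true, if_true, hlp, if_false]
  by_cases hca : c = a
  · subst hca
    simp [m.jb, m.la]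
  · by_cases hcb : c = b
    · subst hcb
      simp [m.ja, m.lb, hca]
    · rw [Equiv.swap_apply_of_ne_of_ne hca hcb]
      simp [hca]

theorem MC.card_Tj1 (m : MC x p j l a b) :
    (Tj (sw p j a b x) j l).card = (Tj x j l).card + 1 := by
  rw [m.Tj1, card_insert_of_notMem]
  intro h
  exact m.a_notMem (Tj_subset_Fr x j l h)


/-- entries of the re-split matrix over `x1 = sw p j a b x`. -/
theorem MC.mk1_p (m : MC x p j l a b) (T' : Finset ι) (c : ι) :
    TR.mk (sw p j a b x) j l T' p c = x p (Equiv.swap a b c) := by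
  rw [mk_row _ m.hj m.hl]
  simp [sw_apply]

theorem MC.mk1_j (m : MC x p j l a b) (T' : Finset ι) (c : ι) :
    TR.mk (sw p j a b x) j l T' j c =
      if c = a ∨ c = b ∨ c ∈ Fr x j l then decide (c ∈ T') else x j c := by
  rw [mk_j]
  by_cases hc : c = a ∨ c = b ∨ c ∈ Fr x j l
  · rw [if_pos ((m.mem_Fr1 c).2 hc), if_pos hc]
  · rw [if_neg (fun h => hc ((m.mem_Fr1 c).1 h)), if_neg hc]
    push Not at hc
    simp [sw_apply, Equiv.swap_apply_of_ne_of_ne hc.1 hc.2.1]

theorem MC.mk1_l (m : MC x p j l a b) (T' : Finset ι) (c : ι) :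
    TR.mk (sw p j a b x) j l T' l c =
      if c = a ∨ c = b ∨ c ∈ Fr x j l then decide (c ∉ T') else x l c := by
  have hlp : ¬ (l = p ∨ l = j) := by
    rintro (h | h)
    · exact m.hl h.symm
    · exact m.h h.symm
  rw [mk_l _ m.h]
  by_cases hc : c = a ∨ c = b ∨ c ∈ Fr x j l
  · rw [if_pos ((m.mem_Fr1 c).2 hc), if_pos hc]
  · rw [if_neg (fun h => hc ((m.mem_Fr1 c).1 h)), if_neg hc]
    simp [sw_apply, hlp]

theorem MC.id_a (m : MC x p j l a b) {T : Finset ι} (hT : T ⊆ Fr x j l) :
    TR.mk (sw p j a b x) j l (insert a T) = sw p j a b (TR.mk x j l T) := by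
  have hne := m.ne
  have haT : a ∉ T := fun h => m.a_notMem (hT h)
  have hbT : b ∉ T := fun h => m.b_notMem (hT h)
  have hlp : ¬ (l = p ∨ l = j) := by
    rintro (h | h)
    · exact m.hl h.symm
    · exact m.h h.symm
  funext u c
  rcases three_cases p j l m.hj m.hl m.h u with rfl | rfl | rfl
  · rw [m.mk1_p]
    simp [sw_apply, mk_row x m.hj m.hl]
  · rw [m.mk1_j]
    simp only [sw_apply, or_true, if_true, mk_j]
    by_cases hca : c = a
    · subst hca
      simp [m.b_notMem, m.jb]
    · by_cases hcb : c = b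
      · subst hcb
        simp [m.a_notMem, m.ja, hbT, hca]
      · rw [Equiv.swap_apply_of_ne_of_ne hca hcb]
        simp [hca, hcb]
  · rw [m.mk1_l]
    simp only [sw_apply, hlp, if_false, mk_l x m.h]
    by_cases hca : c = a
    · subst hca
      simp [m.a_notMem, m.la]
    · by_cases hcb : c = b
      · subst hcb
        simp [m.b_notMem, m.lb, hbT, hca]
      · simp [hca, hcb]


theorem MC.id_b (m : MC x p j l a b) {T : Finset ι} (hT : T ⊆ Fr x j l) :
    TR.mk (sw p j a b x) j l (insert b T) = sw p l a b (TR.mk x j l T) := by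
  have hne := m.ne
  have haT : a ∉ T := fun h => m.a_notMem (hT h)
  have hbT : b ∉ T := fun h => m.b_notMem (hT h)
  have hjp : ¬ (j = p ∨ j = l) := by
    rintro (h | h)
    · exact m.hj h.symm
    · exact m.h h
  funext u c
  rcases three_cases p j l m.hj m.hl m.h u with rfl | rfl | rfl
  · rw [m.mk1_p]
    simp [sw_apply, mk_row x m.hj m.hl]
  · rw [m.mk1_j]
    simp only [sw_apply, hjp, if_false, mk_j]
    rcases eq_or_ne c a with rfl | hca
    · simp [m.a_notMem, m.ja, haT, hne]
    · rcases eq_or_ne c b with rfl | hcb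
      · simp [m.b_notMem, m.jb]
      · simp [hca, hcb]
  · rw [m.mk1_l]
    simp only [sw_apply, or_true, if_true, mk_l x m.h]
    rcases eq_or_ne c a with rfl | hca
    · simp [m.b_notMem, m.lb, haT, hne]
    · rcases eq_or_ne c b with rfl | hcb
      · simp [m.a_notMem, m.la]
      · rw [Equiv.swap_apply_of_ne_of_ne hca hcb]
        simp [hca, hcb]


theorem MC.id_ab1 (m : MC x p j l a b) {T : Finset ι} (hT : T ⊆ Fr x j l) {g : ι}
    (hgF : g ∈ Fr x j l) (hg : g ∈ T) (hpg : x p g = false) :
    TR.mk (sw p j a b x) j l (insert a (insert b (T.erase g))) =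
      cs a g (sw p l a b (TR.mk x j l T)) := by
  have hne := m.ne
  have hne' := m.ne.symm
  have haF := m.a_notMem
  have hbF := m.b_notMem
  have haT : a ∉ T := fun h => m.a_notMem (hT h)
  have hbT : b ∉ T := fun h => m.b_notMem (hT h)
  have hga : g ≠ a := fun h => m.a_notMem (h ▸ hgF)
  have hgb : g ≠ b := fun h => m.b_notMem (h ▸ hgF)
  have hga' := hga.symm
  have hgb' := hgb.symm
  have hjp : ¬ (j = p ∨ j = l) := by
    rintro (h | h)
    · exact m.hj h.symm
    · exact m.h h
  have hlp : ¬ (l = p ∨ l = j) := by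
    rintro (h | h)
    · exact m.hl h.symm
    · exact m.h h.symm
  funext u c
  rcases three_cases p j l m.hj m.hl m.h u with rfl | rfl | rfl
  · rw [m.mk1_p]
    simp only [cs_apply, sw_apply, true_or, if_true, mk_row x m.hj m.hl]
    rcases eq_or_ne c a with rfl | hca
    · simp [Equiv.swap_apply_of_ne_of_ne, *, m.pa, m.pb]
    · rcases eq_or_ne c b with rfl | hcb
      · simp [Equiv.swap_apply_of_ne_of_ne, *, m.pa, m.pb]
      · rcases eq_or_ne c g with rfl | hcg
        · simp [Equiv.swap_apply_of_ne_of_ne, *, m.pa, m.pb]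
        · simp [Equiv.swap_apply_of_ne_of_ne, *]
  · rw [m.mk1_j]
    simp only [cs_apply, sw_apply, hjp, or_true, if_true, if_false, mk_j]
    rcases eq_or_ne c a with rfl | hca
    · simp [Equiv.swap_apply_of_ne_of_ne, *, m.ja, m.jb]
    · rcases eq_or_ne c b with rfl | hcb
      · simp [Equiv.swap_apply_of_ne_of_ne, *, m.ja, m.jb]
      · rcases eq_or_ne c g with rfl | hcg
        · simp [Equiv.swap_apply_of_ne_of_ne, *, m.ja, m.jb]
        · simp [Equiv.swap_apply_of_ne_of_ne, *]
  · rw [m.mk1_l]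
    simp only [cs_apply, sw_apply, hlp, or_true, if_true, if_false, mk_l x m.h]
    rcases eq_or_ne c a with rfl | hca
    · simp [Equiv.swap_apply_of_ne_of_ne, *, m.la, m.lb]
    · rcases eq_or_ne c b with rfl | hcb
      · simp [Equiv.swap_apply_of_ne_of_ne, *, m.la, m.lb]
      · rcases eq_or_ne c g with rfl | hcg
        · simp [Equiv.swap_apply_of_ne_of_ne, *, m.la, m.lb]
        · simp [Equiv.swap_apply_of_ne_of_ne, *]

theorem MC.id_ab2 (m : MC x p j l a b) {T : Finset ι} (hT : T ⊆ Fr x j l) {g : ι}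
    (hgF : g ∈ Fr x j l) (hg : g ∈ T) (hpg : x p g = true) :
    TR.mk (sw p j a b x) j l (insert a (insert b (T.erase g))) =
      cs b g (sw p j a b (TR.mk x j l T)) := by
  have hne := m.ne
  have hne' := m.ne.symm
  have haF := m.a_notMem
  have hbF := m.b_notMem
  have haT : a ∉ T := fun h => m.a_notMem (hT h)
  have hbT : b ∉ T := fun h => m.b_notMem (hT h)
  have hga : g ≠ a := fun h => m.a_notMem (h ▸ hgF)
  have hgb : g ≠ b := fun h => m.b_notMem (h ▸ hgF)
  have hga' := hga.symm
  have hgb' := hgb.symm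
  have hjp : ¬ (j = p ∨ j = l) := by
    rintro (h | h)
    · exact m.hj h.symm
    · exact m.h h
  have hlp : ¬ (l = p ∨ l = j) := by
    rintro (h | h)
    · exact m.hl h.symm
    · exact m.h h.symm
  funext u c
  rcases three_cases p j l m.hj m.hl m.h u with rfl | rfl | rfl
  · rw [m.mk1_p]
    simp only [cs_apply, sw_apply, true_or, if_true, mk_row x m.hj m.hl]
    rcases eq_or_ne c a with rfl | hca
    · simp [Equiv.swap_apply_of_ne_of_ne, *, m.pa, m.pb]
    · rcases eq_or_ne c b with rfl | hcb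
      · simp [Equiv.swap_apply_of_ne_of_ne, *, m.pa, m.pb]
      · rcases eq_or_ne c g with rfl | hcg
        · simp [Equiv.swap_apply_of_ne_of_ne, *, m.pa, m.pb]
        · simp [Equiv.swap_apply_of_ne_of_ne, *]
  · rw [m.mk1_j]
    simp only [cs_apply, sw_apply, hjp, or_true, if_true, if_false, mk_j]
    rcases eq_or_ne c a with rfl | hca
    · simp [Equiv.swap_apply_of_ne_of_ne, *, m.ja, m.jb]
    · rcases eq_or_ne c b with rfl | hcb
      · simp [Equiv.swap_apply_of_ne_of_ne, *, m.ja, m.jb]
      · rcases eq_or_ne c g with rfl | hcg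
        · simp [Equiv.swap_apply_of_ne_of_ne, *, m.ja, m.jb]
        · simp [Equiv.swap_apply_of_ne_of_ne, *]
  · rw [m.mk1_l]
    simp only [cs_apply, sw_apply, hlp, or_true, if_true, if_false, mk_l x m.h]
    rcases eq_or_ne c a with rfl | hca
    · simp [Equiv.swap_apply_of_ne_of_ne, *, m.la, m.lb]
    · rcases eq_or_ne c b with rfl | hcb
      · simp [Equiv.swap_apply_of_ne_of_ne, *, m.la, m.lb]
      · rcases eq_or_ne c g with rfl | hcg
        · simp [Equiv.swap_apply_of_ne_of_ne, *, m.la, m.lb]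
        · simp [Equiv.swap_apply_of_ne_of_ne, *]

theorem MC.id_g1 (m : MC x p j l a b) {T : Finset ι} (hT : T ⊆ Fr x j l) {g : ι}
    (hgF : g ∈ Fr x j l) (hg : g ∉ T) (hpg : x p g = false) :
    TR.mk (sw p j a b x) j l (insert g T) =
      cs a g (sw p j a b (TR.mk x j l T)) := by
  have hne := m.ne
  have hne' := m.ne.symm
  have haF := m.a_notMem
  have hbF := m.b_notMem
  have haT : a ∉ T := fun h => m.a_notMem (hT h)
  have hbT : b ∉ T := fun h => m.b_notMem (hT h)
  have hga : g ≠ a := fun h => m.a_notMem (h ▸ hgF)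
  have hgb : g ≠ b := fun h => m.b_notMem (h ▸ hgF)
  have hga' := hga.symm
  have hgb' := hgb.symm
  have hjp : ¬ (j = p ∨ j = l) := by
    rintro (h | h)
    · exact m.hj h.symm
    · exact m.h h
  have hlp : ¬ (l = p ∨ l = j) := by
    rintro (h | h)
    · exact m.hl h.symm
    · exact m.h h.symm
  funext u c
  rcases three_cases p j l m.hj m.hl m.h u with rfl | rfl | rfl
  · rw [m.mk1_p]
    simp only [cs_apply, sw_apply, true_or, if_true, mk_row x m.hj m.hl]
    rcases eq_or_ne c a with rfl | hca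
    · simp [Equiv.swap_apply_of_ne_of_ne, *, m.pa, m.pb]
    · rcases eq_or_ne c b with rfl | hcb
      · simp [Equiv.swap_apply_of_ne_of_ne, *, m.pa, m.pb]
      · rcases eq_or_ne c g with rfl | hcg
        · simp [Equiv.swap_apply_of_ne_of_ne, *, m.pa, m.pb]
        · simp [Equiv.swap_apply_of_ne_of_ne, *]
  · rw [m.mk1_j]
    simp only [cs_apply, sw_apply, hjp, or_true, if_true, if_false, mk_j]
    rcases eq_or_ne c a with rfl | hca
    · simp [Equiv.swap_apply_of_ne_of_ne, *, m.ja, m.jb]
    · rcases eq_or_ne c b with rfl | hcb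
      · simp [Equiv.swap_apply_of_ne_of_ne, *, m.ja, m.jb]
      · rcases eq_or_ne c g with rfl | hcg
        · simp [Equiv.swap_apply_of_ne_of_ne, *, m.ja, m.jb]
        · simp [Equiv.swap_apply_of_ne_of_ne, *]
  · rw [m.mk1_l]
    simp only [cs_apply, sw_apply, hlp, or_true, if_true, if_false, mk_l x m.h]
    rcases eq_or_ne c a with rfl | hca
    · simp [Equiv.swap_apply_of_ne_of_ne, *, m.la, m.lb]
    · rcases eq_or_ne c b with rfl | hcb
      · simp [Equiv.swap_apply_of_ne_of_ne, *, m.la, m.lb]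
      · rcases eq_or_ne c g with rfl | hcg
        · simp [Equiv.swap_apply_of_ne_of_ne, *, m.la, m.lb]
        · simp [Equiv.swap_apply_of_ne_of_ne, *]

theorem MC.id_g2 (m : MC x p j l a b) {T : Finset ι} (hT : T ⊆ Fr x j l) {g : ι}
    (hgF : g ∈ Fr x j l) (hg : g ∉ T) (hpg : x p g = true) :
    TR.mk (sw p j a b x) j l (insert g T) =
      cs b g (sw p l a b (TR.mk x j l T)) := by
  have hne := m.ne
  have hne' := m.ne.symm
  have haF := m.a_notMem
  have hbF := m.b_notMem
  have haT : a ∉ T := fun h => m.a_notMem (hT h)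
  have hbT : b ∉ T := fun h => m.b_notMem (hT h)
  have hga : g ≠ a := fun h => m.a_notMem (h ▸ hgF)
  have hgb : g ≠ b := fun h => m.b_notMem (h ▸ hgF)
  have hga' := hga.symm
  have hgb' := hgb.symm
  have hjp : ¬ (j = p ∨ j = l) := by
    rintro (h | h)
    · exact m.hj h.symm
    · exact m.h h
  have hlp : ¬ (l = p ∨ l = j) := by
    rintro (h | h)
    · exact m.hl h.symm
    · exact m.h h.symm
  funext u c
  rcases three_cases p j l m.hj m.hl m.h u with rfl | rfl | rfl
  · rw [m.mk1_p]
    simp only [cs_apply, sw_apply, true_or, if_true, mk_row x m.hj m.hl]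
    rcases eq_or_ne c a with rfl | hca
    · simp [Equiv.swap_apply_of_ne_of_ne, *, m.pa, m.pb]
    · rcases eq_or_ne c b with rfl | hcb
      · simp [Equiv.swap_apply_of_ne_of_ne, *, m.pa, m.pb]
      · rcases eq_or_ne c g with rfl | hcg
        · simp [Equiv.swap_apply_of_ne_of_ne, *, m.pa, m.pb]
        · simp [Equiv.swap_apply_of_ne_of_ne, *]
  · rw [m.mk1_j]
    simp only [cs_apply, sw_apply, hjp, or_true, if_true, if_false, mk_j]
    rcases eq_or_ne c a with rfl | hca
    · simp [Equiv.swap_apply_of_ne_of_ne, *, m.ja, m.jb]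
    · rcases eq_or_ne c b with rfl | hcb
      · simp [Equiv.swap_apply_of_ne_of_ne, *, m.ja, m.jb]
      · rcases eq_or_ne c g with rfl | hcg
        · simp [Equiv.swap_apply_of_ne_of_ne, *, m.ja, m.jb]
        · simp [Equiv.swap_apply_of_ne_of_ne, *]
  · rw [m.mk1_l]
    simp only [cs_apply, sw_apply, hlp, or_true, if_true, if_false, mk_l x m.h]
    rcases eq_or_ne c a with rfl | hca
    · simp [Equiv.swap_apply_of_ne_of_ne, *, m.la, m.lb]
    · rcases eq_or_ne c b with rfl | hcb
      · simp [Equiv.swap_apply_of_ne_of_ne, *, m.la, m.lb]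
      · rcases eq_or_ne c g with rfl | hcg
        · simp [Equiv.swap_apply_of_ne_of_ne, *, m.la, m.lb]
        · simp [Equiv.swap_apply_of_ne_of_ne, *]

end Crest.Agent.R299.TR.Ids21
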