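import Crest.Agent.R299.ThreeRowIds
import Crest.Agent.R299.SubsetCoupling

/-!
# R299 (S0453): the main case of the fibre comparison lemma `FC` (stage 2 of the 3-row lemma)
-/

set_option autoImplicit false
set_option linter.unusedSectionVars false
set_option linter.unusedVariables false
set_option linter.unusedSimpArgs false
open Finset

namespace Crest.Agent.R299.TR

namespace Ids

variable {ι : Type*} [Fintype ι] [DecidableEq ι]
variable {x : Mat ι} {p j l : Fin 3} {a b : ι}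

/-- the standing hypotheses pass to every matrix of the fibre. -/
theorem Hyp.toMk (h : Hyp x p j l a b) (T : Finset ι) : Hyp (TR.mk x j l T) p j l a b := by
  have ha := h.a_notMem
  have hb := h.b_notMem
  refine ⟨h.hpj, h.hpl, h.hjl, ?_, ?_, ?_, ?_, ?_, ?_⟩
  · rw [mk_row x h.hpj h.hpl]; exact h.hpa
  · rw [mk_row x h.hpj h.hpl]; exact h.hpb
  · rw [mk_j, if_neg ha]; exact h.hja
  · rw [mk_l x h.hjl, if_neg ha]; exact h.hla
  · rw [mk_j, if_neg hb]; exact h.hjb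
  · rw [mk_l x h.hjl, if_neg hb]; exact h.hlb

theorem Hyp.sw_j_mem {ρ : ι → ℕ} {r : Fin 3 → ℕ} (h : Hyp x p j l a b) (hx : x ∈ X ρ r) :
    sw p j a b x ∈ X ρ r :=
  mem_X_sw h.hpj hx (by rw [h.hpa, h.hja]; simp) (by rw [h.hpb, h.hjb]; simp)

theorem Hyp.sw_l_mem {ρ : ι → ℕ} {r : Fin 3 → ℕ} (h : Hyp x p j l a b) (hx : x ∈ X ρ r) :
    sw p l a b x ∈ X ρ r :=
  mem_X_sw h.hpl hx (by rw [h.hpa, h.hla]; simp) (by rw [h.hpb, h.hlb]; simp)

theorem Hyp.rho_a {ρ : ι → ℕ} {r : Fin 3 → ℕ} (h : Hyp x p j l a b) (hx : x ∈ X ρ r) : ρ a = 1 := by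
  rw [← (mem_X.1 hx).1 a, colSum3 x a h.hpj h.hpl h.hjl, h.hpa, h.hja, h.hla]; rfl

theorem Hyp.rho_b {ρ : ι → ℕ} {r : Fin 3 → ℕ} (h : Hyp x p j l a b) (hx : x ∈ X ρ r) : ρ b = 2 := by
  rw [← (mem_X.1 hx).1 b, colSum3 x b h.hpj h.hpl h.hjl, h.hpb, h.hjb, h.hlb]; rfl

theorem Hyp.rho_g {ρ : ι → ℕ} {r : Fin 3 → ℕ} (h : Hyp x p j l a b) (hx : x ∈ X ρ r) {g : ι}
    (hg : g ∈ Fr x j l) : ρ g = (x p g).toNat + 1 := by
  rw [← (mem_X.1 hx).1 g, colSum3 x g h.hpj h.hpl h.hjl]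
  rw [mem_Fr] at hg
  revert hg
  cases x j g <;> cases x l g <;> simp

/-- **Main case of `FC`.** -/
theorem main {ρ : ι → ℕ} {r : Fin 3 → ℕ} (F : Mat ι → ℝ) (L : ℝ)
    (hσ : ∀ a b, ρ a = ρ b → ∀ x ∈ X ρ r, F (cs a b x) = F x)
    (hL : ∀ p q a b, p ≠ q → ∀ x ∈ X ρ r, sw p q a b x ∈ X ρ r → |F (sw p q a b x) - F x| ≤ L)
    (h : Hyp x p j l a b) (hx : x ∈ X ρ r) :
    |P ρ r p F (sw p j a b x) - P ρ r p F x| ≤ L := by
  have hx1 := h.sw_j_mem hx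
  have ha := h.a_notMem
  have hb := h.b_notMem
  have haT : a ∉ Tj x j l := fun e => ha (Tj_subset_Fr x j l e)
  rw [P_eq hx1 h.hpj h.hpl h.hjl F, P_eq hx h.hpj h.hpl h.hjl F, h.Fr_sw, h.Tj_sw,
    card_insert_of_notMem haT]
  have key : ∀ T ∈ (Fr x j l).powersetCard (Tj x j l).card,
      T ⊆ Fr x j l ∧ TR.mk x j l T ∈ X ρ r := fun T hT =>
    ⟨(mem_powersetCard.1 hT).1, mk_mem_X hx h.hjl hT⟩
  apply SC.subset_coupling (Fr x j l) a b ha hb h.hab (Tj x j l).card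
    (card_le_card (Tj_subset_Fr x j l)) (fun T => F (TR.mk x j l T))
    (fun T' => F (TR.mk (sw p j a b x) j l T')) L
  · intro T hT
    obtain ⟨hT1, hy⟩ := key T hT
    rw [id1 h hT1]
    exact hL p j a b h.hpj _ hy ((h.toMk T).sw_j_mem hy)
  · intro T hT
    obtain ⟨hT1, hy⟩ := key T hT
    rw [id2 h hT1]
    exact hL p l a b h.hpl _ hy ((h.toMk T).sw_l_mem hy)
  · intro T hT g hg
    obtain ⟨hT1, hy⟩ := key T hT
    have hgF := hT1 hg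
    have hρ := h.rho_g hx hgF
    cases hpg : x p g
    · rw [id3a h hT1 hgF hg hpg, hσ a g (by rw [h.rho_a hx, hρ, hpg]; rfl) _ ((h.toMk T).sw_l_mem hy)]
      exact hL p l a b h.hpl _ hy ((h.toMk T).sw_l_mem hy)
    · rw [id3b h hT1 hgF hg hpg, hσ b g (by rw [h.rho_b hx, hρ, hpg]; rfl) _ ((h.toMk T).sw_j_mem hy)]
      exact hL p j a b h.hpj _ hy ((h.toMk T).sw_j_mem hy)
  · intro T hT g hg
    obtain ⟨hT1, hy⟩ := key T hT
    obtain ⟨hgF, hgT⟩ := mem_sdiff.1 hg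
    have hρ := h.rho_g hx hgF
    cases hpg : x p g
    · rw [id4a h hT1 hgF hgT hpg, hσ a g (by rw [h.rho_a hx, hρ, hpg]; rfl) _ ((h.toMk T).sw_j_mem hy)]
      exact hL p j a b h.hpj _ hy ((h.toMk T).sw_j_mem hy)
    · rw [id4b h hT1 hgF hgT hpg, hσ b g (by rw [h.rho_b hx, hρ, hpg]; rfl) _ ((h.toMk T).sw_l_mem hy)]
      exact hL p l a b h.hpl _ hy ((h.toMk T).sw_l_mem hy)

end Ids

end Crest.Agent.R299.TR
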