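import Crest.Agent.R299.ThreeRowStage2
import Crest.Agent.R299.Spectral

/-!
# R299 (S0453): 3-row lemma, from the eigenfunction statement to the quadratic inequality
-/

set_option autoImplicit false
set_option linter.unusedSectionVars false
open Finset

namespace Crest.Agent.R299.TR

variable {ι : Type*} [Fintype ι] [DecidableEq ι]

theorem K_opOn (ρ : ι → ℕ) (r : Fin 3 → ℕ) : OpOn (X ρ r) (K ρ r) where
  add f g a _ := by
    simp only [K, P]
    have : ∀ u, Av (X ρ r) (fun y : Mat ι => y u) (f + g) a =
        Av (X ρ r) (fun y : Mat ι => y u) f a + Av (X ρ r) (fun y : Mat ι => y u) g a :=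
      fun u => Av_add _ _ f g a
    simp only [this, Pi.add_apply, ← sum_add_distrib]
    exact sum_congr rfl fun u _ => by ring
  smul c f a _ := by
    simp only [K, P]
    have : ∀ u, Av (X ρ r) (fun y : Mat ι => y u) (c • f) a =
        c * Av (X ρ r) (fun y : Mat ι => y u) f a :=
      fun u => Av_smul _ _ c f a
    simp only [this, Pi.smul_apply, smul_eq_mul, mul_sum]
    exact sum_congr rfl fun u _ => by ring
  loc f g h a ha := by
    simp only [K, P]
    refine sum_congr rfl fun u _ => ?_
    rw [h a ha, Av_congr _ _ h a]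
  symm f g := by
    have key : ∀ u, ∑ a ∈ X ρ r, f a * P ρ r u g a = ∑ a ∈ X ρ r, P ρ r u f a * g a := by
      intro u
      have := Av_selfadj (X ρ r) (fun y : Mat ι => y u) f g
      simp only [ip] at this
      exact this.symm
    simp only [K, mul_sum, sum_mul]
    rw [sum_comm, sum_comm (s := X ρ r)]
    refine sum_congr rfl fun u _ => ?_
    simp only [mul_sub, sub_mul, sum_sub_distrib, key u]

/-- from the eigenfunction statement to the quadratic inequality. -/
theorem Q_of_eigen (ρ : ι → ℕ) (r : Fin 3 → ℕ)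
    (heig : ∀ (μ : ℝ) (F : Mat ι → ℝ), 2 < μ → (∀ x ∈ X ρ r, ∑ u, P ρ r u F x = μ * F x) →
      ∀ u, ∀ x ∈ X ρ r, P ρ r u F x = F x) (f : Mat ι → ℝ) :
    ∑ x ∈ X ρ r, f x * K ρ r f x ≤ ∑ x ∈ X ρ r, K ρ r f x ^ 2 := by
  refine sq_ge_on (X ρ r) (K ρ r) (K_opOn ρ r) ?_ f
  intro κ v ⟨a, ha, hva⟩ hv
  by_cases hκ : 1 ≤ κ
  · nlinarith
  · push Not at hκ
    have he : ∀ x ∈ X ρ r, ∑ u, P ρ r u v x = (3 - κ) * v x := by
      intro x hx
      have := hv x hx
      simp only [K, sum_sub_distrib, sum_const, card_univ, Fintype.card_fin, nsmul_eq_mul] at this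
      push_cast at this
      linarith
    have hfix := heig (3 - κ) v (by linarith) he
    have h0 : K ρ r v a = 0 := by
      simp only [K]
      exact sum_eq_zero fun u _ => by rw [hfix u a ha, sub_self]
    have h1 := hv a ha
    rw [h0] at h1
    have : κ = 0 := by
      rcases mul_eq_zero.1 h1.symm with h | h
      · exact h
      · exact absurd h hva
    rw [this]; norm_num

end Crest.Agent.R299.TR
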