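import Crest.Agent.R299.ThreeRowBasic

/-!
# R299 (S0453): 3-row lemma, Stage 1 (invariance under swaps of equal-sum columns)
-/

set_option autoImplicit false
set_option linter.unusedSectionVars false
open Finset

namespace Crest.Agent.R299.TR

variable {ι : Type*} [Fintype ι] [DecidableEq ι]

/-- two columns with the same sum agree in some row. -/
theorem exists_row_eq {ρ : ι → ℕ} {r : Fin 3 → ℕ} {a b : ι} (hab : ρ a = ρ b) {x : Mat ι}
    (hx : x ∈ X ρ r) : ∃ u, x u a = x u b := by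
  have h1 := (mem_X.1 hx).1 a
  have h2 := (mem_X.1 hx).1 b
  rw [colSum3 x a (i := 0) (j := 1) (l := 2) (by decide) (by decide) (by decide)] at h1
  rw [colSum3 x b (i := 0) (j := 1) (l := 2) (by decide) (by decide) (by decide)] at h2
  by_contra hcon
  push Not at hcon
  have c0 := hcon 0
  have c1 := hcon 1
  have c2 := hcon 2
  revert h1 h2 c0 c1 c2
  cases x 0 a <;> cases x 0 b <;> cases x 1 a <;> cases x 1 b <;> cases x 2 a <;> cases x 2 b <;>
    simp <;> omega

theorem cs_row_eq {a b : ι} {x : Mat ι} {u : Fin 3} (h : x u a = x u b) : cs a b x u = x u := by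
  funext c
  simp only [cs_apply]
  by_cases hca : c = a
  · subst hca; simp [h]
  · by_cases hcb : c = b
    · subst hcb; simp [h]
    · rw [Equiv.swap_apply_of_ne_of_ne hca hcb]

theorem stage1 (ρ : ι → ℕ) (r : Fin 3 → ℕ) (μ : ℝ) (hμ : 2 < μ) (F : Mat ι → ℝ)
    (hF : ∀ x ∈ X ρ r, ∑ u, P ρ r u F x = μ * F x) {a b : ι} (hab : ρ a = ρ b) :
    ∀ x ∈ X ρ r, F (cs a b x) = F x := by
  set G : Mat ι → ℝ := fun x => F x - F (cs a b x) with hG
  set φ : Fin 3 → Mat ι → ℝ := fun u => P ρ r u G with hφ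
  have hφ1 : ∀ u x, φ u x = P ρ r u F x - P ρ r u F (cs a b x) := by
    intro u x
    simp only [hφ, hG]
    unfold P
    rw [Av_sub]
    congr 1
    exact P_comp_cs hab u F x
  -- eigen equation for G
  have hGe : ∀ x ∈ X ρ r, ∑ u, φ u x = μ * G x := by
    intro x hx
    simp only [hφ1, sum_sub_distrib, hF x hx, hF _ (mem_X_cs hab hx), hG]
    ring
  -- vanishing
  have hzero : ∀ u x, x u a = x u b → φ u x = 0 := by
    intro u x h
    rw [hφ1]
    have : P ρ r u F (cs a b x) = P ρ r u F x := by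
      unfold P
      exact Av_congr_key _ _ _ (cs_row_eq h)
    rw [this, sub_self]
  -- pointwise bound
  have hpt : ∀ x ∈ X ρ r, (∑ u, φ u x) ^ 2 ≤ 2 * ∑ u, φ u x ^ 2 := by
    intro x hx
    obtain ⟨u, hu⟩ := exists_row_eq hab hx
    have hz := hzero u x hu
    obtain ⟨j, l, huj, hul, hjl⟩ := exists_others u
    rw [sum3 _ huj hul hjl, sum3 _ huj hul hjl, hz]
    nlinarith [sq_nonneg (φ j x - φ l x)]
  have hN : 0 ≤ ip (X ρ r) G G := ip_self_nonneg _ _
  have h1 : ∑ x ∈ X ρ r, (∑ u, φ u x) ^ 2 = μ ^ 2 * ip (X ρ r) G G := by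
    unfold ip
    rw [mul_sum]
    refine sum_congr rfl fun x hx => ?_
    rw [hGe x hx]; ring
  have h2 : ∑ x ∈ X ρ r, ∑ u, φ u x ^ 2 = μ * ip (X ρ r) G G := by
    rw [sum_comm]
    have : ∀ u, ∑ x ∈ X ρ r, φ u x ^ 2 = ip (X ρ r) G (φ u) := by
      intro u
      have := ip_Av_Av (X ρ r) (fun y : Mat ι => y u) G G
      simp only [hφ, P]
      rw [← this]
      unfold ip
      exact sum_congr rfl fun x _ => by ring
    simp only [this]
    rw [← ip_sum_right]
    unfold ip
    rw [mul_sum]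
    refine sum_congr rfl fun x hx => ?_
    show G x * (∑ i, φ i x) = μ * (G x * G x)
    rw [hGe x hx]; ring
  have h3 : μ ^ 2 * ip (X ρ r) G G ≤ 2 * (μ * ip (X ρ r) G G) := by
    rw [← h1, ← h2, mul_sum]
    exact sum_le_sum hpt
  have h4 : ip (X ρ r) G G = 0 := by
    by_contra hne
    have hpos : 0 < ip (X ρ r) G G := lt_of_le_of_ne hN (Ne.symm hne)
    nlinarith [mul_pos hpos (by linarith : (0:ℝ) < μ - 2), mul_pos (mul_pos hpos (by linarith : (0:ℝ) < μ - 2)) (by linarith : (0:ℝ) < μ)]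
  intro x hx
  have := ip_self_eq_zero _ h4 x hx
  simp only [hG] at this
  linarith

end Crest.Agent.R299.TR
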